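import Mathlib

/-!
helper35: pure arithmetic for S0150 (note 427, fact (W1)).
`Vw j = j+1` for `j ≥ 0`, `-j` for `j < 0`  (…3,2,1,1,2,3…).
Every window of `n` consecutive integers has `∑ Vw ≥ ⌊(n+1)²/4⌋`.
-/

namespace Crest.Agent.S0150Aux.H35

/-- the V-shaped weight …,3,2,1,1,2,3,… -/
def Vw (j : ℤ) : ℕ := if 0 ≤ j then (j + 1).toNat else (-j).toNat

theorem Vw_cast (j : ℤ) : ((Vw j : ℕ) : ℤ) = if 0 ≤ j then j + 1 else -j := by
  unfold Vw
  split_ifs with h
  · exact Int.toNat_of_nonneg (by omega)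
  · exact Int.toNat_of_nonneg (by omega)

theorem one_le_Vw (j : ℤ) : 1 ≤ Vw j := by
  have := Vw_cast j
  split_ifs at this <;> omega

theorem Vw_add_Vw (j : ℤ) (n : ℕ) : n + 1 ≤ Vw j + Vw (j + n) := by
  have h1 := Vw_cast j
  have h2 := Vw_cast (j + n)
  split_ifs at h1 h2 <;> omega

theorem abs_le_Vw (j : ℤ) : |j| ≤ (Vw j : ℤ) := by
  have h1 := Vw_cast j
  rw [abs_le]
  split_ifs at h1 <;> constructor <;> omega

theorem window_aux : ∀ (m : ℕ) (n : ℕ), n ≤ m → ∀ j : ℤ,
    (n + 1) ^ 2 / 4 ≤ ∑ i ∈ Finset.range n, Vw (j + i) := by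
  intro m
  induction m with
  | zero =>
    intro n hn j
    obtain rfl : n = 0 := by omega
    simp
  | succ m ih =>
    intro n hn j
    rcases n with _ | _ | n
    · simp
    · simpa using one_le_Vw j
    · have h := ih n (by omega) (j + 1)
      rw [Finset.sum_range_succ, Finset.sum_range_succ']
      have h2 := Vw_add_Vw j (n + 1)
      have h3 : ∑ i ∈ Finset.range n, Vw (j + ((i + 1 : ℕ) : ℤ))
          = ∑ i ∈ Finset.range n, Vw (j + 1 + (i : ℤ)) := by
        refine Finset.sum_congr rfl fun i _ => ?_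
        congr 1
        push_cast
        ring
      rw [h3]
      have h4 : (n + 1 + 1 + 1) ^ 2 / 4 = (n + 1) ^ 2 / 4 + (n + 2) := by
        have : (n + 1 + 1 + 1) ^ 2 = (n + 1) ^ 2 + (n + 2) * 4 := by ring
        rw [this, Nat.add_mul_div_right _ _ (by norm_num)]
      rw [h4]
      simp only [Nat.cast_zero, add_zero]
      omega

/-- every window of `n` consecutive integers carries `Vw`-mass at least `⌊(n+1)²/4⌋`. -/
theorem window (n : ℕ) (j : ℤ) :
    (n + 1) ^ 2 / 4 ≤ ∑ i ∈ Finset.range n, Vw (j + i) :=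
  window_aux n n le_rfl j

end Crest.Agent.S0150Aux.H35
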