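import Mathlib
import Crest.Prelude.Def_TwoAdicShift
import Crest.Agent.S0150Aux.H35_Window

/-! Canonical definitions for S0150 (helper13): weights, cumulative sums, intertwiner coefficients. -/

set_option autoImplicit false
open Crest.AnalysisR.TwoAdic

namespace Crest.Agent.S0150Aux.D13

/-- window of indices: `[0, j]` for `j ≥ 0`, `[j, -1]` for `j < 0`. -/
noncomputable def win (j : ℤ) : Finset ℤ := Finset.Icc (min j 0) (max j (-1))

/-- `ν(y) = ‖y‖⁻²` (and `0` at `y = 0`). -/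
noncomputable def nu (y : ℤ_[2]) : NNReal := (‖y‖₊⁻¹) ^ 2

/-- record closeness along the window. -/
noncomputable def rc (j : ℤ) (x : ℤ_[2]) : NNReal := (win j).sup (fun i => nu (x + (i : ℤ_[2])))

/-- the exponent weights `a_j(x)`. -/
noncomputable def aw (j : ℤ) (x : ℤ_[2]) : ℝ := max (H35.Vw j : ℝ) (rc j x : ℝ)

/-- `α_j(x) = 10 a_j(x)`. -/
noncomputable def al (x : ℤ_[2]) (j : ℤ) : ℝ := 10 * aw j x

/-- the shift weights `β_j(x) = exp(-α_j(x))`. -/
noncomputable def bet (j : ℤ) (x : ℤ_[2]) : ℝ := Real.exp (-(al x j))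

/-- cumulative sums over `ℤ` (normalised by `cum δ 0 = 0`). -/
noncomputable def cum (δ : ℤ → ℝ) (j : ℤ) : ℝ :=
  if 0 ≤ j then ∑ i ∈ Finset.Ico 0 j, δ i else -∑ i ∈ Finset.Ico j 0, δ i

/-- `A_j(x)`, with `A (j+1) = A j + α_j`. -/
noncomputable def AA (x : ℤ_[2]) (j : ℤ) : ℝ := cum (al x) j

/-- unnormalised intertwiner coefficients. -/
noncomputable def rat (j : ℤ) (x : ℤ_[2]) : ℝ := Real.exp (AA x j - AA (x + 1) (j - 1))

noncomputable def Xi (x : ℤ_[2]) : ENNReal := ⨆ j : ℤ, ENNReal.ofReal (rat j x)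

/-- the intertwiner coefficients `b_j(x) ∈ [0,1]`. -/
noncomputable def bw (j : ℤ) (x : ℤ_[2]) : ℝ := (ENNReal.ofReal (rat j x) / Xi x).toReal

end Crest.Agent.S0150Aux.D13
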