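import Mathlib
import Crest.Prelude.Def_TwoAdicShift
import Crest.Agent.S0150Aux.Defs13

/-! Assembly of S0150 from the task statements (helper13). -/

set_option autoImplicit false
open Crest.AnalysisR.TwoAdic MeasureTheory Crest.Agent.S0150Aux.D13
attribute [local instance] Crest.AnalysisR.TwoAdic.borelTwoAdic Crest.AnalysisR.TwoAdic.borelSpace_twoAdic

namespace Crest.Agent.S0150Aux.Asm13

theorem assemble
  (h_meas_bet : ∀ j, Measurable (bet j))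
  (h_bet_pos : ∀ j x, 0 < bet j x)
  (h_bet_le : ∀ j x, bet j x ≤ Real.exp (-10))
  (h_meas_bw : ∀ j, Measurable (bw j))
  (h_bw_nonneg : ∀ j x, 0 ≤ bw j x)
  (h_bw_le : ∀ j x, bw j x ≤ 1)
  (h_inter : ∀ j x, bet j x * bw (j+1) x = bw j x * bet (j-1) (x+1))
  (h_bw_pos : ∀ x : ℤ_[2], (∀ n : ℤ, x ≠ (n : ℤ_[2])) → ∀ j, 0 < bw j x)
  (h_null : haarTwoAdic (Set.range (fun n : ℤ => (n : ℤ_[2]))) = 0)
  (h_wshift : ∀ (c : ℤ → ℝ) (s : ℤ) (C : ℝ), (∀ j, |c j| ≤ C) →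
    ∃ T : seqHilbert →L[ℂ] seqHilbert, (∀ (v : seqHilbert) (j : ℤ), T v (j + s) = (c j : ℂ) * v j) ∧
      ‖T‖ ≤ C ∧ ∀ j, T (basisVec j) = (c j : ℂ) • basisVec (j + s))
  (h_lift : ∀ (F : ℤ_[2] → seqHilbert →L[ℂ] seqHilbert) (C : ℝ), (∀ x, ‖F x‖ ≤ C) →
    (∀ g : ℤ_[2] → seqHilbert, AEStronglyMeasurable g haarTwoAdic →
      AEStronglyMeasurable (fun x => F x (g x)) haarTwoAdic) →
    ∃ T : fibreSpace →L[ℂ] fibreSpace, ‖T‖ ≤ C ∧ ∀ f : fibreSpace, ∀ᵐ x ∂haarTwoAdic,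
      (T f : ℤ_[2] → seqHilbert) x = F x ((f : ℤ_[2] → seqHilbert) x))
  (h_field : ∀ (c : ℤ → ℤ_[2] → ℝ), (∀ j, Measurable (c j)) → ∀ (s : ℤ)
    (F : ℤ_[2] → seqHilbert →L[ℂ] seqHilbert),
    (∀ x (v : seqHilbert) (j : ℤ), F x v (j + s) = (c j x : ℂ) * v j) →
    ∀ g : ℤ_[2] → seqHilbert, AEStronglyMeasurable g haarTwoAdic →
      AEStronglyMeasurable (fun x => F x (g x)) haarTwoAdic)
  (h_transl : ∃ τ : fibreSpace →L[ℂ] fibreSpace, ‖τ‖ ≤ 1 ∧ ∀ f : fibreSpace, ∀ᵐ x ∂haarTwoAdic,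
    (τ f : ℤ_[2] → seqHilbert) (x + 1) = (f : ℤ_[2] → seqHilbert) x)
  (h_norm_le : ∀ (T : fibreSpace →L[ℂ] fibreSpace) (G : ℤ_[2] → seqHilbert →L[ℂ] seqHilbert) (C : ℝ),
    0 ≤ C → (∀ x, ‖G x‖ ≤ C) →
    (∀ f : fibreSpace, ∀ᵐ x ∂haarTwoAdic, (T f : ℤ_[2] → seqHilbert) x = G x ((f : ℤ_[2] → seqHilbert) x)) →
    ‖T‖ ≤ C)
  (h_pow_fibre : ∀ (S : fibreSpace →L[ℂ] fibreSpace) (Sfib : ℤ_[2] → seqHilbert →L[ℂ] seqHilbert),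
    (∀ f : fibreSpace, ∀ᵐ x ∂haarTwoAdic, (S f : ℤ_[2] → seqHilbert) x = Sfib x ((f : ℤ_[2] → seqHilbert) x)) →
    ∀ (n : ℕ) (f : fibreSpace), ∀ᵐ x ∂haarTwoAdic,
      ((S ^ n) f : ℤ_[2] → seqHilbert) x = (Sfib x ^ n) ((f : ℤ_[2] → seqHilbert) x))
  (h_norm_pow : ∀ (x : ℤ_[2]) (T : seqHilbert →L[ℂ] seqHilbert),
    (∀ (v : seqHilbert) (j : ℤ), T v (j + 1) = (bet j x : ℂ) * v j) → ∀ n : ℕ, 1 ≤ n →
    ‖T ^ n‖ ≤ Real.exp (-10 * (((n + 1) ^ 2 / 4 : ℕ) : ℝ)))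
  (h_norm_ge : ∀ (S : fibreSpace →L[ℂ] fibreSpace) (Sfib : ℤ_[2] → seqHilbert →L[ℂ] seqHilbert),
    (∀ f : fibreSpace, ∀ᵐ x ∂haarTwoAdic, (S f : ℤ_[2] → seqHilbert) x = Sfib x ((f : ℤ_[2] → seqHilbert) x)) →
    (∀ x j, Sfib x (basisVec j) = (bet j x : ℂ) • basisVec (j + 1)) → Real.exp (-10) ≤ ‖S‖)
  (h_comm : ∀ (S V : fibreSpace →L[ℂ] fibreSpace) (Sfib Vfib : ℤ_[2] → seqHilbert →L[ℂ] seqHilbert),
    (∀ f : fibreSpace, ∀ᵐ x ∂haarTwoAdic, (S f : ℤ_[2] → seqHilbert) x = Sfib x ((f : ℤ_[2] → seqHilbert) x)) →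
    (∀ f : fibreSpace, ∀ᵐ x ∂haarTwoAdic,
      (V f : ℤ_[2] → seqHilbert) (x + 1) = Vfib x ((f : ℤ_[2] → seqHilbert) x)) →
    (∀ x v, Vfib x (Sfib x v) = Sfib (x + 1) (Vfib x v)) → V * S = S * V)
  (h_clos : ∀ (T : seqHilbert →L[ℂ] seqHilbert) (c : ℤ → ℝ), (∀ j, 0 < c j) →
    (∀ j, T (basisVec j) = (c j : ℂ) • basisVec (j - 1)) →
    (∀ h : ℤ, closure (T '' (tailSpace h : Set seqHilbert)) = (tailSpace (h - 1) : Set seqHilbert)) ∧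
      closure (Set.range T) = Set.univ)
  (h_lat : ∀ (x : ℤ_[2]) (T : seqHilbert →L[ℂ] seqHilbert),
    (∀ j, T (basisVec j) = ((Real.exp (-(al x j)) : ℝ) : ℂ) • basisVec (j + 1)) →
    ∀ W : Submodule ℂ seqHilbert, IsClosed (W : Set seqHilbert) →
      ((∀ v ∈ W, T v ∈ W) ↔ (W = ⊥ ∨ W = ⊤ ∨ ∃ h : ℤ, W = tailSpace h)))
  (h_noCross : ∀ (x : ℤ_[2]) (T : seqHilbert →L[ℂ] seqHilbert),
    (∀ j, T (basisVec j) = ((Real.exp (-(al x j)) : ℝ) : ℂ) • basisVec (j + 1)) →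
    ∀ (w u : seqHilbert), (∀ n : ℕ, inner ℂ u ((T ^ n) w) = 0) →
      ∀ j k : ℤ, w j ≠ 0 → u k ≠ 0 → k ≤ j)
  (h_trans : ∀ (S V : fibreSpace →L[ℂ] fibreSpace) (Sfib Vfib : ℤ_[2] → seqHilbert →L[ℂ] seqHilbert),
    (∀ f : fibreSpace, ∀ᵐ x ∂haarTwoAdic, (S f : ℤ_[2] → seqHilbert) x = Sfib x ((f : ℤ_[2] → seqHilbert) x)) →
    (∀ f : fibreSpace, ∀ᵐ x ∂haarTwoAdic,
      (V f : ℤ_[2] → seqHilbert) (x + 1) = Vfib x ((f : ℤ_[2] → seqHilbert) x)) →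
    (∀ x (v : seqHilbert) (j : ℤ), Vfib x v (j - 1) = (bw j x : ℂ) * v j) →
    (∀ᵐ x ∂haarTwoAdic, ∀ j, 0 < bw j x) →
    (∀ x (w u : seqHilbert), (∀ n : ℕ, inner ℂ u ((Sfib x ^ n) w) = 0) →
      ∀ j k : ℤ, w j ≠ 0 → u k ≠ 0 → k ≤ j) →
    ∀ W : Submodule ℂ fibreSpace, IsClosed (W : Set fibreSpace) →
      (∀ f ∈ W, S f ∈ W) → (∀ f ∈ W, V f ∈ W) →
      (∀ g : ℤ_[2] → ℂ, Measurable g → (∃ C : ℝ, ∀ x, ‖g x‖ ≤ C) →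
        ∀ f ∈ W, ∀ f' : fibreSpace,
          (∀ᵐ x ∂haarTwoAdic, (f' : ℤ_[2] → seqHilbert) x = g x • (f : ℤ_[2] → seqHilbert) x) → f' ∈ W) →
      W = ⊥ ∨ W = ⊤) :
    ∃ (β b : ℤ → ℤ_[2] → ℝ) (Sfib Vfib : ℤ_[2] → (seqHilbert →L[ℂ] seqHilbert))
      (S V : fibreSpace →L[ℂ] fibreSpace),
      (∀ j, Measurable (β j)) ∧ (∀ j x, 0 < β j x) ∧
      (∀ x j, Sfib x (basisVec j) = (β j x : ℂ) • basisVec (j + 1)) ∧
      (∀ f : fibreSpace, ∀ᵐ x ∂haarTwoAdic, (S f : ℤ_[2] → seqHilbert) x = Sfib x ((f : ℤ_[2] → seqHilbert) x)) ∧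
      (∀ x, ∀ W : Submodule ℂ seqHilbert, IsClosed (W : Set seqHilbert) →
        ((∀ v ∈ W, Sfib x v ∈ W) ↔ (W = ⊥ ∨ W = ⊤ ∨ ∃ h : ℤ, W = tailSpace h))) ∧
      S ≠ 0 ∧ ‖S‖ = Real.exp (-10) ∧
      (∀ n : ℕ, 1 ≤ n → ‖S ^ n‖ ≤ Real.exp (-10 * (((n + 1) ^ 2 / 4 : ℕ) : ℝ))) ∧
      ‖V‖ ≤ 1 ∧ V * S = S * V ∧
      (∀ j, Measurable (b j)) ∧ (∀ j x, 0 ≤ b j x ∧ b j x ≤ 1) ∧
      (∀ x j, Vfib x (basisVec j) = (b j x : ℂ) • basisVec (j - 1)) ∧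
      (∀ f : fibreSpace, ∀ᵐ x ∂haarTwoAdic,
        (V f : ℤ_[2] → seqHilbert) (x + 1) = Vfib x ((f : ℤ_[2] → seqHilbert) x)) ∧
      (∃ N : Set ℤ_[2], haarTwoAdic N = 0 ∧ ∀ x, x ∉ N →
        (∀ j, 0 < b j x) ∧
        (∀ h : ℤ, closure (Vfib x '' (tailSpace h : Set seqHilbert)) = (tailSpace (h - 1) : Set seqHilbert)) ∧
        closure (Set.range (Vfib x)) = Set.univ) ∧
      (∀ W : Submodule ℂ fibreSpace, IsClosed (W : Set fibreSpace) →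
        (∀ f ∈ W, S f ∈ W) → (∀ f ∈ W, V f ∈ W) →
        (∀ g : ℤ_[2] → ℂ, Measurable g → (∃ C : ℝ, ∀ x, ‖g x‖ ≤ C) →
          ∀ f ∈ W, ∀ f' : fibreSpace,
            (∀ᵐ x ∂haarTwoAdic, (f' : ℤ_[2] → seqHilbert) x = g x • (f : ℤ_[2] → seqHilbert) x) → f' ∈ W) →
        W = ⊥ ∨ W = ⊤) := by
  classical
  -- fibre operators
  have hS0 : ∀ x : ℤ_[2], ∀ j, |bet j x| ≤ Real.exp (-10) := fun x j => by
    rw [abs_of_pos (h_bet_pos j x)]; exact h_bet_le j x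
  have hV0 : ∀ x : ℤ_[2], ∀ j, |bw j x| ≤ 1 := fun x j => by
    rw [abs_of_nonneg (h_bw_nonneg j x)]; exact h_bw_le j x
  choose Sfib hSc hSn hSb using fun x : ℤ_[2] => h_wshift (fun j => bet j x) 1 (Real.exp (-10)) (hS0 x)
  choose Vfib hVc hVn hVb using fun x : ℤ_[2] => h_wshift (fun j => bw j x) (-1) 1 (hV0 x)
  obtain ⟨S, hSle, hS⟩ := h_lift Sfib (Real.exp (-10)) hSn (h_field bet h_meas_bet 1 Sfib hSc)
  obtain ⟨V0, hV0le, hV0f⟩ := h_lift Vfib 1 hVn (h_field bw h_meas_bw (-1) Vfib hVc)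
  obtain ⟨τ, hτle, hτ⟩ := h_transl
  have hV : ∀ f : fibreSpace, ∀ᵐ x ∂haarTwoAdic,
      ((τ * V0) f : ℤ_[2] → seqHilbert) (x + 1) = Vfib x ((f : ℤ_[2] → seqHilbert) x) := by
    intro f
    filter_upwards [hτ (V0 f), hV0f f] with x h1 h2
    rw [ContinuousLinearMap.mul_apply, h1, h2]
  have hVc' : ∀ x (v : seqHilbert) (j : ℤ), Vfib x v (j - 1) = (bw j x : ℂ) * v j := by
    intro x v j; rw [sub_eq_add_neg]; exact hVc x v j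
  have hVb' : ∀ x j, Vfib x (basisVec j) = (bw j x : ℂ) • basisVec (j - 1) := by
    intro x j; rw [sub_eq_add_neg]; exact hVb x j
  have hSb' : ∀ x j, Sfib x (basisVec j) = ((Real.exp (-(al x j)) : ℝ) : ℂ) • basisVec (j + 1) :=
    fun x j => hSb x j
  have hfib : ∀ x v, Vfib x (Sfib x v) = Sfib (x + 1) (Vfib x v) := by
    intro x v
    ext k
    have e1 : Vfib x (Sfib x v) k = (bw (k+1) x : ℂ) * ((bet k x : ℂ) * v k) := by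
      have := hVc' x (Sfib x v) (k+1)
      rw [add_sub_cancel_right] at this
      rw [this, hSc x v k]
    have e2 : Sfib (x+1) (Vfib x v) k = (bet (k-1) (x+1) : ℂ) * ((bw k x : ℂ) * v k) := by
      have := hSc (x+1) (Vfib x v) (k-1)
      rw [sub_add_cancel] at this
      rw [this, hVc' x v k]
    rw [e1, e2]
    have := h_inter k x
    have h2 : ((bet k x : ℂ) * (bw (k+1) x : ℂ)) = (bw k x : ℂ) * (bet (k-1) (x+1) : ℂ) := by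
      exact_mod_cast this
    linear_combination (v k) * h2
  have hnorm : ‖S‖ = Real.exp (-10) := le_antisymm hSle (h_norm_ge S Sfib hS hSb)
  have hbae : ∀ᵐ x ∂haarTwoAdic, ∀ j, 0 < bw j x := by
    have : ∀ᵐ x ∂haarTwoAdic, x ∉ Set.range (fun n : ℤ => (n : ℤ_[2])) :=
      measure_eq_zero_iff_ae_notMem.1 h_null
    filter_upwards [this] with x hx
    exact h_bw_pos x (fun n hn => hx ⟨n, hn.symm⟩)
  refine ⟨bet, bw, Sfib, Vfib, S, τ * V0, h_meas_bet, h_bet_pos, hSb, hS, ?_, ?_, hnorm, ?_, ?_, ?_,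
    h_meas_bw, fun j x => ⟨h_bw_nonneg j x, h_bw_le j x⟩, hVb', hV, ?_, ?_⟩
  · intro x W hW
    exact h_lat x (Sfib x) (hSb' x) W hW
  · intro h0
    rw [h0, norm_zero] at hnorm
    exact absurd hnorm (Real.exp_pos _).ne
  · intro n hn
    exact h_norm_le (S ^ n) (fun x => Sfib x ^ n) _ (Real.exp_pos _).le
      (fun x => h_norm_pow x (Sfib x) (hSc x) n hn) (h_pow_fibre S Sfib hS n)
  · calc ‖τ * V0‖ ≤ ‖τ‖ * ‖V0‖ := norm_mul_le _ _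
      _ ≤ 1 * 1 := mul_le_mul hτle hV0le (norm_nonneg _) zero_le_one
      _ = 1 := one_mul 1
  · exact h_comm S (τ * V0) Sfib Vfib hS hV hfib
  · refine ⟨Set.range (fun n : ℤ => (n : ℤ_[2])), h_null, fun x hx => ?_⟩
    have hpos : ∀ j, 0 < bw j x := h_bw_pos x (fun n hn => hx ⟨n, hn.symm⟩)
    obtain ⟨c1, c2⟩ := h_clos (Vfib x) (fun j => bw j x) hpos (hVb' x)
    exact ⟨hpos, c1, c2⟩
  · intro W hWc hWS hWV hWm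
    exact h_trans S (τ * V0) Sfib Vfib hS hV hVc' hbae
      (fun x w u h => h_noCross x (Sfib x) (hSb' x) w u h) W hWc hWS hWV hWm

end Crest.Agent.S0150Aux.Asm13
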