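import Mathlib
import Crest.Prelude.Def_TwoAdicShift
import Crest.Agent.S0150Aux.Defs13

/-! helper25: ASSEMBLY of S0150 from named pieces (all stated on helper13's canonical `Defs13`).
Every hypothesis `P…` below is one task; `assemble` is exactly the statement of S0150. -/

set_option autoImplicit false
open Crest.AnalysisR.TwoAdic MeasureTheory
attribute [local instance] Crest.AnalysisR.TwoAdic.borelTwoAdic Crest.AnalysisR.TwoAdic.borelSpace_twoAdic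

namespace Crest.Agent.S0150Aux.Asm25
open Crest.Agent.S0150Aux.D13

/-- `Sf` is the field of fibre shifts with weights `bet`. -/
def IsSfib (Sf : ℤ_[2] → (seqHilbert →L[ℂ] seqHilbert)) : Prop :=
  ∀ x j, Sf x (basisVec j) = (bet j x : ℂ) • basisVec (j + 1)

/-- `Vf` is the field of backward fibre shifts with weights `bw`. -/
def IsVfib (Vf : ℤ_[2] → (seqHilbert →L[ℂ] seqHilbert)) : Prop :=
  ∀ x j, Vf x (basisVec j) = (bw j x : ℂ) • basisVec (j - 1)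

def IsSlift (Sf : ℤ_[2] → (seqHilbert →L[ℂ] seqHilbert)) (S : fibreSpace →L[ℂ] fibreSpace) : Prop :=
  ∀ f : fibreSpace, ∀ᵐ x ∂haarTwoAdic, (S f : ℤ_[2] → seqHilbert) x = Sf x ((f : ℤ_[2] → seqHilbert) x)

def IsVlift (Vf : ℤ_[2] → (seqHilbert →L[ℂ] seqHilbert)) (V : fibreSpace →L[ℂ] fibreSpace) : Prop :=
  ∀ f : fibreSpace, ∀ᵐ x ∂haarTwoAdic,
    (V f : ℤ_[2] → seqHilbert) (x + 1) = Vf x ((f : ℤ_[2] → seqHilbert) x)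

/-- P1 -/ def P1 : Prop := ∀ j, Measurable (bet j)
/-- P2 -/ def P2 : Prop := ∀ j, Measurable (bw j)
/-- P3 -/ def P3 : Prop := ∀ j x, 0 ≤ bw j x ∧ bw j x ≤ 1
/-- P4 -/ def P4 : Prop := ∃ Sf, IsSfib Sf
/-- P5 -/ def P5 : Prop := ∃ Vf, IsVfib Vf
/-- P6 -/ def P6 : Prop := ∀ Sf, IsSfib Sf → ∃ S, IsSlift Sf S
/-- P7 -/ def P7 : Prop := ∀ Vf, IsVfib Vf → ∃ V, IsVlift Vf V
/-- P8: lattice of every fibre. -/
def P8 : Prop := ∀ Sf, IsSfib Sf → ∀ x, ∀ W : Submodule ℂ seqHilbert, IsClosed (W : Set seqHilbert) →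
    ((∀ v ∈ W, Sf x v ∈ W) ↔ (W = ⊥ ∨ W = ⊤ ∨ ∃ h : ℤ, W = tailSpace h))
/-- P9: norms of `S`. -/
def P9 : Prop := ∀ Sf S, IsSfib Sf → IsSlift Sf S →
    S ≠ 0 ∧ ‖S‖ = Real.exp (-10) ∧
      (∀ n : ℕ, 1 ≤ n → ‖S ^ n‖ ≤ Real.exp (-10 * (((n + 1) ^ 2 / 4 : ℕ) : ℝ)))
/-- P10 -/ def P10 : Prop := ∀ Vf V, IsVfib Vf → IsVlift Vf V → ‖V‖ ≤ 1
/-- P11 -/ def P11 : Prop := ∀ Sf S Vf V, IsSfib Sf → IsSlift Sf S → IsVfib Vf → IsVlift Vf V →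
    V * S = S * V
/-- P12 -/ def P12 : Prop := ∀ Vf, IsVfib Vf → ∃ N : Set ℤ_[2], haarTwoAdic N = 0 ∧ ∀ x, x ∉ N →
        (∀ j, 0 < bw j x) ∧
        (∀ h : ℤ, closure (Vf x '' (tailSpace h : Set seqHilbert)) = (tailSpace (h - 1) : Set seqHilbert)) ∧
        closure (Set.range (Vf x)) = Set.univ
/-- P13: transitivity. -/
def P13 : Prop := ∀ Sf S Vf V, IsSfib Sf → IsSlift Sf S → IsVfib Vf → IsVlift Vf V →
    ∀ W : Submodule ℂ fibreSpace, IsClosed (W : Set fibreSpace) →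
        (∀ f ∈ W, S f ∈ W) → (∀ f ∈ W, V f ∈ W) →
        (∀ g : ℤ_[2] → ℂ, Measurable g → (∃ C : ℝ, ∀ x, ‖g x‖ ≤ C) →
          ∀ f ∈ W, ∀ f' : fibreSpace,
            (∀ᵐ x ∂haarTwoAdic, (f' : ℤ_[2] → seqHilbert) x = g x • (f : ℤ_[2] → seqHilbert) x) → f' ∈ W) →
        W = ⊥ ∨ W = ⊤

theorem assemble (p1 : P1) (p2 : P2) (p3 : P3) (p4 : P4) (p5 : P5) (p6 : P6) (p7 : P7) (p8 : P8)
    (p9 : P9) (p10 : P10) (p11 : P11) (p12 : P12) (p13 : P13) :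
    ∃ (β b : ℤ → ℤ_[2] → ℝ) (Sfib Vfib : ℤ_[2] → (seqHilbert →L[ℂ] seqHilbert))
      (S V : fibreSpace →L[ℂ] fibreSpace),
      (∀ j, Measurable (β j)) ∧ (∀ j x, 0 < β j x) ∧
      (∀ x j, Sfib x (basisVec j) = (β j x : ℂ) • basisVec (j + 1)) ∧
      (∀ f : fibreSpace, ∀ᵐ x ∂haarTwoAdic, (S f : ℤ_[2] → seqHilbert) x = Sfib x ((f : ℤ_[2] → seqHilbert) x)) ∧
      (∀ x, ∀ W : Submodule ℂ seqHilbert, IsClosed (W : Set seqHilbert) →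
        ((∀ v ∈ W, Sfib x v ∈ W) ↔ (W = ⊥ ∨ W = ⊤ ∨ ∃ h : ℤ, W = tailSpace h))) ∧
      S ≠ 0 ∧ ‖S‖ = Real.exp (-10) ∧
      (∀ n : ℕ, 1 ≤ n → ‖S ^ n‖ ≤ Real.exp (-10 * (((n + 1) ^ 2 / 4 : ℕ) : ℝ))) ∧
      ‖V‖ ≤ 1 ∧ V * S = S * V ∧
      (∀ j, Measurable (b j)) ∧ (∀ j x, 0 ≤ b j x ∧ b j x ≤ 1) ∧
      (∀ x j, Vfib x (basisVec j) = (b j x : ℂ) • basisVec (j - 1)) ∧
      (∀ f : fibreSpace, ∀ᵐ x ∂haarTwoAdic,
        (V f : ℤ_[2] → seqHilbert) (x + 1) = Vfib x ((f : ℤ_[2] → seqHilbert) x)) ∧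
      (∃ N : Set ℤ_[2], haarTwoAdic N = 0 ∧ ∀ x, x ∉ N →
        (∀ j, 0 < b j x) ∧
        (∀ h : ℤ, closure (Vfib x '' (tailSpace h : Set seqHilbert)) = (tailSpace (h - 1) : Set seqHilbert)) ∧
        closure (Set.range (Vfib x)) = Set.univ) ∧
      (∀ W : Submodule ℂ fibreSpace, IsClosed (W : Set fibreSpace) →
        (∀ f ∈ W, S f ∈ W) → (∀ f ∈ W, V f ∈ W) →
        (∀ g : ℤ_[2] → ℂ, Measurable g → (∃ C : ℝ, ∀ x, ‖g x‖ ≤ C) →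
          ∀ f ∈ W, ∀ f' : fibreSpace,
            (∀ᵐ x ∂haarTwoAdic, (f' : ℤ_[2] → seqHilbert) x = g x • (f : ℤ_[2] → seqHilbert) x) → f' ∈ W) →
        W = ⊥ ∨ W = ⊤) := by
  obtain ⟨Sf, hSf⟩ := p4
  obtain ⟨Vf, hVf⟩ := p5
  obtain ⟨S, hS⟩ := p6 Sf hSf
  obtain ⟨V, hV⟩ := p7 Vf hVf
  obtain ⟨h0, hn, hp⟩ := p9 Sf S hSf hS
  exact ⟨bet, bw, Sf, Vf, S, V, p1, fun j x => Real.exp_pos _, hSf, hS, p8 Sf hSf, h0, hn, hp,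
    p10 Vf V hVf hV, p11 Sf S Vf V hSf hS hVf hV, p2, p3, hVf, hV, p12 Vf hVf,
    p13 Sf S Vf V hSf hS hVf hV⟩

end Crest.Agent.S0150Aux.Asm25
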