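import Mathlib
import Crest.Prelude.Def_TwoAdicShift

/-!
Part of S0150 (row 113, row incomplete).  helper79.

`Lat79.lat_iff`: for a bounded weighted shift `T δ_j = β_j δ_{j+1}` on `ℓ²(ℤ)` the closed invariant
subspaces are exactly `⊥`, `⊤` and the tails, PROVIDED the "bilateral Donoghue" claim `key` holds
(taken here as a hypothesis).
-/

set_option autoImplicit false

open Crest.AnalysisR.TwoAdic

namespace Crest.Agent.S0150Aux.Lat79

lemma basisVec_apply_self (j : ℤ) : (basisVec j : ∀ _ : ℤ, ℂ) j = 1 := by
  simp [basisVec]

lemma basisVec_apply_ne {j k : ℤ} (h : k ≠ j) : (basisVec j : ∀ _ : ℤ, ℂ) k = 0 := by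
  unfold basisVec
  exact lp.single_apply_ne (E := fun _ : ℤ => ℂ) 2 j (1 : ℂ) h

lemma sub_smul_apply (w b : seqHilbert) (c : ℂ) (j : ℤ) :
    (w - c • b : seqHilbert) j = w j - c * b j := rfl

lemma inner_basisVec_left (j : ℤ) (v : seqHilbert) : inner ℂ (basisVec j) v = v j := by
  simp [basisVec, lp.inner_single_left]

lemma inner_basisVec_right (j : ℤ) (v : seqHilbert) :
    inner ℂ v (basisVec j) = (starRingEnd ℂ) (v j) := by
  rw [← inner_conj_symm, inner_basisVec_left]

lemma single_eq_smul (j : ℤ) (c : ℂ) : lp.single 2 j c = c • basisVec j := by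
  rw [basisVec, ← lp.single_smul]
  simp

/-- The closed submodule of vectors vanishing below `h`. -/
noncomputable def vanishBelow (h : ℤ) : Submodule ℂ seqHilbert where
  carrier := {v | ∀ j < h, v j = 0}
  add_mem' := by
    intro a b ha hb j hj
    simp [ha j hj, hb j hj]
  zero_mem' := by
    intro j _
    simp
  smul_mem' := by
    intro c a ha j hj
    simp [ha j hj]

lemma isClosed_vanishBelow (h : ℤ) : IsClosed (vanishBelow h : Set seqHilbert) := by
  have : (vanishBelow h : Set seqHilbert) =
      ⋂ j : {j : ℤ // j < h}, {v : seqHilbert | inner ℂ (basisVec (j : ℤ)) v = 0} := by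
    ext v
    simp only [SetLike.mem_coe, Set.mem_iInter, Set.mem_ofPred_eq, inner_basisVec_left]
    constructor
    · intro hv j
      exact hv j.1 j.2
    · intro hv j hj
      exact hv ⟨j, hj⟩
  rw [this]
  refine isClosed_iInter fun j => ?_
  exact isClosed_eq (by fun_prop) continuous_const

/-- A closed submodule containing `c • δ_j` for all the nonzero coordinates of `v` contains `v`. -/
lemma mem_of_coords (W : Submodule ℂ seqHilbert) (hW : IsClosed (W : Set seqHilbert))
    (v : seqHilbert) (hv : ∀ j, v j ≠ 0 → basisVec j ∈ W) : v ∈ W := by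
  have hs : HasSum (fun i => lp.single 2 i (v i)) v := lp.hasSum_single (by norm_num) v
  refine hW.mem_of_tendsto hs (Filter.Eventually.of_forall fun s => ?_)
  refine Submodule.sum_mem _ fun i _ => ?_
  rw [single_eq_smul]
  by_cases h0 : v i = 0
  · simp [h0]
  · exact W.smul_mem _ (hv i h0)

lemma basisVec_mem_tailSpace {h j : ℤ} (hj : h ≤ j) : basisVec j ∈ tailSpace h := by
  apply Submodule.le_topologicalClosure
  exact Submodule.subset_span ⟨⟨j, hj⟩, rfl⟩

lemma isClosed_tailSpace (h : ℤ) : IsClosed (tailSpace h : Set seqHilbert) :=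
  Submodule.isClosed_topologicalClosure _

lemma tailSpace_le {h : ℤ} {W : Submodule ℂ seqHilbert} (hW : IsClosed (W : Set seqHilbert))
    (hb : ∀ j, h ≤ j → basisVec j ∈ W) : tailSpace h ≤ W := by
  refine Submodule.topologicalClosure_minimal _ ?_ hW
  rw [Submodule.span_le]
  rintro _ ⟨j, rfl⟩
  exact hb j.1 j.2

theorem mem_tailSpace_iff (h : ℤ) (v : seqHilbert) : v ∈ tailSpace h ↔ ∀ j < h, v j = 0 := by
  constructor
  · intro hv
    have : tailSpace h ≤ vanishBelow h := by
      refine tailSpace_le (isClosed_vanishBelow h) fun j hj k hk => ?_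
      exact basisVec_apply_ne (by omega)
    exact this hv
  · intro hv
    refine mem_of_coords _ (isClosed_tailSpace h) v fun j hj => ?_
    refine basisVec_mem_tailSpace ?_
    by_contra hlt
    exact hj (hv j (by omega))

lemma tailSpace_anti {h h' : ℤ} (hh : h' ≤ h) : tailSpace h ≤ tailSpace h' := by
  intro v hv
  rw [mem_tailSpace_iff] at hv ⊢
  intro j hj
  exact hv j (by omega)

theorem lat_iff (T : seqHilbert →L[ℂ] seqHilbert) (β : ℤ → ℝ)
    (hT : ∀ j, T (basisVec j) = (β j : ℂ) • basisVec (j + 1))
    (key : ∀ (s : ℤ) (w u : seqHilbert), (∀ n : ℕ, inner ℂ ((T ^ n) w) u = 0) →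
      ¬ ((∃ j, j < s ∧ w j ≠ 0) ∧ (∃ k, s ≤ k ∧ u k ≠ 0)))
    (W : Submodule ℂ seqHilbert) (hW : IsClosed (W : Set seqHilbert)) :
    (∀ v ∈ W, T v ∈ W) ↔ (W = ⊥ ∨ W = ⊤ ∨ ∃ h : ℤ, W = tailSpace h) := by
  constructor
  · intro hinv
    have hpow : ∀ (n : ℕ) (w : seqHilbert), w ∈ W → (T ^ n) w ∈ W := by
      intro n
      induction n with
      | zero => intro w hw; simpa using hw
      | succ n ih =>
        intro w hw
        rw [pow_succ']
        exact hinv _ (ih w hw)
    -- dichotomy
    have hdich : ∀ s : ℤ, W ≤ tailSpace s ∨ tailSpace s ≤ W := by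
      intro s
      by_cases hex : ∃ w ∈ W, ∃ j, j < s ∧ w j ≠ 0
      · right
        obtain ⟨w, hw, hj⟩ := hex
        refine tailSpace_le hW fun k hk => ?_
        have hmem : basisVec k ∈ Wᗮᗮ := by
          rw [Submodule.mem_orthogonal]
          intro u hu
          rw [inner_basisVec_right]
          have h0 : u k = 0 := by
            by_contra hne
            refine key s w u (fun n => ?_) ⟨hj, k, hk, hne⟩
            exact Submodule.inner_right_of_mem_orthogonal (hpow n w hw) hu
          simp [h0]
        rw [Submodule.orthogonal_orthogonal_eq_closure, hW.submodule_topologicalClosure_eq] at hmem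
        exact hmem
      · left
        intro w hw
        rw [mem_tailSpace_iff]
        intro j hj
        by_contra hne
        exact hex ⟨w, hw, j, hj, hne⟩
    by_cases hall : ∀ s, W ≤ tailSpace s
    · left
      rw [eq_bot_iff]
      intro w hw
      rw [Submodule.mem_bot]
      ext j
      have := (mem_tailSpace_iff (j + 1) w).1 (hall (j + 1) hw) j (by omega)
      simpa using this
    · by_cases hnone : ∀ s, ¬ W ≤ tailSpace s
      · right; left
        rw [eq_top_iff]
        intro v _
        refine mem_of_coords W hW v fun j _ => ?_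
        exact ((hdich j).resolve_left (hnone j)) (basisVec_mem_tailSpace le_rfl)
      · right; right
        push Not at hall hnone
        obtain ⟨s1, hs1⟩ := hall
        obtain ⟨s0, hs0⟩ := hnone
        classical
        obtain ⟨m, hm, hmax⟩ := Int.exists_greatest_of_bdd (P := fun s => W ≤ tailSpace s)
          ⟨s1, fun z hz => by
            by_contra hlt
            exact hs1 (hz.trans (tailSpace_anti (by omega)))⟩ ⟨s0, hs0⟩
        refine ⟨m, le_antisymm hm ?_⟩
        have hnot : ¬ W ≤ tailSpace (m + 1) := fun hle => by
          have := hmax _ hle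
          omega
        have hup : tailSpace (m + 1) ≤ W := (hdich (m + 1)).resolve_left hnot
        -- a vector of W with nonzero m-th coordinate
        have hexw : ∃ w ∈ W, w m ≠ 0 := by
          by_contra hcon
          push Not at hcon
          apply hnot
          intro w hw
          rw [mem_tailSpace_iff]
          intro j hj
          rcases (show j < m ∨ j = m by omega) with h1 | h1
          · exact (mem_tailSpace_iff m w).1 (hm hw) j h1
          · rw [h1]; exact hcon w hw
        obtain ⟨w, hw, hwm⟩ := hexw
        have hr : w - (w m) • basisVec m ∈ tailSpace (m + 1) := by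
          rw [mem_tailSpace_iff]
          intro j hj
          rcases (show j < m ∨ j = m by omega) with h1 | h1
          · have e1 := (mem_tailSpace_iff m w).1 (hm hw) j h1
            have e2 : (basisVec m : ∀ _ : ℤ, ℂ) j = 0 := basisVec_apply_ne (by omega)
            rw [sub_smul_apply, e1, e2]
            simp
          · subst h1
            rw [sub_smul_apply, basisVec_apply_self]
            simp
        have hbm : basisVec m ∈ W := by
          have h1 : (w m) • basisVec m ∈ W := by
            have := W.sub_mem hw (hup hr)
            simpa using this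
          have h2 := W.smul_mem (w m)⁻¹ h1
          rwa [smul_smul, inv_mul_cancel₀ hwm, one_smul] at h2
        refine tailSpace_le hW fun j hj => ?_
        rcases (show j = m ∨ m + 1 ≤ j by omega) with h1 | h1
        · rw [h1]; exact hbm
        · exact hup (basisVec_mem_tailSpace h1)
  · rintro (h | h | ⟨h, hh⟩)
    · subst h
      intro v hv
      rw [Submodule.mem_bot] at hv
      simp [hv]
    · subst h
      intro v _
      exact Submodule.mem_top
    · subst hh
      have hcl : IsClosed ((tailSpace h).comap (T : seqHilbert →ₗ[ℂ] seqHilbert) : Set seqHilbert) := by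
        have : ((tailSpace h).comap (T : seqHilbert →ₗ[ℂ] seqHilbert) : Set seqHilbert) =
            T ⁻¹' (tailSpace h : Set seqHilbert) := rfl
        rw [this]
        exact (isClosed_tailSpace h).preimage T.continuous
      have hle : tailSpace h ≤ (tailSpace h).comap (T : seqHilbert →ₗ[ℂ] seqHilbert) := by
        refine tailSpace_le hcl fun j hj => ?_
        show T (basisVec j) ∈ tailSpace h
        rw [hT]
        exact Submodule.smul_mem _ _ (basisVec_mem_tailSpace (by omega))
      intro v hv
      exact hle hv

end Crest.Agent.S0150Aux.Lat79
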