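import Mathlib
import Crest.Prelude.Def_TwoAdicShift
import Crest.Agent.S0150Aux.Lat79

/-!
Part of S0150 (row 113, row incomplete).  helper79.

The two closure clauses of S0150 for one fibre: a backward weighted shift `V δ_j = b_j δ_{j-1}` with all
`b_j > 0` maps every tail densely into the next lower tail and has dense range.
-/

set_option autoImplicit false

open Crest.AnalysisR.TwoAdic
open Crest.Agent.S0150Aux.Lat79

namespace Crest.Agent.S0150Aux.Dense79

lemma preimage_basis (Vx : seqHilbert →L[ℂ] seqHilbert) (b : ℤ → ℝ)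
    (hV : ∀ j, Vx (basisVec j) = (b j : ℂ) • basisVec (j - 1)) (hb : ∀ j, 0 < b j) (j : ℤ) :
    Vx (((b (j + 1) : ℂ))⁻¹ • basisVec (j + 1)) = basisVec j := by
  have hne : (b (j + 1) : ℂ) ≠ 0 := by
    exact_mod_cast (hb (j + 1)).ne'
  rw [map_smul, hV, smul_smul, inv_mul_cancel₀ hne, one_smul]
  congr 1
  ring

theorem closure_image_tail (Vx : seqHilbert →L[ℂ] seqHilbert) (b : ℤ → ℝ)
    (hV : ∀ j, Vx (basisVec j) = (b j : ℂ) • basisVec (j - 1)) (hb : ∀ j, 0 < b j) (h : ℤ) :
    closure (Vx '' (tailSpace h : Set seqHilbert)) = (tailSpace (h - 1) : Set seqHilbert) := by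
  have hcl : closure (Vx '' (tailSpace h : Set seqHilbert)) =
      (((tailSpace h).map (Vx : seqHilbert →ₗ[ℂ] seqHilbert)).topologicalClosure :
        Set seqHilbert) := by
    rw [Submodule.topologicalClosure_coe]
    rfl
  rw [hcl]
  refine congrArg _ (le_antisymm ?_ ?_)
  · refine Submodule.topologicalClosure_minimal _ ?_ (isClosed_tailSpace _)
    rw [Submodule.map_le_iff_le_comap]
    refine tailSpace_le ?_ ?_
    · exact (isClosed_tailSpace (h - 1)).preimage Vx.continuous
    · intro j hj
      show Vx (basisVec j) ∈ tailSpace (h - 1)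
      rw [hV]
      exact Submodule.smul_mem _ _ (basisVec_mem_tailSpace (by omega))
  · refine tailSpace_le (Submodule.isClosed_topologicalClosure _) fun j hj => ?_
    apply Submodule.le_topologicalClosure
    exact ⟨((b (j + 1) : ℂ))⁻¹ • basisVec (j + 1),
      Submodule.smul_mem _ _ (basisVec_mem_tailSpace (by omega)), preimage_basis Vx b hV hb j⟩

theorem closure_range (Vx : seqHilbert →L[ℂ] seqHilbert) (b : ℤ → ℝ)
    (hV : ∀ j, Vx (basisVec j) = (b j : ℂ) • basisVec (j - 1)) (hb : ∀ j, 0 < b j) :
    closure (Set.range Vx) = Set.univ := by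
  have hcl : closure (Set.range Vx) =
      ((LinearMap.range (Vx : seqHilbert →ₗ[ℂ] seqHilbert)).topologicalClosure :
        Set seqHilbert) := by
    rw [Submodule.topologicalClosure_coe]
    rfl
  rw [hcl, Set.eq_univ_iff_forall]
  intro v
  refine mem_of_coords _ (Submodule.isClosed_topologicalClosure _) v fun j _ => ?_
  apply Submodule.le_topologicalClosure
  exact ⟨((b (j + 1) : ℂ))⁻¹ • basisVec (j + 1), preimage_basis Vx b hV hb j⟩

end Crest.Agent.S0150Aux.Dense79
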