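import Mathlib

/-! S0150 (row 113, incomplete): a series over `ℤ` with a dominant term does not vanish. helper33. -/

set_option autoImplicit false

namespace Crest.Agent.S0150Aux.Key33

open Real

lemma dominant_ne_zero (F : ℤ → ℂ) (P : ℝ) (hP : 0 < P) (h0 : P ≤ ‖F 0‖)
    (hpos : ∀ e : ℕ, ‖F ((e:ℤ)+1)‖ ≤ P * (1/4:ℝ)^(e+1))
    (hneg : ∀ e : ℕ, ‖F (-((e:ℤ)+1))‖ ≤ P * (1/4:ℝ)^(e+1)) : ∑' d, F d ≠ 0 := by
  have hgeo : HasSum (fun e : ℕ => (1/4:ℝ)^e) (1 - 1/4)⁻¹ :=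
    hasSum_geometric_of_lt_one (by norm_num) (by norm_num)
  have hs : HasSum (fun e : ℕ => P * (1/4:ℝ)^(e+1)) (P / 3) := by
    have h := hgeo.mul_left (P * (1/4))
    have e1 : (fun e : ℕ => P * (1/4:ℝ)^(e+1)) = (fun i : ℕ => P * (1 / 4) * (1 / 4 : ℝ) ^ i) := by
      funext e; rw [pow_succ]; ring
    have e2 : P / 3 = P * (1 / 4) * (1 - 1 / 4 : ℝ)⁻¹ := by norm_num; ring
    rw [e1, e2]; exact h
  have S1 : Summable (fun e : ℕ => F ((e:ℤ)+1)) := Summable.of_norm_bounded hs.summable hpos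
  have S2 : Summable (fun e : ℕ => F (-((e:ℤ)+1))) := Summable.of_norm_bounded hs.summable hneg
  have S0 : Summable (fun e : ℕ => F (e:ℤ)) := by
    rw [← summable_nat_add_iff 1]
    simpa using S1
  have e1 := tsum_of_nat_of_neg_add_one S0 S2
  have e2 : ∑' e : ℕ, F (e:ℤ) = F 0 + ∑' e : ℕ, F ((e:ℤ)+1) := by
    have := S0.tsum_eq_zero_add
    simpa using this
  have b1 : ‖∑' e : ℕ, F ((e:ℤ)+1)‖ ≤ P / 3 := tsum_of_norm_bounded hs hpos
  have b2 : ‖∑' e : ℕ, F (-((e:ℤ)+1))‖ ≤ P / 3 := tsum_of_norm_bounded hs hneg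
  intro hz
  rw [e1, e2] at hz
  have h3 : F 0 = -(∑' e : ℕ, F ((e:ℤ)+1) + ∑' e : ℕ, F (-((e:ℤ)+1))) := by
    linear_combination hz
  have h4 : ‖F 0‖ ≤ P / 3 + P / 3 := by
    rw [h3, norm_neg]
    exact (norm_add_le _ _).trans (add_le_add b1 b2)
  linarith

lemma exp_neg_two_mul_le (e : ℕ) : exp (-2 * (((e+1 : ℕ):ℝ))) ≤ (1/4:ℝ)^(e+1) := by
  have h1 : exp (-2 * (((e+1 : ℕ):ℝ))) = (exp (-2)) ^ (e+1) := by
    rw [← exp_nat_mul]; congr 1; ring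
  rw [h1]
  apply pow_le_pow_left₀ (exp_pos _).le
  have h2 : (2:ℝ) ≤ exp 1 := by have := add_one_le_exp (1:ℝ); linarith
  have h3 : exp 2 = exp 1 * exp 1 := by rw [← exp_add]; norm_num
  have h4 : (4:ℝ) ≤ exp 2 := by rw [h3]; nlinarith
  rw [exp_neg]
  rw [one_div]
  exact inv_anti₀ (by norm_num) h4

lemma tilt_le (x y T a b : ℝ) (h : x * exp (T * a) ≤ y * exp (T * b)) :
    x ≤ y * exp (T * (b - a)) := by
  have hpos := exp_pos (T * a)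
  have h4 : y * exp (T * b) = y * exp (T * (b - a)) * exp (T * a) := by
    rw [mul_assoc, ← exp_add]; congr 2; ring
  rw [h4] at h
  exact le_of_mul_le_mul_right h hpos

lemma cum_ge (g G : ℕ → ℝ) (hG0 : G 0 = 0) (hG : ∀ a, G (a+1) = G a + g a) (c : ℝ)
    (hg : ∀ i : ℕ, 10 * (i:ℝ) - c ≤ g i) (m : ℕ) : 5 * (m:ℝ)^2 - (c + 5) * m ≤ G m := by
  induction m with
  | zero => simp [hG0]
  | succ m ih =>
    rw [hG]; have := hg m; push_cast; nlinarith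

end Crest.Agent.S0150Aux.Key33
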