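import Mathlib

/-! Last step of the KEY lemma of S0150 (team note 427, sect. 2): a bilateral series with a
dominant term cannot vanish.  helper70. -/

set_option autoImplicit false

namespace Crest.Agent.S0150Aux.Dom70

lemma exp_neg_two_mul_le (n : ℕ) : Real.exp (-2 * ((n : ℝ) + 1)) ≤ (1 / 4 : ℝ) ^ (n + 1) := by
  have h2 : (2 : ℝ) ≤ Real.exp 1 := by
    have := Real.add_one_le_exp (1 : ℝ)
    linarith
  have h4 : (4 : ℝ) ≤ Real.exp 2 := by
    have : Real.exp 2 = Real.exp 1 * Real.exp 1 := by rw [← Real.exp_add]; norm_num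
    rw [this]; nlinarith
  have h5 : Real.exp (-2) ≤ 1 / 4 := by
    rw [Real.exp_neg]
    rw [inv_eq_one_div]
    exact one_div_le_one_div_of_le (by norm_num) h4
  have h6 : Real.exp (-2 * ((n : ℝ) + 1)) = Real.exp (-2) ^ (n + 1) := by
    rw [← Real.exp_nat_mul]
    congr 1
    push_cast
    ring
  rw [h6]
  exact pow_le_pow_left₀ (Real.exp_pos _).le h5 _

lemma hasSum_quarter (c : ℝ) : HasSum (fun n : ℕ => c * (1 / 4 : ℝ) ^ (n + 1)) (c / 3) := by
  have h := (hasSum_geometric_of_lt_one (r := (1 / 4 : ℝ)) (by norm_num) (by norm_num)).mul_left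
    (c * (1 / 4))
  have e1 : (fun n : ℕ => c * (1 / 4 : ℝ) ^ (n + 1)) = fun n : ℕ => c * (1 / 4) * (1 / 4 : ℝ) ^ n := by
    funext n
    rw [pow_succ]; ring
  have e2 : c / 3 = c * (1 / 4) * (1 - 1 / 4 : ℝ)⁻¹ := by
    norm_num
    ring
  rw [e1, e2]
  exact h

theorem tsum_ne_zero_of_dominant (f : ℤ → ℂ) (c : ℝ) (hc : 0 < c) (j1 : ℤ) (h0 : c ≤ ‖f j1‖)
    (hd : ∀ d : ℤ, d ≠ 0 → ‖f (j1 + d)‖ ≤ c * Real.exp (-2 * |(d : ℝ)|)) : ∑' j, f j ≠ 0 := by
  set g : ℤ → ℂ := fun d => f (j1 + d) with hg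
  have hfg : ∑' j, f j = ∑' d, g d := ((Equiv.addLeft j1).tsum_eq f).symm
  have hpos : ∀ n : ℕ, ‖g ((n : ℤ) + 1)‖ ≤ c * (1 / 4 : ℝ) ^ (n + 1) := by
    intro n
    have h1 := hd ((n : ℤ) + 1) (by omega)
    have h2 : |(((n : ℤ) + 1 : ℤ) : ℝ)| = (n : ℝ) + 1 := by
      push_cast
      exact abs_of_nonneg (by positivity)
    rw [h2] at h1
    exact le_trans h1 (mul_le_mul_of_nonneg_left (exp_neg_two_mul_le n) hc.le)
  have hneg : ∀ n : ℕ, ‖g (-((n : ℤ) + 1))‖ ≤ c * (1 / 4 : ℝ) ^ (n + 1) := by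
    intro n
    have h1 := hd (-((n : ℤ) + 1)) (by omega)
    have h2 : |((-((n : ℤ) + 1) : ℤ) : ℝ)| = (n : ℝ) + 1 := by
      push_cast
      rw [abs_neg]
      exact abs_of_nonneg (by positivity)
    rw [h2] at h1
    exact le_trans h1 (mul_le_mul_of_nonneg_left (exp_neg_two_mul_le n) hc.le)
  have hq := hasSum_quarter c
  have hs1 : Summable (fun n : ℕ => g ((n : ℤ) + 1)) :=
    Summable.of_norm_bounded hq.summable hpos
  have hs2 : Summable (fun n : ℕ => g (-((n : ℤ) + 1))) :=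
    Summable.of_norm_bounded hq.summable hneg
  have hb1 : ‖∑' n : ℕ, g ((n : ℤ) + 1)‖ ≤ c / 3 := tsum_of_norm_bounded hq hpos
  have hb2 : ‖∑' n : ℕ, g (-((n : ℤ) + 1))‖ ≤ c / 3 := tsum_of_norm_bounded hq hneg
  have hs0 : HasSum (fun n : ℕ => g (n : ℤ)) (g 0 + ∑' n : ℕ, g ((n : ℤ) + 1)) := by
    have h1 : HasSum (fun n : ℕ => (fun m : ℕ => g (m : ℤ)) (n + 1)) (∑' n : ℕ, g ((n : ℤ) + 1)) := by
      have := hs1.hasSum
      simpa using this
    have h2 := (hasSum_nat_add_iff (f := fun m : ℕ => g (m : ℤ)) 1).mp h1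
    simp only [Finset.range_one, Finset.sum_singleton, Nat.cast_zero] at h2
    rw [add_comm]
    exact h2
  have htot := HasSum.of_nat_of_neg_add_one hs0 hs2.hasSum
  rw [hfg, htot.tsum_eq]
  intro hzero
  have hg0 : g 0 = -(∑' n : ℕ, g ((n : ℤ) + 1) + ∑' n : ℕ, g (-((n : ℤ) + 1))) := by
    linear_combination hzero
  have h00 : ‖g 0‖ ≤ c / 3 + c / 3 := by
    rw [hg0, norm_neg]
    exact le_trans (norm_add_le _ _) (add_le_add hb1 hb2)
  have h01 : c ≤ ‖g 0‖ := by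
    simpa [hg] using h0
  linarith

end Crest.Agent.S0150Aux.Dom70
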