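import Mathlib

/-!
Part of S0150 (row 113, row incomplete).  helper79.  Sub-lemma of the key lemma: a bilateral series with one
term dominating the others geometrically does not sum to zero.
-/

set_option autoImplicit false

namespace Crest.Agent.S0150Aux.Dom79

lemma hasSum_geo_int (r : ℝ) (h0 : 0 ≤ r) (h1 : r < 1) :
    HasSum (fun d : ℤ => if d = 0 then 0 else r ^ d.natAbs) (r * (1 - r)⁻¹ + r * (1 - r)⁻¹) := by
  have hg : HasSum (fun n : ℕ => r ^ (n + 1)) (r * (1 - r)⁻¹) := by
    have := (hasSum_geometric_of_lt_one h0 h1).mul_left r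
    simpa [pow_succ, mul_comm] using this
  refine HasSum.of_nat_of_neg_add_one ?_ ?_
  · have h := (hasSum_nat_add_iff (f := fun n : ℕ => if ((n : ℤ)) = 0 then (0:ℝ)
      else r ^ ((n : ℤ)).natAbs) 1 (g := r * (1 - r)⁻¹)).1 ?_
    · simpa using h
    · have he : (fun n : ℕ => if (((n + 1 : ℕ)) : ℤ) = 0 then (0:ℝ)
          else r ^ (((n + 1 : ℕ)) : ℤ).natAbs) = fun n : ℕ => r ^ (n + 1) := by
        funext n
        have h2 : ((n + 1 : ℕ) : ℤ) ≠ 0 := by omega
        have h3 : ((n + 1 : ℕ) : ℤ).natAbs = n + 1 := by omega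
        rw [if_neg h2, h3]
      rw [he]
      exact hg
  · have he : (fun n : ℕ => if (-((n : ℤ) + 1)) = 0 then (0:ℝ)
        else r ^ (-((n : ℤ) + 1)).natAbs) = fun n : ℕ => r ^ (n + 1) := by
      funext n
      have h2 : (-((n : ℤ) + 1)) ≠ 0 := by omega
      have h3 : (-((n : ℤ) + 1)).natAbs = n + 1 := by omega
      rw [if_neg h2, h3]
    rw [he]
    exact hg

theorem tsum_ne_zero_of_dominant (t : ℤ → ℂ) (js : ℤ) (c : ℝ) (hc : 0 < c) (h0 : c ≤ ‖t js‖)
    (hle : ∀ j, j ≠ js → ‖t j‖ ≤ c * Real.exp (-2 * |((j - js : ℤ) : ℝ)|)) :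
    ∑' j, t j ≠ 0 := by
  set r : ℝ := Real.exp (-2) with hr
  have hr0 : 0 < r := Real.exp_pos _
  have hr3 : r < 1 / 3 := by
    have h3 : (3:ℝ) < Real.exp 2 := by
      have := Real.add_one_lt_exp (x := 2) (by norm_num)
      linarith
    rw [hr, Real.exp_neg]
    rw [inv_eq_one_div]
    exact one_div_lt_one_div_of_lt (by norm_num) h3
  have hG0 := (hasSum_geo_int r hr0.le (by linarith)).mul_left c
  have hG : HasSum (fun j : ℤ => c * (if j - js = 0 then 0 else r ^ (j - js).natAbs))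
      (c * (r * (1 - r)⁻¹ + r * (1 - r)⁻¹)) :=
    (Equiv.hasSum_iff (Equiv.subRight js) (f := fun d : ℤ => c * (if d = 0 then 0
      else r ^ d.natAbs))).2 hG0
  set t' : ℤ → ℂ := fun j => if j = js then 0 else t j with ht'
  have hb : ∀ j, ‖t' j‖ ≤ c * (if j - js = 0 then 0 else r ^ (j - js).natAbs) := by
    intro j
    by_cases hj : j = js
    · simp [ht', hj]
    · have hj' : j - js ≠ 0 := sub_ne_zero.2 hj
      simp only [ht', if_neg hj, if_neg hj']
      refine (hle j hj).trans (le_of_eq ?_)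
      congr 1
      rw [hr, ← Real.exp_nat_mul]
      congr 1
      have : |((j - js : ℤ) : ℝ)| = ((j - js).natAbs : ℝ) := by
        rw [Nat.cast_natAbs, Int.cast_abs]
      rw [this]; ring
  have hs' : Summable t' := Summable.of_norm_bounded hG.summable hb
  have hsn : Summable (fun j => ‖t' j‖) := Summable.of_nonneg_of_le (fun _ => norm_nonneg _) hb hG.summable
  have hs : Summable t := by
    have : t = fun j => t' j + (if j = js then t js else 0) := by
      ext j
      by_cases hj : j = js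
      · simp [ht', hj]
      · simp [ht', hj]
    rw [this]
    exact hs'.add (hasSum_ite_eq js (t js)).summable
  intro hz
  rw [hs.tsum_eq_add_tsum_ite js] at hz
  have h1 : ‖t js‖ = ‖∑' j, t' j‖ := by
    have : t js = -∑' j, t' j := eq_neg_of_add_eq_zero_left hz
    rw [this, norm_neg]
  have h2 : ‖∑' j, t' j‖ ≤ c * (r * (1 - r)⁻¹ + r * (1 - r)⁻¹) := by
    refine (norm_tsum_le_tsum_norm hsn).trans ?_
    rw [← hG.tsum_eq]
    exact hsn.tsum_le_tsum hb hG.summable
  have h3 : r * (1 - r)⁻¹ + r * (1 - r)⁻¹ < 1 := by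
    have h1r : 0 < 1 - r := by linarith
    rw [← two_mul, ← mul_assoc, ← div_eq_mul_inv, div_lt_one h1r]
    linarith
  have h4 : c * (r * (1 - r)⁻¹ + r * (1 - r)⁻¹) < c := by
    nlinarith
  linarith

end Crest.Agent.S0150Aux.Dom79
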