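import Mathlib

/-!
# Dominant-term lemma (last step of the KEY lemma of S0150, team note 427 sect. 2)

If one term of a `ℤ`-indexed series has modulus `≥ M > 0` and every other term is bounded by
`M * exp (-2 |j - js|)`, the sum cannot vanish.   (helper89)
-/

set_option autoImplicit false

namespace Crest.Agent.S0150Aux.Dom89

open Real

lemma exp_neg_two_lt : Real.exp (-2) < 1 / 7 := by
  have h1 : (2.7182818283 : ℝ) < Real.exp 1 := Real.exp_one_gt_d9
  have h2 : Real.exp 2 = Real.exp 1 * Real.exp 1 := by rw [← Real.exp_add]; norm_num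
  have h3 : (7 : ℝ) < Real.exp 2 := by rw [h2]; nlinarith
  rw [Real.exp_neg, one_div]
  exact inv_strictAnti₀ (by norm_num) h3

/-- `∑_{d ∈ ℤ} exp (-2 |d|) = (1 + r) / (1 - r)`, `r = exp (-2)` -/
lemma hasSum_exp_abs :
    HasSum (fun d : ℤ => Real.exp (-2 * |(d : ℝ)|))
      ((1 - Real.exp (-2))⁻¹ + Real.exp (-2) * (1 - Real.exp (-2))⁻¹) := by
  have hr0 : 0 ≤ Real.exp (-2) := (Real.exp_pos _).le
  have hr1 : Real.exp (-2) < 1 := lt_trans exp_neg_two_lt (by norm_num)
  have hg := hasSum_geometric_of_lt_one hr0 hr1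
  have e1 : (fun n : ℕ => Real.exp (-2 * |(((n : ℕ) : ℤ) : ℝ)|)) = fun n : ℕ => Real.exp (-2) ^ n := by
    funext n
    rw [← Real.exp_nat_mul]
    congr 1
    push_cast
    rw [abs_of_nonneg (Nat.cast_nonneg n)]
    ring
  have e2 : (fun n : ℕ => Real.exp (-2 * |((-((n : ℤ) + 1) : ℤ) : ℝ)|))
      = fun n : ℕ => Real.exp (-2) * Real.exp (-2) ^ n := by
    funext n
    rw [← Real.exp_nat_mul, ← Real.exp_add]
    congr 1
    push_cast
    have : |(-1 + -(n : ℝ))| = (n : ℝ) + 1 := by
      rw [show (-1 + -(n : ℝ)) = -((n : ℝ) + 1) by ring, abs_neg, abs_of_nonneg (by positivity)]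
    first
      | (rw [this]; ring)
      | (have h' : |(-((n : ℝ) + 1))| = (n : ℝ) + 1 := by
            rw [abs_neg, abs_of_nonneg (by positivity)]
         rw [h']; ring)
  apply HasSum.of_nat_of_neg_add_one
  · rw [e1]; exact hg
  · rw [e2]; exact hg.mul_left _

lemma sum_exp_abs_lt :
    (1 - Real.exp (-2))⁻¹ + Real.exp (-2) * (1 - Real.exp (-2))⁻¹ < 2 := by
  have hr0 : 0 < Real.exp (-2) := Real.exp_pos _
  have hr1 := exp_neg_two_lt
  have hpos : 0 < 1 - Real.exp (-2) := by linarith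
  have : (1 - Real.exp (-2))⁻¹ + Real.exp (-2) * (1 - Real.exp (-2))⁻¹
      = (1 + Real.exp (-2)) / (1 - Real.exp (-2)) := by
    field_simp
  rw [this, div_lt_iff₀ hpos]
  linarith

theorem dominant_contra (f : ℤ → ℂ) (js : ℤ) (M : ℝ) (hM : 0 < M) (h0 : M ≤ ‖f js‖)
    (hb : ∀ j, j ≠ js → ‖f j‖ ≤ M * Real.exp (-2 * |((j - js : ℤ) : ℝ)|))
    (hsum : ∑' j, f j = 0) : False := by
  classical
  -- the comparison series
  set σ : ℝ := (1 - Real.exp (-2))⁻¹ + Real.exp (-2) * (1 - Real.exp (-2))⁻¹ with hσ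
  have hE : HasSum (fun j : ℤ => Real.exp (-2 * |((j - js : ℤ) : ℝ)|)) σ :=
    (Equiv.hasSum_iff (Equiv.subRight js)).2 hasSum_exp_abs
  -- summability of `f`
  have hfs : Summable f := by
    refine Summable.of_norm_bounded (g := fun j : ℤ =>
      (‖f js‖ + M) * Real.exp (-2 * |((j - js : ℤ) : ℝ)|)) (hE.summable.mul_left _) ?_
    intro j
    by_cases hj : j = js
    · subst hj
      simp
      exact hM.le
    · refine (hb j hj).trans ?_
      exact mul_le_mul_of_nonneg_right (by linarith [norm_nonneg (f js)]) (Real.exp_pos _).le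
  have hsplit := hfs.tsum_eq_add_tsum_ite js
  rw [hsum] at hsplit
  -- the rest
  set g : ℤ → ℂ := fun j => if j = js then 0 else f j with hg
  set b : ℤ → ℝ := fun j => if j = js then 0 else M * Real.exp (-2 * |((j - js : ℤ) : ℝ)|) with hbdef
  have hbsum : HasSum b (M * σ - M) := by
    have h1 : HasSum (fun j : ℤ => M * Real.exp (-2 * |((j - js : ℤ) : ℝ)|)) (M * σ) :=
      hE.mul_left M
    have h2 := h1.update js 0
    have h3 : Function.update (fun j : ℤ => M * Real.exp (-2 * |((j - js : ℤ) : ℝ)|)) js 0 = b := by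
      funext j
      by_cases hj : j = js
      · subst hj; simp [hbdef]
      · simp [hbdef, hj]
    rw [h3] at h2
    have e : Real.exp (-2 * |((js - js : ℤ) : ℝ)|) = 1 := by simp
    rw [e] at h2
    have e' : (0 - M * 1 + M * σ) = M * σ - M := by ring
    rw [e'] at h2
    exact h2
  have hgb : ∀ j, ‖g j‖ ≤ b j := by
    intro j
    by_cases hj : j = js
    · simp [hg, hbdef, hj]
    · simp only [hg, hbdef, hj, if_false]
      exact hb j hj
  have hnorm : ‖∑' j, g j‖ ≤ M * σ - M :=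
    tsum_of_norm_bounded hbsum hgb
  have hfj : f js = - ∑' j, g j := by
    have : f js + ∑' j, g j = 0 := hsplit.symm
    exact eq_neg_of_add_eq_zero_left this
  have : ‖f js‖ ≤ M * σ - M := by rw [hfj, norm_neg]; exact hnorm
  have hσ2 : σ < 2 := sum_exp_abs_lt
  nlinarith

end Crest.Agent.S0150Aux.Dom89
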