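import Mathlib

/-! Final step of the key lemma of S0150 (note 427, sect. 2): a series over `ℤ` with one dominant
term (all other terms smaller by `exp (-2 |d|)`) does not sum to zero.  helper91. -/

set_option autoImplicit false

namespace Crest.Agent.S0150Aux.Dom91

theorem exp_neg_two_lt : Real.exp (-2) < 1 / 3 := by
  have h3 : (3 : ℝ) < Real.exp 2 := by
    have := Real.add_one_lt_exp (x := 2) (by norm_num)
    linarith
  rw [Real.exp_neg, one_div]
  exact inv_strictAnti₀ (by norm_num) h3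

theorem exp_eq_pow (d : ℤ) : Real.exp (-2 * |(d : ℝ)|) = Real.exp (-2) ^ d.natAbs := by
  rw [← Real.exp_nat_mul, Nat.cast_natAbs, Int.cast_abs]
  ring_nf

theorem hasSum_G (M r : ℝ) (hr0 : 0 ≤ r) (hr1 : r < 1) :
    HasSum (fun d : ℤ => M * r ^ d.natAbs) (M * (1 - r)⁻¹ + M * (r * (1 - r)⁻¹)) := by
  apply HasSum.of_nat_of_neg_add_one
  · have := (hasSum_geometric_of_lt_one hr0 hr1).mul_left M
    simpa using this
  · have := ((hasSum_geometric_of_lt_one hr0 hr1).mul_left r).mul_left M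
    have hfun : (fun n : ℕ => M * r ^ (-((n : ℤ) + 1)).natAbs) = fun n : ℕ => M * (r * r ^ n) := by
      funext n
      have : (-((n : ℤ) + 1)).natAbs = n + 1 := by
        rw [Int.natAbs_neg]; exact Int.natAbs_natCast (n + 1)
      rw [this, pow_succ']
    rw [hfun]
    exact this

/-- One dominant term: the series over `ℤ` cannot vanish. -/
theorem tsum_ne_zero_of_dominant (f : ℤ → ℂ) (js : ℤ) (M : ℝ) (hM : 0 < M) (h0 : ‖f js‖ = M)
    (hb : ∀ d : ℤ, d ≠ 0 → ‖f (js + d)‖ ≤ M * Real.exp (-2 * |(d : ℝ)|)) :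
    ∑' j, f j ≠ 0 := by
  set r := Real.exp (-2) with hr
  have hr0 : 0 < r := Real.exp_pos _
  have hr3 : r < 1 / 3 := exp_neg_two_lt
  have hr1 : r < 1 := by linarith
  have hG := hasSum_G M r hr0.le hr1
  set F : ℤ → ℂ := fun d => f (js + d) with hF
  have hFG : ∀ d, ‖F d‖ ≤ M * r ^ d.natAbs := by
    intro d
    by_cases hd : d = 0
    · subst hd; simp [hF, h0]
    · have := hb d hd
      rw [exp_eq_pow] at this
      exact this
  have hsumF : Summable F := Summable.of_norm_bounded hG.summable hFG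
  have hshift : ∑' d, F d = ∑' j, f j := (Equiv.addLeft js).tsum_eq f
  rw [← hshift, hsumF.tsum_eq_add_tsum_ite 0]
  intro hzero
  have hg : HasSum (fun d : ℤ => M * r ^ d.natAbs - (if d = 0 then M else 0))
      (M * (1 - r)⁻¹ + M * (r * (1 - r)⁻¹) - M) := hG.sub (hasSum_ite_eq 0 M)
  have hbound : ‖∑' d : ℤ, (if d = 0 then 0 else F d)‖ ≤ M * (1 - r)⁻¹ + M * (r * (1 - r)⁻¹) - M := by
    apply tsum_of_norm_bounded hg
    intro d
    by_cases hd : d = 0
    · subst hd; simp
    · simp only [hd, if_false, sub_zero]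
      exact hFG d
  have hF0 : ‖F 0‖ = M := by simp [hF, h0]
  have heq : F 0 = - ∑' d : ℤ, (if d = 0 then 0 else F d) := eq_neg_of_add_eq_zero_left hzero
  rw [heq, norm_neg] at hF0
  have ht : (1 - r)⁻¹ * (1 + r) < 2 := by
    rw [inv_mul_lt_iff₀ (by linarith)]
    linarith
  nlinarith

end Crest.Agent.S0150Aux.Dom91
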