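import Mathlib
import Crest.Prelude.Def_TwoAdicShift

set_option autoImplicit false
open Crest.AnalysisR.TwoAdic MeasureTheory
attribute [local instance] Crest.AnalysisR.TwoAdic.borelTwoAdic Crest.AnalysisR.TwoAdic.borelSpace_twoAdic

namespace Crest.Agent.S0150Aux.Erg15

instance instProb : IsProbabilityMeasure haarTwoAdic := by
  unfold haarTwoAdic
  constructor
  have := Measure.addHaarMeasure_self (G := ℤ_[2]) (K₀ := ⊤)
  simpa using this

instance instInv : Measure.IsAddLeftInvariant haarTwoAdic := by
  unfold haarTwoAdic; infer_instance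

instance instHaar : Measure.IsAddHaarMeasure haarTwoAdic := by
  unfold haarTwoAdic; infer_instance

theorem measurePreserving_add_one :
    MeasurePreserving (fun x : ℤ_[2] => x + 1) haarTwoAdic haarTwoAdic := by
  have := measurePreserving_add_left haarTwoAdic (1 : ℤ_[2])
  simpa [add_comm] using this

theorem ergodic_add_one : Ergodic (fun x : ℤ_[2] => x + 1) haarTwoAdic := by
  have hd : DenseRange (fun n : ℤ => n • (1 : ℤ_[2])) := by
    have := PadicInt.denseRange_intCast (p := 2)
    simpa using this
  have := ergodic_add_left_of_denseRange_zsmul hd haarTwoAdic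
  simpa [add_comm] using this

/-- Descent lemma (end of sect. 3 of the paper proof, note 427 of row 113): an increasing
`ℤ`-indexed family of measurable sets which the odometer pushes one level down a.e. is
either null at every level or conull at every level. -/
theorem descent (E : ℤ → Set ℤ_[2]) (hm : ∀ c, MeasurableSet (E c))
    (hmono : ∀ c, E c ⊆ E (c + 1))
    (hstep : ∀ᵐ x ∂haarTwoAdic, ∀ c, x ∈ E c → x + 1 ∈ E (c - 1)) :
    (∀ c, haarTwoAdic (E c) = 0) ∨ (∀ c, haarTwoAdic (E c)ᶜ = 0) := by
  have hle : ∀ c, E c ≤ᵐ[haarTwoAdic] (fun x : ℤ_[2] => x + 1) ⁻¹' E (c - 1) := by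
    intro c
    filter_upwards [hstep] with x hx hxc
    exact hx c hxc
  have hsub : ∀ c, E (c - 1) ⊆ E c := by
    intro c
    have := hmono (c - 1)
    simpa using this
  have hmeas : ∀ c, haarTwoAdic (E c) = haarTwoAdic (E (c - 1)) := by
    intro c
    apply le_antisymm
    · calc haarTwoAdic (E c)
          ≤ haarTwoAdic ((fun x : ℤ_[2] => x + 1) ⁻¹' E (c - 1)) := measure_mono_ae (hle c)
        _ = haarTwoAdic (E (c - 1)) :=
          measurePreserving_add_one.measure_preimage (hm _).nullMeasurableSet
    · exact measure_mono (hsub c)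
  have hall : ∀ c, haarTwoAdic (E c) = haarTwoAdic (E 0) := by
    intro c
    induction c using Int.induction_on with
    | zero => rfl
    | succ i ih =>
      rw [hmeas ((i : ℤ) + 1)]
      simpa using ih
    | pred i ih =>
      rw [← ih, hmeas (-(i : ℤ))]
  have hdich : ∀ c, E c =ᵐ[haarTwoAdic] (∅ : Set ℤ_[2]) ∨ E c =ᵐ[haarTwoAdic] Set.univ := by
    intro c
    apply ergodic_add_one.ae_empty_or_univ_of_ae_le_preimage (hm c).nullMeasurableSet
    · refine (hle c).trans ?_
      exact Filter.Eventually.of_forall (fun x hx => hsub c hx)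
  rcases hdich 0 with h | h
  · left
    intro c
    rw [hall c, measure_congr h, measure_empty]
  · right
    intro c
    rcases hdich c with h' | h'
    · exfalso
      have h1 : haarTwoAdic (E c) = 0 := by rw [measure_congr h', measure_empty]
      have h2 : haarTwoAdic (E 0) = 1 := by rw [measure_congr h, measure_univ]
      rw [hall c, h2] at h1
      exact one_ne_zero h1
    · exact ae_eq_univ.1 h'

instance instNeBot : (nhdsWithin (0 : ℤ_[2]) {0}ᶜ).NeBot := by
  have h1 : Filter.Tendsto (fun n : ℕ => (2 : ℤ_[2]) ^ n) Filter.atTop (nhds 0) := by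
    apply tendsto_pow_atTop_nhds_zero_of_norm_lt_one
    have := PadicInt.norm_p (p := 2)
    norm_num at this
    rw [this]
    norm_num
  have h2 : Filter.Tendsto (fun n : ℕ => (2 : ℤ_[2]) ^ n) Filter.atTop
      (nhdsWithin (0 : ℤ_[2]) {0}ᶜ) := by
    refine tendsto_nhdsWithin_iff.2 ⟨h1, Filter.Eventually.of_forall fun n => ?_⟩
    simp
  exact h2.neBot

instance instNoAtoms : NullSingletonClass haarTwoAdic := by
  infer_instance

theorem countable_null {s : Set ℤ_[2]} (hs : s.Countable) : haarTwoAdic s = 0 :=
  hs.measure_zero _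

theorem range_intCast_null : haarTwoAdic (Set.range (Int.cast : ℤ → ℤ_[2])) = 0 :=
  countable_null (Set.countable_range _)

theorem ae_not_int : ∀ᵐ x ∂haarTwoAdic, ∀ n : ℤ, x ≠ (n : ℤ_[2]) := by
  have := range_intCast_null
  rw [measure_eq_zero_iff_ae_notMem] at this
  filter_upwards [this] with x hx n hn
  exact hx ⟨n, hn.symm⟩

end Crest.Agent.S0150Aux.Erg15
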