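import Mathlib
import Crest.Prelude.Def_TwoAdicShift

/-! S0150 board (helper13), tasks T8(a), T8(b), T9 (helper22): operators on `fibreSpace` that act
fibrewise. Part of row 113 (row incomplete). -/

set_option autoImplicit false
open Crest.AnalysisR.TwoAdic MeasureTheory
attribute [local instance] Crest.AnalysisR.TwoAdic.borelTwoAdic Crest.AnalysisR.TwoAdic.borelSpace_twoAdic

namespace Crest.Agent.S0150Aux.Fib22

theorem mp_add (c : ℤ_[2]) :
    MeasurePreserving (fun x : ℤ_[2] => x + c) haarTwoAdic haarTwoAdic := by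
  have : Measure.IsAddLeftInvariant haarTwoAdic := by
    unfold haarTwoAdic; infer_instance
  have := measurePreserving_add_left haarTwoAdic c
  simpa [add_comm] using this

/-- an a.e. property may be shifted by any constant. -/
theorem ae_shift {p : ℤ_[2] → Prop} (c : ℤ_[2]) (h : ∀ᵐ x ∂haarTwoAdic, p x) :
    ∀ᵐ x ∂haarTwoAdic, p (x + c) :=
  (mp_add c).quasiMeasurePreserving.ae h

/-- an a.e. property of `x + c` is an a.e. property. -/
theorem ae_unshift {p : ℤ_[2] → Prop} (c : ℤ_[2]) (h : ∀ᵐ x ∂haarTwoAdic, p (x + c)) :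
    ∀ᵐ x ∂haarTwoAdic, p x := by
  have := ae_shift (p := fun x => p (x + c)) (-c) h
  simpa using this

/-- T8(a). -/
theorem norm_le_of_fibre (T : fibreSpace →L[ℂ] fibreSpace)
    (G : ℤ_[2] → seqHilbert →L[ℂ] seqHilbert) (C : ℝ) (h0 : 0 ≤ C) (hG : ∀ x, ‖G x‖ ≤ C)
    (h : ∀ f : fibreSpace, ∀ᵐ x ∂haarTwoAdic,
      (T f : ℤ_[2] → seqHilbert) x = G x ((f : ℤ_[2] → seqHilbert) x)) : ‖T‖ ≤ C := by
  refine ContinuousLinearMap.opNorm_le_bound T h0 (fun f => ?_)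
  refine Lp.norm_le_mul_norm_of_ae_le_mul ?_
  filter_upwards [h f] with x hx
  rw [hx]
  exact ((G x).le_opNorm _).trans (mul_le_mul_of_nonneg_right (hG x) (norm_nonneg _))

/-- T8(b). -/
theorem pow_fibre (S : fibreSpace →L[ℂ] fibreSpace)
    (Sfib : ℤ_[2] → seqHilbert →L[ℂ] seqHilbert)
    (hS : ∀ f : fibreSpace, ∀ᵐ x ∂haarTwoAdic,
      (S f : ℤ_[2] → seqHilbert) x = Sfib x ((f : ℤ_[2] → seqHilbert) x)) :
    ∀ (n : ℕ) (f : fibreSpace), ∀ᵐ x ∂haarTwoAdic,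
      ((S ^ n) f : ℤ_[2] → seqHilbert) x = (Sfib x ^ n) ((f : ℤ_[2] → seqHilbert) x) := by
  intro n
  induction n with
  | zero => intro f; exact Filter.Eventually.of_forall (fun x => by simp)
  | succ n ih =>
    intro f
    filter_upwards [ih (S f), hS f] with x h1 h2
    have e1 : (S ^ (n + 1)) f = (S ^ n) (S f) := by
      rw [pow_succ]; rfl
    have e2 : (Sfib x ^ (n + 1)) ((f : ℤ_[2] → seqHilbert) x)
        = (Sfib x ^ n) (Sfib x ((f : ℤ_[2] → seqHilbert) x)) := by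
      rw [pow_succ]; rfl
    rw [e1, e2, h1, h2]

/-- T9. -/
theorem comm_of_fibre (S V : fibreSpace →L[ℂ] fibreSpace)
    (Sfib Vfib : ℤ_[2] → seqHilbert →L[ℂ] seqHilbert)
    (hS : ∀ f : fibreSpace, ∀ᵐ x ∂haarTwoAdic,
      (S f : ℤ_[2] → seqHilbert) x = Sfib x ((f : ℤ_[2] → seqHilbert) x))
    (hV : ∀ f : fibreSpace, ∀ᵐ x ∂haarTwoAdic,
      (V f : ℤ_[2] → seqHilbert) (x + 1) = Vfib x ((f : ℤ_[2] → seqHilbert) x))
    (hfib : ∀ x v, Vfib x (Sfib x v) = Sfib (x + 1) (Vfib x v)) : V * S = S * V := by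
  ext1 f
  show V (S f) = S (V f)
  refine Lp.ext ?_
  refine ae_unshift (p := fun y => (V (S f) : ℤ_[2] → seqHilbert) y
    = (S (V f) : ℤ_[2] → seqHilbert) y) 1 ?_
  filter_upwards [hV (S f), hS f, hV f, ae_shift 1 (hS (V f))] with x h1 h2 h3 h4
  rw [h1, h2, hfib, h4, h3]

end Crest.Agent.S0150Aux.Fib22
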