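import Mathlib
import Crest.Prelude.Def_TwoAdicShift

/-!
Wrapper for S0150 (helper61): for a bilateral weighted shift on `ℓ²(ℤ)` the closed invariant
subspaces are exactly `⊥`, `⊤` and the tails, GIVEN the sequence form of the key lemma
(helper13's note 427, sect. 2; helper36's `key`) as a hypothesis.
-/

set_option autoImplicit false
open Crest.AnalysisR.TwoAdic
open scoped InnerProductSpace ComplexConjugate

namespace Crest.Agent.S0150Aux.Lat61

theorem inner_basisVec (j : ℤ) (v : seqHilbert) : ⟪basisVec j, v⟫_ℂ = v j := by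
  unfold basisVec
  rw [lp.inner_single_left]
  simp

theorem basisVec_apply (i j : ℤ) : basisVec i j = if j = i then 1 else 0 := by
  simp [basisVec, Pi.single_apply]

theorem single_eq_smul (i : ℤ) (a : ℂ) : (lp.single 2 i a : seqHilbert) = a • basisVec i := by
  ext j
  by_cases h : j = i
  · subst h; simp [basisVec]
  · simp [basisVec, h]

theorem continuous_coord (j : ℤ) : Continuous fun v : seqHilbert => v j := by
  have : (fun v : seqHilbert => v j) = fun v => ⟪basisVec j, v⟫_ℂ := by
    funext v; rw [inner_basisVec]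
  rw [this]
  exact continuous_const.inner continuous_id

theorem hasSum_coord {f : ℤ → seqHilbert} {v : seqHilbert} (h : HasSum f v) (j : ℤ) :
    HasSum (fun i => f i j) (v j) := by
  have := (innerSL ℂ (basisVec j)).hasSum h
  simpa [innerSL_apply_apply, inner_basisVec] using this

theorem hasSum_basis (v : seqHilbert) : HasSum (fun i : ℤ => v i • basisVec i) v := by
  have h1 : HasSum (fun i : ℤ => (lp.single 2 i (v i) : seqHilbert)) v :=
    lp.hasSum_single (by simp) v
  simpa [single_eq_smul] using h1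

/-- a closed submodule containing the relevant basis vectors contains `v`. -/
theorem mem_of_basis {W : Submodule ℂ seqHilbert} (hW : IsClosed (W : Set seqHilbert))
    (v : seqHilbert) (h : ∀ i, v i ≠ 0 → basisVec i ∈ W) : v ∈ W := by
  have hs := hasSum_basis v
  refine hW.mem_of_tendsto hs (Filter.Eventually.of_forall fun s => ?_)
  refine W.sum_mem fun i _ => ?_
  by_cases h0 : v i = 0
  · simp [h0]
  · exact W.smul_mem _ (h i h0)

theorem mem_tailSpace_iff (h : ℤ) (v : seqHilbert) : v ∈ tailSpace h ↔ ∀ j < h, v j = 0 := by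
  constructor
  · intro hv
    let Z : Submodule ℂ seqHilbert :=
      { carrier := {v | ∀ j < h, v j = 0}
        add_mem' := by
          intro a b ha hb j hj
          simp [ha j hj, hb j hj]
        zero_mem' := by intro j _; simp
        smul_mem' := by
          intro c a ha j hj
          simp [ha j hj] }
    have hZ : IsClosed (Z : Set seqHilbert) := by
      have : (Z : Set seqHilbert) = ⋂ j : {j : ℤ // j < h}, {v | v (j : ℤ) = 0} := by
        ext v; simp only [Set.mem_iInter, Subtype.forall, Set.mem_ofPred_eq]; exact Iff.rfl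
      rw [this]
      exact isClosed_iInter fun j => isClosed_eq (continuous_coord _) continuous_const
    have hle : tailSpace h ≤ Z := by
      apply Submodule.topologicalClosure_minimal _ _ hZ
      rw [Submodule.span_le]
      rintro _ ⟨⟨i, hi⟩, rfl⟩ j hj
      simp only [basisVec_apply]
      rw [if_neg]; omega
    exact hle hv
  · intro hv
    apply mem_of_basis (Submodule.isClosed_topologicalClosure _)
    intro i hi
    apply Submodule.le_topologicalClosure
    apply Submodule.subset_span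
    refine ⟨⟨i, ?_⟩, rfl⟩
    by_contra hlt
    exact hi (hv i (by omega))

theorem basisVec_mem_tail (h i : ℤ) (hi : h ≤ i) : basisVec i ∈ tailSpace h := by
  rw [mem_tailSpace_iff]
  intro j hj
  rw [basisVec_apply, if_neg]; omega

section shift

variable {al A : ℤ → ℝ} {Sx : seqHilbert →L[ℂ] seqHilbert}

theorem S_apply (hS : ∀ j, Sx (basisVec j) = (Real.exp (-al j) : ℂ) • basisVec (j + 1))
    (v : seqHilbert) (j : ℤ) : (Sx v) (j + 1) = (Real.exp (-al j) : ℂ) * v j := by
  have h2 : HasSum (fun i : ℤ => Sx (v i • basisVec i)) (Sx v) := Sx.hasSum (hasSum_basis v)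
  have h3 := hasSum_coord h2 (j + 1)
  have h4 : (fun i : ℤ => (Sx (v i • basisVec i)) (j + 1)) =
      fun i => if i = j then (Real.exp (-al j) : ℂ) * v j else 0 := by
    funext i
    rw [map_smul, hS]
    by_cases hij : i = j
    · subst hij; simp [basisVec_apply]; ring
    · have : ¬ (j + 1 = i + 1) := by omega
      simp [basisVec_apply, hij, this]
  rw [h4] at h3
  exact h3.unique (hasSum_ite_eq j _)

theorem pow_apply (hA : ∀ j, A (j + 1) = A j + al j)
    (hS : ∀ j, Sx (basisVec j) = (Real.exp (-al j) : ℂ) • basisVec (j + 1))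
    (v : seqHilbert) (n : ℕ) (j : ℤ) :
    ((Sx ^ n) v) (j + n) = (Real.exp (A j - A (j + n)) : ℂ) * v j := by
  induction n with
  | zero => simp
  | succ n ih =>
    have e0 : (Sx ^ (n + 1)) v = Sx ((Sx ^ n) v) := by rw [pow_succ']; rfl
    rw [e0]
    have e : j + ((n + 1 : ℕ) : ℤ) = (j + n) + 1 := by push_cast; ring
    rw [e, S_apply hS, ih, hA (j + n), ← mul_assoc, ← Complex.ofReal_mul, ← Real.exp_add]
    congr 3
    ring

end shift

theorem tail_anti {s s' : ℤ} (h : s ≤ s') : tailSpace s' ≤ tailSpace s := by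
  intro v hv
  rw [mem_tailSpace_iff] at hv ⊢
  intro j hj
  exact hv j (by omega)

section main

variable (al A : ℤ → ℝ) (hA : ∀ j, A (j + 1) = A j + al j)
  (Sx : seqHilbert →L[ℂ] seqHilbert)
  (hS : ∀ j, Sx (basisVec j) = (Real.exp (-al j) : ℂ) • basisVec (j + 1))
  (key : ∀ w u : ℤ → ℂ, (∀ j, ‖w j‖ ≤ 1) → (∀ j, ‖u j‖ ≤ 1) →
    (∀ n : ℕ, 1 ≤ n →
      ∑' j : ℤ, w j * conj (u (j + n)) * (Real.exp (A j - A (j + n)) : ℂ) = 0) →
    ∀ j0 k0 : ℤ, j0 < k0 → w j0 ≠ 0 → u k0 ≠ 0 → False)

include hA hS key in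
theorem comparable (W : Submodule ℂ seqHilbert) (hW : IsClosed (W : Set seqHilbert))
    (hinv : ∀ v ∈ W, Sx v ∈ W) (s : ℤ) : W ≤ tailSpace s ∨ tailSpace s ≤ W := by
  by_contra hcon
  push Not at hcon
  obtain ⟨h1, h2⟩ := hcon
  obtain ⟨w, hwW, hw⟩ := SetLike.not_le_iff_exists.1 h1
  obtain ⟨t, htT, ht⟩ := SetLike.not_le_iff_exists.1 h2
  rw [mem_tailSpace_iff] at hw htT
  push Not at hw
  obtain ⟨j0, hj0, hwj0⟩ := hw
  have : CompleteSpace W := hW.completeSpace_coe
  have hperp : ∃ u ∈ Wᗮ, ⟪u, t⟫_ℂ ≠ 0 := by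
    by_contra hno
    push Not at hno
    apply ht
    rw [← Submodule.orthogonal_orthogonal W, Submodule.mem_orthogonal]
    exact hno
  obtain ⟨u, huW, hut⟩ := hperp
  have hk : ∃ k0, s ≤ k0 ∧ u k0 ≠ 0 := by
    by_contra hno
    push Not at hno
    apply hut
    rw [lp.inner_eq_tsum]
    have : (fun i : ℤ => ⟪u i, t i⟫_ℂ) = fun _ => 0 := by
      funext i
      by_cases hi : i < s
      · simp [htT i hi]
      · simp [hno i (by omega)]
    rw [this]; simp
  obtain ⟨k0, hk0, huk0⟩ := hk
  have hpowW : ∀ n : ℕ, (Sx ^ n) w ∈ W := by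
    intro n
    induction n with
    | zero => simpa using hwW
    | succ n ih =>
      have e0 : (Sx ^ (n + 1)) w = Sx ((Sx ^ n) w) := by rw [pow_succ']; rfl
      rw [e0]
      exact hinv _ ih
  have hw0 : w ≠ 0 := by
    intro h0; apply hwj0; rw [h0]; rfl
  have hu0 : u ≠ 0 := by
    intro h0; apply huk0; rw [h0]; rfl
  have hwn : 0 < ‖w‖ := norm_pos_iff.2 hw0
  have hun : 0 < ‖u‖ := norm_pos_iff.2 hu0
  refine key (fun j => ((‖w‖⁻¹ : ℝ) : ℂ) * w j) (fun j => ((‖u‖⁻¹ : ℝ) : ℂ) * u j) ?_ ?_ ?_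
    j0 k0 (by omega) ?_ ?_
  · intro j
    rw [norm_mul, Complex.norm_real, norm_inv, norm_norm, inv_mul_le_iff₀ hwn, mul_one]
    exact lp.norm_apply_le_norm (by simp) w j
  · intro j
    rw [norm_mul, Complex.norm_real, norm_inv, norm_norm, inv_mul_le_iff₀ hun, mul_one]
    exact lp.norm_apply_le_norm (by simp) u j
  · intro n _
    have h0 : ⟪u, (Sx ^ n) w⟫_ℂ = 0 := (Submodule.mem_orthogonal' _ _).1 huW _ (hpowW n)
    rw [lp.inner_eq_tsum] at h0
    have h1 : ∑' j : ℤ, ⟪u (j + n), ((Sx ^ n) w) (j + n)⟫_ℂ = 0 := by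
      rw [← h0]
      exact (Equiv.addRight (n : ℤ)).tsum_eq (fun i : ℤ => ⟪u i, ((Sx ^ n) w) i⟫_ℂ)
    have h2 : (fun j : ℤ => ((‖w‖⁻¹ : ℝ) : ℂ) * w j * conj (((‖u‖⁻¹ : ℝ) : ℂ) * u (j + n)) *
        (Real.exp (A j - A (j + n)) : ℂ)) =
        fun j => (((‖w‖⁻¹ : ℝ) : ℂ) * ((‖u‖⁻¹ : ℝ) : ℂ)) * ⟪u (j + n), ((Sx ^ n) w) (j + n)⟫_ℂ := by
      funext j
      rw [pow_apply hA hS]
      simp only [map_mul, Complex.conj_ofReal, RCLike.inner_apply]
      ring
    rw [h2, tsum_mul_left, h1, mul_zero]
  · simp only [ne_eq, mul_eq_zero, not_or]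
    exact ⟨by simpa using hw0, hwj0⟩
  · simp only [ne_eq, mul_eq_zero, not_or]
    exact ⟨by simpa using hu0, huk0⟩

include hA hS key in
theorem lat_iff (W : Submodule ℂ seqHilbert) (hW : IsClosed (W : Set seqHilbert)) :
    (∀ v ∈ W, Sx v ∈ W) ↔ (W = ⊥ ∨ W = ⊤ ∨ ∃ h : ℤ, W = tailSpace h) := by
  constructor
  · intro hinv
    have hcmp := comparable al A hA Sx hS key W hW hinv
    by_cases hall : ∀ s, W ≤ tailSpace s
    · left
      rw [eq_bot_iff]
      intro v hv
      rw [Submodule.mem_bot]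
      ext j
      have := (mem_tailSpace_iff (j + 1) v).1 (hall (j + 1) hv) j (by omega)
      simpa using this
    push Not at hall
    obtain ⟨s2, hs2⟩ := hall
    by_cases hnone : ∀ s, ¬ W ≤ tailSpace s
    · right; left
      rw [eq_top_iff]
      intro v _
      apply mem_of_basis hW
      intro i _
      exact ((hcmp i).resolve_left (hnone i)) (basisVec_mem_tail i i le_rfl)
    push Not at hnone
    obtain ⟨s1, hs1⟩ := hnone
    right; right
    obtain ⟨m, hm, hmax⟩ := Int.exists_greatest_of_bdd (P := fun s => W ≤ tailSpace s)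
      ⟨s2, fun z hz => by
        by_contra hlt
        exact hs2 (hz.trans (tail_anti (by omega)))⟩ ⟨s1, hs1⟩
    refine ⟨m, le_antisymm hm ?_⟩
    have hnot : ¬ W ≤ tailSpace (m + 1) := fun h => by
      have := hmax (m + 1) h; omega
    have hsub : tailSpace (m + 1) ≤ W := (hcmp (m + 1)).resolve_left hnot
    obtain ⟨w, hwW, hw⟩ := SetLike.not_le_iff_exists.1 hnot
    rw [mem_tailSpace_iff] at hw
    push Not at hw
    obtain ⟨j, hj, hwj⟩ := hw
    have hjm : j = m := by
      by_contra hne
      exact hwj ((mem_tailSpace_iff m w).1 (hm hwW) j (by omega))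
    subst hjm
    intro v hv
    have hdiff : v - (v j / w j) • w ∈ tailSpace (j + 1) := by
      rw [mem_tailSpace_iff]
      intro i hi
      by_cases hij : i = j
      · subst hij
        rw [lp.coeFn_sub, lp.coeFn_smul, Pi.sub_apply, Pi.smul_apply, smul_eq_mul,
          div_mul_cancel₀ _ hwj, sub_self]
      · have h1 := (mem_tailSpace_iff j v).1 hv i (by omega)
        have h2 := (mem_tailSpace_iff j w).1 (hm hwW) i (by omega)
        rw [lp.coeFn_sub, lp.coeFn_smul, Pi.sub_apply, Pi.smul_apply, smul_eq_mul, h1, h2]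
        simp
    have := W.add_mem (hsub hdiff) (W.smul_mem (v j / w j) hwW)
    simpa using this
  · rintro (h | h | ⟨h, hh⟩)
    · subst h
      intro v hv
      rw [Submodule.mem_bot] at hv
      simp [hv]
    · subst h
      intro v _
      exact Submodule.mem_top
    · subst hh
      intro v hv
      rw [mem_tailSpace_iff] at hv ⊢
      intro j hj
      have := S_apply hS v (j - 1)
      rw [sub_add_cancel] at this
      rw [this, hv (j - 1) (by omega), mul_zero]

end main

end Crest.Agent.S0150Aux.Lat61
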