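import Mathlib
import Crest.Prelude.Def_TwoAdicShift
import Crest.Agent.S0150Aux.Lat61

/-!
Fibre operators for S0150 (helper61): bounded weighted translations `δ_j ↦ c_j δ_{j+k}` on `ℓ²(ℤ)`,
their coordinates and norm bound, and the density statements for a backward weighted shift with
positive weights.
-/

set_option autoImplicit false
open Crest.AnalysisR.TwoAdic
open scoped InnerProductSpace ComplexConjugate ENNReal

namespace Crest.Agent.S0150Aux.Fib61

open Crest.Agent.S0150Aux.Lat61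

/-- coordinates of the weighted translation. -/
noncomputable def wfun (c : ℤ → ℝ) (k : ℤ) (v : ℤ → ℂ) : ℤ → ℂ :=
  fun i => (c (i - k) : ℂ) * v (i - k)

theorem wfun_norm_sq_le {c : ℤ → ℝ} {M : ℝ} (hc : ∀ j, |c j| ≤ M) (k : ℤ) (v : ℤ → ℂ) (i : ℤ) :
    ‖wfun c k v i‖ ^ (2 : ℝ≥0∞).toReal ≤ M ^ 2 * ‖v (i - k)‖ ^ (2 : ℝ≥0∞).toReal := by
  have h2 : (2 : ℝ≥0∞).toReal = ((2 : ℕ) : ℝ) := by simp
  rw [h2, Real.rpow_natCast, Real.rpow_natCast, wfun, norm_mul, Complex.norm_real, mul_pow,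
    Real.norm_eq_abs]
  have h0 : 0 ≤ |c (i - k)| := abs_nonneg _
  have : |c (i - k)| ^ 2 ≤ M ^ 2 := by
    have := hc (i - k); nlinarith
  exact mul_le_mul_of_nonneg_right this (by positivity)

theorem summable_shift (k : ℤ) (v : seqHilbert) :
    Summable fun i : ℤ => ‖v (i - k)‖ ^ (2 : ℝ≥0∞).toReal := by
  have hv : Summable fun i : ℤ => ‖v i‖ ^ (2 : ℝ≥0∞).toReal :=
    (lp.memℓp v).summable (by simp)
  exact (Equiv.subRight k).summable_iff.2 hv

theorem wfun_memℓp {c : ℤ → ℝ} {M : ℝ} (hc : ∀ j, |c j| ≤ M) (k : ℤ) (v : seqHilbert) :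
    Memℓp (wfun c k v) 2 := by
  rw [memℓp_gen_iff (by simp)]
  exact Summable.of_nonneg_of_le (fun i => by positivity) (fun i => wfun_norm_sq_le hc k v i)
    ((summable_shift k v).mul_left _)

/-- the weighted translation as a linear map. -/
noncomputable def wshiftLin (c : ℤ → ℝ) (M : ℝ) (hc : ∀ j, |c j| ≤ M) (k : ℤ) :
    seqHilbert →ₗ[ℂ] seqHilbert where
  toFun v := ⟨wfun c k v, wfun_memℓp hc k v⟩
  map_add' := by
    intro a b; ext i
    show wfun c k (a + b) i = wfun c k a i + wfun c k b i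
    simp [wfun, mul_add]
  map_smul' := by
    intro r a; ext i
    show wfun c k (r • a) i = r * wfun c k a i
    simp [wfun]; ring

theorem wshiftLin_bound (c : ℤ → ℝ) (M : ℝ) (hc : ∀ j, |c j| ≤ M) (k : ℤ) (v : seqHilbert) :
    ‖wshiftLin c M hc k v‖ ≤ M * ‖v‖ := by
  have hM : 0 ≤ M := (abs_nonneg _).trans (hc 0)
  have hp : 0 < (2 : ℝ≥0∞).toReal := by simp
  apply lp.norm_le_of_tsum_le hp (by positivity)
  have h1 : ∑' i : ℤ, ‖(wshiftLin c M hc k v) i‖ ^ (2 : ℝ≥0∞).toReal ≤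
      ∑' i : ℤ, M ^ 2 * ‖v (i - k)‖ ^ (2 : ℝ≥0∞).toReal := by
    apply Summable.tsum_le_tsum (fun i => wfun_norm_sq_le hc k v i)
    · exact (wfun_memℓp hc k v).summable hp
    · exact (summable_shift k v).mul_left _
  refine h1.trans (le_of_eq ?_)
  rw [tsum_mul_left]
  have h2 : ∑' i : ℤ, ‖v (i - k)‖ ^ (2 : ℝ≥0∞).toReal = ∑' i : ℤ, ‖v i‖ ^ (2 : ℝ≥0∞).toReal :=
    (Equiv.subRight k).tsum_eq (fun i : ℤ => ‖v i‖ ^ (2 : ℝ≥0∞).toReal)
  rw [h2, ← lp.norm_rpow_eq_tsum hp v]
  have h3 : (2 : ℝ≥0∞).toReal = ((2 : ℕ) : ℝ) := by simp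
  rw [h3, Real.rpow_natCast, Real.rpow_natCast]
  ring

/-- the weighted translation `δ_j ↦ c_j δ_{j+k}` as a bounded operator. -/
noncomputable def wshift (c : ℤ → ℝ) (M : ℝ) (hc : ∀ j, |c j| ≤ M) (k : ℤ) :
    seqHilbert →L[ℂ] seqHilbert :=
  (wshiftLin c M hc k).mkContinuous M (wshiftLin_bound c M hc k)

theorem wshift_apply (c : ℤ → ℝ) (M : ℝ) (hc : ∀ j, |c j| ≤ M) (k : ℤ) (v : seqHilbert) (i : ℤ) :
    (wshift c M hc k v) i = (c (i - k) : ℂ) * v (i - k) := rfl

theorem wshift_norm_le (c : ℤ → ℝ) (M : ℝ) (hc : ∀ j, |c j| ≤ M) (k : ℤ) :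
    ‖wshift c M hc k‖ ≤ M :=
  LinearMap.mkContinuous_norm_le _ ((abs_nonneg _).trans (hc 0)) _

theorem wshift_le (c : ℤ → ℝ) (M : ℝ) (hc : ∀ j, |c j| ≤ M) (k : ℤ) (v : seqHilbert) :
    ‖wshift c M hc k v‖ ≤ M * ‖v‖ := wshiftLin_bound c M hc k v

theorem wshift_basis (c : ℤ → ℝ) (M : ℝ) (hc : ∀ j, |c j| ≤ M) (k j : ℤ) :
    wshift c M hc k (basisVec j) = (c j : ℂ) • basisVec (j + k) := by
  ext i
  rw [wshift_apply, lp.coeFn_smul, Pi.smul_apply, smul_eq_mul, basisVec_apply, basisVec_apply]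
  by_cases h : i = j + k
  · subst h; simp
  · have : ¬ (i - k = j) := by omega
    simp [h, this]

/-- coordinates of ANY bounded operator acting as a weighted translation on the basis. -/
theorem coord_apply {T : seqHilbert →L[ℂ] seqHilbert} {c : ℤ → ℂ} {k : ℤ}
    (hT : ∀ j, T (basisVec j) = c j • basisVec (j + k)) (v : seqHilbert) (j : ℤ) :
    (T v) (j + k) = c j * v j := by
  have h2 : HasSum (fun i : ℤ => T (v i • basisVec i)) (T v) := T.hasSum (hasSum_basis v)
  have h3 := hasSum_coord h2 (j + k)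
  have h4 : (fun i : ℤ => (T (v i • basisVec i)) (j + k)) =
      fun i => if i = j then c j * v j else 0 := by
    funext i
    rw [map_smul, hT]
    by_cases hij : i = j
    · subst hij; simp [basisVec_apply]; ring
    · have : ¬ (j + k = i + k) := by omega
      simp [basisVec_apply, hij, this]
  rw [h4] at h3
  exact h3.unique (hasSum_ite_eq j _)

section backward

variable {Vx : seqHilbert →L[ℂ] seqHilbert} {b : ℤ → ℝ}

theorem closure_image_tail (hV : ∀ j, Vx (basisVec j) = (b j : ℂ) • basisVec (j - 1))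
    (hb : ∀ j, 0 < b j) (h : ℤ) :
    closure (Vx '' (tailSpace h : Set seqHilbert)) = (tailSpace (h - 1) : Set seqHilbert) := by
  have hV' : ∀ j, Vx (basisVec j) = (fun j => (b j : ℂ)) j • basisVec (j + (-1)) := hV
  apply Set.Subset.antisymm
  · have hcl : IsClosed (tailSpace (h - 1) : Set seqHilbert) :=
      Submodule.isClosed_topologicalClosure _
    apply closure_minimal _ hcl
    rintro _ ⟨v, hv, rfl⟩
    rw [SetLike.mem_coe, mem_tailSpace_iff] at hv ⊢
    intro j hj
    have := coord_apply hV' v (j + 1)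
    rw [show j + 1 + -1 = j by ring] at this
    rw [this, hv (j + 1) (by omega), mul_zero]
  · intro v hv
    rw [SetLike.mem_coe, mem_tailSpace_iff] at hv
    have hZ : v ∈ ((tailSpace h).map (Vx : seqHilbert →ₗ[ℂ] seqHilbert)).topologicalClosure := by
      apply mem_of_basis (Submodule.isClosed_topologicalClosure _)
      intro i hi
      apply Submodule.le_topologicalClosure
      refine ⟨((b (i + 1) : ℂ))⁻¹ • basisVec (i + 1), ?_, ?_⟩
      · apply Submodule.smul_mem
        apply basisVec_mem_tail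
        by_contra hlt
        exact hi (hv i (by omega))
      · have hne : (b (i + 1) : ℂ) ≠ 0 := by exact_mod_cast (hb (i + 1)).ne'
        simp only [ContinuousLinearMap.coe_coe, map_smul, hV, smul_smul, inv_mul_cancel₀ hne,
          one_smul]
        congr 1; ring
    exact hZ

theorem closure_range (hV : ∀ j, Vx (basisVec j) = (b j : ℂ) • basisVec (j - 1))
    (hb : ∀ j, 0 < b j) : closure (Set.range Vx) = Set.univ := by
  rw [Set.eq_univ_iff_forall]
  intro v
  have hZ : v ∈ (LinearMap.range (Vx : seqHilbert →ₗ[ℂ] seqHilbert)).topologicalClosure := by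
    apply mem_of_basis (Submodule.isClosed_topologicalClosure _)
    intro i _
    apply Submodule.le_topologicalClosure
    refine ⟨((b (i + 1) : ℂ))⁻¹ • basisVec (i + 1), ?_⟩
    have hne : (b (i + 1) : ℂ) ≠ 0 := by exact_mod_cast (hb (i + 1)).ne'
    simp only [ContinuousLinearMap.coe_coe, map_smul, hV, smul_smul, inv_mul_cancel₀ hne,
      one_smul]
    congr 1; ring
  exact hZ

end backward

end Crest.Agent.S0150Aux.Fib61
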