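import Mathlib
import Crest.Prelude.Def_TwoAdicShift

/-!
helper62: lifting a bounded, (strongly) measurable field of operators on `ℓ²(ℤ)` to a bounded operator on
`fibreSpace = L²(ℤ₂; ℓ²(ℤ))`, with or without the odometer translation.  Independent of the weights.
-/

namespace Crest.Agent.S0150Aux.Lift62

open Filter Topology MeasureTheory Crest.AnalysisR.TwoAdic
open scoped ENNReal
attribute [local instance] Crest.AnalysisR.TwoAdic.borelTwoAdic
  Crest.AnalysisR.TwoAdic.borelSpace_twoAdic

theorem hasSum_basis (v : seqHilbert) : HasSum (fun i : ℤ => (v i) • basisVec i) v := by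
  have h := lp.hasSum_single (p := 2) (E := fun _ : ℤ => ℂ) (by norm_num) v
  have h2 : (fun i : ℤ => (v i) • basisVec i) = fun i : ℤ => lp.single 2 i (v i) := by
    funext i
    unfold basisVec
    rw [← lp.single_smul]
    simp
  rw [h2]; exact h

theorem continuous_coord (j : ℤ) : Continuous (fun v : seqHilbert => v j) := by
  have : (fun v : seqHilbert => v j) = fun v : seqHilbert => inner ℂ (basisVec j) v := by
    funext v
    unfold basisVec
    rw [lp.inner_single_left]
    simp
  rw [this]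
  exact continuous_const.inner continuous_id

instance isAddLeftInvariant_haar : Measure.IsAddLeftInvariant haarTwoAdic := by
  unfold haarTwoAdic; infer_instance

instance isFiniteMeasure_haar : IsFiniteMeasure haarTwoAdic := by
  unfold haarTwoAdic; infer_instance

theorem stronglyMeasurable_field (T : ℤ_[2] → (seqHilbert →L[ℂ] seqHilbert))
    (hmeas : ∀ j, StronglyMeasurable (fun x => T x (basisVec j)))
    (f : ℤ_[2] → seqHilbert) (hf : StronglyMeasurable f) :
    StronglyMeasurable (fun x => T x (f x)) := by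
  have hcoord : ∀ j, StronglyMeasurable (fun x => (f x) j) := fun j =>
    (continuous_coord j).comp_stronglyMeasurable hf
  refine stronglyMeasurable_of_tendsto (atTop : Filter (Finset ℤ))
    (f := fun (s : Finset ℤ) x => ∑ j ∈ s, ((f x) j) • T x (basisVec j)) (fun s => ?_) ?_
  · exact Finset.stronglyMeasurable_fun_sum s (fun j _ => (hcoord j).smul (hmeas j))
  · rw [tendsto_pi_nhds]
    intro x
    have h := (T x).hasSum (hasSum_basis (f x))
    simp only [map_smul] at h
    exact h

theorem exists_lift62 (T : ℤ_[2] → (seqHilbert →L[ℂ] seqHilbert)) (C : ℝ)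
    (hC : ∀ x, ‖T x‖ ≤ C)
    (hmeas : ∀ j, StronglyMeasurable (fun x => T x (basisVec j))) :
    ∃ TT : fibreSpace →L[ℂ] fibreSpace,
      (∀ f : fibreSpace, ∀ᵐ x ∂haarTwoAdic,
        (TT f : ℤ_[2] → seqHilbert) x = T x ((f : ℤ_[2] → seqHilbert) x)) ∧ ‖TT‖ ≤ C := by
  have hC0 : 0 ≤ C := (norm_nonneg _).trans (hC 0)
  have hmem : ∀ f : fibreSpace,
      MemLp (fun x => T x ((f : ℤ_[2] → seqHilbert) x)) 2 haarTwoAdic := by
    intro f
    refine MemLp.of_le_mul (c := C) (Lp.memLp f)
      (stronglyMeasurable_field T hmeas _ (Lp.stronglyMeasurable f)).aestronglyMeasurable ?_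
    filter_upwards with x
    exact ((T x).le_opNorm _).trans (mul_le_mul_of_nonneg_right (hC x) (norm_nonneg _))
  let L : fibreSpace →ₗ[ℂ] fibreSpace :=
    { toFun := fun f => (hmem f).toLp _
      map_add' := by
        intro f₁ f₂
        apply Lp.ext
        filter_upwards [(hmem (f₁ + f₂)).coeFn_toLp, (hmem f₁).coeFn_toLp, (hmem f₂).coeFn_toLp,
          Lp.coeFn_add f₁ f₂, Lp.coeFn_add ((hmem f₁).toLp _) ((hmem f₂).toLp _)]
          with x h1 h2 h3 h4 h5
        rw [h1, h5, Pi.add_apply, h2, h3, h4, Pi.add_apply, map_add]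
      map_smul' := by
        intro a f
        apply Lp.ext
        filter_upwards [(hmem (a • f)).coeFn_toLp, (hmem f).coeFn_toLp,
          Lp.coeFn_smul a f, Lp.coeFn_smul a ((hmem f).toLp _)]
          with x h1 h2 h3 h4
        rw [h1, RingHom.id_apply, h4, Pi.smul_apply, h2, h3, Pi.smul_apply, map_smul] }
  have hbound : ∀ f, ‖L f‖ ≤ C * ‖f‖ := by
    intro f
    apply Lp.norm_le_mul_norm_of_ae_le_mul
    filter_upwards [(hmem f).coeFn_toLp] with x h1
    have : (L f : ℤ_[2] → seqHilbert) x = T x ((f : ℤ_[2] → seqHilbert) x) := h1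
    rw [this]
    exact ((T x).le_opNorm _).trans (mul_le_mul_of_nonneg_right (hC x) (norm_nonneg _))
  refine ⟨L.mkContinuous C hbound, fun f => (hmem f).coeFn_toLp, ?_⟩
  exact LinearMap.mkContinuous_norm_le _ hC0 _

theorem measurePreserving_add_one :
    MeasurePreserving (fun x : ℤ_[2] => x + 1) haarTwoAdic haarTwoAdic := by
  have h := measurePreserving_add_left haarTwoAdic (1 : ℤ_[2])
  have h2 : (fun x : ℤ_[2] => x + 1) = fun x => 1 + x := by funext x; ring
  rw [h2]; exact h

theorem exists_lift_shift62 (T : ℤ_[2] → (seqHilbert →L[ℂ] seqHilbert)) (C : ℝ)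
    (hC : ∀ x, ‖T x‖ ≤ C)
    (hmeas : ∀ j, StronglyMeasurable (fun x => T x (basisVec j))) :
    ∃ VV : fibreSpace →L[ℂ] fibreSpace,
      (∀ f : fibreSpace, ∀ᵐ x ∂haarTwoAdic,
        (VV f : ℤ_[2] → seqHilbert) (x + 1) = T x ((f : ℤ_[2] → seqHilbert) x)) ∧ ‖VV‖ ≤ C := by
  obtain ⟨TT, hTT, hTTn⟩ := exists_lift62 T C hC hmeas
  have hτ : MeasurePreserving (fun x : ℤ_[2] => (-1) + x) haarTwoAdic haarTwoAdic :=
    measurePreserving_add_left haarTwoAdic (-1 : ℤ_[2])
  let R : fibreSpace →L[ℂ] fibreSpace :=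
    (Lp.compMeasurePreservingₗᵢ ℂ (fun x : ℤ_[2] => (-1) + x) hτ).toContinuousLinearMap
  refine ⟨R ∘L TT, fun f => ?_, ?_⟩
  · have h1 : ∀ᵐ y ∂haarTwoAdic, ((R ∘L TT) f : ℤ_[2] → seqHilbert) y
        = (TT f : ℤ_[2] → seqHilbert) ((-1) + y) :=
      Lp.coeFn_compMeasurePreserving (TT f) hτ
    have h2 := measurePreserving_add_one.quasiMeasurePreserving.ae h1
    filter_upwards [h2, hTT f] with x h3 h4
    rw [h3, neg_add_cancel_comm_assoc, h4]
  · refine ContinuousLinearMap.opNorm_le_bound _ ((norm_nonneg _).trans (hC 0)) fun f => ?_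
    have : ‖(R ∘L TT) f‖ = ‖TT f‖ :=
      (Lp.compMeasurePreservingₗᵢ ℂ (fun x : ℤ_[2] => (-1) + x) hτ).norm_map (TT f)
    rw [this]
    exact (TT.le_opNorm f).trans (mul_le_mul_of_nonneg_right hTTn (norm_nonneg _))

end Crest.Agent.S0150Aux.Lift62
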