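import Mathlib
import Crest.Prelude.Def_TwoAdicShift
import Crest.Agent.S0150Aux.Lift62

/-!
helper62: tasks T5, T6, T7, T8(a), T8(b), T9 of helper13's S0150 board, in the exact shapes of the board.
-/

set_option autoImplicit false

namespace Crest.Agent.S0150Aux.Fib62

open Filter Topology MeasureTheory Crest.AnalysisR.TwoAdic Crest.Agent.S0150Aux.Lift62
open scoped ENNReal
attribute [local instance] Crest.AnalysisR.TwoAdic.borelTwoAdic
  Crest.AnalysisR.TwoAdic.borelSpace_twoAdic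

theorem basisVec_apply (i j : ℤ) : (basisVec i : seqHilbert) j = if j = i then 1 else 0 := by
  unfold basisVec
  rw [lp.single_apply]
  by_cases h : j = i
  · subst h; simp
  · simp [h]

/-- T5 -/
theorem exists_lift (F : ℤ_[2] → seqHilbert →L[ℂ] seqHilbert) (C : ℝ) (hC : ∀ x, ‖F x‖ ≤ C)
    (hm : ∀ g : ℤ_[2] → seqHilbert, AEStronglyMeasurable g haarTwoAdic →
      AEStronglyMeasurable (fun x => F x (g x)) haarTwoAdic) :
    ∃ T : fibreSpace →L[ℂ] fibreSpace, ‖T‖ ≤ C ∧ ∀ f : fibreSpace, ∀ᵐ x ∂haarTwoAdic,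
      (T f : ℤ_[2] → seqHilbert) x = F x ((f : ℤ_[2] → seqHilbert) x) := by
  have hC0 : 0 ≤ C := (norm_nonneg _).trans (hC 0)
  have hmem : ∀ f : fibreSpace,
      MemLp (fun x => F x ((f : ℤ_[2] → seqHilbert) x)) 2 haarTwoAdic := by
    intro f
    refine MemLp.of_le_mul (c := C) (Lp.memLp f) (hm _ (Lp.aestronglyMeasurable f)) ?_
    filter_upwards with x
    exact ((F x).le_opNorm _).trans (mul_le_mul_of_nonneg_right (hC x) (norm_nonneg _))
  let L : fibreSpace →ₗ[ℂ] fibreSpace :=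
    { toFun := fun f => (hmem f).toLp _
      map_add' := by
        intro f₁ f₂
        apply Lp.ext
        filter_upwards [(hmem (f₁ + f₂)).coeFn_toLp, (hmem f₁).coeFn_toLp, (hmem f₂).coeFn_toLp,
          Lp.coeFn_add f₁ f₂, Lp.coeFn_add ((hmem f₁).toLp _) ((hmem f₂).toLp _)]
          with x h1 h2 h3 h4 h5
        rw [h1, h5, Pi.add_apply, h2, h3, h4, Pi.add_apply, map_add]
      map_smul' := by
        intro a f
        apply Lp.ext
        filter_upwards [(hmem (a • f)).coeFn_toLp, (hmem f).coeFn_toLp,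
          Lp.coeFn_smul a f, Lp.coeFn_smul a ((hmem f).toLp _)]
          with x h1 h2 h3 h4
        rw [h1, RingHom.id_apply, h4, Pi.smul_apply, h2, h3, Pi.smul_apply, map_smul] }
  have hbound : ∀ f, ‖L f‖ ≤ C * ‖f‖ := by
    intro f
    apply Lp.norm_le_mul_norm_of_ae_le_mul
    filter_upwards [(hmem f).coeFn_toLp] with x h1
    have : (L f : ℤ_[2] → seqHilbert) x = F x ((f : ℤ_[2] → seqHilbert) x) := h1
    rw [this]
    exact ((F x).le_opNorm _).trans (mul_le_mul_of_nonneg_right (hC x) (norm_nonneg _))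
  exact ⟨L.mkContinuous C hbound, LinearMap.mkContinuous_norm_le _ hC0 _,
    fun f => (hmem f).coeFn_toLp⟩

theorem basis_of_coord (c : ℤ → ℝ) (s : ℤ) (T : seqHilbert →L[ℂ] seqHilbert)
    (hT : ∀ (v : seqHilbert) (j : ℤ), T v (j + s) = (c j : ℂ) * v j) (j : ℤ) :
    T (basisVec j) = (c j : ℂ) • basisVec (j + s) := by
  ext i
  have h := hT (basisVec j) (i - s)
  rw [sub_add_cancel] at h
  rw [h, lp.coeFn_smul, Pi.smul_apply, basisVec_apply, basisVec_apply, smul_eq_mul]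
  by_cases hi : i = j + s
  · subst hi; simp
  · have : ¬ (i - s = j) := fun h' => hi (by omega)
    simp [hi, this]

/-- T6 -/
theorem aesm_field (c : ℤ → ℤ_[2] → ℝ) (hc : ∀ j, Measurable (c j)) (s : ℤ)
    (F : ℤ_[2] → seqHilbert →L[ℂ] seqHilbert)
    (hF : ∀ x (v : seqHilbert) (j : ℤ), F x v (j + s) = (c j x : ℂ) * v j) :
    ∀ g : ℤ_[2] → seqHilbert, AEStronglyMeasurable g haarTwoAdic →
      AEStronglyMeasurable (fun x => F x (g x)) haarTwoAdic := by
  intro g hg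
  have hmeas : ∀ j, StronglyMeasurable (fun x => F x (basisVec j)) := by
    intro j
    have : (fun x => F x (basisVec j)) = fun x => (c j x : ℂ) • basisVec (j + s) := by
      funext x
      exact basis_of_coord (fun j => c j x) s (F x) (hF x) j
    rw [this]
    exact ((Complex.measurable_ofReal.comp (hc j)).stronglyMeasurable).smul_const _
  refine ⟨fun x => F x (hg.mk g x), stronglyMeasurable_field F hmeas _ hg.stronglyMeasurable_mk, ?_⟩
  filter_upwards [hg.ae_eq_mk] with x hx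
  rw [hx]

theorem ae_shift_iff {P : ℤ_[2] → Prop} (h : ∀ᵐ x ∂haarTwoAdic, P (x + 1)) :
    ∀ᵐ y ∂haarTwoAdic, P y := by
  have hτ : MeasurePreserving (fun x : ℤ_[2] => (-1) + x) haarTwoAdic haarTwoAdic :=
    measurePreserving_add_left haarTwoAdic (-1 : ℤ_[2])
  have h2 := hτ.quasiMeasurePreserving.ae h
  filter_upwards [h2] with y hy
  have : (-1 : ℤ_[2]) + y + 1 = y := by ring
  rwa [this] at hy

theorem ae_shift {P : ℤ_[2] → Prop} (h : ∀ᵐ y ∂haarTwoAdic, P y) :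
    ∀ᵐ x ∂haarTwoAdic, P (x + 1) :=
  measurePreserving_add_one.quasiMeasurePreserving.ae h

/-- T7 -/
theorem exists_transl : ∃ τ : fibreSpace →L[ℂ] fibreSpace, ‖τ‖ ≤ 1 ∧ ∀ f : fibreSpace,
    ∀ᵐ x ∂haarTwoAdic, (τ f : ℤ_[2] → seqHilbert) (x + 1) = (f : ℤ_[2] → seqHilbert) x := by
  have hτ : MeasurePreserving (fun x : ℤ_[2] => (-1) + x) haarTwoAdic haarTwoAdic :=
    measurePreserving_add_left haarTwoAdic (-1 : ℤ_[2])
  refine ⟨(Lp.compMeasurePreservingₗᵢ ℂ (fun x : ℤ_[2] => (-1) + x) hτ).toContinuousLinearMap,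
    LinearIsometry.norm_toContinuousLinearMap_le _, fun f => ?_⟩
  have h1 : ∀ᵐ y ∂haarTwoAdic,
      ((Lp.compMeasurePreservingₗᵢ ℂ (fun x : ℤ_[2] => (-1) + x) hτ).toContinuousLinearMap f :
        ℤ_[2] → seqHilbert) y = (f : ℤ_[2] → seqHilbert) ((-1) + y) :=
    Lp.coeFn_compMeasurePreserving f hτ
  filter_upwards [ae_shift h1] with x h3
  rw [h3, neg_add_cancel_comm_assoc]

/-- T8 (a) -/
theorem norm_le_of_fibre (T : fibreSpace →L[ℂ] fibreSpace)
    (G : ℤ_[2] → seqHilbert →L[ℂ] seqHilbert) (C : ℝ) (h0 : 0 ≤ C) (hG : ∀ x, ‖G x‖ ≤ C)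
    (h : ∀ f : fibreSpace, ∀ᵐ x ∂haarTwoAdic,
      (T f : ℤ_[2] → seqHilbert) x = G x ((f : ℤ_[2] → seqHilbert) x)) : ‖T‖ ≤ C := by
  refine ContinuousLinearMap.opNorm_le_bound _ h0 fun f => ?_
  apply Lp.norm_le_mul_norm_of_ae_le_mul
  filter_upwards [h f] with x h1
  rw [h1]
  exact ((G x).le_opNorm _).trans (mul_le_mul_of_nonneg_right (hG x) (norm_nonneg _))

/-- T8 (b) -/
theorem pow_fibre (S : fibreSpace →L[ℂ] fibreSpace) (Sfib : ℤ_[2] → seqHilbert →L[ℂ] seqHilbert)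
    (hS : ∀ f : fibreSpace, ∀ᵐ x ∂haarTwoAdic,
      (S f : ℤ_[2] → seqHilbert) x = Sfib x ((f : ℤ_[2] → seqHilbert) x)) :
    ∀ (n : ℕ) (f : fibreSpace), ∀ᵐ x ∂haarTwoAdic,
      ((S ^ n) f : ℤ_[2] → seqHilbert) x = (Sfib x ^ n) ((f : ℤ_[2] → seqHilbert) x) := by
  intro n
  induction n with
  | zero => intro f; filter_upwards with x; simp
  | succ k ih =>
    intro f
    filter_upwards [ih (S f), hS f] with x h1 h2
    have e1 : (S ^ (k + 1)) f = (S ^ k) (S f) := by rw [pow_succ]; rfl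
    have e2 : (Sfib x ^ (k + 1)) ((f : ℤ_[2] → seqHilbert) x)
        = (Sfib x ^ k) (Sfib x ((f : ℤ_[2] → seqHilbert) x)) := by rw [pow_succ]; rfl
    rw [e1, e2, h1, h2]

/-- T9 -/
theorem comm_of_fibre (S V : fibreSpace →L[ℂ] fibreSpace)
    (Sfib Vfib : ℤ_[2] → seqHilbert →L[ℂ] seqHilbert)
    (hS : ∀ f : fibreSpace, ∀ᵐ x ∂haarTwoAdic,
      (S f : ℤ_[2] → seqHilbert) x = Sfib x ((f : ℤ_[2] → seqHilbert) x))
    (hV : ∀ f : fibreSpace, ∀ᵐ x ∂haarTwoAdic,
      (V f : ℤ_[2] → seqHilbert) (x + 1) = Vfib x ((f : ℤ_[2] → seqHilbert) x))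
    (hfib : ∀ x v, Vfib x (Sfib x v) = Sfib (x + 1) (Vfib x v)) : V * S = S * V := by
  ext1 f
  apply Lp.ext
  apply ae_shift_iff
  have e1 : (V * S) f = V (S f) := rfl
  have e2 : (S * V) f = S (V f) := rfl
  filter_upwards [hV (S f), hS f, ae_shift (hS (V f)), hV f] with x h1 h2 h3 h4
  rw [e1, e2, h1, h2, h3, h4, hfib]

end Crest.Agent.S0150Aux.Fib62
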