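import Mathlib

set_option autoImplicit false

namespace Crest.Agent.S0150Aux.Key36

open Real

lemma small_of_large (p : ℕ → ℝ) (B : ℝ)
    (hpB : ∀ m : ℕ, p m ≤ exp (B + B * m - 5 * (m:ℝ)^2)) (m0 : ℕ) (hm0 : 0 < p m0)
    (L : ℝ) (m : ℕ) (hB : 0 ≤ B) (hL : 0 ≤ L)
    (hm : L + B + |B - log (p m0)| < 5 * (m:ℝ)) :
    p m * exp (L * m) < p m0 := by
  have hD : B - log (p m0) ≤ |B - log (p m0)| := le_abs_self _
  have hD0 : 0 ≤ |B - log (p m0)| := abs_nonneg _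
  set D := |B - log (p m0)| with hDdef
  have hmpos : (0:ℝ) < m := by nlinarith
  have hm1 : (1:ℝ) ≤ m := by
    have : 0 < m := by exact_mod_cast hmpos
    exact_mod_cast this
  calc p m * exp (L * m) ≤ exp (B + B * m - 5 * (m:ℝ)^2) * exp (L * m) :=
        mul_le_mul_of_nonneg_right (hpB m) (exp_pos _).le
    _ = exp (B + B * m - 5 * (m:ℝ)^2 + L * m) := by rw [← exp_add]
    _ < exp (log (p m0)) := by
        apply exp_lt_exp.mpr
        nlinarith
    _ = p m0 := exp_log hm0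

lemma exists_argmax (p : ℕ → ℝ) (hp0 : ∀ m, 0 ≤ p m) (B : ℝ) (hB : 0 ≤ B)
    (hpB : ∀ m : ℕ, p m ≤ exp (B + B * m - 5 * (m:ℝ)^2)) (m0 : ℕ) (hm0 : 0 < p m0)
    (L : ℝ) (hL : 0 ≤ L) :
    ∃ m : ℕ, (∀ m' : ℕ, p m' * exp (L * m') ≤ p m * exp (L * m)) ∧ 0 < p m ∧
      5 * (m:ℝ) ≤ L + B + |B - log (p m0)| := by
  set D := |B - log (p m0)| with hDdef
  have hg0 : p m0 ≤ p m0 * exp (L * m0) := by
    have : (1:ℝ) ≤ exp (L * m0) := one_le_exp (by positivity)
    nlinarith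
  obtain ⟨N, hN⟩ := exists_nat_ge ((L + B + D) / 5)
  have hsm := fun m hm => small_of_large p B hpB m0 hm0 L m hB hL hm
  have hm0N : m0 ≤ N := by
    by_contra hcon
    push Not at hcon
    have h1 : (N:ℝ) < m0 := by exact_mod_cast hcon
    have := hsm m0 (by rw [← hDdef]; linarith [(div_le_iff₀ (by norm_num : (0:ℝ) < 5)).mp hN])
    linarith
  obtain ⟨m, hmem, hmax⟩ := Finset.exists_max_image (Finset.range (N+1))
    (fun m : ℕ => p m * exp (L * m)) ⟨m0, Finset.mem_range.mpr (by omega)⟩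
  have hgm : p m0 * exp (L * m0) ≤ p m * exp (L * m) := hmax m0 (Finset.mem_range.mpr (by omega))
  refine ⟨m, ?_, ?_, ?_⟩
  · intro m'
    by_cases hm' : m' ≤ N
    · exact hmax m' (Finset.mem_range.mpr (by omega))
    · push Not at hm'
      have h1 : (N:ℝ) < m' := by exact_mod_cast hm'
      have := hsm m' (by rw [← hDdef]; linarith [(div_le_iff₀ (by norm_num : (0:ℝ) < 5)).mp hN])
      linarith
  · by_contra hcon
    have : p m = 0 := le_antisymm (not_lt.mp hcon) (hp0 m)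
    rw [this] at hgm
    linarith
  · by_contra hcon
    push Not at hcon
    have := hsm m hcon
    linarith

lemma argmax_mono (p : ℕ → ℝ) (L : ℝ) (m1 m2 : ℕ) (h1 : 0 < p m1) (h2 : 0 < p m2)
    (ha : p m2 * exp (L * m2) ≤ p m1 * exp (L * m1))
    (hb : p m1 * exp ((L+2) * m1) ≤ p m2 * exp ((L+2) * m2)) : m1 ≤ m2 := by
  have h3 : (p m2 * exp (L * m2)) * (p m1 * exp ((L+2) * m1)) ≤
      (p m1 * exp (L * m1)) * (p m2 * exp ((L+2) * m2)) :=
    mul_le_mul ha hb (by positivity) (by positivity)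
  have h4 : exp (L * m2 + (L+2) * m1) ≤ exp (L * m1 + (L+2) * m2) := by
    rw [exp_add, exp_add]
    have hpp : 0 < p m1 * p m2 := mul_pos h1 h2
    have : (p m1 * p m2) * (exp (L * m2) * exp ((L+2) * m1)) ≤
        (p m1 * p m2) * (exp (L * m1) * exp ((L+2) * m2)) := by nlinarith
    exact le_of_mul_le_mul_left this hpp
  have h5 := exp_le_exp.mp h4
  have : (m1:ℝ) ≤ m2 := by linarith
  exact_mod_cast this

lemma pigeon (M K : ℕ → ℕ) (hM : ∀ i, M i ≤ M (i+1)) (hK : ∀ i, K i ≤ K (i+1)) (E : ℝ)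
    (hb : ∀ i : ℕ, 5 * ((M i : ℝ) + K i) ≤ 4 * i + E) :
    ∃ i, M i = M (i+1) ∧ K i = K (i+1) := by
  by_contra hcon
  push Not at hcon
  have hstep : ∀ i, M i + K i + 1 ≤ M (i+1) + K (i+1) := by
    intro i
    have h1 := hM i
    have h2 := hK i
    by_cases h : M i = M (i+1)
    · have := hcon i h
      omega
    · omega
  have hind : ∀ i, i ≤ M i + K i := by
    intro i
    induction i with
    | zero => omega
    | succ i ih => have := hstep i; omega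
  obtain ⟨i, hi⟩ := exists_nat_gt E
  have h1 := hb i
  have h2 : (i:ℝ) ≤ (M i : ℝ) + K i := by exact_mod_cast hind i
  linarith

lemma peak (p q : ℕ → ℝ) (hp0 : ∀ m, 0 ≤ p m) (hq0 : ∀ m, 0 ≤ q m) (B : ℝ) (hB : 0 ≤ B)
    (hpB : ∀ m : ℕ, p m ≤ exp (B + B * m - 5 * (m:ℝ)^2))
    (hqB : ∀ m : ℕ, q m ≤ exp (B + B * m - 5 * (m:ℝ)^2))
    (m0 k0 : ℕ) (hm0 : 0 < p m0) (hk0 : 0 < q k0) (L0 : ℝ) (hL0 : 0 ≤ L0) :
    ∃ L : ℝ, L0 ≤ L ∧ ∃ m k : ℕ, 0 < p m ∧ 0 < q k ∧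
      (∀ m' : ℕ, p m' * exp (L * m') ≤ p m * exp (L * m)) ∧
      (∀ m' : ℕ, p m' * exp ((L+2) * m') ≤ p m * exp ((L+2) * m)) ∧
      (∀ m' : ℕ, q m' * exp (L * m') ≤ q k * exp (L * k)) ∧
      (∀ m' : ℕ, q m' * exp ((L+2) * m') ≤ q k * exp ((L+2) * k)) ∧
      5 * (m:ℝ) ≤ L + B + |B - log (p m0)| ∧ 5 * (k:ℝ) ≤ L + B + |B - log (q k0)| := by
  have hLi : ∀ i : ℕ, 0 ≤ L0 + 2 * i := fun i => by positivity
  choose M hM1 hM2 hM3 using fun i : ℕ => exists_argmax p hp0 B hB hpB m0 hm0 (L0 + 2 * i) (hLi i)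
  choose K hK1 hK2 hK3 using fun i : ℕ => exists_argmax q hq0 B hB hqB k0 hk0 (L0 + 2 * i) (hLi i)
  have hsucc : ∀ i : ℕ, L0 + 2 * ((i+1 : ℕ) : ℝ) = (L0 + 2 * i) + 2 := by
    intro i; push_cast; ring
  have hMm : ∀ i, M i ≤ M (i+1) := by
    intro i
    apply argmax_mono p (L0 + 2 * i) _ _ (hM2 i) (hM2 (i+1)) (hM1 i _)
    have := hM1 (i+1) (M i)
    rwa [hsucc] at this
  have hKm : ∀ i, K i ≤ K (i+1) := by
    intro i
    apply argmax_mono q (L0 + 2 * i) _ _ (hK2 i) (hK2 (i+1)) (hK1 i _)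
    have := hK1 (i+1) (K i)
    rwa [hsucc] at this
  obtain ⟨i, hi1, hi2⟩ := pigeon M K hMm hKm
    (2 * L0 + 2 * B + |B - log (p m0)| + |B - log (q k0)|) (by
      intro i
      have := hM3 i
      have := hK3 i
      linarith)
  refine ⟨L0 + 2 * i, by linarith [hLi i, (Nat.cast_nonneg i : (0:ℝ) ≤ i)], M i, K i, hM2 i, hK2 i, hM1 i, ?_, hK1 i, ?_,
    hM3 i, hK3 i⟩
  · intro m'
    have := hM1 (i+1) m'
    rw [hsucc, ← hi1] at this
    exact this
  · intro m'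
    have := hK1 (i+1) m'
    rw [hsucc, ← hi2] at this
    exact this

lemma A_le (α A : ℤ → ℝ) (hA : ∀ j, A (j+1) = A j + α j) (L : ℝ) :
    ∀ n : ℕ, (∀ i : ℤ, 0 ≤ i → i < n → α i ≤ L) → A n ≤ A 0 + L * n := by
  intro n
  induction n with
  | zero => intro _; simp
  | succ n ih =>
    intro h
    have h1 := ih (fun i hi0 hi => h i hi0 (by push_cast; omega))
    have h2 := h n (by positivity) (by push_cast; omega)
    have h3 := hA n
    push_cast
    rw [h3]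
    nlinarith

lemma A_diff_ge (α A : ℤ → ℝ) (hA : ∀ j, A (j+1) = A j + α j) (j : ℤ) (X : ℝ)
    (h : ∀ i, j ≤ i → X ≤ α i) : ∀ n : ℕ, n * X ≤ A (j + n) - A j := by
  intro n
  induction n with
  | zero => simp
  | succ n ih =>
    have h2 := h (j + n) (by omega)
    have h3 := hA (j + n)
    have : j + ((n + 1 : ℕ) : ℤ) = j + n + 1 := by push_cast; ring
    rw [this, h3]
    push_cast
    nlinarith

lemma typeII (α A : ℤ → ℝ) (hA : ∀ j, A (j+1) = A j + α j) (C0 : ℝ)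
    (hgrow : ∀ j : ℤ, 0 ≤ j → 10 * (j:ℝ) - C0 ≤ α j)
    (J : ℤ) (hR : ∀ j, J ≤ j → α j ≤ α (j+1))
    (a c : ℤ → ℝ) (ha0 : ∀ j, 0 ≤ a j) (hc0 : ∀ j, 0 ≤ c j)
    (haA : ∀ j, a j ≤ exp (A j)) (hcA : ∀ k, c k ≤ exp (-A k))
    (j0 k0 js ks : ℤ) (hj0 : j0 < 0) (hk0 : 0 ≤ k0) (hjs : js < 0) (hks : 0 ≤ ks)
    (ha_j0 : 0 < a j0) (hc_k0 : 0 < c k0)
    (L Cp : ℝ) (hL0 : 0 ≤ L)
    (h1 : a j0 * exp (L * (js - j0)) ≤ a js)
    (h2 : c k0 * exp (-(L * (ks - k0))) ≤ c ks)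
    (h3 : ∀ k : ℤ, 0 ≤ k → c k ≤ c ks * exp (-((L+2) * (k - ks))))
    (h4 : -(js:ℝ) ≤ L / 5 + Cp)
    (hLa : A 0 - log (a j0) ≤ L)
    (hLmax : ∀ i : ℤ, 0 ≤ i → i ≤ J → α i ≤ L)
    (hLc : -log (a j0 * c k0) ≤ L)
    (hLbig : 4 * (-log (a j0 * c k0)) + 8 * Cp + C0 + 2 ≤ 1.4 * L)
    (n : ℕ) (hn : (n:ℤ) = ks - js) :
    ∀ j : ℤ, 0 ≤ j → a j * c (j + n) ≤ a js * c ks * exp (-(2 * ((j:ℝ) - js))) := by
  intro j hj
  have hnR : (n:ℝ) = (ks:ℝ) - js := by exact_mod_cast hn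
  have hj0R : (j0:ℝ) ≤ -1 := by exact_mod_cast (by omega : j0 ≤ -1)
  have hjsR : (js:ℝ) ≤ -1 := by exact_mod_cast (by omega : js ≤ -1)
  have hk0R : (0:ℝ) ≤ k0 := by exact_mod_cast hk0
  have hksR : (0:ℝ) ≤ ks := by exact_mod_cast hks
  have hjR : (0:ℝ) ≤ j := by exact_mod_cast hj
  by_cases hcase : ∀ i : ℤ, 0 ≤ i → i < j → α i ≤ L
  · -- case (a)
    obtain ⟨jn, rfl⟩ := Int.eq_ofNat_of_zero_le hj
    have hAj := A_le α A hA L jn hcase
    have e1 : a (jn:ℤ) ≤ exp (A 0 + L * jn) := (haA _).trans (exp_le_exp.mpr hAj)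
    have e2 := h3 ((jn:ℤ) + n) (by omega)
    have e3 : exp (A 0 + L * js) ≤ a js := by
      refine le_trans ?_ h1
      have hre : a j0 * exp (L * (js - j0)) = exp (log (a j0) + L * (js - j0)) := by
        rw [exp_add, exp_log ha_j0]
      rw [hre]
      apply exp_le_exp.mpr
      nlinarith
    have e4 : (((jn:ℤ) + (n:ℤ) : ℤ) : ℝ) - ks = (jn:ℝ) - js := by
      push_cast; rw [hnR]; ring
    rw [e4] at e2
    calc a (jn:ℤ) * c ((jn:ℤ) + n)
        ≤ exp (A 0 + L * jn) * (c ks * exp (-((L+2) * ((jn:ℝ) - js)))) :=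
          mul_le_mul e1 e2 (hc0 _) (exp_pos _).le
      _ = exp (A 0 + L * js) * c ks * exp (-(2 * ((jn:ℝ) - js))) := by
          have : exp (A 0 + L * jn) * exp (-((L+2) * ((jn:ℝ) - js))) =
              exp (A 0 + L * js) * exp (-(2 * ((jn:ℝ) - js))) := by
            rw [← exp_add, ← exp_add]; congr 1; ring
          calc exp (A 0 + L * jn) * (c ks * exp (-((L+2) * ((jn:ℝ) - js))))
              = c ks * (exp (A 0 + L * jn) * exp (-((L+2) * ((jn:ℝ) - js)))) := by ring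
            _ = _ := by rw [this]; ring
      _ ≤ a js * c ks * exp (-(2 * (((jn:ℤ):ℝ) - js))) := by
          push_cast
          exact mul_le_mul_of_nonneg_right (mul_le_mul_of_nonneg_right e3 (hc0 _)) (exp_pos _).le
  · -- case (b)
    push Not at hcase
    obtain ⟨i, hi0, hij, hiL⟩ := hcase
    have hiJ : J < i := by
      by_contra hcon
      push Not at hcon
      linarith [hLmax i hi0 hcon]
    have hmono : ∀ i' : ℤ, i ≤ i' → α i ≤ α i' := by
      intro i' hi'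
      induction i', hi' using Int.leInduction with
      | base => exact le_refl _
      | succ m hm ih => exact ih.trans (hR m (by omega))
    have hgeL : ∀ i' : ℤ, j ≤ i' → L ≤ α i' := fun i' hi' =>
      (hiL.le).trans (hmono i' (by omega))
    have hge10 : ∀ i' : ℤ, j ≤ i' → 10 * (j:ℝ) - C0 ≤ α i' := fun i' hi' => by
      have := hgrow i' (by omega)
      have h' : (j:ℝ) ≤ i' := by exact_mod_cast hi'
      linarith
    have e1 : a j * c (j + n) ≤ exp (-(A (j + n) - A j)) := by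
      calc a j * c (j + n) ≤ exp (A j) * exp (-A (j + n)) :=
            mul_le_mul (haA _) (hcA _) (hc0 _) (exp_pos _).le
        _ = exp (-(A (j + n) - A j)) := by rw [← exp_add]; congr 1; ring
    have hpos : 0 < a j0 * c k0 := mul_pos ha_j0 hc_k0
    have e2 : exp (log (a j0 * c k0) + L * (js - j0) - L * (ks - k0)) ≤ a js * c ks := by
      calc exp (log (a j0 * c k0) + L * (js - j0) - L * (ks - k0))
          = (a j0 * c k0) * (exp (L * (js - j0)) * exp (-(L * (ks - k0)))) := by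
            rw [← exp_add, sub_eq_add_neg, add_assoc, exp_add, exp_log hpos]
        _ = (a j0 * exp (L * (js - j0))) * (c k0 * exp (-(L * (ks - k0)))) := by ring
        _ ≤ a js * c ks := mul_le_mul h1 h2 (by positivity) (ha0 _)
    set Cwu := -log (a j0 * c k0) with hCwu
    have key : -(A (j + n) - A j) ≤
        (log (a j0 * c k0) + L * (js - j0) - L * (ks - k0)) + (-(2 * ((j:ℝ) - js))) := by
      have hlog : log (a j0 * c k0) = -Cwu := by rw [hCwu]; ring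
      rw [hlog]
      by_cases hsub : 2 * ((j:ℝ) - js) ≤ L - Cwu
      · have := A_diff_ge α A hA j L hgeL n
        rw [hnR] at this
        nlinarith
      · push Not at hsub
        have := A_diff_ge α A hA j (10 * (j:ℝ) - C0) hge10 n
        have hj8 : L + C0 + 2 ≤ 8 * (j:ℝ) := by linarith
        have hn1 : (1:ℝ) ≤ n := by rw [hnR]; linarith
        have hn2 : -(js:ℝ) ≤ n := by rw [hnR]; linarith
        have hX : (n:ℝ) * (2 * j + 2 + L) ≤ n * (10 * (j:ℝ) - C0) := by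
          apply mul_le_mul_of_nonneg_left _ (by positivity)
          linarith
        have hprod : 2 * (j:ℝ) + 2 * (-(js:ℝ)) ≤ (n:ℝ) * (2 * j + 2) := by nlinarith
        have hLn : (n:ℝ) * L = L * ((ks:ℝ) - js) := by rw [hnR]; ring
        nlinarith
    calc a j * c (j + n) ≤ exp (-(A (j + n) - A j)) := e1
      _ ≤ exp ((log (a j0 * c k0) + L * (js - j0) - L * (ks - k0)) + (-(2 * ((j:ℝ) - js)))) :=
          exp_le_exp.mpr key
      _ = exp (log (a j0 * c k0) + L * (js - j0) - L * (ks - k0)) * exp (-(2 * ((j:ℝ) - js))) :=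
          exp_add _ _
      _ ≤ a js * c ks * exp (-(2 * ((j:ℝ) - js))) :=
          mul_le_mul_of_nonneg_right e2 (exp_pos _).le

lemma shift_le {x y Λ s t : ℝ} (h : x * exp (Λ * s) ≤ y * exp (Λ * t)) :
    x ≤ y * exp (Λ * (t - s)) := by
  have hx : x = x * exp (Λ * s) * exp (-(Λ * s)) := by
    rw [mul_assoc, ← exp_add]; simp
  rw [hx]
  calc x * exp (Λ * s) * exp (-(Λ * s)) ≤ y * exp (Λ * t) * exp (-(Λ * s)) :=
        mul_le_mul_of_nonneg_right h (exp_pos _).le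
    _ = y * exp (Λ * (t - s)) := by rw [mul_assoc, ← exp_add]; congr 2; ring

lemma shift_le' {x y Λ s t : ℝ} (h : x * exp (Λ * s) ≤ y * exp (Λ * t)) :
    x * exp (Λ * (s - t)) ≤ y := by
  have hy : y = y * exp (Λ * t) * exp (-(Λ * t)) := by
    rw [mul_assoc, ← exp_add]; simp
  rw [hy]
  calc x * exp (Λ * (s - t)) = x * exp (Λ * s) * exp (-(Λ * t)) := by
        rw [mul_assoc, ← exp_add]; congr 2; ring
    _ ≤ y * exp (Λ * t) * exp (-(Λ * t)) :=
        mul_le_mul_of_nonneg_right h (exp_pos _).le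

lemma A_neg_bound (α A : ℤ → ℝ) (hA : ∀ j, A (j+1) = A j + α j) (C0 : ℝ)
    (hgrow : ∀ j : ℤ, 10 * |(j:ℝ)| - C0 ≤ α j) :
    ∀ m : ℕ, A (-1 - (m:ℤ)) ≤ A 0 - 5 * ((m:ℝ)+1) * ((m:ℝ)+2) + C0 * ((m:ℝ)+1) := by
  intro m
  induction m with
  | zero =>
    have h1 := hA (-1)
    have h2 := hgrow (-1)
    have e2 : (-1:ℤ)+1 = 0 := by norm_num
    rw [e2] at h1
    have e3 : |((-1:ℤ):ℝ)| = 1 := by simp
    rw [e3] at h2
    have e : (-1 - ((0:ℕ):ℤ)) = -1 := by simp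
    rw [e]
    push_cast
    linarith
  | succ m ih =>
    have h1 := hA (-2 - (m:ℤ))
    have h2 := hgrow (-2 - (m:ℤ))
    have e2 : (-2 - (m:ℤ))+1 = -1 - (m:ℤ) := by ring
    rw [e2] at h1
    have e3 : (m:ℝ) + 2 ≤ |((-2 - (m:ℤ) : ℤ):ℝ)| := by
      have := neg_le_abs ((-2 - (m:ℤ) : ℤ):ℝ)
      push_cast at this ⊢
      linarith
    have e : (-1 - ((m+1:ℕ):ℤ)) = -2 - (m:ℤ) := by push_cast; ring
    rw [e]
    push_cast
    nlinarith

lemma A_pos_bound (α A : ℤ → ℝ) (hA : ∀ j, A (j+1) = A j + α j) (C0 : ℝ)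
    (hgrow : ∀ j : ℤ, 10 * |(j:ℝ)| - C0 ≤ α j) :
    ∀ k : ℕ, A 0 + 5 * (k:ℝ) * ((k:ℝ) - 1) - C0 * k ≤ A (k:ℤ) := by
  intro k
  induction k with
  | zero => simp
  | succ k ih =>
    have h1 := hA (k:ℤ)
    have h2 := hgrow (k:ℤ)
    have e3 : (k:ℝ) ≤ |((k:ℤ):ℝ)| := by
      have := le_abs_self ((k:ℤ):ℝ)
      push_cast at this ⊢
      linarith
    have e : (((k+1:ℕ):ℤ)) = (k:ℤ) + 1 := by push_cast; ring
    rw [e, h1]
    push_cast
    nlinarith

lemma core (α A : ℤ → ℝ) (hA : ∀ j, A (j+1) = A j + α j) (C0 : ℝ)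
    (hgrow : ∀ j : ℤ, 10 * |(j:ℝ)| - C0 ≤ α j)
    (J : ℤ) (hR : ∀ j, J ≤ j → α j ≤ α (j+1)) (hLm : ∀ j, j ≤ -J → α j ≤ α (j-1))
    (a c : ℤ → ℝ) (ha0 : ∀ j, 0 ≤ a j) (hc0 : ∀ j, 0 ≤ c j)
    (haA : ∀ j, a j ≤ exp (A j)) (hcA : ∀ k, c k ≤ exp (-A k))
    (j0 k0 : ℤ) (hj0 : j0 < 0) (hk0 : 0 ≤ k0) (ha_j0 : 0 < a j0) (hc_k0 : 0 < c k0) :
    ∃ (n : ℕ) (js : ℤ), 1 ≤ n ∧ 0 < a js * c (js + n) ∧
      ∀ j : ℤ, a j * c (j + n) ≤ a js * c (js + n) * exp (-(2 * |(j:ℝ) - js|)) := by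
  set B : ℝ := |A 0| + |C0| + 5 with hBdef
  have hB : 0 ≤ B := by positivity
  have hA0 := le_abs_self (A 0)
  have hA0' := neg_le_abs (A 0)
  have hC0 := le_abs_self C0
  have hC0' := abs_nonneg C0
  have hA0'' := abs_nonneg (A 0)
  set p : ℕ → ℝ := fun m => a (-1 - (m:ℤ)) with hp
  set q : ℕ → ℝ := fun k => c (k:ℤ) with hq
  have hpB : ∀ m : ℕ, p m ≤ exp (B + B * m - 5 * (m:ℝ)^2) := by
    intro m
    refine (haA _).trans (exp_le_exp.mpr ?_)
    have h1 := A_neg_bound α A hA C0 hgrow m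
    have hm : (0:ℝ) ≤ m := Nat.cast_nonneg m
    have h2 : 0 ≤ (|C0| - C0) * m := mul_nonneg (by linarith) hm
    have h3 : 0 ≤ |A 0| * m := mul_nonneg hA0'' hm
    rw [hBdef]
    nlinarith
  have hqB : ∀ m : ℕ, q m ≤ exp (B + B * m - 5 * (m:ℝ)^2) := by
    intro m
    refine (hcA _).trans (exp_le_exp.mpr ?_)
    have h1 := A_pos_bound α A hA C0 hgrow m
    have hm : (0:ℝ) ≤ m := Nat.cast_nonneg m
    have h2 : 0 ≤ (|C0| - C0) * m := mul_nonneg (by linarith) hm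
    have h3 : 0 ≤ |A 0| * m := mul_nonneg hA0'' hm
    rw [hBdef]
    nlinarith
  obtain ⟨m0, hm0⟩ : ∃ m0 : ℕ, (m0:ℤ) = -1 - j0 := ⟨(-1 - j0).toNat, Int.toNat_of_nonneg (by omega)⟩
  obtain ⟨k0n, hk0n⟩ : ∃ k0n : ℕ, (k0n:ℤ) = k0 := ⟨k0.toNat, Int.toNat_of_nonneg hk0⟩
  have hpm0 : p m0 = a j0 := by
    simp only [hp]; congr 1; omega
  have hqk0 : q k0n = c k0 := by
    simp only [hq]; rw [hk0n]
  have hpm0' : 0 < p m0 := by rw [hpm0]; exact ha_j0
  have hqk0' : 0 < q k0n := by rw [hqk0]; exact hc_k0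
  set D1 := |B - log (p m0)| with hD1
  set D2 := |B - log (q k0n)| with hD2
  have hD1' : 0 ≤ D1 := abs_nonneg _
  have hD2' : 0 ≤ D2 := abs_nonneg _
  set Cp : ℝ := (B + D1 + D2) / 5 + 1 with hCp
  set Cwu : ℝ := -log (a j0 * c k0) with hCwu
  obtain ⟨Lm1, hLm1⟩ : ∃ Lm : ℝ, ∀ i : ℤ, 0 ≤ i → i ≤ J → α i ≤ Lm := by
    obtain ⟨b, hb⟩ := ((Set.finite_Icc (0:ℤ) J).image α).bddAbove
    exact ⟨b, fun i h1 h2 => hb ⟨i, ⟨h1, h2⟩, rfl⟩⟩
  obtain ⟨Lm2, hLm2⟩ : ∃ Lm : ℝ, ∀ i : ℤ, 0 ≤ i → i ≤ J → α (-2 - i) ≤ Lm := by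
    obtain ⟨b, hb⟩ := ((Set.finite_Icc (0:ℤ) J).image (fun i => α (-2 - i))).bddAbove
    exact ⟨b, fun i h1 h2 => hb ⟨i, ⟨h1, h2⟩, rfl⟩⟩
  set L0 : ℝ := |A 0 - log (a j0)| + |Lm1| + |Cwu| + |(4 * Cwu + 8 * Cp + C0 + 2) / 1.4| +
    |-A (-1) - log (c k0)| + |Lm2| with hL0
  have hL0' : 0 ≤ L0 := by positivity
  obtain ⟨L, hLL0, ms, ksn, hpms, hqks, hP1, hP2, hQ1, hQ2, hms5, hks5⟩ :=
    peak p q (fun m => ha0 _) (fun m => hc0 _) B hB hpB hqB m0 k0n hpm0' hqk0' L0 hL0'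
  have hLnn : 0 ≤ L := hL0'.trans hLL0
  have n1 := abs_nonneg (A 0 - log (a j0))
  have n2 := abs_nonneg Lm1
  have n3 := abs_nonneg Cwu
  have n4 := abs_nonneg ((4 * Cwu + 8 * Cp + C0 + 2) / 1.4)
  have n5 := abs_nonneg (-A (-1) - log (c k0))
  have n6 := abs_nonneg Lm2
  have t1 : A 0 - log (a j0) ≤ L := by linarith [le_abs_self (A 0 - log (a j0))]
  have t2 : Lm1 ≤ L := by linarith [le_abs_self Lm1]
  have t3 : Cwu ≤ L := by linarith [le_abs_self Cwu]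
  have t4 : 4 * Cwu + 8 * Cp + C0 + 2 ≤ 1.4 * L := by
    have h : (4 * Cwu + 8 * Cp + C0 + 2) / 1.4 ≤ L := by
      linarith [le_abs_self ((4 * Cwu + 8 * Cp + C0 + 2) / 1.4)]
    rw [div_le_iff₀ (by norm_num)] at h
    linarith
  have t5 : -A (-1) - log (c k0) ≤ L := by linarith [le_abs_self (-A (-1) - log (c k0))]
  have t6 : Lm2 ≤ L := by linarith [le_abs_self Lm2]
  obtain ⟨js, hjs⟩ : ∃ js : ℤ, js = -1 - (ms:ℤ) := ⟨_, rfl⟩
  obtain ⟨ks, hks⟩ : ∃ ks : ℤ, ks = (ksn:ℤ) := ⟨_, rfl⟩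
  have hpjs : p ms = a js := by simp only [hp, hjs]
  have hqks' : q ksn = c ks := by simp only [hq, hks]
  rw [hpjs] at hpms
  rw [hqks'] at hqks
  simp only [hpjs] at hP1 hP2
  simp only [hqks'] at hQ1 hQ2
  have hjsR : (js:ℝ) = -1 - ms := by rw [hjs]; push_cast; ring
  have hksR : (ks:ℝ) = ksn := by rw [hks]; push_cast; rfl
  have hm0R : (m0:ℝ) = -1 - j0 := by exact_mod_cast hm0
  have hk0R : (k0n:ℝ) = k0 := by exact_mod_cast hk0n
  have hjsneg : js < 0 := by rw [hjs]; omega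
  have hksnn : 0 ≤ ks := by rw [hks]; omega
  have haΛ : ∀ Λ : ℝ, (∀ m' : ℕ, p m' * exp (Λ * m') ≤ a js * exp (Λ * ms)) →
      ∀ j : ℤ, j < 0 → a j ≤ a js * exp (Λ * ((j:ℝ) - js)) := by
    intro Λ hΛ j hj
    obtain ⟨m', hm'⟩ : ∃ m' : ℕ, (m':ℤ) = -1 - j :=
      ⟨(-1 - j).toNat, Int.toNat_of_nonneg (by omega)⟩
    have h := shift_le (hΛ m')
    have e1 : p m' = a j := by simp only [hp]; congr 1; omega
    have e2 : (m':ℝ) = -1 - j := by exact_mod_cast hm'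
    have e3 : (ms:ℝ) - m' = (j:ℝ) - js := by rw [e2, hjsR]; ring
    rw [e1, e3] at h
    exact h
  have hcΛ : ∀ Λ : ℝ, (∀ m' : ℕ, q m' * exp (Λ * m') ≤ c ks * exp (Λ * ksn)) →
      ∀ k : ℤ, 0 ≤ k → c k ≤ c ks * exp (-(Λ * ((k:ℝ) - ks))) := by
    intro Λ hΛ k hk
    obtain ⟨m', hm'⟩ : ∃ m' : ℕ, (m':ℤ) = k := ⟨k.toNat, Int.toNat_of_nonneg hk⟩
    have h := shift_le (hΛ m')
    have e1 : q m' = c k := by simp only [hq]; rw [hm']
    have e2 : (m':ℝ) = k := by exact_mod_cast hm'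
    have e3 : Λ * ((ksn:ℝ) - m') = -(Λ * ((k:ℝ) - ks)) := by rw [e2, hksR]; ring
    rw [e1, e3] at h
    exact h
  have h1 : a j0 * exp (L * ((js:ℝ) - j0)) ≤ a js := by
    have h := shift_le' (hP1 m0)
    have e3 : (m0:ℝ) - ms = (js:ℝ) - j0 := by rw [hm0R, hjsR]; ring
    rw [hpm0, e3] at h
    exact h
  have h2 : c k0 * exp (-(L * ((ks:ℝ) - k0))) ≤ c ks := by
    have h := shift_le' (hQ1 k0n)
    have e3 : L * ((k0n:ℝ) - ksn) = -(L * ((ks:ℝ) - k0)) := by rw [hk0R, hksR]; ring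
    rw [hqk0, e3] at h
    exact h
  set n : ℕ := ms + 1 + ksn with hndef
  have hn : (n:ℤ) = ks - js := by rw [hjs, hks, hndef]; push_cast; ring
  have hnR : (n:ℝ) = (ks:ℝ) - js := by exact_mod_cast hn
  have hjsn : js + (n:ℤ) = ks := by rw [hn]; ring
  refine ⟨n, js, by omega, ?_, ?_⟩
  · rw [hjsn]; exact mul_pos hpms hqks
  intro j
  rw [hjsn]
  rcases lt_or_ge j 0 with hj | hj
  · rcases lt_or_ge (j + (n:ℤ)) 0 with hjn | hjn
    · -- type III
      have r1 : ∀ x : ℤ, -1 - (-1 - x) = x := fun x => by ring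
      have hIII := typeII (fun j => α (-2 - j)) (fun j => -A (-1 - j))
        (by
          intro j
          have h := hA (-2 - j)
          have e1 : -2 - j + 1 = -1 - j := by ring
          have e2 : -1 - (j + 1) = -2 - j := by ring
          rw [e1] at h
          show -A (-1 - (j + 1)) = -A (-1 - j) + α (-2 - j)
          rw [e2, h]; ring)
        C0
        (by
          intro j hj
          have h := hgrow (-2 - j)
          have h' := neg_le_abs ((-2 - j : ℤ) : ℝ)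
          push_cast at h h'
          show 10 * (j:ℝ) - C0 ≤ α (-2 - j)
          linarith)
        J
        (by
          intro j hj
          have h := hLm (-2 - j) (by omega)
          have e2 : -2 - (j + 1) = -2 - j - 1 := by ring
          show α (-2 - j) ≤ α (-2 - (j + 1))
          rw [e2]; exact h)
        (fun j => c (-1 - j)) (fun k => a (-1 - k)) (fun j => hc0 _) (fun j => ha0 _)
        (fun j => hcA _)
        (by
          intro k
          show a (-1 - k) ≤ exp (- -A (-1 - k))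
          rw [neg_neg]; exact haA _)
        (-1 - k0) (-1 - j0) (-1 - ks) (-1 - js) (by omega) (by omega) (by omega) (by omega)
        (by show 0 < c (-1 - (-1 - k0)); rw [r1]; exact hc_k0)
        (by show 0 < a (-1 - (-1 - j0)); rw [r1]; exact ha_j0)
        L Cp hLnn
        (by
          show c (-1 - (-1 - k0)) * exp (L * (((-1 - ks : ℤ):ℝ) - ((-1 - k0 : ℤ):ℝ))) ≤
            c (-1 - (-1 - ks))
          rw [r1, r1]
          have e : L * (((-1 - ks : ℤ):ℝ) - ((-1 - k0 : ℤ):ℝ)) = -(L * ((ks:ℝ) - k0)) := by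
            push_cast; ring
          rw [e]; exact h2)
        (by
          show a (-1 - (-1 - j0)) * exp (-(L * (((-1 - js : ℤ):ℝ) - ((-1 - j0 : ℤ):ℝ)))) ≤
            a (-1 - (-1 - js))
          rw [r1, r1]
          have e : -(L * (((-1 - js : ℤ):ℝ) - ((-1 - j0 : ℤ):ℝ))) = L * ((js:ℝ) - j0) := by
            push_cast; ring
          rw [e]; exact h1)
        (by
          intro k hk
          show a (-1 - k) ≤ a (-1 - (-1 - js)) * exp (-((L+2) * ((k:ℝ) - ((-1 - js : ℤ):ℝ))))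
          rw [r1]
          have h := haΛ (L+2) hP2 (-1 - k) (by omega)
          have e : (L+2) * (((-1 - k : ℤ):ℝ) - js) = -((L+2) * ((k:ℝ) - ((-1 - js : ℤ):ℝ))) := by
            push_cast; ring
          rw [e] at h; exact h)
        (by
          push_cast
          rw [hksR, hCp]
          linarith)
        (by
          show -A (-1 - 0) - log (c (-1 - (-1 - k0))) ≤ L
          rw [r1]
          simpa using t5)
        (fun i hi1 hi2 => (hLm2 i hi1 hi2).trans t6)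
        (by
          show -log (c (-1 - (-1 - k0)) * a (-1 - (-1 - j0))) ≤ L
          rw [r1, r1, mul_comm (c k0) (a j0)]; exact t3)
        (by
          show 4 * -log (c (-1 - (-1 - k0)) * a (-1 - (-1 - j0))) + 8 * Cp + C0 + 2 ≤ 1.4 * L
          rw [r1, r1, mul_comm (c k0) (a j0)]; exact t4)
        n (by rw [hn]; ring) (-1 - j - n) (by omega)
      beta_reduce at hIII
      have e1 : -1 - (-1 - j - (n:ℤ)) = j + n := by ring
      have e2 : -1 - (-1 - j - (n:ℤ) + n) = j := by ring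
      rw [e1, e2, r1, r1] at hIII
      have hjlt : (j:ℝ) < js := by
        have : j < js := by omega
        exact_mod_cast this
      have e3 : -(2 * (((-1 - j - (n:ℤ) : ℤ):ℝ) - ((-1 - ks : ℤ):ℝ))) = -(2 * |(j:ℝ) - js|) := by
        rw [abs_of_neg (by linarith)]
        push_cast
        rw [hnR]; ring
      rw [e3] at hIII
      calc a j * c (j + n) = c (j + n) * a j := mul_comm _ _
        _ ≤ c ks * a js * exp (-(2 * |(j:ℝ) - js|)) := hIII
        _ = a js * c ks * exp (-(2 * |(j:ℝ) - js|)) := by ring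
    · -- type I
      have ek : ((j + (n:ℤ) : ℤ):ℝ) - ks = (j:ℝ) - js := by push_cast; rw [hnR]; ring
      rcases le_or_gt js j with hd | hd
      · have hdR : (0:ℝ) ≤ (j:ℝ) - js := by
          have : (js:ℝ) ≤ j := by exact_mod_cast hd
          linarith
        have b1 := haΛ L hP1 j hj
        have b2 := hcΛ (L+2) hQ2 (j + n) hjn
        rw [ek] at b2
        rw [abs_of_nonneg hdR]
        calc a j * c (j + n) ≤ (a js * exp (L * ((j:ℝ) - js))) *
              (c ks * exp (-((L+2) * ((j:ℝ) - js)))) :=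
              mul_le_mul b1 b2 (hc0 _) (mul_nonneg (ha0 _) (exp_pos _).le)
          _ = a js * c ks * (exp (L * ((j:ℝ) - js)) * exp (-((L+2) * ((j:ℝ) - js)))) := by ring
          _ = a js * c ks * exp (-(2 * ((j:ℝ) - js))) := by
              rw [← exp_add]; congr 2; ring
      · have hdR : (j:ℝ) - js < 0 := by
          have : (j:ℝ) < js := by exact_mod_cast hd
          linarith
        have b1 := haΛ (L+2) hP2 j hj
        have b2 := hcΛ L hQ1 (j + n) hjn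
        rw [ek] at b2
        rw [abs_of_neg hdR]
        calc a j * c (j + n) ≤ (a js * exp ((L+2) * ((j:ℝ) - js))) *
              (c ks * exp (-(L * ((j:ℝ) - js)))) :=
              mul_le_mul b1 b2 (hc0 _) (mul_nonneg (ha0 _) (exp_pos _).le)
          _ = a js * c ks * (exp ((L+2) * ((j:ℝ) - js)) * exp (-(L * ((j:ℝ) - js)))) := by ring
          _ = a js * c ks * exp (-(2 * (-((j:ℝ) - js)))) := by
              rw [← exp_add]; congr 2; ring
  · -- type II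
    have hII := typeII α A hA C0
      (by
        intro j hj
        have h := hgrow j
        have h' := le_abs_self (j:ℝ)
        linarith)
      J hR a c ha0 hc0 haA hcA j0 k0 js ks hj0 hk0 hjsneg hksnn ha_j0 hc_k0 L Cp hLnn h1 h2
      (hcΛ (L+2) hQ2)
      (by rw [hjsR, hCp]; linarith)
      t1 (fun i hi1 hi2 => (hLm1 i hi1 hi2).trans t2) t3 t4 n hn j hj
    have hdR : (0:ℝ) ≤ (j:ℝ) - js := by
      have : (js:ℝ) ≤ j := by exact_mod_cast (by omega : js ≤ j)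
      linarith
    rw [abs_of_nonneg hdR]
    exact hII

lemma hasSum_exp_abs : ∃ S : ℝ, S < 2 ∧ HasSum (fun d : ℤ => exp (-(2 * |(d:ℝ)|))) S := by
  set r : ℝ := exp (-2) with hr
  have hr0 : 0 ≤ r := (exp_pos _).le
  have hr3 : r < 1 / 3 := by
    have h1 : (3:ℝ) < exp 2 := by
      have := Real.add_one_lt_exp (by norm_num : (2:ℝ) ≠ 0)
      linarith
    rw [hr, exp_neg, ← one_div]
    exact one_div_lt_one_div_of_lt (by norm_num) h1
  have hr1 : r < 1 := by linarith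
  have hg := hasSum_geometric_of_lt_one hr0 hr1
  have h1 : HasSum (fun n : ℕ => exp (-(2 * |(((n:ℤ)):ℝ)|))) (1 - r)⁻¹ := by
    convert hg using 2 with n
    rw [hr, ← Real.exp_nat_mul]
    congr 1
    have : |(((n:ℤ)):ℝ)| = n := by simp
    rw [this]; ring
  have h2 : HasSum (fun n : ℕ => exp (-(2 * |((-((n:ℤ) + 1) : ℤ):ℝ)|))) (r * (1 - r)⁻¹) := by
    have hfun : (fun n : ℕ => exp (-(2 * |((-((n:ℤ) + 1) : ℤ):ℝ)|))) = fun n : ℕ => r * r ^ n := by
      funext n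
      rw [← pow_succ', hr, ← Real.exp_nat_mul]
      congr 1
      have : |((-((n:ℤ) + 1) : ℤ):ℝ)| = n + 1 := by
        push_cast
        rw [abs_neg, abs_of_nonneg (by positivity)]
      rw [this]; push_cast; ring
    rw [hfun]; exact hg.mul_left r
  refine ⟨(1 - r)⁻¹ + r * (1 - r)⁻¹, ?_, HasSum.of_nat_of_neg_add_one h1 h2⟩
  have hpos : 0 < 1 - r := by linarith
  have : (1 - r)⁻¹ + r * (1 - r)⁻¹ = (1 + r) / (1 - r) := by field_simp
  rw [this, div_lt_iff₀ hpos]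
  linarith

theorem key0 (α A : ℤ → ℝ) (hA : ∀ j, A (j+1) = A j + α j) (C0 : ℝ)
    (hgrow : ∀ j : ℤ, 10 * |(j:ℝ)| - C0 ≤ α j)
    (J : ℤ) (hR : ∀ j, J ≤ j → α j ≤ α (j+1)) (hLm : ∀ j, j ≤ -J → α j ≤ α (j-1))
    (w u : ℤ → ℂ) (hw : ∀ j, ‖w j‖ ≤ 1) (hu : ∀ j, ‖u j‖ ≤ 1)
    (horth : ∀ n : ℕ, 1 ≤ n → ∑' j : ℤ, w j * (starRingEnd ℂ) (u (j + n)) *
      ((Real.exp (A j - A (j + n)) : ℝ) : ℂ) = 0)
    {j0 k0 : ℤ} (hj0 : j0 < 0) (hk0 : 0 ≤ k0) (hwj : w j0 ≠ 0) (huk : u k0 ≠ 0) : False := by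
  obtain ⟨n, js, hn1, hMpos, hbound⟩ := core α A hA C0 hgrow J hR hLm
    (fun j => ‖w j‖ * exp (A j)) (fun k => ‖u k‖ * exp (-A k))
    (fun j => by positivity) (fun j => by positivity)
    (fun j => by
      have := hw j
      have h2 := exp_pos (A j)
      show ‖w j‖ * exp (A j) ≤ exp (A j)
      nlinarith)
    (fun j => by
      have := hu j
      have h2 := exp_pos (-A j)
      show ‖u j‖ * exp (-A j) ≤ exp (-A j)
      nlinarith)
    j0 k0 hj0 hk0
    (by have := norm_pos_iff.mpr hwj; positivity)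
    (by have := norm_pos_iff.mpr huk; positivity)
  set M : ℝ := ‖w js‖ * exp (A js) * (‖u (js + n)‖ * exp (-A (js + n))) with hM
  set f : ℤ → ℂ := fun j => w j * (starRingEnd ℂ) (u (j + n)) *
      ((Real.exp (A j - A (j + n)) : ℝ) : ℂ) with hf
  have hnorm : ∀ j, ‖f j‖ = ‖w j‖ * exp (A j) * (‖u (j + n)‖ * exp (-A (j + n))) := by
    intro j
    simp only [hf]
    rw [norm_mul, norm_mul, RCLike.norm_conj, Complex.norm_real, Real.norm_eq_abs,
      abs_of_pos (exp_pos _), sub_eq_add_neg, exp_add]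
    ring
  obtain ⟨S, hS2, hS⟩ := hasSum_exp_abs
  have hg : HasSum (fun j : ℤ => M * exp (-(2 * |(j:ℝ) - js|))) (M * S) := by
    have h1 := ((Equiv.subRight js).hasSum_iff (f := fun d : ℤ => exp (-(2 * |(d:ℝ)|)))).mpr hS
    have h2 := h1.mul_left M
    have hfun : (fun j : ℤ => M * exp (-(2 * |(j:ℝ) - js|))) =
        fun j : ℤ => M * ((fun d : ℤ => exp (-(2 * |(d:ℝ)|))) ∘ (Equiv.subRight js)) j := by
      funext j
      have e : (((Equiv.subRight js) j : ℤ) : ℝ) = (j:ℝ) - js := by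
        show ((j - js : ℤ) : ℝ) = (j:ℝ) - js
        push_cast; rfl
      simp only [Function.comp]
      rw [e]
    rw [hfun]; exact h2
  have hle : ∀ j, ‖f j‖ ≤ M * exp (-(2 * |(j:ℝ) - js|)) := fun j => by
    rw [hnorm]; exact hbound j
  have hsn : Summable (fun j => ‖f j‖) :=
    Summable.of_nonneg_of_le (fun j => norm_nonneg _) hle hg.summable
  have hsf : Summable f := hsn.of_norm
  have hT : ∑' j, ‖f j‖ ≤ M * S := by
    rw [← hg.tsum_eq]
    exact hsn.tsum_le_tsum hle hg.summable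
  have h0 : ∑' j, f j = 0 := horth n hn1
  have e1 := hsf.tsum_eq_add_tsum_ite js
  have e2 := hsn.tsum_eq_add_tsum_ite js
  rw [h0] at e1
  have e3 : ‖f js‖ = ‖∑' j, ite (j = js) 0 (f j)‖ := by
    have : f js = -∑' j, ite (j = js) 0 (f j) := by
      rw [eq_neg_iff_add_eq_zero]; exact e1.symm
    rw [this, norm_neg]
  have e4 : ∀ j, ‖ite (j = js) 0 (f j)‖ = ite (j = js) 0 ‖f j‖ := by
    intro j; split_ifs <;> simp
  have hs' : Summable (fun j => ‖ite (j = js) 0 (f j)‖) := by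
    refine Summable.of_nonneg_of_le (fun j => norm_nonneg _) (fun j => ?_) hsn
    rw [e4]; split_ifs
    · exact norm_nonneg _
    · exact le_refl _
  have e5 : ‖∑' j, ite (j = js) 0 (f j)‖ ≤ ∑' j, ite (j = js) 0 ‖f j‖ := by
    refine (norm_tsum_le_tsum_norm hs').trans (le_of_eq ?_)
    exact tsum_congr e4
  have e6 : ‖f js‖ = M := by rw [hnorm]
  nlinarith

theorem key (α A : ℤ → ℝ) (hA : ∀ j, A (j+1) = A j + α j) (C0 : ℝ)
    (hgrow : ∀ j : ℤ, 10 * |(j:ℝ)| - C0 ≤ α j)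
    (J : ℤ) (hR : ∀ j, J ≤ j → α j ≤ α (j+1)) (hLm : ∀ j, j ≤ -J → α j ≤ α (j-1))
    (w u : ℤ → ℂ) (hw : ∀ j, ‖w j‖ ≤ 1) (hu : ∀ j, ‖u j‖ ≤ 1)
    (horth : ∀ n : ℕ, 1 ≤ n → ∑' j : ℤ, w j * (starRingEnd ℂ) (u (j + n)) *
      ((Real.exp (A j - A (j + n)) : ℝ) : ℂ) = 0)
    {j0 k0 : ℤ} (h : j0 < k0) (hwj : w j0 ≠ 0) (huk : u k0 ≠ 0) : False := by
  refine key0 (fun j => α (j + k0)) (fun j => A (j + k0)) ?_ (C0 + 10 * |(k0:ℝ)|) ?_
    (|J| + |k0|) ?_ ?_
    (fun j => w (j + k0)) (fun j => u (j + k0)) (fun j => hw _) (fun j => hu _) ?_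
    (j0 := j0 - k0) (k0 := 0) (by omega) le_rfl (by simpa using hwj) (by simpa using huk)
  · intro j
    have := hA (j + k0)
    show A (j + 1 + k0) = A (j + k0) + α (j + k0)
    rw [← this]; congr 1; ring
  · intro j
    have h1 := hgrow (j + k0)
    have h2 : |(j:ℝ)| ≤ |((j + k0 : ℤ):ℝ)| + |(k0:ℝ)| := by
      have := abs_sub_abs_le_abs_sub ((j + k0 : ℤ):ℝ) (-(k0:ℝ))
      have h3 := abs_add_le ((j + k0 : ℤ):ℝ) (-(k0:ℝ))
      rw [abs_neg] at h3
      have h4 : ((j + k0 : ℤ):ℝ) + (-(k0:ℝ)) = j := by push_cast; ring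
      rw [h4] at h3
      exact h3
    show 10 * |(j:ℝ)| - (C0 + 10 * |(k0:ℝ)|) ≤ α (j + k0)
    linarith
  · intro j hj
    have h1 := le_abs_self J
    have h2 := neg_le_abs k0
    have := hR (j + k0) (by omega)
    show α (j + k0) ≤ α (j + 1 + k0)
    have e : j + 1 + k0 = j + k0 + 1 := by ring
    rw [e]; exact this
  · intro j hj
    have h1 := le_abs_self J
    have h2 := le_abs_self k0
    have := hLm (j + k0) (by omega)
    show α (j + k0) ≤ α (j - 1 + k0)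
    have e : j - 1 + k0 = j + k0 - 1 := by ring
    rw [e]; exact this
  · intro n hn
    have h1 := horth n hn
    rw [← (Equiv.addRight k0).tsum_eq] at h1
    rw [← h1]
    apply tsum_congr
    intro j
    show w (j + k0) * (starRingEnd ℂ) (u (j + n + k0)) *
      ((Real.exp (A (j + k0) - A (j + n + k0)) : ℝ) : ℂ) = _
    simp only [Equiv.coe_addRight]
    have e : j + (n:ℤ) + k0 = j + k0 + n := by ring
    rw [e]

end Crest.Agent.S0150Aux.Key36
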