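import Mathlib
import Crest.Prelude.Def_TwoAdicShift

/-!
helper85: wrapper for S0150 (part of row 113): coordinates of a weighted bilateral shift on ℓ²(ℤ),
membership in `tailSpace` by coordinates, and `Lat S_x = {⊥, ⊤, tails}` from the pure-sequence key
lemma (taken as the hypothesis `KeyProp`).
-/

set_option autoImplicit false
open Crest.AnalysisR.TwoAdic
open scoped ComplexConjugate InnerProductSpace

namespace Crest.Agent.S0150Aux.Lat85

theorem inner_basis_left (j : ℤ) (v : seqHilbert) : ⟪basisVec j, v⟫_ℂ = v j := by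
  unfold basisVec
  rw [lp.inner_single_left]
  simp

theorem basis_apply_self (j : ℤ) : (basisVec j : seqHilbert) j = 1 := by
  unfold basisVec
  exact lp.single_apply_self 2 j 1

theorem basis_apply_ne {j k : ℤ} (h : k ≠ j) : (basisVec j : seqHilbert) k = 0 := by
  unfold basisVec
  exact lp.single_apply_ne 2 j 1 h

theorem hasSum_basis (v : seqHilbert) : HasSum (fun j : ℤ => v j • basisVec j) v := by
  have h := lp.hasSum_single (p := 2) (E := fun _ : ℤ => ℂ) (by simp) v
  have e : (fun j : ℤ => v j • basisVec j) = fun j : ℤ => lp.single 2 j (v j) := by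
    funext j
    unfold basisVec
    rw [← lp.single_smul]
    simp
  rw [e]
  exact h

/-- the closed submodule of vectors vanishing below `h` -/
theorem mem_tail_iff (h : ℤ) (v : seqHilbert) : v ∈ tailSpace h ↔ ∀ j, j < h → v j = 0 := by
  constructor
  · intro hv j hj
    -- the functional `⟪basisVec j, ·⟫` vanishes on the span, hence on the closure
    have hcl : IsClosed {w : seqHilbert | ⟪basisVec j, w⟫_ℂ = 0} :=
      isClosed_eq (continuous_const.inner continuous_id) continuous_const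
    have hsub : ((Submodule.span ℂ (Set.range fun i : {i : ℤ // h ≤ i} => basisVec (i : ℤ)) :
        Submodule ℂ seqHilbert) : Set seqHilbert) ⊆ {w : seqHilbert | ⟪basisVec j, w⟫_ℂ = 0} := by
      intro w hw
      refine Submodule.span_induction (p := fun w _ => ⟪basisVec j, w⟫_ℂ = 0) ?_ ?_ ?_ ?_ hw
      · rintro _ ⟨i, rfl⟩
        rw [inner_basis_left]
        exact basis_apply_ne (by have := i.2; omega)
      · simp
      · intro a b _ _ ha hb
        rw [inner_add_right, ha, hb, add_zero]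
      · intro c a _ ha
        rw [inner_smul_right, ha, mul_zero]
    have := closure_minimal hsub hcl hv
    rw [← inner_basis_left]
    exact this
  · intro hv
    have hs := hasSum_basis v
    refine mem_closure_of_tendsto hs (Filter.Eventually.of_forall fun s => ?_)
    refine Submodule.sum_mem _ fun j _ => ?_
    by_cases hj : j < h
    · rw [hv j hj, zero_smul]
      exact Submodule.zero_mem _
    · exact Submodule.smul_mem _ _ (Submodule.subset_span ⟨⟨j, not_lt.mp hj⟩, rfl⟩)

theorem isClosed_tail (h : ℤ) : IsClosed (tailSpace h : Set seqHilbert) :=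
  Submodule.isClosed_topologicalClosure _

section shift

variable (β : ℤ → ℝ) (T : seqHilbert →L[ℂ] seqHilbert)
  (hT : ∀ j, T (basisVec j) = (β j : ℂ) • basisVec (j + 1))

include hT in
theorem shift_apply (v : seqHilbert) (k : ℤ) : (T v) (k + 1) = (β k : ℂ) * v k := by
  have hs := (hasSum_basis v).mapL T
  have hs2 := hs.mapL (innerSL ℂ (basisVec (k + 1)))
  have hs3 : HasSum (fun j : ℤ => if j = k then (β k : ℂ) * v k else 0) ((T v) (k + 1)) := by
    have e : (fun j : ℤ => (innerSL ℂ (basisVec (k + 1))) (T (v j • basisVec j))) =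
        fun j : ℤ => if j = k then (β k : ℂ) * v k else 0 := by
      funext j
      rw [innerSL_apply_apply, map_smul, hT, inner_basis_left, lp.coeFn_smul, Pi.smul_apply,
        lp.coeFn_smul, Pi.smul_apply, smul_eq_mul, smul_eq_mul]
      by_cases hj : j = k
      · subst hj
        rw [basis_apply_self, if_pos rfl]
        ring
      · have : (k + 1 : ℤ) ≠ j + 1 := by omega
        rw [basis_apply_ne this, if_neg hj]
        ring
    rw [e, innerSL_apply_apply, inner_basis_left] at hs2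
    exact hs2
  exact (hs3.unique (hasSum_ite_eq k _))

include hT in
theorem shift_apply' (v : seqHilbert) (k : ℤ) : (T v) k = (β (k - 1) : ℂ) * v (k - 1) := by
  have := shift_apply β T hT v (k - 1)
  rwa [sub_add_cancel] at this

include hT in
theorem tail_invariant (h : ℤ) (v : seqHilbert) (hv : v ∈ tailSpace h) : T v ∈ tailSpace h := by
  rw [mem_tail_iff] at hv ⊢
  intro j hj
  rw [shift_apply' β T hT, hv (j - 1) (by omega), mul_zero]

variable (A : ℤ → ℝ) (hA : ∀ j, Real.exp (A j - A (j + 1)) = β j)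

include hT hA in
theorem pow_apply (n : ℕ) (v : seqHilbert) (k : ℤ) :
    ((T ^ n) v) (k + n) = (Real.exp (A k - A (k + n)) : ℂ) * v k := by
  induction n generalizing k with
  | zero => simp
  | succ n ih =>
    rw [pow_succ', mul_apply_eq_comp]
    have e : (k + ((n + 1 : ℕ) : ℤ)) = (k + n) + 1 := by push_cast; ring
    rw [e, shift_apply β T hT, ih, ← hA (k + n), ← mul_assoc, ← Complex.ofReal_mul,
      ← Real.exp_add]
    congr 3
    ring

include hT hA in
theorem inner_pow (n : ℕ) (u w : seqHilbert) :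
    ⟪u, (T ^ n) w⟫_ℂ =
      ∑' j : ℤ, w j * conj (u (j + n)) * (Real.exp (A j - A (j + n)) : ℂ) := by
  rw [lp.inner_eq_tsum, ← (Equiv.addRight (n : ℤ)).tsum_eq]
  refine tsum_congr fun j => ?_
  simp only [Equiv.coe_addRight]
  rw [pow_apply β T hT A hA]
  simp only [RCLike.inner_apply]
  ring

/-- the statement of the pure-sequence key lemma ("bilateral Donoghue"), weights packaged in the
cumulative sequence `A` (`exp (A j - A (j+n))` = product of the weights `β_j ⋯ β_{j+n-1}`). -/
def KeyProp (A : ℤ → ℝ) : Prop :=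
  ∀ (w u : ℤ → ℂ), (∀ j, ‖w j‖ ≤ 1) → (∀ j, ‖u j‖ ≤ 1) →
    (∀ n : ℕ, 1 ≤ n →
      ∑' j : ℤ, w j * conj (u (j + n)) * (Real.exp (A j - A (j + n)) : ℂ) = 0) →
    ∀ j0 k0 : ℤ, j0 < k0 → w j0 ≠ 0 → u k0 ≠ 0 → False

theorem exists_normalize (W : Submodule ℂ seqHilbert) (w : seqHilbert) (hw : w ∈ W) :
    ∃ w' ∈ W, (∀ j, ‖w' j‖ ≤ 1) ∧ ∀ j, w j ≠ 0 → w' j ≠ 0 := by
  have hpos : (0 : ℝ) < ‖w‖ + 1 := by positivity
  refine ⟨(((‖w‖ + 1)⁻¹ : ℝ) : ℂ) • w, W.smul_mem _ hw, fun j => ?_, fun j hj => ?_⟩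
  · refine (lp.norm_apply_le_norm (by simp) _ j).trans ?_
    rw [norm_smul, Complex.norm_real, Real.norm_of_nonneg (by positivity),
      inv_mul_le_iff₀ hpos]
    linarith [norm_nonneg w]
  · rw [lp.coeFn_smul, Pi.smul_apply, smul_eq_mul]
    refine mul_ne_zero ?_ hj
    exact Complex.ofReal_ne_zero.mpr (inv_ne_zero hpos.ne')

include hT hA in
theorem sep (hK : KeyProp A) (W : Submodule ℂ seqHilbert) (hinv : ∀ v ∈ W, T v ∈ W)
    (w : seqHilbert) (hw : w ∈ W) (u : seqHilbert) (hu : u ∈ Wᗮ) (j0 k0 : ℤ) (h : j0 < k0) :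
    w j0 = 0 ∨ u k0 = 0 := by
  by_contra hcon
  push Not at hcon
  obtain ⟨w', hw', hw1, hw2⟩ := exists_normalize W w hw
  obtain ⟨u', hu', hu1, hu2⟩ := exists_normalize Wᗮ u hu
  have hpow : ∀ n : ℕ, (T ^ n) w' ∈ W := by
    intro n
    induction n with
    | zero => simpa using hw'
    | succ n ih =>
      rw [pow_succ', mul_apply_eq_comp]
      exact hinv _ ih
  refine hK (fun j => w' j) (fun j => u' j) hw1 hu1 (fun n _ => ?_) j0 k0 h
    (hw2 _ hcon.1) (hu2 _ hcon.2)
  rw [← inner_pow β T hT A hA]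
  exact Submodule.inner_left_of_mem_orthogonal (hpow n) hu'

include hT hA in
/-- `Lat T = {⊥, ⊤, tails}` for a weighted bilateral shift satisfying the key lemma. -/
theorem lat_tails (hK : KeyProp A) (W : Submodule ℂ seqHilbert)
    (hW : IsClosed (W : Set seqHilbert)) :
    (∀ v ∈ W, T v ∈ W) ↔ (W = ⊥ ∨ W = ⊤ ∨ ∃ h : ℤ, W = tailSpace h) := by
  constructor
  · intro hinv
    have : CompleteSpace W := hW.completeSpace_coe
    by_cases hbot : W = ⊥
    · exact Or.inl hbot
    right
    obtain ⟨w1, hw1, hw1ne⟩ := Submodule.exists_mem_ne_zero_of_ne_bot hbot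
    obtain ⟨j1, hj1⟩ : ∃ j, w1 j ≠ 0 := by
      by_contra hc
      push Not at hc
      exact hw1ne (lp.ext (funext hc))
    by_cases hbdd : ∃ b : ℤ, ∀ w ∈ W, ∀ j, w j ≠ 0 → b ≤ j
    · right
      obtain ⟨b, hb⟩ := hbdd
      obtain ⟨h, ⟨w0, hw0, hw0h⟩, hmin⟩ :=
        Int.exists_least_of_bdd (P := fun j => ∃ w ∈ W, w j ≠ 0)
          ⟨b, fun j ⟨w, hw, hj⟩ => hb w hw j hj⟩ ⟨j1, w1, hw1, hj1⟩
      have hlow : ∀ w ∈ W, ∀ j, j < h → w j = 0 := by
        intro w hw j hj
        by_contra hne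
        exact absurd (hmin j ⟨w, hw, hne⟩) (by omega)
      refine ⟨h, le_antisymm ?_ ?_⟩
      · intro w hw
        rw [mem_tail_iff]
        exact hlow w hw
      · rw [← Submodule.orthogonal_orthogonal W]
        intro v hv
        rw [Submodule.mem_orthogonal]
        intro u hu
        have hu_gt : ∀ k, h < k → u k = 0 := fun k hk =>
          (sep β T hT A hA hK W hinv w0 hw0 u hu h k hk).resolve_left hw0h
        have huh : u h = 0 := by
          have h0 : ⟪u, w0⟫_ℂ = 0 := Submodule.inner_left_of_mem_orthogonal hw0 hu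
          rw [lp.inner_eq_tsum, tsum_eq_single h] at h0
          · simp only [RCLike.inner_apply] at h0
            rcases mul_eq_zero.mp h0 with h1 | h1
            · exact absurd h1 hw0h
            · simpa using h1
          · intro j hj
            rcases lt_or_gt_of_ne hj with hlt | hgt
            · rw [hlow w0 hw0 j hlt]; simp
            · rw [hu_gt j hgt]; simp
        rw [lp.inner_eq_tsum]
        rw [mem_tail_iff] at hv
        have hz : ∀ j, ⟪u j, v j⟫_ℂ = 0 := by
          intro j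
          rcases lt_trichotomy j h with hlt | heq | hgt
          · rw [hv j hlt]; simp
          · rw [heq, huh]; simp
          · rw [hu_gt j hgt]; simp
        rw [tsum_congr hz, tsum_zero]
    · left
      push Not at hbdd
      rw [← Submodule.orthogonal_eq_bot_iff, Submodule.eq_bot_iff]
      intro u hu
      apply lp.ext
      funext k
      obtain ⟨w, hw, j, hj, hlt⟩ := hbdd k
      exact (sep β T hT A hA hK W hinv w hw u hu j k hlt).resolve_left hj
  · rintro (rfl | rfl | ⟨h, rfl⟩)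
    · intro v hv
      rw [Submodule.mem_bot] at hv ⊢
      rw [hv, map_zero]
    · intro v _
      trivial
    · exact tail_invariant β T hT h

theorem normalize_spec (w : seqHilbert) :
    (∀ j, ‖((((‖w‖ + 1)⁻¹ : ℝ) : ℂ) • w : seqHilbert) j‖ ≤ 1) ∧
      ∀ j, w j ≠ 0 → ((((‖w‖ + 1)⁻¹ : ℝ) : ℂ) • w : seqHilbert) j ≠ 0 := by
  have hpos : (0 : ℝ) < ‖w‖ + 1 := by positivity
  refine ⟨fun j => ?_, fun j hj => ?_⟩
  · refine (lp.norm_apply_le_norm (by simp) _ j).trans ?_
    rw [norm_smul, Complex.norm_real, Real.norm_of_nonneg (by positivity),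
      inv_mul_le_iff₀ hpos]
    linarith [norm_nonneg w]
  · rw [lp.coeFn_smul, Pi.smul_apply, smul_eq_mul]
    refine mul_ne_zero ?_ hj
    exact Complex.ofReal_ne_zero.mpr (inv_ne_zero hpos.ne')

include hT hA in
theorem noCross_vec' (hK : KeyProp A) (w u : seqHilbert)
    (h : ∀ n : ℕ, ⟪u, (T ^ n) w⟫_ℂ = 0) : ∀ j k : ℤ, w j ≠ 0 → u k ≠ 0 → k ≤ j := by
  intro j k hj hk
  by_contra hlt
  have hlt' : j < k := not_le.mp hlt
  obtain ⟨hw1, hw2⟩ := normalize_spec w
  obtain ⟨hu1, hu2⟩ := normalize_spec u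
  refine hK _ _ hw1 hu1 (fun n _ => ?_) j k hlt' (hw2 _ hj) (hu2 _ hk)
  rw [← inner_pow β T hT A hA, map_smul, inner_smul_left, inner_smul_right, h n, mul_zero,
    mul_zero]

end shift

/-- board shape (note 991 of row 113). -/
theorem noCross_vec (T : seqHilbert →L[ℂ] seqHilbert) (al A : ℤ → ℝ)
    (hA : ∀ j, A (j + 1) = A j + al j)
    (hT : ∀ j, T (basisVec j) = ((Real.exp (-(al j)) : ℝ) : ℂ) • basisVec (j + 1))
    (hkey : KeyProp A) (w u : seqHilbert)
    (h : ∀ n : ℕ, inner ℂ u ((T ^ n) w) = 0) : ∀ j k : ℤ, w j ≠ 0 → u k ≠ 0 → k ≤ j :=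
  noCross_vec' (fun j => Real.exp (-(al j))) T hT A
    (fun j => by rw [hA j]; congr 1; ring) hkey w u h

/-- board shape of the lattice statement. -/
theorem lat_iff (T : seqHilbert →L[ℂ] seqHilbert) (al A : ℤ → ℝ)
    (hA : ∀ j, A (j + 1) = A j + al j)
    (hT : ∀ j, T (basisVec j) = ((Real.exp (-(al j)) : ℝ) : ℂ) • basisVec (j + 1))
    (hkey : KeyProp A) (W : Submodule ℂ seqHilbert) (hW : IsClosed (W : Set seqHilbert)) :
    (∀ v ∈ W, T v ∈ W) ↔ (W = ⊥ ∨ W = ⊤ ∨ ∃ h : ℤ, W = tailSpace h) :=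
  lat_tails (fun j => Real.exp (-(al j))) T hT A
    (fun j => by rw [hA j]; congr 1; ring) hkey W hW

end Crest.Agent.S0150Aux.Lat85
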