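import Mathlib
import Crest.Prelude.Def_TwoAdicShift
import Crest.Agent.S0150Aux.Erg15

/-! S0150 board, tasks T11(a) `ae_orth` and T11(d) `main` (transitivity).  helper37. -/

set_option autoImplicit false
open Crest.AnalysisR.TwoAdic MeasureTheory
attribute [local instance] Crest.AnalysisR.TwoAdic.borelTwoAdic Crest.AnalysisR.TwoAdic.borelSpace_twoAdic

namespace Crest.Agent.S0150Aux.T11_37

open Crest.Agent.S0150Aux.Erg15

/-- T11(a): a multiplier-invariant subspace and its orthogonal complement are fibrewise orthogonal. -/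
theorem ae_orth (W : Submodule ℂ fibreSpace)
    (hWm : ∀ g : ℤ_[2] → ℂ, Measurable g → (∃ C : ℝ, ∀ x, ‖g x‖ ≤ C) →
          ∀ f ∈ W, ∀ f' : fibreSpace,
            (∀ᵐ x ∂haarTwoAdic, (f' : ℤ_[2] → seqHilbert) x = g x • (f : ℤ_[2] → seqHilbert) x) → f' ∈ W)
    (f : fibreSpace) (hf : f ∈ W) (g : fibreSpace) (hg : g ∈ Wᗮ) :
    ∀ᵐ x ∂haarTwoAdic, inner ℂ ((g : ℤ_[2] → seqHilbert) x) ((f : ℤ_[2] → seqHilbert) x) = 0 := by
  have hint : Integrable (fun x => inner ℂ ((g : ℤ_[2] → seqHilbert) x) ((f : ℤ_[2] → seqHilbert) x))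
      haarTwoAdic := L2.integrable_inner g f
  refine hint.ae_eq_zero_of_forall_setIntegral_eq_zero ?_
  intro A hA _
  -- the truncated function
  have hmem : MemLp (A.indicator (f : ℤ_[2] → seqHilbert)) 2 haarTwoAdic := (Lp.memLp f).indicator hA
  set f' : fibreSpace := hmem.toLp _ with hf'
  have hco : (f' : ℤ_[2] → seqHilbert) =ᵐ[haarTwoAdic] A.indicator (f : ℤ_[2] → seqHilbert) :=
    hmem.coeFn_toLp
  have hf'W : f' ∈ W := by
    refine hWm (A.indicator (fun _ => (1 : ℂ))) (measurable_const.indicator hA) ⟨1, ?_⟩ f hf f' ?_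
    · intro x
      by_cases hx : x ∈ A <;> simp [hx]
    · filter_upwards [hco] with x hx
      rw [hx]
      by_cases hxA : x ∈ A <;> simp [hxA]
  have h0 : inner ℂ g f' = 0 := by
    have := (Submodule.mem_orthogonal W g).1 hg f' hf'W
    rw [← inner_conj_symm, this]
    simp
  rw [L2.inner_def] at h0
  rw [← integral_indicator hA, ← h0]
  apply integral_congr_ae
  filter_upwards [hco] with x hx
  rw [hx]
  by_cases hxA : x ∈ A <;> simp [hxA]

theorem coord_measurableSet (f : fibreSpace) (j : ℤ) :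
    MeasurableSet {x : ℤ_[2] | ((f : ℤ_[2] → seqHilbert) x) j ≠ 0} := by
  have h1 : StronglyMeasurable (fun x : ℤ_[2] => ((f : ℤ_[2] → seqHilbert) x) j) := by
    have hc : Continuous (fun v : seqHilbert => v j) :=
      (lp.evalCLM (𝕜 := ℂ) (E := fun _ : ℤ => ℂ) (p := 2) j).continuous
    exact hc.comp_stronglyMeasurable (Lp.stronglyMeasurable f)
  exact (h1.measurable (measurableSet_singleton (0 : ℂ))).compl

theorem exists_coord (f : fibreSpace) (hf : f ≠ 0) :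
    ∃ j : ℤ, haarTwoAdic {x : ℤ_[2] | ((f : ℤ_[2] → seqHilbert) x) j ≠ 0} ≠ 0 := by
  by_contra hcon
  push Not at hcon
  apply hf
  rw [Lp.eq_zero_iff_ae_eq_zero]
  have : ∀ᵐ x ∂haarTwoAdic, ∀ j : ℤ, ((f : ℤ_[2] → seqHilbert) x) j = 0 := by
    rw [ae_all_iff]
    intro j
    have := hcon j
    rw [ae_iff]
    exact this
  filter_upwards [this] with x hx
  ext j
  simpa using hx j

theorem ae_shift (t : ℕ) {P : ℤ_[2] → Prop} (h : ∀ᵐ y ∂haarTwoAdic, P y) :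
    ∀ᵐ x ∂haarTwoAdic, P (x + (t : ℤ_[2])) :=
  (measurePreserving_add_right haarTwoAdic (t : ℤ_[2])).quasiMeasurePreserving.ae h

/-- T11(d): transitivity of `S`, `V` and the bounded multipliers. -/
theorem main (S V : fibreSpace →L[ℂ] fibreSpace) (Sfib : ℤ_[2] → seqHilbert →L[ℂ] seqHilbert)
    (hSpow : ∀ (n : ℕ) (f : fibreSpace), ∀ᵐ x ∂haarTwoAdic,
      (((S ^ n) f : fibreSpace) : ℤ_[2] → seqHilbert) x = (Sfib x ^ n) ((f : ℤ_[2] → seqHilbert) x))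
    (hVpow : ∀ (t : ℕ) (f : fibreSpace), ∀ᵐ x ∂haarTwoAdic, ∀ j : ℤ,
      ((f : ℤ_[2] → seqHilbert) x) j ≠ 0 →
        (((V ^ t) f : fibreSpace) : ℤ_[2] → seqHilbert) (x + (t : ℤ_[2])) (j - t) ≠ 0)
    (hit : ∀ (A B : Set ℤ_[2]), MeasurableSet A → MeasurableSet B → haarTwoAdic A ≠ 0 →
      haarTwoAdic B ≠ 0 → ∀ T0 : ℕ, ∃ t : ℕ, T0 ≤ t ∧
        haarTwoAdic (A ∩ {x | x + (t : ℤ_[2]) ∈ B}) ≠ 0)
    (noCross : ∀ (x : ℤ_[2]) (w u : seqHilbert), (∀ n : ℕ, inner ℂ u ((Sfib x ^ n) w) = 0) →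
      ∀ j k : ℤ, w j ≠ 0 → u k ≠ 0 → k ≤ j)
    (W : Submodule ℂ fibreSpace) (hWc : IsClosed (W : Set fibreSpace))
    (hWS : ∀ f ∈ W, S f ∈ W) (hWV : ∀ f ∈ W, V f ∈ W)
    (hWm : ∀ g : ℤ_[2] → ℂ, Measurable g → (∃ C : ℝ, ∀ x, ‖g x‖ ≤ C) →
          ∀ f ∈ W, ∀ f' : fibreSpace,
            (∀ᵐ x ∂haarTwoAdic, (f' : ℤ_[2] → seqHilbert) x = g x • (f : ℤ_[2] → seqHilbert) x) → f' ∈ W) :
    W = ⊥ ∨ W = ⊤ := by
  by_contra hcon
  push Not at hcon
  obtain ⟨hbot, htop⟩ := hcon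
  obtain ⟨f, hfW, hf0⟩ := (Submodule.ne_bot_iff W).1 hbot
  have : CompleteSpace W := hWc.completeSpace_coe
  have horth : Wᗮ ≠ ⊥ := by
    intro h
    exact htop ((Submodule.orthogonal_eq_bot_iff).1 h)
  obtain ⟨g, hgW, hg0⟩ := (Submodule.ne_bot_iff _).1 horth
  have hSn : ∀ (n : ℕ) (u : fibreSpace), u ∈ W → (S ^ n) u ∈ W := by
    intro n
    induction n with
    | zero => intro u hu; simpa using hu
    | succ n ih =>
      intro u hu
      rw [pow_succ']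
      exact hWS _ (ih u hu)
  have hVt : ∀ (t : ℕ) (u : fibreSpace), u ∈ W → (V ^ t) u ∈ W := by
    intro n
    induction n with
    | zero => intro u hu; simpa using hu
    | succ n ih =>
      intro u hu
      rw [pow_succ']
      exact hWV _ (ih u hu)
  -- (E1)
  have hE1 : ∀ t : ℕ, ∀ᵐ y ∂haarTwoAdic, ∀ j k : ℤ,
      (((V ^ t) f : fibreSpace) : ℤ_[2] → seqHilbert) y j ≠ 0 →
        ((g : ℤ_[2] → seqHilbert) y) k ≠ 0 → k ≤ j := by
    intro t
    have h1 : ∀ᵐ y ∂haarTwoAdic, ∀ n : ℕ, inner ℂ ((g : ℤ_[2] → seqHilbert) y)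
        ((Sfib y ^ n) ((((V ^ t) f : fibreSpace) : ℤ_[2] → seqHilbert) y)) = 0 := by
      rw [ae_all_iff]
      intro n
      filter_upwards [ae_orth W hWm ((S ^ n) ((V ^ t) f)) (hSn n _ (hVt t f hfW)) g hgW,
        hSpow n ((V ^ t) f)] with y hy1 hy2
      rw [← hy2]
      exact hy1
    filter_upwards [h1] with y hy
    exact noCross y _ _ hy
  obtain ⟨j0, hj0⟩ := exists_coord f hf0
  obtain ⟨k0, hk0⟩ := exists_coord g hg0
  obtain ⟨t, htT, hpos⟩ := hit _ _ (coord_measurableSet f j0) (coord_measurableSet g k0) hj0 hk0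
    ((j0 - k0).toNat + 1)
  apply hpos
  have hae : ∀ᵐ x ∂haarTwoAdic,
      ¬ (x ∈ {x : ℤ_[2] | ((f : ℤ_[2] → seqHilbert) x) j0 ≠ 0} ∩
        {x | x + (t : ℤ_[2]) ∈ {y : ℤ_[2] | ((g : ℤ_[2] → seqHilbert) y) k0 ≠ 0}}) := by
    filter_upwards [ae_shift t (hE1 t), hVpow t f] with x hx1 hx2
    rintro ⟨hxA, hxB⟩
    have h3 := hx1 (j0 - t) k0 (hx2 j0 hxA) hxB
    have h4 : j0 - k0 ≤ ((j0 - k0).toNat : ℤ) := Int.self_le_toNat _
    have h5 : (((j0 - k0).toNat + 1 : ℕ) : ℤ) ≤ (t : ℤ) := by exact_mod_cast htT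
    push_cast at h5
    omega
  rw [ae_iff] at hae
  simp only [not_not] at hae
  exact hae

end Crest.Agent.S0150Aux.T11_37
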