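import Mathlib
import Crest.Prelude.Def_TwoAdicShift
import Crest.Agent.S0150Aux.Defs13
import Crest.Agent.S0150Aux.Erg15

/-! Task T11(b) of the S0150 board (`Vpow_fibre`).  helper40. -/

set_option autoImplicit false
open Crest.AnalysisR.TwoAdic Crest.Agent.S0150Aux.D13 MeasureTheory
attribute [local instance] Crest.AnalysisR.TwoAdic.borelTwoAdic Crest.AnalysisR.TwoAdic.borelSpace_twoAdic

namespace Crest.Agent.S0150Aux.T11b40

open Crest.Agent.S0150Aux.Erg15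

/-- a.e. statements are invariant under translation. -/
theorem ae_add_right {p : ℤ_[2] → Prop} (h : ∀ᵐ y ∂haarTwoAdic, p y) (c : ℤ_[2]) :
    ∀ᵐ x ∂haarTwoAdic, p (x + c) :=
  (measurePreserving_add_right haarTwoAdic c).quasiMeasurePreserving.ae h

/-- general version, with arbitrary coefficients `c`. -/
theorem Vpow_fibre_gen (c : ℤ → ℤ_[2] → ℝ)
    (V : fibreSpace →L[ℂ] fibreSpace) (Vfib : ℤ_[2] → (seqHilbert →L[ℂ] seqHilbert))
    (hV : ∀ f : fibreSpace, ∀ᵐ x ∂haarTwoAdic,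
      (V f : ℤ_[2] → seqHilbert) (x + 1) = Vfib x ((f : ℤ_[2] → seqHilbert) x))
    (hVc : ∀ x (v : seqHilbert) (j : ℤ), Vfib x v (j - 1) = (c j x : ℂ) * v j)
    (hb : ∀ᵐ x ∂haarTwoAdic, ∀ j, 0 < c j x) :
    ∀ (t : ℕ) (f : fibreSpace), ∀ᵐ x ∂haarTwoAdic, ∀ j : ℤ,
      ((f : ℤ_[2] → seqHilbert) x) j ≠ 0 →
        (((V ^ t) f : fibreSpace) : ℤ_[2] → seqHilbert) (x + (t : ℤ_[2])) (j - t) ≠ 0 := by
  intro t
  induction t with
  | zero =>
    intro f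
    refine Filter.Eventually.of_forall ?_
    intro x j hj
    simpa using hj
  | succ t ih =>
    intro f
    have h1 := ih f
    have h2 := ae_add_right (hV ((V ^ t) f)) (t : ℤ_[2])
    have h3 := ae_add_right hb (t : ℤ_[2])
    filter_upwards [h1, h2, h3] with x hx1 hx2 hx3 j hj
    have e1 : (V ^ (t + 1)) f = V ((V ^ t) f) := by
      rw [pow_succ']; rfl
    have e2 : x + ((t + 1 : ℕ) : ℤ_[2]) = x + (t : ℤ_[2]) + 1 := by
      push_cast; ring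
    have e3 : j - ((t + 1 : ℕ) : ℤ) = (j - t) - 1 := by
      push_cast; ring
    rw [e1, e2, e3, hx2, hVc]
    refine mul_ne_zero ?_ (hx1 j hj)
    exact_mod_cast (hx3 (j - t)).ne'

/-- T11(b), exact shape of the board. -/
theorem Vpow_fibre
    (V : fibreSpace →L[ℂ] fibreSpace) (Vfib : ℤ_[2] → (seqHilbert →L[ℂ] seqHilbert))
    (hV : ∀ f : fibreSpace, ∀ᵐ x ∂haarTwoAdic,
      (V f : ℤ_[2] → seqHilbert) (x + 1) = Vfib x ((f : ℤ_[2] → seqHilbert) x))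
    (hVc : ∀ x (v : seqHilbert) (j : ℤ), Vfib x v (j - 1) = (bw j x : ℂ) * v j)
    (hb : ∀ᵐ x ∂haarTwoAdic, ∀ j, 0 < bw j x) :
    ∀ (t : ℕ) (f : fibreSpace), ∀ᵐ x ∂haarTwoAdic, ∀ j : ℤ,
      ((f : ℤ_[2] → seqHilbert) x) j ≠ 0 →
        (((V ^ t) f : fibreSpace) : ℤ_[2] → seqHilbert) (x + (t : ℤ_[2])) (j - t) ≠ 0 :=
  Vpow_fibre_gen bw V Vfib hV hVc hb

end Crest.Agent.S0150Aux.T11b40
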