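import Mathlib
import Crest.Prelude.Def_TwoAdicShift
import Crest.Agent.S0150Aux.Defs13

/-! Board task T3 of S0150 (helper61): the intertwiner coefficients `bw`. -/

set_option autoImplicit false
open Crest.AnalysisR.TwoAdic Crest.Agent.S0150Aux.D13
attribute [local instance] Crest.AnalysisR.TwoAdic.borelTwoAdic
  Crest.AnalysisR.TwoAdic.borelSpace_twoAdic

namespace Crest.Agent.S0150Aux.T3_61

theorem cum_succ' (δ : ℤ → ℝ) (j : ℤ) : cum δ (j + 1) = cum δ j + δ j := by
  unfold cum
  by_cases h : 0 ≤ j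
  · have h1 : 0 ≤ j + 1 := by omega
    rw [if_pos h, if_pos h1]
    have : Finset.Ico 0 (j + 1) = insert j (Finset.Ico 0 j) := by
      ext i; simp only [Finset.mem_Ico, Finset.mem_insert]; omega
    rw [this, Finset.sum_insert (by simp)]
    ring
  · rw [if_neg h]
    have hI : Finset.Ico j 0 = insert j (Finset.Ico (j + 1) 0) := by
      ext i; simp only [Finset.mem_Ico, Finset.mem_insert]; omega
    rw [hI, Finset.sum_insert (by simp)]
    by_cases h1 : 0 ≤ j + 1
    · have hj : j + 1 = 0 := by omega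
      rw [if_pos h1, hj]; simp
    · rw [if_neg h1]; ring

theorem AA_succ' (x : ℤ_[2]) (j : ℤ) : AA x (j + 1) = AA x j + al x j := cum_succ' _ _

theorem rat_pos (j : ℤ) (x : ℤ_[2]) : 0 < rat j x := Real.exp_pos _

theorem rat_succ (j : ℤ) (x : ℤ_[2]) :
    rat (j + 1) x = rat j x * Real.exp (al x j - al (x + 1) (j - 1)) := by
  unfold rat
  rw [← Real.exp_add]
  congr 1
  have h1 := AA_succ' x j
  have h2 := AA_succ' (x + 1) (j - 1)
  rw [sub_add_cancel] at h2
  rw [add_sub_cancel_right, h1, h2]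
  ring

theorem bw_eq (j : ℤ) (x : ℤ_[2]) : bw j x = rat j x / (Xi x).toReal := by
  unfold bw
  rw [ENNReal.toReal_div, ENNReal.toReal_ofReal (rat_pos j x).le]

theorem bw_nonneg (j : ℤ) (x : ℤ_[2]) : 0 ≤ bw j x := ENNReal.toReal_nonneg

theorem bw_le_one (j : ℤ) (x : ℤ_[2]) : bw j x ≤ 1 := by
  unfold bw
  have h : ENNReal.ofReal (rat j x) ≤ Xi x := le_iSup (fun j : ℤ => ENNReal.ofReal (rat j x)) j
  have h1 : ENNReal.ofReal (rat j x) / Xi x ≤ 1 := ENNReal.div_le_of_le_mul (by simpa using h)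
  have := ENNReal.toReal_mono ENNReal.one_ne_top h1
  simpa using this

theorem intertwine (j : ℤ) (x : ℤ_[2]) :
    bet j x * bw (j + 1) x = bw j x * bet (j - 1) (x + 1) := by
  rw [bw_eq, bw_eq, rat_succ]
  unfold bet
  have : Real.exp (-(al x j)) * (rat j x * Real.exp (al x j - al (x + 1) (j - 1))) =
      rat j x * Real.exp (-(al (x + 1) (j - 1))) := by
    have e : Real.exp (-(al x j)) * Real.exp (al x j - al (x + 1) (j - 1)) =
        Real.exp (-(al (x + 1) (j - 1))) := by
      rw [← Real.exp_add]; congr 1; ring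
    calc _ = rat j x * (Real.exp (-(al x j)) * Real.exp (al x j - al (x + 1) (j - 1))) := by ring
      _ = _ := by rw [e]
  rw [← mul_div_assoc, this, div_mul_eq_mul_div]

theorem Xi_ne_zero (x : ℤ_[2]) : Xi x ≠ 0 := by
  have h : ENNReal.ofReal (rat 0 x) ≤ Xi x := le_iSup (fun j : ℤ => ENNReal.ofReal (rat j x)) 0
  have h0 : 0 < ENNReal.ofReal (rat 0 x) := ENNReal.ofReal_pos.2 (rat_pos 0 x)
  exact (h0.trans_le h).ne'

theorem Xi_lt_top (x : ℤ_[2])
    (hJ : ∃ J : ℤ, ∀ j : ℤ, J ≤ |j| → aw (j - 1) (x + 1) = aw j x) : Xi x < ⊤ := by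
  obtain ⟨J, hJ⟩ := hJ
  set J0 : ℤ := max J 0 with hJ0
  have hstep : ∀ j : ℤ, J ≤ |j| → rat (j + 1) x = rat j x := by
    intro j hj
    rw [rat_succ]
    have : al x j - al (x + 1) (j - 1) = 0 := by
      unfold al; rw [hJ j hj]; ring
    rw [this]; simp
  have hup : ∀ j : ℤ, J0 ≤ j → rat j x = rat J0 x := by
    intro j hj
    induction j, hj using Int.le_induction with
    | base => rfl
    | succ j hj ih =>
      rw [hstep j ?_, ih]
      have : J ≤ J0 := le_max_left _ _
      have h0 : 0 ≤ J0 := le_max_right _ _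
      rw [abs_of_nonneg (by omega)]; omega
  have hdown : ∀ j : ℤ, j ≤ -J0 → rat j x = rat (-J0) x := by
    intro j hj
    induction j, hj using Int.le_induction_down with
    | base => rfl
    | pred j hj ih =>
      have := hstep (j - 1) ?_
      · rw [sub_add_cancel] at this
        rw [← this, ih]
      · have : J ≤ J0 := le_max_left _ _
        have h0 : 0 ≤ J0 := le_max_right _ _
        rw [abs_of_nonpos (by omega)]; omega
  set B : ℝ := ∑ i ∈ Finset.Icc (-J0) J0, rat i x with hB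
  have hle : ∀ i ∈ Finset.Icc (-J0) J0, rat i x ≤ B := fun i hi =>
    Finset.single_le_sum (f := fun i => rat i x) (fun i _ => (rat_pos i x).le) hi
  have h0 : 0 ≤ J0 := le_max_right _ _
  have hall : ∀ j : ℤ, rat j x ≤ B := by
    intro j
    by_cases h1 : J0 ≤ j
    · rw [hup j h1]; exact hle _ (Finset.mem_Icc.2 ⟨by omega, le_rfl⟩)
    by_cases h2 : j ≤ -J0
    · rw [hdown j h2]; exact hle _ (Finset.mem_Icc.2 ⟨le_rfl, by omega⟩)
    exact hle _ (Finset.mem_Icc.2 ⟨by omega, by omega⟩)
  have : Xi x ≤ ENNReal.ofReal B := iSup_le fun j => ENNReal.ofReal_le_ofReal (hall j)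
  exact this.trans_lt ENNReal.ofReal_lt_top

theorem bw_pos (x : ℤ_[2])
    (hJ : ∃ J : ℤ, ∀ j : ℤ, J ≤ |j| → aw (j - 1) (x + 1) = aw j x) (j : ℤ) : 0 < bw j x := by
  rw [bw_eq]
  exact div_pos (rat_pos j x) (ENNReal.toReal_pos (Xi_ne_zero x) (Xi_lt_top x hJ).ne)

theorem measurable_AA (hm : ∀ j, Measurable (aw j)) (j : ℤ) : Measurable fun x => AA x j := by
  unfold AA cum al
  by_cases h : 0 ≤ j
  · simp only [if_pos h]
    exact Finset.measurable_sum _ fun i _ => (hm i).const_mul 10
  · simp only [if_neg h]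
    exact (Finset.measurable_sum _ fun i _ => (hm i).const_mul 10).neg

theorem measurable_rat (hm : ∀ j, Measurable (aw j)) (j : ℤ) : Measurable (rat j) := by
  unfold rat
  have h1 : Measurable fun x : ℤ_[2] => x + 1 := (continuous_add_const 1).measurable
  exact Real.measurable_exp.comp ((measurable_AA hm j).sub ((measurable_AA hm (j - 1)).comp h1))

/-- `measurable_bw`, given `measurable_aw` of T1. -/
theorem measurable_bw (hm : ∀ j, Measurable (aw j)) (j : ℤ) : Measurable (bw j) := by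
  unfold bw Xi
  exact ((ENNReal.measurable_ofReal.comp (measurable_rat hm j)).div
    (Measurable.iSup fun i => ENNReal.measurable_ofReal.comp (measurable_rat hm i))).ennreal_toReal

end Crest.Agent.S0150Aux.T3_61
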