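import Mathlib
import Crest.Prelude.Def_TwoAdicShift
import Crest.Agent.S0150Aux.Defs13
import Crest.Agent.S0150Aux.T3_61

/-! Board task T1 of S0150 (helper61, second claimant): basic facts on the weights. -/

set_option autoImplicit false
open Crest.AnalysisR.TwoAdic Crest.Agent.S0150Aux.D13
attribute [local instance] Crest.AnalysisR.TwoAdic.borelTwoAdic
  Crest.AnalysisR.TwoAdic.borelSpace_twoAdic

namespace Crest.Agent.S0150Aux.T1_61

open Crest.Agent.S0150Aux

theorem cum_succ (δ : ℤ → ℝ) (j : ℤ) : cum δ (j + 1) = cum δ j + δ j := T3_61.cum_succ' δ j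

theorem AA_succ (x : ℤ_[2]) (j : ℤ) : AA x (j + 1) = AA x j + al x j := T3_61.AA_succ' x j

theorem Vw_le_aw (j : ℤ) (x : ℤ_[2]) : (H35.Vw j : ℝ) ≤ aw j x := le_max_left _ _

theorem one_le_aw (j : ℤ) (x : ℤ_[2]) : 1 ≤ aw j x := by
  have h : (1 : ℝ) ≤ (H35.Vw j : ℝ) := by exact_mod_cast H35.one_le_Vw j
  exact h.trans (Vw_le_aw j x)

theorem al_grow (x : ℤ_[2]) (j : ℤ) : 10 * |(j : ℝ)| - 0 ≤ al x j := by
  unfold al
  have h1 : |j| ≤ (H35.Vw j : ℤ) := H35.abs_le_Vw j
  have h2 : |(j : ℝ)| ≤ (H35.Vw j : ℝ) := by exact_mod_cast h1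
  have := Vw_le_aw j x
  linarith

theorem rc_mono {j j' : ℤ} (h : win j ⊆ win j') (x : ℤ_[2]) : rc j x ≤ rc j' x :=
  Finset.sup_mono h

theorem al_mono_right (x : ℤ_[2]) : ∀ j : ℤ, 1 ≤ j → al x j ≤ al x (j + 1) := by
  intro j hj
  unfold al aw
  have h1 : (H35.Vw j : ℝ) ≤ (H35.Vw (j + 1) : ℝ) := by
    have a := H35.Vw_cast j
    have b := H35.Vw_cast (j + 1)
    rw [if_pos (by omega)] at a b
    have : (H35.Vw j : ℤ) ≤ (H35.Vw (j + 1) : ℤ) := by omega
    exact_mod_cast this
  have h2 : (rc j x : ℝ) ≤ (rc (j + 1) x : ℝ) := by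
    have : rc j x ≤ rc (j + 1) x := by
      apply rc_mono
      unfold win
      apply Finset.Icc_subset_Icc
      · simp only [le_min_iff, min_le_iff]; omega
      · simp only [max_le_iff, le_max_iff]; omega
    exact_mod_cast this
  have := max_le_max h1 h2
  linarith

theorem al_mono_left (x : ℤ_[2]) : ∀ j : ℤ, j ≤ -1 → al x j ≤ al x (j - 1) := by
  intro j hj
  unfold al aw
  have h1 : (H35.Vw j : ℝ) ≤ (H35.Vw (j - 1) : ℝ) := by
    have a := H35.Vw_cast j
    have b := H35.Vw_cast (j - 1)
    rw [if_neg (by omega)] at a b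
    have : (H35.Vw j : ℤ) ≤ (H35.Vw (j - 1) : ℤ) := by omega
    exact_mod_cast this
  have h2 : (rc j x : ℝ) ≤ (rc (j - 1) x : ℝ) := by
    have : rc j x ≤ rc (j - 1) x := by
      apply rc_mono
      unfold win
      apply Finset.Icc_subset_Icc
      · simp only [le_min_iff, min_le_iff]; omega
      · simp only [max_le_iff, le_max_iff]; omega
    exact_mod_cast this
  have := max_le_max h1 h2
  linarith

theorem measurable_nu : Measurable nu := by
  unfold nu
  exact (measurable_nnnorm.inv).pow_const 2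

theorem measurable_finset_sup {X : Type*} [MeasurableSpace X] (s : Finset ℤ)
    (f : ℤ → X → NNReal) (hf : ∀ i, Measurable (f i)) :
    Measurable fun x => s.sup fun i => f i x := by
  induction s using Finset.induction_on with
  | empty => simp
  | insert a s ha ih =>
    simp only [Finset.sup_insert]
    exact (hf a).sup ih

theorem measurable_rc (j : ℤ) : Measurable (rc j) := by
  unfold rc
  apply measurable_finset_sup
  intro i
  have h1 : Measurable fun x : ℤ_[2] => x + (i : ℤ_[2]) := (continuous_add_const _).measurable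
  exact measurable_nu.comp h1

theorem measurable_aw (j : ℤ) : Measurable (aw j) := by
  unfold aw
  exact measurable_const.max (measurable_rc j).coe_nnreal_real

theorem measurable_bet (j : ℤ) : Measurable (bet j) := by
  unfold bet al
  exact Real.measurable_exp.comp ((measurable_aw j).const_mul 10).neg

theorem bet_pos (j : ℤ) (x : ℤ_[2]) : 0 < bet j x := Real.exp_pos _

theorem bet_le (j : ℤ) (x : ℤ_[2]) : bet j x ≤ Real.exp (-10) := by
  unfold bet al
  apply Real.exp_le_exp.2
  have := one_le_aw j x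
  linarith

theorem aw_zero_of_norm_one {x : ℤ_[2]} (h : ‖x‖ = 1) : aw 0 x = 1 := by
  have hw : win 0 = {0} := by
    unfold win; simp
  have hn : ‖x‖₊ = 1 := by
    apply NNReal.eq; simpa using h
  have hrc : rc 0 x = 1 := by
    unfold rc nu
    rw [hw]; simp [hn]
  have hV : H35.Vw 0 = 1 := by
    have := H35.Vw_cast 0
    simp at this
    exact_mod_cast this
  unfold aw
  rw [hrc, hV]; simp

end Crest.Agent.S0150Aux.T1_61
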