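import Mathlib
import Crest.Prelude.Def_TwoAdicShift
import Crest.Agent.S0150Aux.Defs13

/-!
Part of S0150 (row 113, row incomplete).  helper79.  Task T2 of helper13's board (fact (W3)):
for `x ∉ ℤ` the weights satisfy `aw (j-1) (x+1) = aw j x` for all large `|j|`.
-/

set_option autoImplicit false

open Crest.AnalysisR.TwoAdic Crest.Agent.S0150Aux.D13
open Crest.Agent.S0150Aux

namespace Crest.Agent.S0150Aux.T2_79

lemma exists_close (x : ℤ_[2]) (c : ℤ) (r : ℕ) :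
    ∃ i : ℤ, c ≤ i ∧ i < c + 2 ^ r ∧ ‖x + (i : ℤ_[2])‖ ≤ (2 : ℝ) ^ (-(r : ℤ)) := by
  set y : ℤ_[2] := -(x + (c : ℤ_[2])) with hy
  refine ⟨c + (y.appr r : ℤ), by omega, ?_, ?_⟩
  · have h := PadicInt.appr_lt y r
    have h' : ((y.appr r : ℕ) : ℤ) < 2 ^ r := by exact_mod_cast h
    linarith
  · have hs := PadicInt.appr_spec r y
    have h2 : x + ((c + (y.appr r : ℤ) : ℤ) : ℤ_[2]) = -(y - (y.appr r : ℤ_[2])) := by
      rw [hy]; push_cast; ring
    rw [h2, norm_neg]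
    have := (PadicInt.norm_le_pow_iff_mem_span_pow (y - (y.appr r : ℤ_[2])) r).2 hs
    simpa using this

lemma nu_ge {y : ℤ_[2]} (hy : y ≠ 0) {r : ℕ} (h : ‖y‖ ≤ (2 : ℝ) ^ (-(r : ℤ))) :
    (4 : ℝ) ^ r ≤ (nu y : ℝ) := by
  unfold nu
  push_cast
  have hpos : 0 < ‖y‖ := norm_pos_iff.2 hy
  have h1 : (2:ℝ)^r ≤ ‖y‖⁻¹ := by
    rw [zpow_neg, zpow_natCast] at h
    have := inv_anti₀ hpos h
    simpa using this
  calc (4:ℝ)^r = ((2:ℝ)^r)^2 := by rw [← pow_mul, mul_comm, pow_mul]; norm_num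
    _ ≤ (‖y‖⁻¹)^2 := by gcongr

lemma exists_pow (n : ℕ) (hn : 1 ≤ n) : ∃ r : ℕ, 2 ^ r ≤ n ∧ (n:ℝ)^2 ≤ 4 * (4:ℝ)^r := by
  refine ⟨Nat.log 2 n, Nat.pow_log_le_self 2 (by omega), ?_⟩
  have h := Nat.lt_pow_succ_log_self (b := 2) (by norm_num) n
  have h' : (n:ℝ) ≤ 2 * 2 ^ (Nat.log 2 n) := by
    have : (n:ℝ) < (2:ℝ) ^ (Nat.log 2 n + 1) := by exact_mod_cast h
    rw [pow_succ] at this; linarith
  calc (n:ℝ)^2 ≤ (2 * 2 ^ (Nat.log 2 n))^2 := by gcongr
    _ = 4 * 4 ^ (Nat.log 2 n) := by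
      rw [mul_pow, ← pow_mul, mul_comm _ 2, pow_mul]; norm_num

/-- in any window of length `n ≥ 1` starting at `c`, some `i` has `nu (x+i) ≥ n²/4`. -/
lemma exists_big (x : ℤ_[2]) (hx : ∀ n : ℤ, x ≠ (n : ℤ_[2])) (c : ℤ) (n : ℕ) (hn : 1 ≤ n) :
    ∃ i : ℤ, c ≤ i ∧ i < c + n ∧ (n:ℝ)^2 / 4 ≤ (nu (x + (i : ℤ_[2])) : ℝ) := by
  obtain ⟨r, hr, hr2⟩ := exists_pow n hn
  obtain ⟨i, h1, h2, h3⟩ := exists_close x c r
  refine ⟨i, h1, ?_, ?_⟩
  · have : ((2:ℤ)^r) ≤ n := by exact_mod_cast hr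
    linarith
  · have hne : x + (i : ℤ_[2]) ≠ 0 := by
      intro h0
      apply hx (-i)
      push_cast
      linear_combination h0
    have := nu_ge hne h3
    linarith

lemma Vw_real_nonneg {j : ℤ} (h : 0 ≤ j) : (H35.Vw j : ℝ) = (j : ℝ) + 1 := by
  have h1 := H35.Vw_cast j
  rw [if_pos h] at h1
  exact_mod_cast h1

lemma Vw_real_neg {j : ℤ} (h : j < 0) : (H35.Vw j : ℝ) = -(j : ℝ) := by
  have h1 := H35.Vw_cast j
  rw [if_neg (by omega)] at h1
  exact_mod_cast h1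

theorem aw_shift (x : ℤ_[2]) (hx : ∀ n : ℤ, x ≠ (n : ℤ_[2])) :
    ∃ J : ℤ, ∀ j : ℤ, J ≤ |j| → aw (j - 1) (x + 1) = aw j x := by
  obtain ⟨N, hN⟩ := exists_nat_ge (nu x : ℝ)
  refine ⟨max 8 N, fun j hj => ?_⟩
  have hj8 : 8 ≤ |j| := le_trans (le_max_left _ _) hj
  have hjN : (N:ℤ) ≤ |j| := le_trans (le_max_right _ _) hj
  rcases le_or_gt 0 j with h0 | h0
  · rw [abs_of_nonneg h0] at hj8 hjN
    obtain ⟨i, hi1, hi2, hi3⟩ := exists_big x hx 1 j.toNat (by omega)
    have hjz : ((j.toNat : ℕ) : ℤ) = j := Int.toNat_of_nonneg h0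
    have hjr : ((j.toNat : ℕ) : ℝ) = (j : ℝ) := by exact_mod_cast hjz
    have h8r : (8:ℝ) ≤ j := by exact_mod_cast hj8
    have hNr : (N:ℝ) ≤ j := by exact_mod_cast hjN
    have hR : (j:ℝ)^2/4 ≤ (rc (j-1) (x+1) : ℝ) := by
      have hmem : i - 1 ∈ win (j-1) := by
        unfold win; rw [Finset.mem_Icc]; constructor <;> omega
      have hle : nu (x + 1 + ((i-1 : ℤ) : ℤ_[2])) ≤ rc (j-1) (x+1) :=
        Finset.le_sup (f := fun i : ℤ => nu (x + 1 + (i : ℤ_[2]))) hmem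
      have heq : x + 1 + ((i-1 : ℤ) : ℤ_[2]) = x + (i : ℤ_[2]) := by push_cast; ring
      rw [heq] at hle
      rw [hjr] at hi3
      exact le_trans hi3 (by exact_mod_cast hle)
    have hbig : 2 * (j:ℝ) ≤ (j:ℝ)^2/4 := by nlinarith
    have hrc : rc j x = rc (j-1) (x+1) := by
      apply le_antisymm
      · refine Finset.sup_le fun k hk => ?_
        unfold win at hk
        rw [Finset.mem_Icc] at hk
        by_cases hk0 : k = 0
        · subst hk0
          have : (nu (x + ((0:ℤ) : ℤ_[2])) : ℝ) ≤ (rc (j-1) (x+1) : ℝ) := by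
            simp only [Int.cast_zero, add_zero]
            linarith
          exact_mod_cast this
        · have hmem : k - 1 ∈ win (j-1) := by
            unfold win; rw [Finset.mem_Icc]; constructor <;> omega
          have hle : nu (x + 1 + ((k-1 : ℤ) : ℤ_[2])) ≤ rc (j-1) (x+1) :=
            Finset.le_sup (f := fun i : ℤ => nu (x + 1 + (i : ℤ_[2]))) hmem
          have heq : x + 1 + ((k-1 : ℤ) : ℤ_[2]) = x + (k : ℤ_[2]) := by push_cast; ring
          rwa [heq] at hle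
      · refine Finset.sup_le fun k hk => ?_
        unfold win at hk
        rw [Finset.mem_Icc] at hk
        have hmem : k + 1 ∈ win j := by
          unfold win; rw [Finset.mem_Icc]; constructor <;> omega
        have hle : nu (x + ((k+1 : ℤ) : ℤ_[2])) ≤ rc j x :=
          Finset.le_sup (f := fun i : ℤ => nu (x + (i : ℤ_[2]))) hmem
        have heq : x + ((k+1 : ℤ) : ℤ_[2]) = x + 1 + (k : ℤ_[2]) := by push_cast; ring
        rwa [heq] at hle
    unfold aw
    rw [hrc, max_eq_right, max_eq_right]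
    · rw [Vw_real_nonneg h0]; linarith
    · rw [Vw_real_nonneg (by omega : 0 ≤ j - 1)]; push_cast; linarith
  · rw [abs_of_neg h0] at hj8 hjN
    obtain ⟨i, hi1, hi2, hi3⟩ := exists_big x hx j (-j).toNat (by omega)
    have hjz : (((-j).toNat : ℕ) : ℤ) = -j := Int.toNat_of_nonneg (by omega)
    have hjr : (((-j).toNat : ℕ) : ℝ) = -(j : ℝ) := by exact_mod_cast hjz
    have h8r : (8:ℝ) ≤ -j := by exact_mod_cast hj8
    have hNr : (N:ℝ) ≤ -j := by exact_mod_cast hjN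
    have hR : (j:ℝ)^2/4 ≤ (rc j x : ℝ) := by
      have hmem : i ∈ win j := by
        unfold win; rw [Finset.mem_Icc]; constructor <;> omega
      have hle : nu (x + ((i : ℤ) : ℤ_[2])) ≤ rc j x :=
        Finset.le_sup (f := fun i : ℤ => nu (x + (i : ℤ_[2]))) hmem
      rw [hjr] at hi3
      have : (j:ℝ)^2/4 = (-(j:ℝ))^2/4 := by ring
      rw [this]
      exact le_trans hi3 (by exact_mod_cast hle)
    have hbig : 2 * (-(j:ℝ)) ≤ (j:ℝ)^2/4 := by nlinarith
    have hrc : rc (j-1) (x+1) = rc j x := by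
      apply le_antisymm
      · refine Finset.sup_le fun k hk => ?_
        unfold win at hk
        rw [Finset.mem_Icc] at hk
        by_cases hk0 : k = -1
        · subst hk0
          have : (nu (x + 1 + ((-1:ℤ) : ℤ_[2])) : ℝ) ≤ (rc j x : ℝ) := by
            have heq : x + 1 + ((-1:ℤ) : ℤ_[2]) = x := by push_cast; ring
            rw [heq]
            linarith
          exact_mod_cast this
        · have hmem : k + 1 ∈ win j := by
            unfold win; rw [Finset.mem_Icc]; constructor <;> omega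
          have hle : nu (x + ((k+1 : ℤ) : ℤ_[2])) ≤ rc j x :=
            Finset.le_sup (f := fun i : ℤ => nu (x + (i : ℤ_[2]))) hmem
          have heq : x + ((k+1 : ℤ) : ℤ_[2]) = x + 1 + (k : ℤ_[2]) := by push_cast; ring
          rwa [heq] at hle
      · refine Finset.sup_le fun k hk => ?_
        unfold win at hk
        rw [Finset.mem_Icc] at hk
        have hmem : k - 1 ∈ win (j-1) := by
          unfold win; rw [Finset.mem_Icc]; constructor <;> omega
        have hle : nu (x + 1 + ((k-1 : ℤ) : ℤ_[2])) ≤ rc (j-1) (x+1) :=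
          Finset.le_sup (f := fun i : ℤ => nu (x + 1 + (i : ℤ_[2]))) hmem
        have heq : x + 1 + ((k-1 : ℤ) : ℤ_[2]) = x + (k : ℤ_[2]) := by push_cast; ring
        rwa [heq] at hle
    unfold aw
    rw [hrc, max_eq_right, max_eq_right]
    · rw [Vw_real_neg h0]; linarith
    · rw [Vw_real_neg (by omega : j - 1 < 0)]; push_cast; linarith

end Crest.Agent.S0150Aux.T2_79
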