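import Mathlib
import Crest.Prelude.Def_TwoAdicShift
import Crest.Agent.S0150Aux.Fib61

/-! Board tasks T4 and T10 of S0150 in the exact shapes of helper13's board (helper61). -/

set_option autoImplicit false
open Crest.AnalysisR.TwoAdic

namespace Crest.Agent.S0150Aux.T61

open Crest.Agent.S0150Aux.Fib61

/-- T4. -/
theorem exists_wshift (c : ℤ → ℝ) (s : ℤ) (C : ℝ) (hc : ∀ j, |c j| ≤ C) :
    ∃ T : seqHilbert →L[ℂ] seqHilbert, (∀ (v : seqHilbert) (j : ℤ), T v (j + s) = (c j : ℂ) * v j) ∧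
      ‖T‖ ≤ C ∧ ∀ j, T (basisVec j) = (c j : ℂ) • basisVec (j + s) := by
  refine ⟨wshift c C hc s, fun v j => ?_, wshift_norm_le c C hc s, wshift_basis c C hc s⟩
  rw [wshift_apply, add_sub_cancel_right]

/-- T10. -/
theorem closures (T : seqHilbert →L[ℂ] seqHilbert) (c : ℤ → ℝ) (hc : ∀ j, 0 < c j)
    (hT : ∀ j, T (basisVec j) = (c j : ℂ) • basisVec (j - 1)) :
    (∀ h : ℤ, closure (T '' (tailSpace h : Set seqHilbert)) = (tailSpace (h - 1) : Set seqHilbert)) ∧
      closure (Set.range T) = Set.univ :=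
  ⟨fun h => closure_image_tail hT hc h, closure_range hT hc⟩

end Crest.Agent.S0150Aux.T61
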