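import Mathlib
import Crest.Prelude.Def_TwoAdicShift
import Crest.Agent.S0150Aux.Defs13

set_option autoImplicit false
open Crest.AnalysisR.TwoAdic Crest.Agent.S0150Aux.D13
attribute [local instance] Crest.AnalysisR.TwoAdic.borelTwoAdic Crest.AnalysisR.TwoAdic.borelSpace_twoAdic

namespace Crest.Agent.S0150Aux.T8c83

open Crest.Agent.S0150Aux
open scoped InnerProductSpace ComplexConjugate

/-! Copies (own namespace) of helper35's generic weighted-shift lemmas, so that this file does not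
depend on `H35_WShift.lean`. -/

theorem basisVec_apply (j i : ℤ) : (basisVec j : ℤ → ℂ) i = if i = j then 1 else 0 := by
  unfold basisVec
  rw [lp.single_apply]
  by_cases h : i = j
  · subst h; simp
  · simp [h]

theorem basisVec_apply_self (j : ℤ) : (basisVec j : ℤ → ℂ) j = 1 := by
  rw [basisVec_apply]; simp

theorem basisVec_apply_ne {j i : ℤ} (h : i ≠ j) : (basisVec j : ℤ → ℂ) i = 0 := by
  rw [basisVec_apply]; simp [h]

theorem norm_basisVec (j : ℤ) : ‖basisVec j‖ = 1 := by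
  unfold basisVec
  rw [lp.norm_single (by norm_num)]
  simp

theorem inner_basisVec_left (j : ℤ) (v : seqHilbert) : ⟪basisVec j, v⟫_ℂ = v j := by
  unfold basisVec
  rw [lp.inner_single_left]
  simp

theorem hasSum_basisVec (v : seqHilbert) : HasSum (fun j : ℤ => v j • basisVec j) v := by
  have h := lp.hasSum_single (E := fun _ : ℤ => ℂ) (p := 2) (by norm_num) v
  convert h using 2 with j
  unfold basisVec
  rw [← lp.single_smul]
  simp

/-- coordinate formula for ANY bounded operator acting as a weighted shift on the basis. -/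
theorem apply_of_basis (T : seqHilbert →L[ℂ] seqHilbert) (c : ℤ → ℂ) (k : ℤ)
    (hT : ∀ j, T (basisVec j) = c j • basisVec (j + k)) (v : seqHilbert) (j : ℤ) :
    (T v : ℤ → ℂ) (j + k) = c j * v j := by
  have h1 : HasSum (fun i : ℤ => T (v i • basisVec i)) (T v) := (hasSum_basisVec v).mapL T
  have h2 : HasSum (fun i : ℤ => ⟪basisVec (j + k), T (v i • basisVec i)⟫_ℂ)
      ⟪basisVec (j + k), T v⟫_ℂ := h1.mapL (innerSL ℂ (basisVec (j + k)))
  rw [inner_basisVec_left] at h2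
  have h3 : ∀ i : ℤ, ⟪basisVec (j + k), T (v i • basisVec i)⟫_ℂ
      = if i = j then c j * v j else 0 := by
    intro i
    rw [inner_basisVec_left, map_smul, hT]
    simp only [lp.coeFn_smul, Pi.smul_apply, smul_eq_mul]
    by_cases h : i = j
    · subst h
      rw [basisVec_apply_self]; simp [mul_comm]
    · rw [basisVec_apply_ne (by omega)]; simp [h]
  simp only [h3] at h2
  exact h2.unique (hasSum_ite_eq j _)

theorem apply_of_basis' (T : seqHilbert →L[ℂ] seqHilbert) (c : ℤ → ℂ) (k : ℤ)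
    (hT : ∀ j, T (basisVec j) = c j • basisVec (j + k)) (v : seqHilbert) (j : ℤ) :
    (T v : ℤ → ℂ) j = c (j - k) * v (j - k) := by
  have := apply_of_basis T c k hT v (j - k)
  simpa using this

/-- comparison of `ℓ²` norms from a coordinatewise bound along a shift. -/
theorem norm_le_of_coord_le (f g : seqHilbert) (k : ℤ) (C : ℝ) (hC : 0 ≤ C)
    (h : ∀ j, ‖f j‖ ≤ C * ‖g (j - k)‖) : ‖f‖ ≤ C * ‖g‖ := by
  have hp : 0 < (2 : ENNReal).toReal := by norm_num
  refine lp.norm_le_of_tsum_le hp (mul_nonneg hC (norm_nonneg _)) ?_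
  rw [Real.mul_rpow hC (norm_nonneg _), lp.norm_rpow_eq_tsum hp g, ← tsum_mul_left]
  have hg : Summable fun j : ℤ => ‖g j‖ ^ (2 : ENNReal).toReal := (lp.memℓp g).summable hp
  have hf : Summable fun j : ℤ => ‖f j‖ ^ (2 : ENNReal).toReal := (lp.memℓp f).summable hp
  have hg' : Summable fun j : ℤ => C ^ (2 : ENNReal).toReal * ‖g (j - k)‖ ^ (2 : ENNReal).toReal :=
    ((Equiv.subRight k).summable_iff.mpr hg).mul_left _
  have e : ∑' j : ℤ, C ^ (2 : ENNReal).toReal * ‖g j‖ ^ (2 : ENNReal).toReal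
      = ∑' j : ℤ, C ^ (2 : ENNReal).toReal * ‖g (j - k)‖ ^ (2 : ENNReal).toReal :=
    ((Equiv.subRight k).tsum_eq
      (fun j : ℤ => C ^ (2 : ENNReal).toReal * ‖g j‖ ^ (2 : ENNReal).toReal)).symm
  rw [e]
  refine hf.tsum_le_tsum (fun j => ?_) hg'
  rw [← Real.mul_rpow hC (norm_nonneg _)]
  exact Real.rpow_le_rpow (norm_nonneg _) (h j) hp.le

/-- norm bound for ANY bounded operator acting as a weighted shift on the basis. -/
theorem norm_le_of_basis (T : seqHilbert →L[ℂ] seqHilbert) (c : ℤ → ℂ) (k : ℤ)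
    (hT : ∀ j, T (basisVec j) = c j • basisVec (j + k)) (C : ℝ) (hC : 0 ≤ C)
    (hc : ∀ j, ‖c j‖ ≤ C) : ‖T‖ ≤ C := by
  refine ContinuousLinearMap.opNorm_le_bound _ hC fun v => ?_
  refine norm_le_of_coord_le _ _ k C hC fun j => ?_
  rw [apply_of_basis' T c k hT, norm_mul]
  exact mul_le_mul_of_nonneg_right (hc _) (norm_nonneg _)

/-- powers of a weighted shift on the basis. -/
theorem pow_basisVec (S : seqHilbert →L[ℂ] seqHilbert) (c : ℤ → ℂ)
    (hS : ∀ j, S (basisVec j) = c j • basisVec (j + 1)) (n : ℕ) (j : ℤ) :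
    (S ^ n) (basisVec j) = (∏ i ∈ Finset.range n, c (j + i)) • basisVec (j + n) := by
  induction n with
  | zero => simp
  | succ n ih =>
    rw [pow_succ', mul_apply_eq_comp, ih, map_smul, hS, smul_smul,
      Finset.prod_range_succ]
    congr 1
    push_cast
    ring_nf

theorem norm_pow_le (S : seqHilbert →L[ℂ] seqHilbert) (c : ℤ → ℂ)
    (hS : ∀ j, S (basisVec j) = c j • basisVec (j + 1)) (n : ℕ) (C : ℝ) (hC : 0 ≤ C)
    (hc : ∀ j, ‖∏ i ∈ Finset.range n, c (j + i)‖ ≤ C) : ‖S ^ n‖ ≤ C :=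
  norm_le_of_basis (S ^ n) (fun j => ∏ i ∈ Finset.range n, c (j + i)) n
    (pow_basisVec S c hS n) C hC hc

/-- coordinate form of a weighted shift ⟹ basis form. -/
theorem basis_of_coord (T : seqHilbert →L[ℂ] seqHilbert) (c : ℤ → ℂ) (s : ℤ)
    (hT : ∀ (v : seqHilbert) (j : ℤ), T v (j + s) = c j * v j) (j : ℤ) :
    T (basisVec j) = c j • basisVec (j + s) := by
  ext i
  have h := hT (basisVec j) (i - s)
  rw [sub_add_cancel] at h
  rw [h]
  simp only [lp.coeFn_smul, Pi.smul_apply, smul_eq_mul]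
  by_cases hi : i = j + s
  · subst hi
    rw [basisVec_apply_self]
    simp [basisVec_apply_self]
  · rw [basisVec_apply_ne hi, basisVec_apply_ne (by omega)]
    simp

theorem Vw_le_aw (j : ℤ) (x : ℤ_[2]) : (H35.Vw j : ℝ) ≤ aw j x := le_max_left _ _

theorem prod_bet (x : ℤ_[2]) (n : ℕ) (j : ℤ) :
    ∏ i ∈ Finset.range n, bet (j + i) x
      = Real.exp (-(10 * ∑ i ∈ Finset.range n, aw (j + i) x)) := by
  unfold bet al
  rw [← Real.exp_sum, Finset.sum_neg_distrib, Finset.mul_sum]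

theorem prod_bet_le (x : ℤ_[2]) (n : ℕ) (j : ℤ) :
    ∏ i ∈ Finset.range n, bet (j + i) x
      ≤ Real.exp (-10 * (((n + 1) ^ 2 / 4 : ℕ) : ℝ)) := by
  rw [prod_bet]
  apply Real.exp_le_exp.2
  have h1 : (((n + 1) ^ 2 / 4 : ℕ) : ℝ) ≤ ((∑ i ∈ Finset.range n, H35.Vw (j + i) : ℕ) : ℝ) := by
    exact_mod_cast H35.window n j
  have h2 : ((∑ i ∈ Finset.range n, H35.Vw (j + i) : ℕ) : ℝ)
      ≤ ∑ i ∈ Finset.range n, aw (j + i) x := by
    push_cast
    exact Finset.sum_le_sum fun i _ => Vw_le_aw _ _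
  linarith

/-- Board task T8(c) of S0150 (note 986). (`hn` is not needed.) -/
theorem norm_pow_fib (x : ℤ_[2]) (T : seqHilbert →L[ℂ] seqHilbert)
    (hT : ∀ (v : seqHilbert) (j : ℤ), T v (j + 1) = (bet j x : ℂ) * v j) (n : ℕ) (hn : 1 ≤ n) :
    ‖T ^ n‖ ≤ Real.exp (-10 * (((n + 1) ^ 2 / 4 : ℕ) : ℝ)) := by
  refine norm_pow_le T (fun j => (bet j x : ℂ))
    (basis_of_coord T (fun j => (bet j x : ℂ)) 1 hT) n _ (Real.exp_pos _).le fun j => ?_
  have h : ‖∏ i ∈ Finset.range n, ((bet (j + i) x : ℝ) : ℂ)‖ = ∏ i ∈ Finset.range n, bet (j + i) x := by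
    rw [norm_prod]
    refine Finset.prod_congr rfl fun i _ => ?_
    rw [Complex.norm_real, Real.norm_eq_abs, abs_of_pos]
    exact Real.exp_pos _
  rw [h]
  exact prod_bet_le x n j

end Crest.Agent.S0150Aux.T8c83
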