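import Mathlib
import Crest.Prelude.Def_TwoAdicShift
import Crest.Agent.S0150Aux.Defs13
import Crest.Agent.S0150Aux.Erg15

/-! helper76: board task T8(d) of S0150 (note 986 of row 113): the lower bound `e^{-10} ≤ ‖S‖`.
On the open set `ball 1 1` (the units of `ℤ₂`) the weight `bet 0` equals `e^{-10}`. -/

set_option autoImplicit false
open Crest.AnalysisR.TwoAdic MeasureTheory
attribute [local instance] Crest.AnalysisR.TwoAdic.borelTwoAdic Crest.AnalysisR.TwoAdic.borelSpace_twoAdic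

namespace Crest.Agent.S0150Aux.T8d76
open Crest.Agent.S0150Aux.D13

theorem aw_zero_of_norm_one (x : ℤ_[2]) (hx : ‖x‖ = 1) : aw 0 x = 1 := by
  have hx' : ‖x‖₊ = 1 := by
    apply NNReal.eq; simpa using hx
  have hw : win 0 = {0} := by
    unfold win; ext i; simp only [Finset.mem_Icc, Finset.mem_singleton]; omega
  have hV : H35.Vw 0 = 1 := by
    unfold H35.Vw; simp
  unfold aw rc
  rw [hw, hV]
  simp [nu, hx']

theorem bet_zero_of_norm_one (x : ℤ_[2]) (hx : ‖x‖ = 1) : bet 0 x = Real.exp (-10) := by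
  unfold bet al
  rw [aw_zero_of_norm_one x hx]; norm_num

theorem norm_eq_one_of_mem_ball (x : ℤ_[2]) (hx : x ∈ Metric.ball (1 : ℤ_[2]) 1) : ‖x‖ = 1 := by
  rw [Metric.mem_ball, dist_eq_norm] at hx
  have h1 : ‖(1 : ℤ_[2])‖ = 1 := norm_one
  have hne : ‖x - 1‖ ≠ ‖(1 : ℤ_[2])‖ := by rw [h1]; exact ne_of_lt hx
  have := PadicInt.norm_add_eq_max_of_ne hne
  rw [sub_add_cancel, h1, max_eq_right hx.le] at this
  exact this

theorem norm_basisVec (j : ℤ) : ‖basisVec j‖ = 1 := by
  unfold basisVec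
  rw [lp.norm_single (by norm_num)]
  simp

theorem norm_S_ge (S : fibreSpace →L[ℂ] fibreSpace)
    (Sfib : ℤ_[2] → seqHilbert →L[ℂ] seqHilbert)
    (hS : ∀ f : fibreSpace, ∀ᵐ x ∂haarTwoAdic,
      (S f : ℤ_[2] → seqHilbert) x = Sfib x ((f : ℤ_[2] → seqHilbert) x))
    (hT : ∀ x j, Sfib x (basisVec j) = (bet j x : ℂ) • basisVec (j + 1)) :
    Real.exp (-10) ≤ ‖S‖ := by
  set A : Set ℤ_[2] := Metric.ball (1 : ℤ_[2]) 1 with hA
  have hAo : IsOpen A := Metric.isOpen_ball
  have hAm : MeasurableSet A := hAo.measurableSet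
  have hAne : A.Nonempty := ⟨1, Metric.mem_ball_self one_pos⟩
  have hApos : 0 < haarTwoAdic A := hAo.measure_pos _ hAne
  have hAfin : haarTwoAdic A ≠ ⊤ := measure_ne_top _ _
  set f : fibreSpace := indicatorConstLp 2 hAm hAfin (basisVec 0) with hf
  set g : fibreSpace := indicatorConstLp 2 hAm hAfin (((Real.exp (-10) : ℝ) : ℂ) • basisVec 1) with hg
  have hSf : S f = g := by
    apply Lp.ext
    have h1 := hS f
    have h2 : (f : ℤ_[2] → seqHilbert) =ᵐ[haarTwoAdic] A.indicator (fun _ => basisVec 0) :=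
      indicatorConstLp_coeFn
    have h3 : (g : ℤ_[2] → seqHilbert) =ᵐ[haarTwoAdic]
        A.indicator (fun _ => ((Real.exp (-10) : ℝ) : ℂ) • basisVec 1) :=
      indicatorConstLp_coeFn
    filter_upwards [h1, h2, h3] with x h1 h2 h3
    rw [h1, h2, h3]
    by_cases hx : x ∈ A
    · rw [Set.indicator_of_mem hx, Set.indicator_of_mem hx, hT,
        bet_zero_of_norm_one x (norm_eq_one_of_mem_ball x hx)]
      norm_num
    · rw [Set.indicator_of_notMem hx, Set.indicator_of_notMem hx, map_zero]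
  have hc : 0 < (haarTwoAdic.real A) ^ (1 / (2 : ENNReal).toReal) := by
    apply Real.rpow_pos_of_pos
    exact ENNReal.toReal_pos hApos.ne' hAfin
  have hnf : ‖f‖ = (haarTwoAdic.real A) ^ (1 / (2 : ENNReal).toReal) := by
    rw [hf, norm_indicatorConstLp (by norm_num) (by norm_num), norm_basisVec, one_mul]
  have hng : ‖g‖ = Real.exp (-10) * (haarTwoAdic.real A) ^ (1 / (2 : ENNReal).toReal) := by
    rw [hg, norm_indicatorConstLp (by norm_num) (by norm_num), norm_smul, norm_basisVec, mul_one,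
      Complex.norm_real, Real.norm_eq_abs, abs_of_pos (Real.exp_pos _)]
  have hle := S.le_opNorm f
  rw [hSf, hng, hnf] at hle
  exact le_of_mul_le_mul_right hle hc

end Crest.Agent.S0150Aux.T8d76
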