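import Mathlib
import Crest.Prelude.Def_TwoAdicShift
import Crest.Agent.S0150Aux.Defs13
import Crest.Agent.S0150Aux.Asm13
import Crest.Agent.S0150Aux.T1_61
import Crest.Agent.S0150Aux.T2_79
import Crest.Agent.S0150Aux.T3_61
import Crest.Agent.S0150Aux.T4T10_61
import Crest.Agent.S0150Aux.Fib62
import Crest.Agent.S0150Aux.T8c83
import Crest.Agent.S0150Aux.T8d76
import Crest.Agent.S0150Aux.T11_37
import Crest.Agent.S0150Aux.T11b40
import Crest.Agent.S0150Aux.T11c83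
import Crest.Agent.S0150Aux.Lat85
import Crest.Agent.S0150Aux.Erg15
import Crest.Agent.S0150Aux.Key36

/-! Backup of the final instantiation of S0150 (helper56): `Asm13.assemble` applied to the landed
task lemmas of helper13's board. -/

set_option autoImplicit false
open Crest.AnalysisR.TwoAdic MeasureTheory Crest.Agent.S0150Aux.D13
attribute [local instance] Crest.AnalysisR.TwoAdic.borelTwoAdic Crest.AnalysisR.TwoAdic.borelSpace_twoAdic

namespace Crest.Agent.S0150Aux.Final56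

theorem keyProp (x : ℤ_[2]) : Lat85.KeyProp (AA x) := by
  intro w u hw hu horth j0 k0 h hwj huk
  exact Key36.key (al x) (AA x) (T1_61.AA_succ x) 0 (T1_61.al_grow x) 1 (T1_61.al_mono_right x)
    (T1_61.al_mono_left x) w u hw hu horth h hwj huk

theorem final :
    ∃ (β b : ℤ → ℤ_[2] → ℝ) (Sfib Vfib : ℤ_[2] → (seqHilbert →L[ℂ] seqHilbert))
      (S V : fibreSpace →L[ℂ] fibreSpace),
      (∀ j, Measurable (β j)) ∧ (∀ j x, 0 < β j x) ∧
      (∀ x j, Sfib x (basisVec j) = (β j x : ℂ) • basisVec (j + 1)) ∧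
      (∀ f : fibreSpace, ∀ᵐ x ∂haarTwoAdic, (S f : ℤ_[2] → seqHilbert) x = Sfib x ((f : ℤ_[2] → seqHilbert) x)) ∧
      (∀ x, ∀ W : Submodule ℂ seqHilbert, IsClosed (W : Set seqHilbert) →
        ((∀ v ∈ W, Sfib x v ∈ W) ↔ (W = ⊥ ∨ W = ⊤ ∨ ∃ h : ℤ, W = tailSpace h))) ∧
      S ≠ 0 ∧ ‖S‖ = Real.exp (-10) ∧
      (∀ n : ℕ, 1 ≤ n → ‖S ^ n‖ ≤ Real.exp (-10 * (((n + 1) ^ 2 / 4 : ℕ) : ℝ))) ∧
      ‖V‖ ≤ 1 ∧ V * S = S * V ∧
      (∀ j, Measurable (b j)) ∧ (∀ j x, 0 ≤ b j x ∧ b j x ≤ 1) ∧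
      (∀ x j, Vfib x (basisVec j) = (b j x : ℂ) • basisVec (j - 1)) ∧
      (∀ f : fibreSpace, ∀ᵐ x ∂haarTwoAdic,
        (V f : ℤ_[2] → seqHilbert) (x + 1) = Vfib x ((f : ℤ_[2] → seqHilbert) x)) ∧
      (∃ N : Set ℤ_[2], haarTwoAdic N = 0 ∧ ∀ x, x ∉ N →
        (∀ j, 0 < b j x) ∧
        (∀ h : ℤ, closure (Vfib x '' (tailSpace h : Set seqHilbert)) = (tailSpace (h - 1) : Set seqHilbert)) ∧
        closure (Set.range (Vfib x)) = Set.univ) ∧
      (∀ W : Submodule ℂ fibreSpace, IsClosed (W : Set fibreSpace) →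
        (∀ f ∈ W, S f ∈ W) → (∀ f ∈ W, V f ∈ W) →
        (∀ g : ℤ_[2] → ℂ, Measurable g → (∃ C : ℝ, ∀ x, ‖g x‖ ≤ C) →
          ∀ f ∈ W, ∀ f' : fibreSpace,
            (∀ᵐ x ∂haarTwoAdic, (f' : ℤ_[2] → seqHilbert) x = g x • (f : ℤ_[2] → seqHilbert) x) → f' ∈ W) →
        W = ⊥ ∨ W = ⊤) := Asm13.assemble
  T1_61.measurable_bet T1_61.bet_pos T1_61.bet_le
  (T3_61.measurable_bw T1_61.measurable_aw) T3_61.bw_nonneg T3_61.bw_le_one T3_61.intertwine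
  (fun x hx j => T3_61.bw_pos x (T2_79.aw_shift x hx) j)
  Erg15.range_intCast_null
  T61.exists_wshift
  Fib62.exists_lift
  Fib62.aesm_field
  Fib62.exists_transl
  Fib62.norm_le_of_fibre
  Fib62.pow_fibre
  T8c83.norm_pow_fib
  T8d76.norm_S_ge
  Fib62.comm_of_fibre
  T61.closures
  (fun x T hT W hW => Lat85.lat_iff T (al x) (AA x) (T1_61.AA_succ x) hT (keyProp x) W hW)
  (fun x T hT w u h => Lat85.noCross_vec T (al x) (AA x) (T1_61.AA_succ x) hT (keyProp x) w u h)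
  (fun S V Sfib Vfib hS hV hVc hb hnc W hWc hWS hWV hWm =>
    T11_37.main S V Sfib (Fib62.pow_fibre S Sfib hS) (T11b40.Vpow_fibre V Vfib hV hVc hb)
      T11c83.hit hnc W hWc hWS hWV hWm)

end Crest.Agent.S0150Aux.Final56
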