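import Mathlib

/-!
helper35: a series over `ℤ` with a dominant term does not vanish (end of the KEY LEMMA of S0150).
-/

namespace Crest.Agent.S0150Aux.H35

open Real

theorem exp_neg_two_le : exp (-2) ≤ 1 / 4 := by
  have h1 : (2 : ℝ) ≤ exp 1 := by
    have := add_one_le_exp (1 : ℝ)
    linarith
  have h2 : exp 2 = exp 1 * exp 1 := by rw [← exp_add]; norm_num
  have h3 : (4 : ℝ) ≤ exp 2 := by rw [h2]; nlinarith
  rw [exp_neg, one_div]
  exact inv_anti₀ (by norm_num) h3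

theorem exp_neg_two_mul_le (m : ℕ) : exp (-2 * (m : ℝ)) ≤ (1 / 4 : ℝ) ^ m := by
  have : exp (-2 * (m : ℝ)) = exp (-2) ^ m := by
    rw [← exp_nat_mul]; congr 1; ring
  rw [this]
  exact pow_le_pow_left₀ (exp_pos _).le exp_neg_two_le m

/-- the comparison series `gz d = (1/4)^|d|` for `d ≠ 0`, `gz 0 = 0`. -/
noncomputable def gz (d : ℤ) : ℝ := if d = 0 then (0 : ℝ) else (1 / 4 : ℝ) ^ d.natAbs

theorem hasSum_gz : HasSum gz (2 / 3) := by
  have hgeo : HasSum (fun n : ℕ => (1 / 4 : ℝ) ^ n) (1 - 1 / 4)⁻¹ :=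
    hasSum_geometric_of_lt_one (by norm_num) (by norm_num)
  have h2 : HasSum (fun n : ℕ => (1 / 4 : ℝ) ^ (n + 1)) (1 / 3) := by
    have h := hgeo.mul_left (1 / 4 : ℝ)
    have e1 : (fun n : ℕ => (1 / 4 : ℝ) * (1 / 4 : ℝ) ^ n)
        = fun n : ℕ => (1 / 4 : ℝ) ^ (n + 1) := by
      funext n; rw [pow_succ]; ring
    have e2 : (1 / 4 : ℝ) * (1 - 1 / 4)⁻¹ = 1 / 3 := by norm_num
    rw [e1, e2] at h
    exact h
  have h1 : HasSum (fun n : ℕ => gz (n : ℤ)) (1 / 3) := by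
    have e : (fun n : ℕ => gz ((n + 1 : ℕ) : ℤ)) = fun n : ℕ => (1 / 4 : ℝ) ^ (n + 1) := by
      funext n
      have : ((n + 1 : ℕ) : ℤ) ≠ 0 := by omega
      unfold gz
      rw [if_neg this, Int.natAbs_natCast]
    have h := (hasSum_nat_add_iff (f := fun n : ℕ => gz (n : ℤ)) 1).mp (by rw [e]; exact h2)
    have e0 : (1 / 3 : ℝ) + ∑ i ∈ Finset.range 1, gz ((i : ℕ) : ℤ) = 1 / 3 := by simp [gz]
    rw [e0] at h
    exact h
  have h3 : HasSum (fun n : ℕ => gz (-((n : ℤ) + 1))) (1 / 3) := by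
    have e : (fun n : ℕ => gz (-((n : ℤ) + 1))) = fun n : ℕ => (1 / 4 : ℝ) ^ (n + 1) := by
      funext n
      have : (-((n : ℤ) + 1)) ≠ 0 := by omega
      have h4 : (-((n : ℤ) + 1)).natAbs = n + 1 := by omega
      unfold gz
      rw [if_neg this, h4]
    rw [e]; exact h2
  have h := HasSum.of_nat_of_neg_add_one (f := gz) h1 h3
  have e : (1 / 3 : ℝ) + 1 / 3 = 2 / 3 := by norm_num
  rw [e] at h
  exact h

/-- DOMINANT TERM: if `‖t 0‖ = P > 0` and `‖t d‖ ≤ P e^{-2|d|}` for `d ≠ 0` then `∑' d, t d ≠ 0`. -/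
theorem tsum_ne_zero_of_dominant (t : ℤ → ℂ) (P : ℝ) (hP : 0 < P) (h0 : ‖t 0‖ = P)
    (hd : ∀ d : ℤ, d ≠ 0 → ‖t d‖ ≤ P * exp (-2 * (d.natAbs : ℝ))) : ∑' d, t d ≠ 0 := by
  have hgs : HasSum (fun d => P * gz d) (P * (2 / 3)) := hasSum_gz.mul_left P
  set t' : ℤ → ℂ := fun d => if d = 0 then 0 else t d with ht'
  have hb : ∀ d, ‖t' d‖ ≤ P * gz d := by
    intro d
    by_cases h : d = 0
    · simp [ht', gz, h]
    · simp only [ht', gz, h, if_false]
      exact (hd d h).trans (mul_le_mul_of_nonneg_left (exp_neg_two_mul_le _) hP.le)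
  have hs' : Summable t' := Summable.of_norm_bounded hgs.summable hb
  have hnorm : ‖∑' d, t' d‖ ≤ P * (2 / 3) :=
    tsum_of_norm_bounded hgs hb
  have hst : Summable t := by
    have : t = fun d => t' d + (if d = 0 then t 0 else 0) := by
      funext d
      by_cases h : d = 0
      · subst h; simp [ht']
      · simp [ht', h]
    rw [this]
    exact hs'.add (hasSum_ite_eq (0 : ℤ) (t 0)).summable
  have hsplit : ∑' d, t d = t 0 + ∑' d, t' d := hst.tsum_eq_add_tsum_ite 0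
  intro hz
  rw [hz] at hsplit
  have : ‖t 0‖ = ‖∑' d, t' d‖ := by
    have : t 0 = -∑' d, t' d := by
      have := hsplit
      linear_combination -this
    rw [this, norm_neg]
  rw [h0] at this
  linarith

end Crest.Agent.S0150Aux.H35
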