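import Mathlib

/-!
helper35: abstract tail bound for the KEY LEMMA of S0150 (note 427, sect. 2, Types II and III).
-/

namespace Crest.Agent.S0150Aux.H35

open Real

theorem sum_window (a Ac : ℕ → ℝ) (hAc : ∀ i, Ac (i + 1) = Ac i + a i) (j n : ℕ) :
    Ac (j + n) - Ac j = ∑ t ∈ Finset.range n, a (j + t) := by
  induction n with
  | zero => simp
  | succ n ih =>
    rw [Finset.sum_range_succ, ← ih, ← add_assoc, hAc]
    ring

theorem mono_from (a : ℕ → ℝ) (J1 : ℕ) (hmono : ∀ i, J1 ≤ i → a i ≤ a (i + 1)) (i0 : ℕ)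
    (h0 : J1 ≤ i0) : ∀ i, i0 ≤ i → a i0 ≤ a i := by
  intro i hi
  induction i, hi using Nat.le_induction with
  | base => exact le_rfl
  | succ i hi ih => exact ih.trans (hmono i (h0.trans hi))

/-- ABSTRACT TAIL BOUND.  `a` = the weights read from the cut outwards, `Ac` their cumulative sums,
`r` = the sequence on that side (`q` for Type II, `p` for Type III), `κ` its stable argmax, `R = r κ`,
`μ`, `Po` = argmax and maximum on the other side.  `j` = number of steps beyond the cut. -/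
theorem tail_bound (a Ac r : ℕ → ℝ) (hAc : ∀ i, Ac (i + 1) = Ac i + a i)
    (C1 : ℝ) (hgrow : ∀ i : ℕ, 10 * (i : ℝ) - C1 ≤ a i)
    (J1 : ℕ) (hmono : ∀ i, J1 ≤ i → a i ≤ a (i + 1))
    (hr : ∀ k, r k ≤ exp (-Ac k))
    (L : ℝ) (κ μ : ℕ) (R Po : ℝ) (hR : 0 < R)
    (h1 : ∀ k : ℕ, r k * exp ((L + 2) * k) ≤ R * exp ((L + 2) * κ))
    (E D c : ℝ)
    (h2 : exp (-E) ≤ Po * exp (L * μ))
    (h3 : exp (L - D) ≤ Po * R * exp (L * ((μ : ℝ) + κ)))
    (h4 : 5 * (μ : ℝ) ≤ L + c)
    (h5 : 1 ≤ μ + κ)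
    (hL1 : ∀ i, i ≤ J1 → a i ≤ L)
    (hL2 : D ≤ L)
    (hL3 : 10 + 5 * C1 + 20 * D + 8 * c ≤ 7 * L)
    (j : ℕ) (hE : (∀ i, i < j → a i ≤ L) → Ac j - L * j ≤ -E) :
    exp (Ac j) * r (j + μ + κ) ≤ Po * R * exp (-2 * ((j : ℝ) + μ)) := by
  by_cases hcase : ∀ i, i < j → a i ≤ L
  · -- case (a)
    have hE' := hE hcase
    have hk := h1 (j + μ + κ)
    have hr1 : r (j + μ + κ) ≤ R * exp (-((L + 2) * ((j : ℝ) + μ))) := by
      have e1 : exp ((L + 2) * ((j + μ + κ : ℕ) : ℝ))
          = exp ((L + 2) * κ) * exp ((L + 2) * ((j : ℝ) + μ)) := by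
        rw [← exp_add]; congr 1; push_cast; ring
      rw [e1] at hk
      have hpos : 0 < exp ((L + 2) * (κ : ℝ)) := exp_pos _
      have hpos2 : 0 < exp ((L + 2) * ((j : ℝ) + μ)) := exp_pos _
      have : r (j + μ + κ) * exp ((L + 2) * ((j : ℝ) + μ)) ≤ R := by
        have h' : (r (j + μ + κ) * exp ((L + 2) * ((j : ℝ) + μ))) * exp ((L + 2) * (κ : ℝ))
            ≤ R * exp ((L + 2) * (κ : ℝ)) := by
          calc _ = r (j + μ + κ) * (exp ((L + 2) * κ) * exp ((L + 2) * ((j : ℝ) + μ))) := by ring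
            _ ≤ _ := hk
        exact le_of_mul_le_mul_right h' hpos
      rw [exp_neg]
      rw [← div_eq_mul_inv, le_div_iff₀ hpos2]
      exact this
    calc exp (Ac j) * r (j + μ + κ)
        ≤ exp (Ac j) * (R * exp (-((L + 2) * ((j : ℝ) + μ)))) :=
          mul_le_mul_of_nonneg_left hr1 (exp_pos _).le
      _ = R * exp (Ac j - L * j) * exp (-(L * μ)) * exp (-2 * ((j : ℝ) + μ)) := by
          rw [mul_assoc R, mul_assoc R, ← exp_add, ← exp_add, mul_left_comm, ← exp_add]
          congr 2; ring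
      _ ≤ R * exp (-E) * exp (-(L * μ)) * exp (-2 * ((j : ℝ) + μ)) := by
          gcongr
      _ ≤ R * (Po * exp (L * μ)) * exp (-(L * μ)) * exp (-2 * ((j : ℝ) + μ)) := by
          gcongr
      _ = Po * R * exp (-2 * ((j : ℝ) + μ)) := by
          have : exp (L * μ) * exp (-(L * μ)) = 1 := by rw [← exp_add]; simp
          calc _ = Po * R * (exp (L * μ) * exp (-(L * μ))) * exp (-2 * ((j : ℝ) + μ)) := by ring
            _ = _ := by rw [this]; ring
  · -- case (b)
    push Not at hcase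
    obtain ⟨i0, hi0, hai0⟩ := hcase
    have hJ : J1 ≤ i0 := by
      by_contra hlt
      exact absurd (hL1 i0 (by omega)) (not_le.mpr hai0)
    have hbig : ∀ i, i0 ≤ i → L < a i := fun i hi =>
      lt_of_lt_of_le hai0 (mono_from a J1 hmono i0 hJ i hi)
    set n : ℕ := μ + κ with hn
    have hidx : j + μ + κ = j + n := by omega
    have hS := sum_window a Ac hAc j n
    set Sg : ℝ := ∑ t ∈ Finset.range n, a (j + t) with hSg
    have hn1 : (1 : ℝ) ≤ n := by exact_mod_cast h5
    have hnμ : (μ : ℝ) ≤ n := by exact_mod_cast (by omega : μ ≤ n)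
    have hj0 : (0 : ℝ) ≤ j := Nat.cast_nonneg _
    have hncast : (n : ℝ) = (μ : ℝ) + κ := by rw [hn]; push_cast; ring
    -- the key lower bound on the window sum
    have hmain : (n : ℝ) * L + (D - L + 2 * ((j : ℝ) + μ)) ≤ Sg := by
      by_cases hsub : 2 * ((j : ℝ) + μ) ≤ L - D
      · have : ∑ _t ∈ Finset.range n, L ≤ Sg :=
          Finset.sum_le_sum fun t _ => (hbig (j + t) (by omega)).le
        rw [Finset.sum_const, Finset.card_range, nsmul_eq_mul] at this
        linarith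
      · push Not at hsub
        have hterm : ∀ t : ℕ, L + 2 * j + 2 ≤ a (j + t) := by
          intro t
          have hg := hgrow (j + t)
          have ht0 : (0 : ℝ) ≤ t := Nat.cast_nonneg _
          push_cast at hg
          linarith
        have : ∑ _t ∈ Finset.range n, (L + 2 * (j : ℝ) + 2) ≤ Sg :=
          Finset.sum_le_sum fun t _ => hterm t
        rw [Finset.sum_const, Finset.card_range, nsmul_eq_mul] at this
        have h6 : (0 : ℝ) ≤ ((n : ℝ) - 1) * (2 * j) := mul_nonneg (by linarith) (by linarith)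
        nlinarith
    have h3' : exp (L - D - L * n) ≤ Po * R := by
      have := mul_le_mul_of_nonneg_right h3 (exp_pos (-(L * ((μ : ℝ) + κ)))).le
      rw [mul_assoc, ← exp_add, ← exp_add] at this
      have e1 : L * ((μ : ℝ) + κ) + -(L * ((μ : ℝ) + κ)) = 0 := by ring
      rw [e1, exp_zero, mul_one] at this
      have e2 : L - D + -(L * ((μ : ℝ) + κ)) = L - D - L * n := by rw [hncast]; ring
      rwa [e2] at this
    rw [hidx]
    calc exp (Ac j) * r (j + n) ≤ exp (Ac j) * exp (-Ac (j + n)) :=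
          mul_le_mul_of_nonneg_left (hr _) (exp_pos _).le
      _ = exp (-Sg) := by
          rw [← exp_add]; congr 1; linarith
      _ ≤ exp (L - D - L * n) * exp (-2 * ((j : ℝ) + μ)) := by
          rw [← exp_add]
          apply exp_le_exp.mpr
          linarith
      _ ≤ Po * R * exp (-2 * ((j : ℝ) + μ)) :=
          mul_le_mul_of_nonneg_right h3' (exp_pos _).le

end Crest.Agent.S0150Aux.H35
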