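import Mathlib
import Crest.Prelude.Def_TwoAdicShift

/-!
helper35: generic weighted shifts on `seqHilbert = ℓ²(ℤ)` (aux for S0150).
-/

open Crest.AnalysisR.TwoAdic
open scoped InnerProductSpace ComplexConjugate

namespace Crest.Agent.S0150Aux.H35

theorem basisVec_apply (j i : ℤ) : (basisVec j : ℤ → ℂ) i = if i = j then 1 else 0 := by
  unfold basisVec
  rw [lp.single_apply]
  by_cases h : i = j
  · subst h; simp
  · simp [h]

theorem basisVec_apply_self (j : ℤ) : (basisVec j : ℤ → ℂ) j = 1 := by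
  rw [basisVec_apply]; simp

theorem basisVec_apply_ne {j i : ℤ} (h : i ≠ j) : (basisVec j : ℤ → ℂ) i = 0 := by
  rw [basisVec_apply]; simp [h]

theorem norm_basisVec (j : ℤ) : ‖basisVec j‖ = 1 := by
  unfold basisVec
  rw [lp.norm_single (by norm_num)]
  simp

theorem inner_basisVec_left (j : ℤ) (v : seqHilbert) : ⟪basisVec j, v⟫_ℂ = v j := by
  unfold basisVec
  rw [lp.inner_single_left]
  simp

theorem hasSum_basisVec (v : seqHilbert) : HasSum (fun j : ℤ => v j • basisVec j) v := by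
  have h := lp.hasSum_single (E := fun _ : ℤ => ℂ) (p := 2) (by norm_num) v
  convert h using 2 with j
  unfold basisVec
  rw [← lp.single_smul]
  simp

/-- coordinate formula for ANY bounded operator acting as a weighted shift on the basis. -/
theorem apply_of_basis (T : seqHilbert →L[ℂ] seqHilbert) (c : ℤ → ℂ) (k : ℤ)
    (hT : ∀ j, T (basisVec j) = c j • basisVec (j + k)) (v : seqHilbert) (j : ℤ) :
    (T v : ℤ → ℂ) (j + k) = c j * v j := by
  have h1 : HasSum (fun i : ℤ => T (v i • basisVec i)) (T v) := (hasSum_basisVec v).mapL T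
  have h2 : HasSum (fun i : ℤ => ⟪basisVec (j + k), T (v i • basisVec i)⟫_ℂ)
      ⟪basisVec (j + k), T v⟫_ℂ := h1.mapL (innerSL ℂ (basisVec (j + k)))
  rw [inner_basisVec_left] at h2
  have h3 : ∀ i : ℤ, ⟪basisVec (j + k), T (v i • basisVec i)⟫_ℂ
      = if i = j then c j * v j else 0 := by
    intro i
    rw [inner_basisVec_left, map_smul, hT]
    simp only [lp.coeFn_smul, Pi.smul_apply, smul_eq_mul]
    by_cases h : i = j
    · subst h
      rw [basisVec_apply_self]; simp [mul_comm]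
    · rw [basisVec_apply_ne (by omega)]; simp [h]
  simp only [h3] at h2
  exact h2.unique (hasSum_ite_eq j _)

theorem apply_of_basis' (T : seqHilbert →L[ℂ] seqHilbert) (c : ℤ → ℂ) (k : ℤ)
    (hT : ∀ j, T (basisVec j) = c j • basisVec (j + k)) (v : seqHilbert) (j : ℤ) :
    (T v : ℤ → ℂ) j = c (j - k) * v (j - k) := by
  have := apply_of_basis T c k hT v (j - k)
  simpa using this

/-- comparison of `ℓ²` norms from a coordinatewise bound along a shift. -/
theorem norm_le_of_coord_le (f g : seqHilbert) (k : ℤ) (C : ℝ) (hC : 0 ≤ C)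
    (h : ∀ j, ‖f j‖ ≤ C * ‖g (j - k)‖) : ‖f‖ ≤ C * ‖g‖ := by
  have hp : 0 < (2 : ENNReal).toReal := by norm_num
  refine lp.norm_le_of_tsum_le hp (mul_nonneg hC (norm_nonneg _)) ?_
  rw [Real.mul_rpow hC (norm_nonneg _), lp.norm_rpow_eq_tsum hp g, ← tsum_mul_left]
  have hg : Summable fun j : ℤ => ‖g j‖ ^ (2 : ENNReal).toReal := (lp.memℓp g).summable hp
  have hf : Summable fun j : ℤ => ‖f j‖ ^ (2 : ENNReal).toReal := (lp.memℓp f).summable hp
  have hg' : Summable fun j : ℤ => C ^ (2 : ENNReal).toReal * ‖g (j - k)‖ ^ (2 : ENNReal).toReal :=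
    ((Equiv.subRight k).summable_iff.mpr hg).mul_left _
  have e : ∑' j : ℤ, C ^ (2 : ENNReal).toReal * ‖g j‖ ^ (2 : ENNReal).toReal
      = ∑' j : ℤ, C ^ (2 : ENNReal).toReal * ‖g (j - k)‖ ^ (2 : ENNReal).toReal :=
    ((Equiv.subRight k).tsum_eq
      (fun j : ℤ => C ^ (2 : ENNReal).toReal * ‖g j‖ ^ (2 : ENNReal).toReal)).symm
  rw [e]
  refine hf.tsum_le_tsum (fun j => ?_) hg'
  rw [← Real.mul_rpow hC (norm_nonneg _)]
  exact Real.rpow_le_rpow (norm_nonneg _) (h j) hp.le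

/-- norm bound for ANY bounded operator acting as a weighted shift on the basis. -/
theorem norm_le_of_basis (T : seqHilbert →L[ℂ] seqHilbert) (c : ℤ → ℂ) (k : ℤ)
    (hT : ∀ j, T (basisVec j) = c j • basisVec (j + k)) (C : ℝ) (hC : 0 ≤ C)
    (hc : ∀ j, ‖c j‖ ≤ C) : ‖T‖ ≤ C := by
  refine ContinuousLinearMap.opNorm_le_bound _ hC fun v => ?_
  refine norm_le_of_coord_le _ _ k C hC fun j => ?_
  rw [apply_of_basis' T c k hT, norm_mul]
  exact mul_le_mul_of_nonneg_right (hc _) (norm_nonneg _)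

theorem le_norm_of_basis (T : seqHilbert →L[ℂ] seqHilbert) (c : ℤ → ℂ) (k : ℤ)
    (hT : ∀ j, T (basisVec j) = c j • basisVec (j + k)) (j : ℤ) : ‖c j‖ ≤ ‖T‖ := by
  have h := T.le_opNorm (basisVec j)
  rw [hT, norm_smul, norm_basisVec, norm_basisVec] at h
  simpa using h

theorem memℓp_wshift (c : ℤ → ℂ) (k : ℤ) (C : ℝ) (hc : ∀ j, ‖c j‖ ≤ C) (v : seqHilbert) :
    Memℓp (fun j : ℤ => c (j - k) * v (j - k)) 2 := by
  have hp : 0 < (2 : ENNReal).toReal := by norm_num
  have hC : 0 ≤ C := (norm_nonneg _).trans (hc 0)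
  have hv : Summable fun j : ℤ => ‖v j‖ ^ (2 : ENNReal).toReal := (lp.memℓp v).summable hp
  have hv' : Summable fun j : ℤ => C ^ (2 : ENNReal).toReal * ‖v (j - k)‖ ^ (2 : ENNReal).toReal :=
    ((Equiv.subRight k).summable_iff.mpr hv).mul_left _
  refine memℓp_gen (Summable.of_nonneg_of_le (fun j => by positivity) (fun j => ?_) hv')
  rw [← Real.mul_rpow hC (norm_nonneg _), norm_mul]
  exact Real.rpow_le_rpow (by positivity)
    (mul_le_mul_of_nonneg_right (hc _) (norm_nonneg _)) hp.le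

/-- the weighted shift `δ_j ↦ c_j δ_{j+k}` with bounded weights, as a bounded operator. -/
noncomputable def wshift (c : ℤ → ℂ) (k : ℤ) (C : ℝ) (hc : ∀ j, ‖c j‖ ≤ C) :
    seqHilbert →L[ℂ] seqHilbert :=
  LinearMap.mkContinuous
    { toFun := fun v => ⟨fun j : ℤ => c (j - k) * v (j - k), memℓp_wshift c k C hc v⟩
      map_add' := fun v w => by
        ext j
        simp [mul_add]
        rfl
      map_smul' := fun a v => by
        ext j
        simp [mul_left_comm] }
    C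
    (fun v => norm_le_of_coord_le _ _ k C ((norm_nonneg _).trans (hc 0)) fun j => by
      show ‖c (j - k) * v (j - k)‖ ≤ _
      rw [norm_mul]
      exact mul_le_mul_of_nonneg_right (hc _) (norm_nonneg _))

theorem wshift_apply (c : ℤ → ℂ) (k : ℤ) (C : ℝ) (hc : ∀ j, ‖c j‖ ≤ C) (v : seqHilbert) (j : ℤ) :
    (wshift c k C hc v : ℤ → ℂ) j = c (j - k) * v (j - k) := rfl

theorem wshift_basisVec (c : ℤ → ℂ) (k : ℤ) (C : ℝ) (hc : ∀ j, ‖c j‖ ≤ C) (j : ℤ) :
    wshift c k C hc (basisVec j) = c j • basisVec (j + k) := by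
  ext i
  rw [wshift_apply]
  simp only [lp.coeFn_smul, Pi.smul_apply, smul_eq_mul]
  by_cases h : i = j + k
  · subst h
    rw [basisVec_apply_self]
    simp [basisVec_apply_self]
  · rw [basisVec_apply_ne h, basisVec_apply_ne (by omega)]
    simp

theorem norm_wshift_le (c : ℤ → ℂ) (k : ℤ) (C : ℝ) (hc : ∀ j, ‖c j‖ ≤ C) :
    ‖wshift c k C hc‖ ≤ C :=
  norm_le_of_basis _ c k (wshift_basisVec c k C hc) C ((norm_nonneg _).trans (hc 0)) hc

/-- two bounded operators with the same action on the basis are equal. -/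
theorem ext_of_basis (T T' : seqHilbert →L[ℂ] seqHilbert)
    (h : ∀ j, T (basisVec j) = T' (basisVec j)) : T = T' := by
  ext1 v
  have h1 : HasSum (fun i : ℤ => T (v i • basisVec i)) (T v) := (hasSum_basisVec v).mapL T
  have h2 : HasSum (fun i : ℤ => T' (v i • basisVec i)) (T' v) := (hasSum_basisVec v).mapL T'
  have : (fun i : ℤ => T (v i • basisVec i)) = fun i : ℤ => T' (v i • basisVec i) := by
    funext i
    rw [map_smul, map_smul, h]
  rw [this] at h1
  exact h1.unique h2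

/-- powers of a weighted shift on the basis. -/
theorem pow_basisVec (S : seqHilbert →L[ℂ] seqHilbert) (c : ℤ → ℂ)
    (hS : ∀ j, S (basisVec j) = c j • basisVec (j + 1)) (n : ℕ) (j : ℤ) :
    (S ^ n) (basisVec j) = (∏ i ∈ Finset.range n, c (j + i)) • basisVec (j + n) := by
  induction n with
  | zero => simp
  | succ n ih =>
    rw [pow_succ', mul_apply_eq_comp, ih, map_smul, hS, smul_smul,
      Finset.prod_range_succ]
    congr 1
    push_cast
    ring_nf

theorem pow_apply (S : seqHilbert →L[ℂ] seqHilbert) (c : ℤ → ℂ)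
    (hS : ∀ j, S (basisVec j) = c j • basisVec (j + 1)) (n : ℕ) (v : seqHilbert) (j : ℤ) :
    ((S ^ n) v : ℤ → ℂ) (j + n) = (∏ i ∈ Finset.range n, c (j + i)) * v j :=
  apply_of_basis (S ^ n) (fun j => ∏ i ∈ Finset.range n, c (j + i)) n (pow_basisVec S c hS n) v j

theorem norm_pow_le (S : seqHilbert →L[ℂ] seqHilbert) (c : ℤ → ℂ)
    (hS : ∀ j, S (basisVec j) = c j • basisVec (j + 1)) (n : ℕ) (C : ℝ) (hC : 0 ≤ C)
    (hc : ∀ j, ‖∏ i ∈ Finset.range n, c (j + i)‖ ≤ C) : ‖S ^ n‖ ≤ C :=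
  norm_le_of_basis (S ^ n) (fun j => ∏ i ∈ Finset.range n, c (j + i)) n
    (pow_basisVec S c hS n) C hC hc

/-- WRAPPER (note 948): the matrix coefficient `⟪u, Sⁿ w⟫` as a sum over `ℤ`. -/
theorem inner_pow_eq_tsum (S : seqHilbert →L[ℂ] seqHilbert) (c : ℤ → ℂ)
    (hS : ∀ j, S (basisVec j) = c j • basisVec (j + 1)) (n : ℕ) (w u : seqHilbert) :
    ⟪u, (S ^ n) w⟫_ℂ = ∑' j : ℤ, w j * conj (u (j + n)) * ∏ i ∈ Finset.range n, c (j + i) := by
  rw [lp.inner_eq_tsum, ← (Equiv.addRight (n : ℤ)).tsum_eq]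
  refine tsum_congr fun j => ?_
  simp only [Equiv.coe_addRight]
  rw [pow_apply S c hS, RCLike.inner_apply]
  ring

/-- cumulative sums over `ℤ`: `cumA al 0 = 0`, `cumA al (j+1) = cumA al j + al j`. -/
noncomputable def cumA (al : ℤ → ℝ) (j : ℤ) : ℝ :=
  if 0 ≤ j then ∑ i ∈ Finset.range j.toNat, al i
  else -∑ i ∈ Finset.range (-j).toNat, al (-1 - i)

theorem cumA_zero (al : ℤ → ℝ) : cumA al 0 = 0 := by
  simp [cumA]

theorem cumA_succ (al : ℤ → ℝ) (j : ℤ) : cumA al (j + 1) = cumA al j + al j := by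
  rcases le_or_gt 0 j with h | h
  · obtain ⟨n, rfl⟩ := Int.eq_ofNat_of_zero_le h
    have h1 : (0 : ℤ) ≤ (n : ℤ) + 1 := by omega
    have h2 : ((n : ℤ) + 1).toNat = n + 1 := by omega
    simp only [cumA, h, h1, if_true, h2, Int.toNat_natCast, Finset.sum_range_succ]
  · obtain ⟨m, rfl⟩ : ∃ m : ℕ, j = -((m : ℤ) + 1) := ⟨(-j - 1).toNat, by omega⟩
    have h0 : ¬ (0 : ℤ) ≤ -((m : ℤ) + 1) := by omega
    have h2 : (-(-((m : ℤ) + 1))).toNat = m + 1 := by omega
    rcases Nat.eq_zero_or_pos m with rfl | hm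
    · simp [cumA]
    · have h1 : ¬ (0 : ℤ) ≤ -((m : ℤ) + 1) + 1 := by omega
      have h3 : (-(-((m : ℤ) + 1) + 1)).toNat = m := by omega
      simp only [cumA, h0, h1, if_false, h2, h3, Finset.sum_range_succ]
      have : (-1 - (m : ℤ)) = -((m : ℤ) + 1) := by ring
      rw [this]
      ring

theorem prod_exp_eq (al A : ℤ → ℝ) (hA : ∀ j, A (j + 1) = A j + al j) (n : ℕ) (j : ℤ) :
    ∏ i ∈ Finset.range n, Real.exp (-al (j + i)) = Real.exp (A j - A (j + n)) := by
  induction n with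
  | zero => simp
  | succ n ih =>
    rw [Finset.prod_range_succ, ih, ← Real.exp_add]
    congr 1
    have : j + ((n + 1 : ℕ) : ℤ) = j + n + 1 := by push_cast; ring
    rw [this, hA]
    ring

/-- WRAPPER in exactly the shape of the hypothesis `horth` of helper36's key lemma (note 948). -/
theorem inner_pow_eq_tsum_exp (S : seqHilbert →L[ℂ] seqHilbert) (al A : ℤ → ℝ)
    (hA : ∀ j, A (j + 1) = A j + al j)
    (hS : ∀ j, S (basisVec j) = ((Real.exp (-al j) : ℝ) : ℂ) • basisVec (j + 1))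
    (n : ℕ) (w u : seqHilbert) :
    ⟪u, (S ^ n) w⟫_ℂ
      = ∑' j : ℤ, w j * conj (u (j + n)) * ((Real.exp (A j - A (j + n)) : ℝ) : ℂ) := by
  rw [inner_pow_eq_tsum S _ hS]
  refine tsum_congr fun j => ?_
  rw [← prod_exp_eq al A hA n j]
  push_cast
  rfl

end Crest.Agent.S0150Aux.H35
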