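import Mathlib

/-! S0150 board (helper13), key lemma split, task K1 (helper22). Part of row 113 (row incomplete). -/

set_option autoImplicit false

namespace Crest.Agent.S0150Aux.K1_22

theorem A_decay (al A : ℤ → ℝ) (hA : ∀ j, A (j+1) = A j + al j) (C0 : ℝ)
    (hgrow : ∀ j : ℤ, 10*|(j:ℝ)| - C0 ≤ al j) (s : ℤ) :
    ∃ c : ℝ, 0 ≤ c ∧ (∀ k : ℕ, A s - A (s + k) ≤ -5*(k:ℝ)^2 + c*k) ∧
      (∀ m : ℕ, A (s - m) - A s ≤ -5*(m:ℝ)^2 + c*m) := by
  refine ⟨5 + 10*|(s:ℝ)| + |C0| + 10, by positivity, ?_, ?_⟩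
  · intro k
    induction k with
    | zero => simp
    | succ k ih =>
      have h1 : A (s + ((k+1 : ℕ) : ℤ)) = A (s + (k:ℤ)) + al (s + (k:ℤ)) := by
        rw [← hA]; congr 1; push_cast; ring
      have h2 := hgrow (s + (k:ℤ))
      have h3 : (k:ℝ) - |(s:ℝ)| ≤ |((s + (k:ℤ) : ℤ) : ℝ)| := by
        push_cast
        have := abs_sub_abs_le_abs_sub ((k:ℝ)) (-(s:ℝ))
        rw [abs_neg, sub_neg_eq_add, abs_of_nonneg (Nat.cast_nonneg k)] at this
        rw [add_comm (s:ℝ)]; exact this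
      have h4 : C0 ≤ |C0| := le_abs_self _
      have h5 : (0:ℝ) ≤ |(s:ℝ)| := abs_nonneg _
      have h6 : (0:ℝ) ≤ |C0| := abs_nonneg _
      have hk : (0:ℝ) ≤ (k:ℝ) := Nat.cast_nonneg k
      rw [h1]
      push_cast
      nlinarith
  · intro m
    induction m with
    | zero => simp
    | succ m ih =>
      have h1 : A (s - (m:ℤ)) = A (s - ((m+1 : ℕ) : ℤ)) + al (s - ((m+1 : ℕ) : ℤ)) := by
        rw [← hA]; congr 1; push_cast; ring
      have h2 := hgrow (s - ((m+1 : ℕ) : ℤ))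
      have h3 : ((m:ℝ) + 1) - |(s:ℝ)| ≤ |((s - ((m+1 : ℕ) : ℤ) : ℤ) : ℝ)| := by
        push_cast
        have := abs_sub_abs_le_abs_sub ((m:ℝ) + 1) ((s:ℝ))
        rw [abs_of_nonneg (by positivity : (0:ℝ) ≤ (m:ℝ) + 1)] at this
        rw [abs_sub_comm]; exact this
      have h4 : C0 ≤ |C0| := le_abs_self _
      have h5 : (0:ℝ) ≤ |(s:ℝ)| := abs_nonneg _
      have h6 : (0:ℝ) ≤ |C0| := abs_nonneg _
      have hk : (0:ℝ) ≤ (m:ℝ) := Nat.cast_nonneg m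
      have h7 : A (s - ((m+1 : ℕ) : ℤ)) = A (s - (m:ℤ)) - al (s - ((m+1 : ℕ) : ℤ)) := by
        rw [h1]; ring
      rw [h7]
      push_cast
      push_cast at h2 h3 ih
      nlinarith

end Crest.Agent.S0150Aux.K1_22
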