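import Mathlib

/-! Task K1 of helper13's split of the KEY LEMMA for S0150 (helper38): quadratic decay of the
cumulative weights. -/

set_option autoImplicit false

namespace Crest.Agent.S0150Aux.K1_38

theorem A_decay (al A : ℤ → ℝ) (hA : ∀ j, A (j+1) = A j + al j) (C0 : ℝ)
    (hgrow : ∀ j : ℤ, 10*|(j:ℝ)| - C0 ≤ al j) (s : ℤ) :
    ∃ c : ℝ, 0 ≤ c ∧ (∀ k : ℕ, A s - A (s + k) ≤ -5*(k:ℝ)^2 + c*k) ∧
      (∀ m : ℕ, A (s - m) - A s ≤ -5*(m:ℝ)^2 + c*m) := by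
  refine ⟨5 + 10 * |(s:ℝ)| + |C0| + 10, by positivity, ?_, ?_⟩
  · intro k
    induction k with
    | zero => simp
    | succ k ih =>
      have h1 : A (s + ((k + 1 : ℕ) : ℤ)) = A (s + (k : ℤ)) + al (s + (k : ℤ)) := by
        have : s + ((k + 1 : ℕ) : ℤ) = (s + (k : ℤ)) + 1 := by push_cast; ring
        rw [this, hA]
      have h2 := hgrow (s + (k : ℤ))
      have h3 : (k : ℝ) - |(s:ℝ)| ≤ |((s + (k : ℤ) : ℤ) : ℝ)| := by
        push_cast
        have e1 : (s:ℝ) + (k:ℝ) ≤ |(s:ℝ) + (k:ℝ)| := le_abs_self _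
        have e2 : -(s:ℝ) ≤ |(s:ℝ)| := neg_le_abs _
        linarith
      have h4 : C0 ≤ |C0| := le_abs_self _
      rw [h1]
      push_cast
      nlinarith
  · intro m
    induction m with
    | zero => simp
    | succ m ih =>
      have h1 : A (s - (m : ℤ)) = A (s - ((m + 1 : ℕ) : ℤ)) + al (s - ((m + 1 : ℕ) : ℤ)) := by
        have : s - (m : ℤ) = (s - ((m + 1 : ℕ) : ℤ)) + 1 := by push_cast; ring
        rw [this, hA]
      have h2 := hgrow (s - ((m + 1 : ℕ) : ℤ))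
      have h3 : (m : ℝ) + 1 - |(s:ℝ)| ≤ |((s - ((m + 1 : ℕ) : ℤ) : ℤ) : ℝ)| := by
        push_cast
        have e1 : -((s:ℝ) - ((m:ℝ) + 1)) ≤ |(s:ℝ) - ((m:ℝ) + 1)| := neg_le_abs _
        have e2 : (s:ℝ) ≤ |(s:ℝ)| := le_abs_self _
        linarith
      have h4 : C0 ≤ |C0| := le_abs_self _
      have h5 : A (s - ((m + 1 : ℕ) : ℤ)) - A s
          = (A (s - (m : ℤ)) - A s) - al (s - ((m + 1 : ℕ) : ℤ)) := by rw [h1]; ring
      rw [h5]
      push_cast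
      push_cast at h2 h3
      nlinarith

end Crest.Agent.S0150Aux.K1_38
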