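import Mathlib

set_option autoImplicit false

namespace Crest.Agent.S0150Aux.K1_4

/-- K1 of the S0150 board (note 1020). -/
theorem A_decay (al A : ℤ → ℝ) (hA : ∀ j, A (j+1) = A j + al j) (C0 : ℝ)
    (hgrow : ∀ j : ℤ, 10*|(j:ℝ)| - C0 ≤ al j) (s : ℤ) :
    ∃ c : ℝ, 0 ≤ c ∧ (∀ k : ℕ, A s - A (s + k) ≤ -5*(k:ℝ)^2 + c*k) ∧
      (∀ m : ℕ, A (s - m) - A s ≤ -5*(m:ℝ)^2 + c*m) := by
  refine ⟨5 + 10*|(s:ℝ)| + |C0| + 10, by positivity, ?_, ?_⟩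
  · intro k
    induction k with
    | zero => simp
    | succ k ih =>
      have h1 : A (s + ((k + 1 : ℕ) : ℤ)) = A (s + (k : ℤ)) + al (s + (k : ℤ)) := by
        have := hA (s + (k : ℤ))
        rw [← this]; congr 1; push_cast; ring
      have h2 := hgrow (s + (k : ℤ))
      have h3 : (k : ℝ) - |(s:ℝ)| ≤ |((s + (k : ℤ) : ℤ) : ℝ)| := by
        push_cast
        have h4 : |(k:ℝ)| ≤ |(s:ℝ) + (k:ℝ)| + |(s:ℝ)| := by
          calc |(k:ℝ)| = |((s:ℝ) + (k:ℝ)) - (s:ℝ)| := by congr 1; ring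
            _ ≤ |(s:ℝ) + (k:ℝ)| + |(s:ℝ)| := abs_sub _ _
        have h5 : (k:ℝ) ≤ |(k:ℝ)| := le_abs_self _
        linarith
      have h6 : C0 ≤ |C0| := le_abs_self _
      have h7 : (0:ℝ) ≤ |(s:ℝ)| := abs_nonneg _
      have hk : (0:ℝ) ≤ (k:ℝ) := Nat.cast_nonneg _
      rw [h1]
      push_cast
      nlinarith
  · intro m
    induction m with
    | zero => simp
    | succ m ih =>
      have h1 : A (s - (m : ℤ)) = A (s - ((m + 1 : ℕ) : ℤ)) + al (s - ((m + 1 : ℕ) : ℤ)) := by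
        have := hA (s - ((m + 1 : ℕ) : ℤ))
        rw [← this]; congr 1; push_cast; ring
      have h2 := hgrow (s - ((m + 1 : ℕ) : ℤ))
      have h3 : ((m:ℝ) + 1) - |(s:ℝ)| ≤ |((s - ((m + 1 : ℕ) : ℤ) : ℤ) : ℝ)| := by
        push_cast
        have h4 : |(m:ℝ) + 1| ≤ |(s:ℝ) - ((m:ℝ) + 1)| + |(s:ℝ)| := by
          calc |(m:ℝ) + 1| = |(s:ℝ) - ((s:ℝ) - ((m:ℝ) + 1))| := by congr 1; ring
            _ ≤ |(s:ℝ)| + |(s:ℝ) - ((m:ℝ) + 1)| := abs_sub _ _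
            _ = |(s:ℝ) - ((m:ℝ) + 1)| + |(s:ℝ)| := add_comm _ _
        have h5 : (m:ℝ) + 1 ≤ |(m:ℝ) + 1| := le_abs_self _
        linarith
      have h6 : C0 ≤ |C0| := le_abs_self _
      have h7 : (0:ℝ) ≤ |(s:ℝ)| := abs_nonneg _
      have hk : (0:ℝ) ≤ (m:ℝ) := Nat.cast_nonneg _
      have h8 : A (s - ((m + 1 : ℕ) : ℤ)) = A (s - (m : ℤ)) - al (s - ((m + 1 : ℕ) : ℤ)) := by
        linarith
      rw [h8]
      push_cast
      push_cast at h2 h3 ih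
      nlinarith

end Crest.Agent.S0150Aux.K1_4
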