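import Mathlib

namespace Crest.Agent.S0150Aux.K1_71

theorem A_decay (al A : ℤ → ℝ) (hA : ∀ j, A (j+1) = A j + al j) (C0 : ℝ)
    (hgrow : ∀ j : ℤ, 10*|(j:ℝ)| - C0 ≤ al j) (s : ℤ) :
    ∃ c : ℝ, 0 ≤ c ∧ (∀ k : ℕ, A s - A (s + k) ≤ -5*(k:ℝ)^2 + c*k) ∧
      (∀ m : ℕ, A (s - m) - A s ≤ -5*(m:ℝ)^2 + c*m) := by
  refine ⟨5 + 10*|(s:ℝ)| + |C0| + 10, by positivity, ?_, ?_⟩
  · intro k
    induction k with
    | zero => simp
    | succ k ih =>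
      have h1 : A (s + ((k+1 : ℕ) : ℤ)) = A (s + (k:ℤ)) + al (s + (k:ℤ)) := by
        have := hA (s + (k:ℤ))
        rw [← this]; congr 1; push_cast; ring
      have h2 := hgrow (s + (k:ℤ))
      have h3 : (k:ℝ) - |(s:ℝ)| ≤ |((s + (k:ℤ) : ℤ) : ℝ)| := by
        push_cast
        have e1 : (k:ℝ) = ((s:ℝ) + k) + (-(s:ℝ)) := by ring
        have e2 := abs_add_le ((s:ℝ) + k) (-(s:ℝ))
        rw [← e1, abs_neg] at e2
        have e3 : (k:ℝ) ≤ |(k:ℝ)| := le_abs_self _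
        linarith
      have h4 : C0 ≤ |C0| := le_abs_self _
      have h5 : (0:ℝ) ≤ |(s:ℝ)| := abs_nonneg _
      rw [h1]
      push_cast
      nlinarith [ih, h2, h3, h4, h5]
  · intro m
    induction m with
    | zero => simp
    | succ m ih =>
      have h1 : A (s - (m:ℤ)) = A (s - ((m+1 : ℕ) : ℤ)) + al (s - ((m+1 : ℕ) : ℤ)) := by
        have := hA (s - ((m+1 : ℕ) : ℤ))
        rw [← this]; congr 1; push_cast; ring
      have h2 := hgrow (s - ((m+1 : ℕ) : ℤ))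
      have h3 : (m:ℝ) + 1 - |(s:ℝ)| ≤ |((s - ((m+1 : ℕ) : ℤ) : ℤ) : ℝ)| := by
        push_cast
        have e1 : (m:ℝ) + 1 = -((s:ℝ) - ((m:ℝ) + 1)) + (s:ℝ) := by ring
        have e2 := abs_add_le (-((s:ℝ) - ((m:ℝ) + 1))) (s:ℝ)
        rw [← e1, abs_neg] at e2
        have e3 : (m:ℝ) + 1 ≤ |(m:ℝ) + 1| := le_abs_self _
        linarith
      have h4 : C0 ≤ |C0| := le_abs_self _
      have h5 : (0:ℝ) ≤ |(s:ℝ)| := abs_nonneg _
      have h6 : A (s - ((m+1 : ℕ) : ℤ)) = A (s - (m:ℤ)) - al (s - ((m+1 : ℕ) : ℤ)) := by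
        rw [h1]; ring
      rw [h6]
      push_cast
      push_cast at h2 h3 ih
      nlinarith [ih, h2, h3, h4, h5]

end Crest.Agent.S0150Aux.K1_71
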