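import Mathlib

/-! Task K2 of the S0150 board (helper20): a bilateral series with one dominant term does not vanish. -/

set_option autoImplicit false

namespace Crest.Agent.S0150Aux.K2_20

lemma r_lt : Real.exp (-2) < 1 / 3 := by
  have h1 : (2 : ℝ) + 1 < Real.exp 2 := Real.add_one_lt_exp (by norm_num)
  have h2 : Real.exp (-2) = (Real.exp 2)⁻¹ := Real.exp_neg 2
  rw [h2, one_div]
  exact inv_strictAnti₀ (by norm_num) (by linarith)

lemma hasSum_pos (P : ℝ) :
    HasSum (fun n : ℕ => P * Real.exp (-2 * ((n : ℝ) + 1)))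
      (P * (Real.exp (-2) * (1 - Real.exp (-2))⁻¹)) := by
  have hr0 : 0 ≤ Real.exp (-2) := (Real.exp_pos _).le
  have hr1 : Real.exp (-2) < 1 := lt_trans r_lt (by norm_num)
  have hg := ((hasSum_geometric_of_lt_one hr0 hr1).mul_left (Real.exp (-2))).mul_left P
  have he : (fun n : ℕ => P * Real.exp (-2 * ((n : ℝ) + 1)))
      = fun n : ℕ => P * (Real.exp (-2) * Real.exp (-2) ^ n) := by
    funext n
    rw [← Real.exp_nat_mul, ← Real.exp_add]
    congr 2
    ring
  rw [he]
  exact hg

/-- the majorant, with the central term removed -/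
noncomputable def maj (P : ℝ) (d : ℤ) : ℝ := if d = 0 then 0 else P * Real.exp (-2 * |(d : ℝ)|)

lemma hasSum_maj (P : ℝ) :
    HasSum (maj P) (P * (Real.exp (-2) * (1 - Real.exp (-2))⁻¹)
      + P * (Real.exp (-2) * (1 - Real.exp (-2))⁻¹)) := by
  apply HasSum.of_nat_of_neg_add_one
  · -- natural part
    have h1 : HasSum (fun n : ℕ => maj P ((n + 1 : ℕ) : ℤ))
        (P * (Real.exp (-2) * (1 - Real.exp (-2))⁻¹)) := by
      have he : (fun n : ℕ => maj P ((n + 1 : ℕ) : ℤ))
          = fun n : ℕ => P * Real.exp (-2 * ((n : ℝ) + 1)) := by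
        funext n
        have hne : ((n + 1 : ℕ) : ℤ) ≠ 0 := by exact_mod_cast Nat.succ_ne_zero n
        unfold maj
        rw [if_neg hne]
        have : |(((n + 1 : ℕ) : ℤ) : ℝ)| = (n : ℝ) + 1 := by
          push_cast
          exact abs_of_nonneg (by positivity)
        rw [this]
      rw [he]; exact hasSum_pos P
    have h2 := (hasSum_nat_add_iff (f := fun n : ℕ => maj P (n : ℤ)) 1).mp h1
    simpa [maj] using h2
  · have he : (fun n : ℕ => maj P (-((n : ℤ) + 1)))
        = fun n : ℕ => P * Real.exp (-2 * ((n : ℝ) + 1)) := by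
      funext n
      have hne : (-((n : ℤ) + 1)) ≠ 0 := by omega
      unfold maj
      rw [if_neg hne]
      have : |((-((n : ℤ) + 1) : ℤ) : ℝ)| = (n : ℝ) + 1 := by
        push_cast
        rw [abs_neg]
        exact abs_of_nonneg (by positivity)
      rw [this]
    rw [he]; exact hasSum_pos P

theorem no_cancel (t : ℤ → ℂ) (P : ℝ) (hP : 0 < P) (h0 : ‖t 0‖ = P)
    (hd : ∀ d : ℤ, d ≠ 0 → ‖t d‖ ≤ P * Real.exp (-2 * |(d:ℝ)|)) : ∑' d, t d ≠ 0 := by
  set r := Real.exp (-2) with hr
  have hr0 : 0 < r := Real.exp_pos _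
  have hr3 : r < 1 / 3 := r_lt
  -- the series without the central term
  have hb : ∀ d : ℤ, ‖(if d = 0 then 0 else t d)‖ ≤ maj P d := by
    intro d
    unfold maj
    by_cases h : d = 0
    · simp [h]
    · simp only [if_neg h]; exact hd d h
  have hsum' : Summable (fun d : ℤ => if d = 0 then 0 else t d) :=
    Summable.of_norm_bounded (hasSum_maj P).summable hb
  have hsum : Summable t := by
    have h1 : Summable (fun d : ℤ => (if d = 0 then t 0 else 0) + (if d = 0 then 0 else t d)) :=
      (summable_of_finite_support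
        ((Set.finite_singleton (0 : ℤ)).subset (by
          intro d hd'
          simp only [Function.mem_support, ne_eq, ite_eq_right_iff, Classical.not_imp] at hd'
          exact hd'.1))).add hsum'
    refine h1.congr ?_
    intro d
    by_cases h : d = 0
    · simp [h]
    · simp [h]
  have hrest : ‖∑' d : ℤ, (if d = 0 then 0 else t d)‖
      ≤ P * (r * (1 - r)⁻¹) + P * (r * (1 - r)⁻¹) :=
    tsum_of_norm_bounded (hasSum_maj P) hb
  have hsplit := hsum.tsum_eq_add_tsum_ite 0
  intro hz
  rw [hz] at hsplit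
  have h1 : t 0 = - ∑' d : ℤ, (if d = 0 then 0 else t d) := by
    have := hsplit
    exact eq_neg_of_add_eq_zero_left this.symm
  have h2 : P ≤ P * (r * (1 - r)⁻¹) + P * (r * (1 - r)⁻¹) := by
    calc P = ‖t 0‖ := h0.symm
      _ = ‖∑' d : ℤ, (if d = 0 then 0 else t d)‖ := by rw [h1, norm_neg]
      _ ≤ _ := hrest
  have h3 : r * (1 - r)⁻¹ < 1 / 2 := by
    have h1r : 0 < 1 - r := by linarith
    rw [← div_eq_mul_inv, div_lt_iff₀ h1r]
    linarith
  nlinarith

end Crest.Agent.S0150Aux.K2_20
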