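import Mathlib

/-! helper6: K2 of helper13's split of the key lemma of S0150 (note 1020). Mathlib only. -/

namespace Crest.Agent.S0150Aux.K2_6

theorem no_cancel (t : ℤ → ℂ) (P : ℝ) (hP : 0 < P) (h0 : ‖t 0‖ = P)
    (hd : ∀ d : ℤ, d ≠ 0 → ‖t d‖ ≤ P * Real.exp (-2 * |(d:ℝ)|)) : ∑' d, t d ≠ 0 := by
  set r : ℝ := Real.exp (-2) with hr
  have hr0 : 0 < r := Real.exp_pos _
  have hr3 : r < 1/3 := by
    have h3 : (3:ℝ) < Real.exp 2 := by
      have := Real.add_one_lt_exp (x := (2:ℝ)) (by norm_num)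
      linarith
    rw [hr, Real.exp_neg, inv_eq_one_div]
    exact one_div_lt_one_div_of_lt (by norm_num) h3
  have hr1 : r < 1 := by linarith
  have hpow : ∀ n : ℕ, Real.exp (-2 * ((n:ℝ) + 1)) = r * r ^ n := by
    intro n
    rw [← pow_succ', hr, ← Real.exp_nat_mul]
    congr 1; push_cast; ring
  have hg : HasSum (fun n : ℕ => P * r * r ^ n) (P * r * (1 - r)⁻¹) :=
    (hasSum_geometric_of_lt_one hr0.le hr1).mul_left (P * r)
  have hb1 : ∀ n : ℕ, ‖t ((n:ℤ) + 1)‖ ≤ P * r * r ^ n := by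
    intro n
    have h := hd ((n:ℤ) + 1) (by omega)
    have habs : |(((n:ℤ) + 1 : ℤ) : ℝ)| = (n:ℝ) + 1 := by
      push_cast
      exact abs_of_nonneg (by positivity)
    rw [habs, hpow] at h
    linarith [h]
  have hb2 : ∀ n : ℕ, ‖t (-((n:ℤ) + 1))‖ ≤ P * r * r ^ n := by
    intro n
    have h := hd (-((n:ℤ) + 1)) (by omega)
    have habs : |((-((n:ℤ) + 1) : ℤ) : ℝ)| = (n:ℝ) + 1 := by
      push_cast
      rw [abs_neg]
      exact abs_of_nonneg (by positivity)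
    rw [habs, hpow] at h
    linarith [h]
  have hs1 : Summable (fun n : ℕ => t ((n:ℤ) + 1)) :=
    Summable.of_norm_bounded hg.summable hb1
  have hs2 : Summable (fun n : ℕ => t (-((n:ℤ) + 1))) :=
    Summable.of_norm_bounded hg.summable hb2
  have hn1 : ‖∑' n : ℕ, t ((n:ℤ) + 1)‖ ≤ P * r * (1 - r)⁻¹ := tsum_of_norm_bounded hg hb1
  have hn2 : ‖∑' n : ℕ, t (-((n:ℤ) + 1))‖ ≤ P * r * (1 - r)⁻¹ := tsum_of_norm_bounded hg hb2
  have hsum := (hs1.hasSum.of_add_one_of_neg_add_one hs2.hasSum).tsum_eq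
  intro hz
  rw [hz] at hsum
  set a := ∑' n : ℕ, t ((n:ℤ) + 1) with ha
  set b := ∑' n : ℕ, t (-((n:ℤ) + 1)) with hb
  have ht0 : t 0 = -(a + b) := by
    have : a + t 0 + b = 0 := hsum.symm
    linear_combination this
  have hle : P ≤ 2 * (P * r * (1 - r)⁻¹) := by
    have hPe : P = ‖a + b‖ := by rw [← h0, ht0, norm_neg]
    have hab : ‖a + b‖ ≤ ‖a‖ + ‖b‖ := norm_add_le _ _
    linarith
  have h1r : 0 < 1 - r := by linarith
  have hlt : 2 * (P * r * (1 - r)⁻¹) < P := by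
    have : 2 * (P * r * (1 - r)⁻¹) = P * (2 * r / (1 - r)) := by
      field_simp
    rw [this]
    have h2 : 2 * r / (1 - r) < 1 := by
      rw [div_lt_one h1r]; linarith
    nlinarith
  linarith

end Crest.Agent.S0150Aux.K2_6
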