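import Mathlib
import Crest.Agent.S0150Aux.H35_Tail

/-!
helper35: task K3 of helper13's split of the KEY LEMMA of S0150 (note 1020), exact shape.
-/

namespace Crest.Agent.S0150Aux.K3_35

open Crest.Agent.S0150Aux.H35

theorem typeII (al A : ℤ → ℝ) (hA : ∀ j, A (j+1) = A j + al j) (C0 : ℝ)
    (hgrow : ∀ j : ℤ, 10*|(j:ℝ)| - C0 ≤ al j) (J : ℤ) (hR : ∀ j, J ≤ j → al j ≤ al (j+1))
    (s : ℤ) (m0 k0 : ℕ) (hmk : 1 ≤ m0 + k0) (Cw Cu c : ℝ) :
    ∃ L0 : ℝ, ∀ L : ℝ, L0 ≤ L → ∀ (ms ks : ℕ) (pS qS : ℝ) (q : ℕ → ℝ), 1 ≤ ms + ks →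
      5*(ms:ℝ) ≤ L + c → (∀ k, 0 ≤ q k) → (∀ k, q k ≤ Real.exp (A s - A (s + k))) →
      (∀ k, q k * Real.exp ((L+2)*k) ≤ qS * Real.exp ((L+2)*ks)) →
      Real.exp (-Cw + L*((m0:ℝ) - ms)) ≤ pS → Real.exp (-Cu + L*((k0:ℝ) - ks)) ≤ qS →
      ∀ a : ℕ, (1 ≤ m0 ∨ 1 ≤ a) →
        Real.exp (A (s + a) - A s) * q (a + ms + ks) ≤ pS * qS * Real.exp (-2*((a:ℝ) + ms)) := by
  set J1 : ℕ := (J - s).toNat with hJ1
  set C1 : ℝ := 10 * |(s:ℝ)| + C0 with hC1
  set D : ℝ := Cw + Cu with hD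
  set Sab : ℝ := ∑ i ∈ Finset.range (J1 + 1), |al (s + i)| with hSab
  have hSab0 : 0 ≤ Sab := Finset.sum_nonneg fun i _ => abs_nonneg _
  refine ⟨|Cw| + |Cu| + |al s| + Sab + |10 + 5 * C1 + 20 * D + 8 * c|, ?_⟩
  intro L hL ms ks pS qS q h5 h4 _hq0 hq h1 hp hqS a ha
  have b1 := abs_nonneg Cw
  have b2 := abs_nonneg Cu
  have b3 := abs_nonneg (al s)
  have b4 := abs_nonneg (10 + 5 * C1 + 20 * D + 8 * c)
  have c1 := le_abs_self Cw
  have c2 := le_abs_self Cu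
  have c3 := le_abs_self (al s)
  have c4 := le_abs_self (10 + 5 * C1 + 20 * D + 8 * c)
  have hL0 : 0 ≤ L := by linarith
  have hqSpos : 0 < qS := lt_of_lt_of_le (Real.exp_pos _) hqS
  have hpSpos : 0 < pS := lt_of_lt_of_le (Real.exp_pos _) hp
  -- the one-sided data
  set a' : ℕ → ℝ := fun i => al (s + i) with ha'
  set Ac : ℕ → ℝ := fun i => A (s + i) - A s with hAcdef
  have hAc : ∀ i, Ac (i + 1) = Ac i + a' i := by
    intro i
    simp only [hAcdef, ha']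
    have : s + ((i + 1 : ℕ) : ℤ) = s + i + 1 := by push_cast; ring
    rw [this, hA]
    ring
  have hAc0 : Ac 0 = 0 := by simp [hAcdef]
  have hgrow' : ∀ i : ℕ, 10 * (i : ℝ) - C1 ≤ a' i := by
    intro i
    have h := hgrow (s + i)
    have h2 : (i : ℝ) - |(s:ℝ)| ≤ |((s + i : ℤ) : ℝ)| := by
      push_cast
      have h3 : (i : ℝ) = ((s:ℝ) + i) - s := by ring
      have h4 : |((s:ℝ) + i) - s| ≤ |(s:ℝ) + i| + |(s:ℝ)| := abs_sub _ _
      have h5 : (i : ℝ) ≤ |((s:ℝ) + i) - s| := by rw [← h3]; exact le_abs_self _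
      linarith
    simp only [ha', hC1]
    linarith
  have hmono : ∀ i, J1 ≤ i → a' i ≤ a' (i + 1) := by
    intro i hi
    simp only [ha']
    have : s + ((i + 1 : ℕ) : ℤ) = s + i + 1 := by push_cast; ring
    rw [this]
    exact hR _ (by omega)
  have hr : ∀ k, q k ≤ Real.exp (-Ac k) := by
    intro k
    have := hq k
    simp only [hAcdef]
    rwa [neg_sub]
  have hL1 : ∀ i, i ≤ J1 → a' i ≤ L := by
    intro i hi
    have h1 : |al (s + i)| ≤ Sab :=
      Finset.single_le_sum (f := fun i : ℕ => |al (s + i)|) (fun i _ => abs_nonneg _)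
        (Finset.mem_range.mpr (by omega))
    have h2 := le_abs_self (al (s + i))
    simp only [ha']
    linarith
  have h2 : Real.exp (-(Cw - L * m0)) ≤ pS * Real.exp (L * ms) := by
    have := mul_le_mul_of_nonneg_right hp (Real.exp_pos (L * ms)).le
    rw [← Real.exp_add] at this
    refine le_trans (le_of_eq ?_) this
    congr 1; ring
  have hm0k0 : (1 : ℝ) ≤ (m0 : ℝ) + k0 := by exact_mod_cast hmk
  have h3 : Real.exp (L - D) ≤ pS * qS * Real.exp (L * ((ms : ℝ) + ks)) := by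
    have hpq : Real.exp (-Cw + L*((m0:ℝ) - ms)) * Real.exp (-Cu + L*((k0:ℝ) - ks)) ≤ pS * qS :=
      mul_le_mul hp hqS (Real.exp_pos _).le hpSpos.le
    have := mul_le_mul_of_nonneg_right hpq (Real.exp_pos (L * ((ms : ℝ) + ks))).le
    rw [← Real.exp_add, ← Real.exp_add] at this
    refine le_trans (Real.exp_le_exp.mpr ?_) this
    have : L * 1 ≤ L * ((m0 : ℝ) + k0) := mul_le_mul_of_nonneg_left hm0k0 hL0
    simp only [hD]
    nlinarith
  have hE : (∀ i, i < a → a' i ≤ L) → Ac a - L * a ≤ -(Cw - L * m0) := by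
    intro hall
    have hsum := sum_window a' Ac hAc 0 a
    simp only [zero_add, hAc0, sub_zero] at hsum
    have hm0 : (0 : ℝ) ≤ L * m0 := mul_nonneg hL0 (Nat.cast_nonneg _)
    rcases ha with hm | hapos
    · have hle : ∑ t ∈ Finset.range a, a' t ≤ ∑ _t ∈ Finset.range a, L :=
        Finset.sum_le_sum fun t ht => hall t (Finset.mem_range.mp ht)
      rw [Finset.sum_const, Finset.card_range, nsmul_eq_mul] at hle
      have hm1 : (1 : ℝ) ≤ m0 := by exact_mod_cast hm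
      have : L * 1 ≤ L * m0 := mul_le_mul_of_nonneg_left hm1 hL0
      rw [hsum]
      nlinarith
    · obtain ⟨a1, rfl⟩ : ∃ a1, a = a1 + 1 := ⟨a - 1, by omega⟩
      rw [Finset.sum_range_succ'] at hsum
      have hle : ∑ t ∈ Finset.range a1, a' (t + 1) ≤ ∑ _t ∈ Finset.range a1, L :=
        Finset.sum_le_sum fun t ht => hall (t + 1) (by have := Finset.mem_range.mp ht; omega)
      rw [Finset.sum_const, Finset.card_range, nsmul_eq_mul] at hle
      have h0 : a' 0 = al s := by simp [ha']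
      rw [hsum, h0]
      push_cast
      nlinarith
  have key := tail_bound a' Ac q hAc C1 hgrow' J1 hmono hr L ks ms qS pS hqSpos h1
    (Cw - L * m0) D c h2 h3 h4 h5 hL1 (by simp only [hD]; linarith) (by linarith) a hE
  exact key

end Crest.Agent.S0150Aux.K3_35
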