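import Mathlib

set_option autoImplicit false

namespace Crest.Agent.S0150Aux.K3_4

open Real

lemma incr_le (al A : ℤ → ℝ) (hA : ∀ j, A (j+1) = A j + al j) (t : ℤ) (M : ℝ) (b : ℕ)
    (h : ∀ i : ℕ, i < b → al (t + i) ≤ M) : A (t + b) - A t ≤ M * b := by
  induction b with
  | zero => simp
  | succ b ih =>
    have h1 : A (t + ((b + 1 : ℕ) : ℤ)) = A (t + (b : ℤ)) + al (t + (b : ℤ)) := by
      have := hA (t + (b : ℤ))
      rw [← this]; congr 1; push_cast; ring
    have h2 := ih (fun i hi => h i (Nat.lt_succ_of_lt hi))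
    have h3 := h b (Nat.lt_succ_self b)
    rw [h1]; push_cast; linarith

lemma incr_ge (al A : ℤ → ℝ) (hA : ∀ j, A (j+1) = A j + al j) (t : ℤ) (M : ℝ) (b : ℕ)
    (h : ∀ i : ℕ, i < b → M ≤ al (t + i)) : M * b ≤ A (t + b) - A t := by
  induction b with
  | zero => simp
  | succ b ih =>
    have h1 : A (t + ((b + 1 : ℕ) : ℤ)) = A (t + (b : ℤ)) + al (t + (b : ℤ)) := by
      have := hA (t + (b : ℤ))
      rw [← this]; congr 1; push_cast; ring
    have h2 := ih (fun i hi => h i (Nat.lt_succ_of_lt hi))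
    have h3 := h b (Nat.lt_succ_self b)
    rw [h1]; push_cast; linarith

lemma mono_from (al : ℤ → ℝ) (J : ℤ) (hR : ∀ j, J ≤ j → al j ≤ al (j+1)) (t : ℤ) (ht : J ≤ t)
    (r : ℕ) : al t ≤ al (t + r) := by
  induction r with
  | zero => simp
  | succ r ih =>
    have h1 := hR (t + (r : ℤ)) (by have : (0:ℤ) ≤ (r:ℤ) := Int.natCast_nonneg r; linarith)
    have h2 : t + ((r + 1 : ℕ) : ℤ) = t + (r : ℤ) + 1 := by push_cast; ring
    rw [h2]; linarith

/-- K3 of the S0150 board (note 1020). -/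
theorem typeII (al A : ℤ → ℝ) (hA : ∀ j, A (j+1) = A j + al j) (C0 : ℝ)
    (hgrow : ∀ j : ℤ, 10*|(j:ℝ)| - C0 ≤ al j) (J : ℤ) (hR : ∀ j, J ≤ j → al j ≤ al (j+1))
    (s : ℤ) (m0 k0 : ℕ) (hmk : 1 ≤ m0 + k0) (Cw Cu c : ℝ) :
    ∃ L0 : ℝ, ∀ L : ℝ, L0 ≤ L → ∀ (ms ks : ℕ) (pS qS : ℝ) (q : ℕ → ℝ), 1 ≤ ms + ks →
      5*(ms:ℝ) ≤ L + c → (∀ k, 0 ≤ q k) → (∀ k, q k ≤ Real.exp (A s - A (s + k))) →
      (∀ k, q k * Real.exp ((L+2)*k) ≤ qS * Real.exp ((L+2)*ks)) →
      Real.exp (-Cw + L*((m0:ℝ) - ms)) ≤ pS → Real.exp (-Cu + L*((k0:ℝ) - ks)) ≤ qS →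
      ∀ a : ℕ, (1 ≤ m0 ∨ 1 ≤ a) →
        Real.exp (A (s + a) - A s) * q (a + ms + ks) ≤ pS * qS * Real.exp (-2*((a:ℝ) + ms)) := by
  set N : ℕ := (max J s - s).toNat + 1 with hN
  set SN : ℝ := ∑ i ∈ Finset.range N, |al (s + (i : ℤ))| with hSN
  have hSN0 : 0 ≤ SN := Finset.sum_nonneg (fun i _ => abs_nonneg _)
  refine ⟨|Cw| + |Cu| + |al s| + SN + 10*|(s:ℝ)| + |C0| + 2 + 4*|Cw| + 4*|Cu| + 2*|c|, ?_⟩
  intro L hL ms ks pS qS q hn hms hq0 hqA htilt hpS hqS a ha
  have aCw := abs_nonneg Cw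
  have aCu := abs_nonneg Cu
  have aals := abs_nonneg (al s)
  have as' := abs_nonneg (s:ℝ)
  have aC0 := abs_nonneg C0
  have ac := abs_nonneg c
  have lCw := le_abs_self Cw
  have lCu := le_abs_self Cu
  have lals := le_abs_self (al s)
  have lC0 := le_abs_self C0
  have lc := neg_abs_le c
  have lc' := le_abs_self c
  have hL0 : 0 ≤ L := by linarith
  have hqSpos : 0 < qS := lt_of_lt_of_le (exp_pos _) hqS
  have hpSpos : 0 < pS := lt_of_lt_of_le (exp_pos _) hpS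
  have ha0 : (0:ℝ) ≤ (a:ℝ) := Nat.cast_nonneg _
  have hms0 : (0:ℝ) ≤ (ms:ℝ) := Nat.cast_nonneg _
  have hks0 : (0:ℝ) ≤ (ks:ℝ) := Nat.cast_nonneg _
  have hm00 : (0:ℝ) ≤ (m0:ℝ) := Nat.cast_nonneg _
  have hk00 : (0:ℝ) ≤ (k0:ℝ) := Nat.cast_nonneg _
  have hnR : (1:ℝ) ≤ (ms:ℝ) + ks := by exact_mod_cast hn
  have hmkR : (1:ℝ) ≤ (m0:ℝ) + k0 := by exact_mod_cast hmk
  by_cases hcase : ∀ i : ℕ, i < a → al (s + i) ≤ L
  · -- case (a)
    have hAA : A (s + a) - A s - L * a ≤ -Cw + L * m0 := by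
      rcases ha with hm | ha1
      · have h1 := incr_le al A hA s L a hcase
        have h2 : (1:ℝ) ≤ (m0:ℝ) := by exact_mod_cast hm
        have h3 : L ≤ L * m0 := by nlinarith
        linarith
      · obtain ⟨a', rfl⟩ : ∃ a', a = a' + 1 := ⟨a - 1, by omega⟩
        have h1 := incr_le al A hA (s + 1) L a' (fun i hi => by
          have := hcase (i + 1) (by omega)
          have e : s + ((i + 1 : ℕ) : ℤ) = s + 1 + (i : ℤ) := by push_cast; ring
          rwa [e] at this)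
        have e2 : s + ((a' + 1 : ℕ) : ℤ) = s + 1 + (a' : ℤ) := by push_cast; ring
        have h4 := hA s
        have h5 : 0 ≤ L * m0 := mul_nonneg hL0 hm00
        rw [e2]; push_cast; linarith
    have hq1 := htilt (a + ms + ks)
    have hq2 : q (a + ms + ks) ≤ qS * exp (-(L+2)*((a:ℝ)+ms)) := by
      calc q (a + ms + ks)
          = q (a + ms + ks) * exp ((L+2)*((a + ms + ks : ℕ):ℝ)) * exp (-((L+2)*((a + ms + ks : ℕ):ℝ))) := by
            rw [mul_assoc, ← exp_add]; simp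
        _ ≤ qS * exp ((L+2)*ks) * exp (-((L+2)*((a + ms + ks : ℕ):ℝ))) :=
            mul_le_mul_of_nonneg_right hq1 (exp_pos _).le
        _ = qS * exp (-(L+2)*((a:ℝ)+ms)) := by
            rw [mul_assoc, ← exp_add]; congr 2; push_cast; ring
    calc exp (A (s + a) - A s) * q (a + ms + ks)
        ≤ exp (A (s + a) - A s) * (qS * exp (-(L+2)*((a:ℝ)+ms))) :=
          mul_le_mul_of_nonneg_left hq2 (exp_pos _).le
      _ = qS * exp (A (s + a) - A s + -(L+2)*((a:ℝ)+ms)) := by rw [exp_add]; ring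
      _ ≤ qS * exp ((-Cw + L*((m0:ℝ) - ms)) + -2*((a:ℝ) + ms)) := by
          apply mul_le_mul_of_nonneg_left _ hqSpos.le
          apply exp_le_exp.mpr
          nlinarith
      _ = exp (-Cw + L*((m0:ℝ) - ms)) * qS * exp (-2*((a:ℝ) + ms)) := by rw [exp_add]; ring
      _ ≤ pS * qS * exp (-2*((a:ℝ) + ms)) := by
          apply mul_le_mul_of_nonneg_right _ (exp_pos _).le
          exact mul_le_mul_of_nonneg_right hpS hqSpos.le
  · -- case (b)
    push Not at hcase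
    obtain ⟨i, hia, hiL⟩ := hcase
    have eN : s + ((a + ms + ks : ℕ) : ℤ) = s + (a : ℤ) + ((ms + ks : ℕ) : ℤ) := by
      push_cast; ring
    -- key exponent inequality
    have hkey : A (s + a) - A (s + ((a + ms + ks : ℕ) : ℤ)) ≤
        (-Cw + L*((m0:ℝ) - ms)) + (-Cu + L*((k0:ℝ) - ks)) + -2*((a:ℝ) + ms) := by
      rw [eN]
      have hLmk : L ≤ L * m0 + L * k0 := by nlinarith
      have hcast : (((ms + ks : ℕ) : ℝ)) = (ms:ℝ) + ks := by push_cast; ring
      by_cases hsub : 2*((a:ℝ) + ms) ≤ L - Cw - Cu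
      · -- (b1)
        have hNi : N ≤ i := by
          by_contra hlt
          push Not at hlt
          have h1 : |al (s + (i : ℤ))| ≤ SN :=
            Finset.single_le_sum (f := fun i : ℕ => |al (s + (i : ℤ))|)
              (fun j _ => abs_nonneg _) (Finset.mem_range.mpr hlt)
          have h2 := le_abs_self (al (s + (i : ℤ)))
          linarith
        have hJi : J ≤ s + (i : ℤ) := by
          have h1 : max J s - s ≤ ((max J s - s).toNat : ℤ) := Int.self_le_toNat _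
          have h2 : J ≤ max J s := le_max_left _ _
          have h3 : ((N : ℕ) : ℤ) ≤ (i : ℤ) := by exact_mod_cast hNi
          have h4 : ((N : ℕ) : ℤ) = ((max J s - s).toNat : ℤ) + 1 := by rw [hN]; push_cast; ring
          linarith
        have hD := incr_ge al A hA (s + (a : ℤ)) L (ms + ks) (fun r _ => by
          have h1 := mono_from al J hR (s + (i : ℤ)) hJi (a - i + r)
          have e : s + (i : ℤ) + ((a - i + r : ℕ) : ℤ) = s + (a : ℤ) + (r : ℤ) := by omega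
          rw [e] at h1
          linarith)
        rw [hcast] at hD
        nlinarith
      · -- (b2)
        push Not at hsub
        have hD := incr_ge al A hA (s + (a : ℤ)) (L + 2*a + 2) (ms + ks) (fun r _ => by
          have h1 := hgrow (s + (a : ℤ) + (r : ℤ))
          have h2 : (a:ℝ) + r - |(s:ℝ)| ≤ |((s + (a : ℤ) + (r : ℤ) : ℤ) : ℝ)| := by
            push_cast
            have h4 : |(a:ℝ) + r| ≤ |(s:ℝ) + a + r| + |(s:ℝ)| := by
              calc |(a:ℝ) + r| = |((s:ℝ) + a + r) - (s:ℝ)| := by congr 1; ring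
                _ ≤ |(s:ℝ) + a + r| + |(s:ℝ)| := abs_sub _ _
            have h5 : (a:ℝ) + r ≤ |(a:ℝ) + r| := le_abs_self _
            linarith
          have hr0 : (0:ℝ) ≤ (r:ℝ) := Nat.cast_nonneg _
          linarith)
        rw [hcast] at hD
        have h6 : 0 ≤ (2*(a:ℝ)) * ((ms:ℝ) + ks - 1) := mul_nonneg (by linarith) (by linarith)
        nlinarith
    calc exp (A (s + a) - A s) * q (a + ms + ks)
        ≤ exp (A (s + a) - A s) * exp (A s - A (s + ((a + ms + ks : ℕ) : ℤ))) :=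
          mul_le_mul_of_nonneg_left (hqA _) (exp_pos _).le
      _ = exp (A (s + a) - A (s + ((a + ms + ks : ℕ) : ℤ))) := by
          rw [← exp_add]; congr 1; ring
      _ ≤ exp ((-Cw + L*((m0:ℝ) - ms)) + (-Cu + L*((k0:ℝ) - ks)) + -2*((a:ℝ) + ms)) :=
          exp_le_exp.mpr hkey
      _ = exp (-Cw + L*((m0:ℝ) - ms)) * exp (-Cu + L*((k0:ℝ) - ks)) * exp (-2*((a:ℝ) + ms)) := by
          rw [exp_add, exp_add]
      _ ≤ pS * qS * exp (-2*((a:ℝ) + ms)) := by
          apply mul_le_mul_of_nonneg_right _ (exp_pos _).le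
          exact mul_le_mul hpS hqS (exp_pos _).le hpSpos.le

end Crest.Agent.S0150Aux.K3_4
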