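import Mathlib

/-!
K3 (Type II tail bound) of the key-lemma split for S0150 (team note 1020, helper13's board).
Mathlib only.
-/

namespace Crest.Agent.S0150Aux.K3_48

lemma sum_lower (al A : ℤ → ℝ) (hA : ∀ j, A (j+1) = A j + al j) (X : ℝ) (t : ℤ)
    (h : ∀ i : ℕ, X ≤ al (t + i)) (n : ℕ) : (n:ℝ) * X ≤ A (t + n) - A t := by
  induction n with
  | zero => simp
  | succ n ih =>
    have h1 : A (t + ((n+1 : ℕ) : ℤ)) = A (t + n) + al (t + n) := by
      rw [← hA]; congr 1; push_cast; ring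
    rw [h1]; push_cast
    have := h n
    linarith

lemma sum_upper (al A : ℤ → ℝ) (hA : ∀ j, A (j+1) = A j + al j) (X : ℝ) (t : ℤ) (n : ℕ)
    (h : ∀ i : ℕ, i < n → al (t + i) ≤ X) : A (t + n) - A t ≤ (n:ℝ) * X := by
  induction n with
  | zero => simp
  | succ n ih =>
    have h1 : A (t + ((n+1 : ℕ) : ℤ)) = A (t + n) + al (t + n) := by
      rw [← hA]; congr 1; push_cast; ring
    rw [h1]; push_cast
    have h2 := h n (Nat.lt_succ_self n)
    have h3 := ih (fun i hi => h i (Nat.lt_succ_of_lt hi))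
    linarith

lemma mono_from (al : ℤ → ℝ) (J : ℤ) (hR : ∀ j, J ≤ j → al j ≤ al (j+1)) (j : ℤ) (hj : J ≤ j)
    (i : ℕ) : al j ≤ al (j + i) := by
  induction i with
  | zero => simp
  | succ i ih =>
    have := hR (j + i) (by omega)
    have e : j + ((i+1 : ℕ):ℤ) = j + i + 1 := by push_cast; ring
    rw [e]; linarith

theorem typeII (al A : ℤ → ℝ) (hA : ∀ j, A (j+1) = A j + al j) (C0 : ℝ)
    (hgrow : ∀ j : ℤ, 10*|(j:ℝ)| - C0 ≤ al j) (J : ℤ) (hR : ∀ j, J ≤ j → al j ≤ al (j+1))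
    (s : ℤ) (m0 k0 : ℕ) (hmk : 1 ≤ m0 + k0) (Cw Cu c : ℝ) :
    ∃ L0 : ℝ, ∀ L : ℝ, L0 ≤ L → ∀ (ms ks : ℕ) (pS qS : ℝ) (q : ℕ → ℝ), 1 ≤ ms + ks →
      5*(ms:ℝ) ≤ L + c → (∀ k, 0 ≤ q k) → (∀ k, q k ≤ Real.exp (A s - A (s + k))) →
      (∀ k, q k * Real.exp ((L+2)*k) ≤ qS * Real.exp ((L+2)*ks)) →
      Real.exp (-Cw + L*((m0:ℝ) - ms)) ≤ pS → Real.exp (-Cu + L*((k0:ℝ) - ks)) ≤ qS →
      ∀ a : ℕ, (1 ≤ m0 ∨ 1 ≤ a) →
        Real.exp (A (s + a) - A s) * q (a + ms + ks)
          ≤ pS * qS * Real.exp (-2*((a:ℝ) + ms)) := by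
  set N : ℕ := (J - s).toNat with hN
  set B : ℝ := ∑ i ∈ Finset.range (N+1), |al (s + (i:ℤ))| with hB
  have hB0 : 0 ≤ B := Finset.sum_nonneg (fun _ _ => abs_nonneg _)
  have hBi : ∀ i : ℕ, i ≤ N → al (s + i) ≤ B := by
    intro i hi
    calc al (s+i) ≤ |al (s+i)| := le_abs_self _
      _ ≤ B := Finset.single_le_sum (f := fun i : ℕ => |al (s + (i:ℤ))|)
          (fun _ _ => abs_nonneg _) (Finset.mem_range.mpr (by omega))
  refine ⟨B + |Cw| + |Cu| + 2 + 10*|(s:ℝ)| + |C0| + 4*(|Cw|+|Cu|+|c|), ?_⟩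
  intro L hL ms ks pS qS q hn hms hq0 hqA hqT hpS hqS a ha
  have hs0 : al s ≤ B := by simpa using hBi 0 (Nat.zero_le _)
  have a1 := le_abs_self Cw
  have a2 := le_abs_self Cu
  have a3 := le_abs_self c
  have a4 := le_abs_self C0
  have a5 := neg_abs_le (s:ℝ)
  have b1 := abs_nonneg Cw
  have b2 := abs_nonneg Cu
  have b3 := abs_nonneg c
  have b4 := abs_nonneg C0
  have b5 := abs_nonneg (s:ℝ)
  have hL0 : 0 ≤ L := by linarith
  have hqSpos : 0 < qS := lt_of_lt_of_le (Real.exp_pos _) hqS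
  have hpSpos : 0 < pS := lt_of_lt_of_le (Real.exp_pos _) hpS
  have ha0 : (0:ℝ) ≤ a := Nat.cast_nonneg _
  have hms0 : (0:ℝ) ≤ ms := Nat.cast_nonneg _
  have hks0 : (0:ℝ) ≤ ks := Nat.cast_nonneg _
  have hm00 : (0:ℝ) ≤ m0 := Nat.cast_nonneg _
  by_cases hcase : ∀ i : ℕ, i < a → al (s + i) ≤ L
  · -- case (a)
    have hT := hqT (a + ms + ks)
    have hq1 : q (a+ms+ks) ≤ qS * Real.exp (-((L+2)*((a:ℝ)+ms))) := by
      have e1 : Real.exp ((L+2)*ks)
          = Real.exp (-((L+2)*((a:ℝ)+ms))) * Real.exp ((L+2)*((a+ms+ks : ℕ):ℝ)) := by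
        rw [← Real.exp_add]; congr 1; push_cast; ring
      rw [e1, ← mul_assoc] at hT
      exact le_of_mul_le_mul_right hT (Real.exp_pos _)
    have hAA : A (s + a) - A s - L * a ≤ -Cw + L * m0 := by
      rcases ha with h | h
      · have h1 := sum_upper al A hA L s a hcase
        have h2 : (1:ℝ) ≤ m0 := by exact_mod_cast h
        have h3 := mul_nonneg hL0 (sub_nonneg.mpr h2)
        linarith
      · obtain ⟨b, rfl⟩ : ∃ b, a = b + 1 := ⟨a - 1, by omega⟩
        have h1 := sum_upper al A hA L (s+1) b (fun i hi => by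
          have := hcase (i+1) (by omega)
          have e : s + 1 + (i:ℤ) = s + ((i+1 : ℕ):ℤ) := by push_cast; ring
          rw [e]; exact this)
        have e2 : A (s + ((b+1 : ℕ):ℤ)) = A (s + 1 + b) := by congr 1; push_cast; ring
        have e3 := hA s
        rw [e2]; push_cast
        have h3 := mul_nonneg hL0 hm00
        linarith
    have hexp : Real.exp (A (s + a) - A s) * Real.exp (-((L+2)*((a:ℝ)+ms)))
        = Real.exp (A (s+a) - A s - L * a - L * ms) * Real.exp (-2*((a:ℝ)+ms)) := by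
      rw [← Real.exp_add, ← Real.exp_add]; congr 1; ring
    calc Real.exp (A (s + a) - A s) * q (a+ms+ks)
        ≤ Real.exp (A (s + a) - A s) * (qS * Real.exp (-((L+2)*((a:ℝ)+ms)))) := by gcongr
      _ = qS * (Real.exp (A (s + a) - A s) * Real.exp (-((L+2)*((a:ℝ)+ms)))) := by ring
      _ = Real.exp (A (s+a) - A s - L * a - L * ms) * qS * Real.exp (-2*((a:ℝ)+ms)) := by
          rw [hexp]; ring
      _ ≤ pS * qS * Real.exp (-2*((a:ℝ)+ms)) := by
          gcongr
          refine le_trans (Real.exp_le_exp.mpr ?_) hpS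
          linarith
  · -- case (b)
    push Not at hcase
    obtain ⟨i, hia, hiL⟩ := hcase
    have hiN : N < i := by
      by_contra hcon
      have := hBi i (by omega)
      linarith
    have hJi : J ≤ s + i := by
      have := Int.self_le_toNat (J - s)
      omega
    have hbig : ∀ i' : ℕ, L ≤ al (s + a + i') := by
      intro i'
      have h1 := mono_from al J hR (s+i) hJi (a - i + i')
      have e : s + i + ((a - i + i' : ℕ):ℤ) = s + a + i' := by
        omega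
      rw [e] at h1; linarith
    have hq2 := hqA (a + ms + ks)
    have e4 : A (s + ((a + ms + ks : ℕ):ℤ)) = A (s + a + ((ms+ks : ℕ):ℤ)) := by
      congr 1; push_cast; ring
    rw [e4] at hq2
    have hprod : Real.exp (-Cw - Cu + L*((m0:ℝ)+k0) - L*((ms:ℝ)+ks)) ≤ pS * qS := by
      calc Real.exp (-Cw - Cu + L*((m0:ℝ)+k0) - L*((ms:ℝ)+ks))
          = Real.exp (-Cw + L*((m0:ℝ) - ms)) * Real.exp (-Cu + L*((k0:ℝ) - ks)) := by
            rw [← Real.exp_add]; congr 1; ring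
        _ ≤ pS * qS := mul_le_mul hpS hqS (Real.exp_pos _).le hpSpos.le
    have hn' : (1:ℝ) ≤ (ms:ℝ) + ks := by exact_mod_cast hn
    have hmk' : (1:ℝ) ≤ (m0:ℝ) + k0 := by exact_mod_cast hmk
    have hD : Cw + Cu - L + 2*((a:ℝ)+ms)
        ≤ A (s + a + ((ms+ks:ℕ):ℤ)) - A (s+a) - L * ((ms:ℝ)+ks) := by
      by_cases hsub : 2*((a:ℝ)+ms) ≤ L - Cw - Cu
      · have h1 := sum_lower al A hA L (s+a) hbig (ms+ks)
        push_cast at h1 ⊢
        linarith
      · push Not at hsub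
        have hbig2 : ∀ i' : ℕ, L + 2*a + 2 ≤ al (s + a + i') := by
          intro i'
          have g := hgrow (s + a + i')
          have g2 := le_abs_self (((s + a + i' : ℤ)):ℝ)
          push_cast at g g2
          have : (0:ℝ) ≤ i' := Nat.cast_nonneg _
          linarith
        have h1 := sum_lower al A hA (L + 2*a + 2) (s+a) hbig2 (ms+ks)
        push_cast at h1 ⊢
        have h2 := mul_nonneg (sub_nonneg.mpr hn') ha0
        linarith
    have h3 := mul_nonneg hL0 (sub_nonneg.mpr hmk')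
    calc Real.exp (A (s + a) - A s) * q (a+ms+ks)
        ≤ Real.exp (A (s + a) - A s) * Real.exp (A s - A (s + a + ((ms+ks : ℕ):ℤ))) := by gcongr
      _ = Real.exp (-(A (s + a + ((ms+ks : ℕ):ℤ)) - A (s+a))) := by
          rw [← Real.exp_add]; congr 1; ring
      _ ≤ Real.exp (-Cw - Cu + L*((m0:ℝ)+k0) - L*((ms:ℝ)+ks)) * Real.exp (-2*((a:ℝ)+ms)) := by
          rw [← Real.exp_add]
          apply Real.exp_le_exp.mpr
          linarith
      _ ≤ pS * qS * Real.exp (-2*((a:ℝ)+ms)) := by gcongr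

end Crest.Agent.S0150Aux.K3_48
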