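import Mathlib

/-! S0150, key-lemma split of helper13 (team note 1020): task K3 `typeII`.  helper5. -/

set_option autoImplicit false

namespace Crest.Agent.S0150Aux.K3_5

theorem A_diff_ge (al A : ℤ → ℝ) (hA : ∀ j, A (j+1) = A j + al j) (t : ℤ) (lo : ℝ) :
    ∀ N : ℕ, (∀ i : ℕ, i < N → lo ≤ al (t + i)) → N * lo ≤ A (t + N) - A t := by
  intro N
  induction N with
  | zero => intro _; simp
  | succ N ih =>
    intro h
    have h1 := ih (fun i hi => h i (Nat.lt_succ_of_lt hi))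
    have h2 := h N (Nat.lt_succ_self N)
    have e : t + ((N + 1 : ℕ) : ℤ) = (t + N) + 1 := by push_cast; ring
    rw [e, hA]
    have e2 : ((N + 1 : ℕ) : ℝ) * lo = N * lo + lo := by push_cast; ring
    rw [e2]
    linarith

theorem A_diff_le (al A : ℤ → ℝ) (hA : ∀ j, A (j+1) = A j + al j) (t : ℤ) (hi : ℝ) :
    ∀ N : ℕ, (∀ i : ℕ, i < N → al (t + i) ≤ hi) → A (t + N) - A t ≤ N * hi := by
  intro N
  induction N with
  | zero => intro _; simp
  | succ N ih =>
    intro h
    have h1 := ih (fun i hi => h i (Nat.lt_succ_of_lt hi))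
    have h2 := h N (Nat.lt_succ_self N)
    have e : t + ((N + 1 : ℕ) : ℤ) = (t + N) + 1 := by push_cast; ring
    rw [e, hA]
    have e2 : ((N + 1 : ℕ) : ℝ) * hi = N * hi + hi := by push_cast; ring
    rw [e2]
    linarith

theorem al_mono (al : ℤ → ℝ) (J : ℤ) (hR : ∀ j, J ≤ j → al j ≤ al (j+1)) (t : ℤ) (ht : J ≤ t) :
    ∀ N : ℕ, al t ≤ al (t + N) := by
  intro N
  induction N with
  | zero => simp
  | succ N ih =>
    have e : t + ((N + 1 : ℕ) : ℤ) = (t + N) + 1 := by push_cast; ring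
    rw [e]
    exact le_trans ih (hR _ (by omega))

/-- K3 -/
theorem typeII (al A : ℤ → ℝ) (hA : ∀ j, A (j+1) = A j + al j) (C0 : ℝ)
    (hgrow : ∀ j : ℤ, 10*|(j:ℝ)| - C0 ≤ al j) (J : ℤ) (hR : ∀ j, J ≤ j → al j ≤ al (j+1))
    (s : ℤ) (m0 k0 : ℕ) (hmk : 1 ≤ m0 + k0) (Cw Cu c : ℝ) :
    ∃ L0 : ℝ, ∀ L : ℝ, L0 ≤ L → ∀ (ms ks : ℕ) (pS qS : ℝ) (q : ℕ → ℝ), 1 ≤ ms + ks →
      5*(ms:ℝ) ≤ L + c → (∀ k, 0 ≤ q k) → (∀ k, q k ≤ Real.exp (A s - A (s + k))) →
      (∀ k, q k * Real.exp ((L+2)*k) ≤ qS * Real.exp ((L+2)*ks)) →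
      Real.exp (-Cw + L*((m0:ℝ) - ms)) ≤ pS → Real.exp (-Cu + L*((k0:ℝ) - ks)) ≤ qS →
      ∀ a : ℕ, (1 ≤ m0 ∨ 1 ≤ a) →
        Real.exp (A (s + a) - A s) * q (a + ms + ks)
          ≤ pS * qS * Real.exp (-2*((a:ℝ) + ms)) := by
  obtain ⟨I0, hI0⟩ : ∃ I0 : ℕ, J - s ≤ (I0 : ℤ) := ⟨(J - s).toNat, Int.self_le_toNat _⟩
  obtain ⟨M, hM0, hMi⟩ : ∃ M : ℝ, 0 ≤ M ∧ ∀ i : ℕ, i ≤ I0 → al (s + i) ≤ M := by
    refine ⟨∑ i ∈ Finset.range (I0 + 1), |al (s + i)|,
      Finset.sum_nonneg (fun i _ => abs_nonneg _), ?_⟩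
    intro i hi
    calc al (s + i) ≤ |al (s + i)| := le_abs_self _
      _ ≤ _ := Finset.single_le_sum (f := fun i : ℕ => |al (s + i)|)
          (fun i _ => abs_nonneg _) (Finset.mem_range.2 (Nat.lt_succ_of_le hi))
  refine ⟨|Cw| + |Cu| + |al s| + M +
    (|C0| + 10 * |(s:ℝ)| + 4 * |Cw| + 4 * |Cu| + 2 * |c| + 2), ?_⟩
  intro L hL ms ks pS qS q hn hms hq0 hqA hqT hpS hqS a ha
  have a1 := le_abs_self Cw
  have a2 := le_abs_self Cu
  have a3 := le_abs_self (al s)
  have a4 := le_abs_self C0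
  have a5 := neg_abs_le (s:ℝ)
  have a6 := le_abs_self c
  have b1 := abs_nonneg Cw
  have b2 := abs_nonneg Cu
  have b3 := abs_nonneg (al s)
  have b4 := abs_nonneg C0
  have b5 := abs_nonneg (s:ℝ)
  have b6 := abs_nonneg c
  have hL0 : 0 ≤ L := by linarith
  have hpS0 : 0 < pS := lt_of_lt_of_le (Real.exp_pos _) hpS
  have hqS0 : 0 < qS := lt_of_lt_of_le (Real.exp_pos _) hqS
  by_cases hcase : ∀ i : ℕ, i < a → al (s + i) ≤ L
  · -- case (a)
    have hB : A (s + a) - A s - L * a ≤ -Cw + L * m0 := by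
      rcases ha with ha | ha
      · have h1 := A_diff_le al A hA s L a hcase
        have h2 : L * 1 ≤ L * (m0:ℝ) := mul_le_mul_of_nonneg_left (by exact_mod_cast ha) hL0
        linarith
      · obtain ⟨b, rfl⟩ : ∃ b, a = b + 1 := ⟨a - 1, by omega⟩
        have h1 := A_diff_le al A hA (s + 1) L b (fun i hi => by
          have := hcase (i + 1) (by omega)
          have e : s + ((i + 1 : ℕ) : ℤ) = s + 1 + i := by push_cast; ring
          rwa [e] at this)
        have e : s + ((b + 1 : ℕ) : ℤ) = s + 1 + b := by push_cast; ring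
        rw [e]
        have h3 := hA s
        have h2 : 0 ≤ L * (m0:ℝ) := by positivity
        push_cast
        linarith
    have hT := hqT (a + ms + ks)
    have hq1 : q (a + ms + ks) ≤ qS * Real.exp (-((L+2) * ((a:ℝ) + ms))) := by
      have hpos := Real.exp_pos ((L+2) * ((a + ms + ks : ℕ) : ℝ))
      calc q (a + ms + ks)
          ≤ qS * Real.exp ((L+2)*ks) / Real.exp ((L+2) * ((a + ms + ks : ℕ) : ℝ)) :=
            (le_div_iff₀ hpos).2 hT
        _ = qS * Real.exp (-((L+2) * ((a:ℝ) + ms))) := by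
            rw [mul_div_assoc, ← Real.exp_sub]
            congr 2
            push_cast
            ring
    have hp1 : Real.exp (A (s + a) - A s - L * a - L * ms) ≤ pS := by
      refine le_trans (Real.exp_le_exp.2 ?_) hpS
      linarith
    calc Real.exp (A (s + a) - A s) * q (a + ms + ks)
        ≤ Real.exp (A (s + a) - A s) * (qS * Real.exp (-((L+2) * ((a:ℝ) + ms)))) :=
          mul_le_mul_of_nonneg_left hq1 (Real.exp_pos _).le
      _ = Real.exp (A (s + a) - A s - L * a - L * ms) * qS * Real.exp (-2*((a:ℝ) + ms)) := by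
          rw [show Real.exp (A (s + a) - A s) * (qS * Real.exp (-((L+2) * ((a:ℝ) + ms))))
              = qS * (Real.exp (A (s + a) - A s) * Real.exp (-((L+2) * ((a:ℝ) + ms)))) by ring,
            show Real.exp (A (s + a) - A s - L * a - L * ms) * qS * Real.exp (-2*((a:ℝ) + ms))
              = qS * (Real.exp (A (s + a) - A s - L * a - L * ms)
                  * Real.exp (-2*((a:ℝ) + ms))) by ring,
            ← Real.exp_add, ← Real.exp_add]
          congr 2
          ring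
      _ ≤ pS * qS * Real.exp (-2*((a:ℝ) + ms)) :=
          mul_le_mul_of_nonneg_right (mul_le_mul_of_nonneg_right hp1 hqS0.le) (Real.exp_pos _).le
  · -- case (b)
    push Not at hcase
    obtain ⟨i, hia, hiL⟩ := hcase
    have hiI : I0 < i := by
      by_contra hle
      have := hMi i (not_lt.1 hle)
      linarith
    have hJ : J ≤ s + i := by omega
    have hbig : ∀ i' : ℕ, a ≤ i' → L < al (s + i') := by
      intro i' hi'
      obtain ⟨N, rfl⟩ : ∃ N, i' = i + N := ⟨i' - i, by omega⟩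
      have := al_mono al J hR (s + i) hJ N
      have e : s + ((i + N : ℕ) : ℤ) = s + i + N := by push_cast; ring
      rw [e]; linarith
    have hq1 := hqA (a + ms + ks)
    have e1 : s + ((a + ms + ks : ℕ) : ℤ) = (s + a) + ((ms + ks : ℕ) : ℤ) := by push_cast; ring
    have hks : (0:ℝ) ≤ ks := Nat.cast_nonneg _
    have hkey : A (s + a) - A (s + a + ((ms + ks : ℕ) : ℤ))
        ≤ (-Cw + L*((m0:ℝ) - ms)) + (-Cu + L*((k0:ℝ) - ks)) + (-2*((a:ℝ) + ms)) := by
      have hLmk : L * 1 ≤ L * ((m0:ℝ) + k0) :=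
        mul_le_mul_of_nonneg_left (by exact_mod_cast hmk) hL0
      by_cases hsub : 2 * ((a:ℝ) + ms) ≤ L - Cw - Cu
      · have h1 := A_diff_ge al A hA (s + a) L (ms + ks) (fun i' _ => by
          have := hbig (a + i') (by omega)
          have e : s + ((a + i' : ℕ) : ℤ) = s + a + i' := by push_cast; ring
          rw [e] at this; exact this.le)
        have e2 : ((ms + ks : ℕ) : ℝ) * L = ms * L + ks * L := by push_cast; ring
        rw [e2] at h1
        linarith
      · push Not at hsub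
        have hlo : ∀ i' : ℕ, L + 2 * a + 2 ≤ al (s + a + i') := by
          intro i'
          have g := hgrow (s + a + i')
          have g2 := le_abs_self (((s + a + i' : ℤ)) : ℝ)
          push_cast at g g2
          have : (0:ℝ) ≤ i' := Nat.cast_nonneg _
          linarith
        have h1 := A_diff_ge al A hA (s + a) (L + 2 * a + 2) (ms + ks) (fun i' _ => hlo i')
        have hn' : (1:ℝ) ≤ (ms:ℝ) + ks := by exact_mod_cast hn
        have h2 : 0 ≤ ((ms:ℝ) + ks - 1) * (2 * a) := by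
          apply mul_nonneg
          · linarith
          · positivity
        have e2 : ((ms + ks : ℕ) : ℝ) * (L + 2 * a + 2)
            = ms * L + ks * L + ((ms:ℝ) + ks - 1) * (2 * a) + 2 * a + 2 * ms + 2 * ks := by
          push_cast; ring
        rw [e2] at h1
        linarith
    calc Real.exp (A (s + a) - A s) * q (a + ms + ks)
        ≤ Real.exp (A (s + a) - A s) * Real.exp (A s - A (s + ((a + ms + ks : ℕ) : ℤ))) :=
          mul_le_mul_of_nonneg_left hq1 (Real.exp_pos _).le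
      _ = Real.exp (A (s + a) - A (s + a + ((ms + ks : ℕ) : ℤ))) := by
          rw [← Real.exp_add, e1]; congr 1; ring
      _ ≤ Real.exp ((-Cw + L*((m0:ℝ) - ms)) + (-Cu + L*((k0:ℝ) - ks)) + (-2*((a:ℝ) + ms))) :=
          Real.exp_le_exp.2 hkey
      _ = Real.exp (-Cw + L*((m0:ℝ) - ms)) * Real.exp (-Cu + L*((k0:ℝ) - ks))
            * Real.exp (-2*((a:ℝ) + ms)) := by rw [Real.exp_add, Real.exp_add]
      _ ≤ pS * qS * Real.exp (-2*((a:ℝ) + ms)) :=
          mul_le_mul_of_nonneg_right (mul_le_mul hpS hqS (Real.exp_pos _).le hpS0.le)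
            (Real.exp_pos _).le

end Crest.Agent.S0150Aux.K3_5
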