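import Mathlib

/-! helper66: K3 `typeII` of helper13's S0150 board (note 1020). Mathlib only. -/

namespace Crest.Agent.S0150Aux.K3_66

theorem sum_lower (al A : ℤ → ℝ) (hA : ∀ j, A (j+1) = A j + al j) (b : ℤ) (m : ℝ)
    (h : ∀ t : ℕ, m ≤ al (b + t)) (n : ℕ) : (n:ℝ) * m ≤ A (b + n) - A b := by
  induction n with
  | zero => simp
  | succ n ih =>
    have e : b + ((n+1 : ℕ) : ℤ) = (b + n) + 1 := by push_cast; ring
    rw [e, hA]
    have := h n
    push_cast
    linarith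

theorem sum_upper (al A : ℤ → ℝ) (hA : ∀ j, A (j+1) = A j + al j) (b : ℤ) (m : ℝ)
    (n : ℕ) (h : ∀ t : ℕ, t < n → al (b + t) ≤ m) : A (b + n) - A b ≤ (n:ℝ) * m := by
  induction n with
  | zero => simp
  | succ n ih =>
    have e : b + ((n+1 : ℕ) : ℤ) = (b + n) + 1 := by push_cast; ring
    rw [e, hA]
    have h1 := h n (Nat.lt_succ_self n)
    have h2 := ih (fun t ht => h t (Nat.lt_succ_of_lt ht))
    push_cast
    linarith

theorem mono_R (al : ℤ → ℝ) (J : ℤ) (hR : ∀ j, J ≤ j → al j ≤ al (j+1)) (j : ℤ) (hj : J ≤ j)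
    (t : ℕ) : al j ≤ al (j + t) := by
  induction t with
  | zero => simp
  | succ t ih =>
    have e : j + ((t+1 : ℕ) : ℤ) = (j + t) + 1 := by push_cast; ring
    rw [e]
    exact ih.trans (hR _ (by have : (0:ℤ) ≤ (t:ℤ) := Int.natCast_nonneg t; linarith))

theorem typeII (al A : ℤ → ℝ) (hA : ∀ j, A (j+1) = A j + al j) (C0 : ℝ)
    (hgrow : ∀ j : ℤ, 10*|(j:ℝ)| - C0 ≤ al j) (J : ℤ) (hR : ∀ j, J ≤ j → al j ≤ al (j+1))
    (s : ℤ) (m0 k0 : ℕ) (hmk : 1 ≤ m0 + k0) (Cw Cu c : ℝ) :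
    ∃ L0 : ℝ, ∀ L : ℝ, L0 ≤ L → ∀ (ms ks : ℕ) (pS qS : ℝ) (q : ℕ → ℝ), 1 ≤ ms + ks →
      5*(ms:ℝ) ≤ L + c → (∀ k, 0 ≤ q k) → (∀ k, q k ≤ Real.exp (A s - A (s + k))) →
      (∀ k, q k * Real.exp ((L+2)*k) ≤ qS * Real.exp ((L+2)*ks)) →
      Real.exp (-Cw + L*((m0:ℝ) - ms)) ≤ pS → Real.exp (-Cu + L*((k0:ℝ) - ks)) ≤ qS →
      ∀ a : ℕ, (1 ≤ m0 ∨ 1 ≤ a) →
        Real.exp (A (s + a) - A s) * q (a + ms + ks) ≤ pS * qS * Real.exp (-2*((a:ℝ) + ms)) := by
  set N : ℕ := (J - s).toNat + 1 with hN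
  set F : ℝ := ∑ i ∈ Finset.range N, |al (s + i)| with hF
  have hF0 : 0 ≤ F := Finset.sum_nonneg (fun i _ => abs_nonneg _)
  have hFi : ∀ i : ℕ, i < N → al (s + i) ≤ F := by
    intro i hi
    have h1 : |al (s + i)| ≤ F :=
      Finset.single_le_sum (f := fun i : ℕ => |al (s + i)|) (fun i _ => abs_nonneg _)
        (Finset.mem_range.mpr hi)
    exact (le_abs_self _).trans h1
  refine ⟨F + |Cw| + |Cu| + |al s| + |2 - 10*(s:ℝ) + C0 + 4*(Cw+Cu) + (8/5)*c|, ?_⟩
  intro L hL ms ks pS qS q hn hms hq0 hqA htilt hpS hqS a ha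
  have hX := le_abs_self (2 - 10*(s:ℝ) + C0 + 4*(Cw+Cu) + (8/5)*c)
  have hX0 := abs_nonneg (2 - 10*(s:ℝ) + C0 + 4*(Cw+Cu) + (8/5)*c)
  have hCw := le_abs_self Cw
  have hCw0 := abs_nonneg Cw
  have hCu := le_abs_self Cu
  have hCu0 := abs_nonneg Cu
  have hs := le_abs_self (al s)
  have hs0 := abs_nonneg (al s)
  have hL0 : 0 ≤ L := by linarith
  have hqSpos : 0 < qS := lt_of_lt_of_le (Real.exp_pos _) hqS
  have hpSpos : 0 < pS := lt_of_lt_of_le (Real.exp_pos _) hpS
  have hm0c : (0:ℝ) ≤ (m0:ℝ) := Nat.cast_nonneg _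
  have hac : (0:ℝ) ≤ (a:ℝ) := Nat.cast_nonneg _
  have hmsc : (0:ℝ) ≤ (ms:ℝ) := Nat.cast_nonneg _
  have hksc : (0:ℝ) ≤ (ks:ℝ) := Nat.cast_nonneg _
  by_cases hcase : ∀ i : ℕ, i < a → al (s + i) ≤ L
  · -- case (a)
    have hB : A (s + a) - A s - L * a ≤ -Cw + L * m0 := by
      rcases ha with h1 | h1
      · have h2 := sum_upper al A hA s L a hcase
        have h3 : (1:ℝ) ≤ (m0:ℝ) := by exact_mod_cast h1
        nlinarith
      · obtain ⟨a', rfl⟩ : ∃ a', a = a' + 1 := ⟨a - 1, by omega⟩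
        have h2 := sum_upper al A hA (s+1) L a' (by
          intro t ht
          have := hcase (t+1) (by omega)
          have e : s + 1 + (t:ℤ) = s + ((t+1 : ℕ) : ℤ) := by push_cast; ring
          rw [e]; exact this)
        have e : s + ((a'+1 : ℕ) : ℤ) = s + 1 + a' := by push_cast; ring
        rw [e]
        have h3 := hA s
        push_cast
        have : 0 ≤ L * m0 := mul_nonneg hL0 hm0c
        nlinarith
    have ht := htilt (a + ms + ks)
    -- q(a+n) ≤ qS * exp(-(L+2)(a+ms))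
    have h4 : q (a + ms + ks) ≤ qS * Real.exp (-((L+2)*((a:ℝ)+ms))) := by
      have e1 : Real.exp ((L+2)*((a + ms + ks : ℕ):ℝ))
          = Real.exp ((L+2)*((a:ℝ)+ms)) * Real.exp ((L+2)*ks) := by
        rw [← Real.exp_add]; congr 1; push_cast; ring
      rw [e1] at ht
      have hp1 := Real.exp_pos ((L+2)*((a:ℝ)+ms))
      have hp2 := Real.exp_pos ((L+2)*(ks:ℝ))
      have h5 : q (a + ms + ks) * Real.exp ((L+2)*((a:ℝ)+ms)) ≤ qS := by
        have : (q (a + ms + ks) * Real.exp ((L+2)*((a:ℝ)+ms))) * Real.exp ((L+2)*(ks:ℝ))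
            ≤ qS * Real.exp ((L+2)*(ks:ℝ)) := by
          calc _ = q (a + ms + ks) * (Real.exp ((L+2)*((a:ℝ)+ms)) * Real.exp ((L+2)*ks)) := by ring
            _ ≤ _ := ht
        exact le_of_mul_le_mul_right this hp2
      rw [Real.exp_neg]
      rw [← div_eq_mul_inv, le_div_iff₀ hp1]
      exact h5
    calc Real.exp (A (s + a) - A s) * q (a + ms + ks)
        ≤ Real.exp (A (s + a) - A s) * (qS * Real.exp (-((L+2)*((a:ℝ)+ms)))) :=
          mul_le_mul_of_nonneg_left h4 (Real.exp_pos _).le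
      _ = Real.exp (A (s + a) - A s - L*((a:ℝ)+ms)) * qS * Real.exp (-2*((a:ℝ)+ms)) := by
          have : Real.exp (A (s + a) - A s) * Real.exp (-((L+2)*((a:ℝ)+ms)))
              = Real.exp (A (s + a) - A s - L*((a:ℝ)+ms)) * Real.exp (-2*((a:ℝ)+ms)) := by
            rw [← Real.exp_add, ← Real.exp_add]; congr 1; ring
          calc _ = (Real.exp (A (s + a) - A s) * Real.exp (-((L+2)*((a:ℝ)+ms)))) * qS := by ring
            _ = _ := by rw [this]; ring
      _ ≤ pS * qS * Real.exp (-2*((a:ℝ)+ms)) := by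
          have h6 : Real.exp (A (s + a) - A s - L*((a:ℝ)+ms)) ≤ pS := by
            refine le_trans (Real.exp_le_exp.mpr ?_) hpS
            nlinarith
          exact mul_le_mul_of_nonneg_right (mul_le_mul_of_nonneg_right h6 hqSpos.le)
            (Real.exp_pos _).le
  · -- case (b)
    push Not at hcase
    obtain ⟨i, hia, hiL⟩ := hcase
    have hiN : N ≤ i := by
      by_contra hlt
      push Not at hlt
      have := hFi i hlt
      linarith
    have hJi : J ≤ s + i := by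
      have h1 : J - s ≤ ((J - s).toNat : ℤ) := Int.self_le_toNat _
      have h2 : ((N:ℕ):ℤ) ≤ (i:ℤ) := by exact_mod_cast hiN
      rw [hN] at h2
      push_cast at h2
      linarith
    have hbig : ∀ t : ℕ, L ≤ al (s + a + t) := by
      intro t
      have h1 := mono_R al J hR (s + i) hJi (a - i + t)
      have e : s + (i:ℤ) + ((a - i + t : ℕ) : ℤ) = s + a + t := by
        have : ((a - i : ℕ) : ℤ) = (a:ℤ) - i := by
          rw [Nat.cast_sub hia.le]
        push_cast
        rw [this]; ring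
      rw [e] at h1
      linarith
    have hgr : ∀ t : ℕ, 10*((s:ℝ) + a) - C0 ≤ al (s + a + t) := by
      intro t
      have h1 := hgrow (s + a + t)
      have h2 := le_abs_self (((s + a + t : ℤ)) : ℝ)
      push_cast at h1 h2
      have : (0:ℝ) ≤ (t:ℝ) := Nat.cast_nonneg _
      linarith
    set n : ℕ := ms + ks with hndef
    have hnc : (1:ℝ) ≤ (n:ℝ) := by exact_mod_cast hn
    have hncast : (n:ℝ) = (ms:ℝ) + ks := by rw [hndef]; push_cast; ring
    have hmkc : (1:ℝ) ≤ (m0:ℝ) + k0 := by exact_mod_cast hmk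
    -- key inequality
    have hD : Cw + Cu - L + 2*((a:ℝ)+ms) ≤ A (s + a + n) - A (s + a) - L * n := by
      by_cases hsub : 2*((a:ℝ)+ms) ≤ L - Cw - Cu
      · have h1 := sum_lower al A hA (s + a) L hbig n
        nlinarith
      · push Not at hsub
        have h1 := sum_lower al A hA (s + a) (L + (2*(a:ℝ)+2)) (by
          intro t
          have := hgr t
          linarith) n
        nlinarith
    have hq := hqA (a + ms + ks)
    have e2 : s + ((a + ms + ks : ℕ) : ℤ) = s + a + n := by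
      rw [hndef]; push_cast; ring
    rw [e2] at hq
    have hLmk : L ≤ L * ((m0:ℝ) + k0) := by nlinarith
    calc Real.exp (A (s + a) - A s) * q (a + ms + ks)
        ≤ Real.exp (A (s + a) - A s) * Real.exp (A s - A (s + a + n)) :=
          mul_le_mul_of_nonneg_left hq (Real.exp_pos _).le
      _ = Real.exp (-(A (s + a + n) - A (s + a))) := by
          rw [← Real.exp_add]; congr 1; ring
      _ ≤ Real.exp (-Cw + L*((m0:ℝ) - ms)) * Real.exp (-Cu + L*((k0:ℝ) - ks))
            * Real.exp (-2*((a:ℝ)+ms)) := by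
          rw [← Real.exp_add, ← Real.exp_add]
          apply Real.exp_le_exp.mpr
          have e3 : L * (n:ℝ) = L * ms + L * ks := by rw [hncast]; ring
          have e4 : L * ((m0:ℝ) + k0) = L * m0 + L * k0 := by ring
          have e5 : L * ((m0:ℝ) - ms) = L * m0 - L * ms := by ring
          have e6 : L * ((k0:ℝ) - ks) = L * k0 - L * ks := by ring
          rw [e5, e6]
          linarith
      _ ≤ pS * qS * Real.exp (-2*((a:ℝ)+ms)) := by
          apply mul_le_mul_of_nonneg_right _ (Real.exp_pos _).le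
          exact mul_le_mul hpS hqS (Real.exp_pos _).le hpSpos.le

end Crest.Agent.S0150Aux.K3_66
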