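import Mathlib

namespace Crest.Agent.S0150Aux.K3_71

lemma up (al A : ℤ → ℝ) (hA : ∀ j, A (j+1) = A j + al j) (t : ℤ) (L : ℝ) (a : ℕ)
    (h : ∀ i : ℕ, i < a → al (t + (i:ℤ)) ≤ L) : A (t + (a:ℤ)) - A t ≤ L * a := by
  induction a with
  | zero => simp
  | succ a ih =>
    have h1 : A (t + ((a+1 : ℕ) : ℤ)) = A (t + (a:ℤ)) + al (t + (a:ℤ)) := by
      rw [← hA (t + (a:ℤ))]; congr 1; push_cast; ring
    have h2 := h a (Nat.lt_succ_self a)
    have h3 := ih (fun i hi => h i (Nat.lt_succ_of_lt hi))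
    rw [h1]; push_cast; linarith

lemma low (al A : ℤ → ℝ) (hA : ∀ j, A (j+1) = A j + al j) (t : ℤ) (M : ℝ) (n : ℕ)
    (h : ∀ i : ℕ, i < n → M ≤ al (t + (i:ℤ))) : M * n ≤ A (t + (n:ℤ)) - A t := by
  induction n with
  | zero => simp
  | succ a ih =>
    have h1 : A (t + ((a+1 : ℕ) : ℤ)) = A (t + (a:ℤ)) + al (t + (a:ℤ)) := by
      rw [← hA (t + (a:ℤ))]; congr 1; push_cast; ring
    have h2 := h a (Nat.lt_succ_self a)
    have h3 := ih (fun i hi => h i (Nat.lt_succ_of_lt hi))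
    rw [h1]; push_cast; linarith

lemma mono (al : ℤ → ℝ) (J : ℤ) (hR : ∀ j, J ≤ j → al j ≤ al (j+1)) (j : ℤ) (hj : J ≤ j)
    (d : ℕ) : al j ≤ al (j + (d:ℤ)) := by
  induction d with
  | zero => simp
  | succ d ih =>
    have h1 := hR (j + (d:ℤ)) (by have : (0:ℤ) ≤ (d:ℤ) := Int.natCast_nonneg d; linarith)
    have h2 : j + ((d+1 : ℕ) : ℤ) = j + (d:ℤ) + 1 := by push_cast; ring
    rw [h2]; linarith

theorem typeII (al A : ℤ → ℝ) (hA : ∀ j, A (j+1) = A j + al j) (C0 : ℝ)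
    (hgrow : ∀ j : ℤ, 10*|(j:ℝ)| - C0 ≤ al j) (J : ℤ) (hR : ∀ j, J ≤ j → al j ≤ al (j+1))
    (s : ℤ) (m0 k0 : ℕ) (hmk : 1 ≤ m0 + k0) (Cw Cu c : ℝ) :
    ∃ L0 : ℝ, ∀ L : ℝ, L0 ≤ L → ∀ (ms ks : ℕ) (pS qS : ℝ) (q : ℕ → ℝ), 1 ≤ ms + ks →
      5*(ms:ℝ) ≤ L + c → (∀ k, 0 ≤ q k) → (∀ k, q k ≤ Real.exp (A s - A (s + k))) →
      (∀ k, q k * Real.exp ((L+2)*k) ≤ qS * Real.exp ((L+2)*ks)) →
      Real.exp (-Cw + L*((m0:ℝ) - ms)) ≤ pS → Real.exp (-Cu + L*((k0:ℝ) - ks)) ≤ qS →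
      ∀ a : ℕ, (1 ≤ m0 ∨ 1 ≤ a) →
        Real.exp (A (s + a) - A s) * q (a + ms + ks)
          ≤ pS * qS * Real.exp (-2*((a:ℝ) + ms)) := by
  set N : ℕ := (max J s - s).toNat with hN
  set B : ℝ := ∑ i ∈ Finset.range (N+1), |al (s + (i:ℤ))| with hB
  have hB0 : 0 ≤ B := Finset.sum_nonneg (fun i _ => abs_nonneg _)
  have hBi : ∀ i : ℕ, i ≤ N → al (s + (i:ℤ)) ≤ B := by
    intro i hi
    have h1 : |al (s + (i:ℤ))| ≤ B :=
      Finset.single_le_sum (f := fun i : ℕ => |al (s + (i:ℤ))|) (fun i _ => abs_nonneg _)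
        (Finset.mem_range.mpr (Nat.lt_succ_of_le hi))
    exact le_trans (le_abs_self _) h1
  refine ⟨B + 2 + 10*|(s:ℝ)| + |C0| + 4*|Cw| + 4*|Cu| + 2*|c| + |al s|, ?_⟩
  intro L hL ms ks pS qS q hn hms hq0 hqA htilt hpS hqS a ha
  have aS := abs_nonneg (s:ℝ)
  have aC0 := abs_nonneg C0
  have aCw := abs_nonneg Cw
  have aCu := abs_nonneg Cu
  have ac := abs_nonneg c
  have aal := abs_nonneg (al s)
  have lCw := le_abs_self Cw
  have lCu := le_abs_self Cu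
  have lc := le_abs_self c
  have lC0 := le_abs_self C0
  have lal := le_abs_self (al s)
  have hL0 : 0 ≤ L := by linarith
  have hqSpos : 0 < qS := lt_of_lt_of_le (Real.exp_pos _) hqS
  have hpSpos : 0 < pS := lt_of_lt_of_le (Real.exp_pos _) hpS
  have hmkR : (1:ℝ) ≤ (m0:ℝ) + k0 := by exact_mod_cast hmk
  have hnR : (1:ℝ) ≤ (ms:ℝ) + ks := by exact_mod_cast hn
  by_cases hcase : ∀ i : ℕ, i < a → al (s + (i:ℤ)) ≤ L
  · -- case (a)
    have hAA : A (s + (a:ℤ)) - A s - L * a ≤ -Cw + L * m0 := by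
      rcases ha with hm | ha1
      · have h1 := up al A hA s L a hcase
        have h2 : (1:ℝ) ≤ m0 := by exact_mod_cast hm
        nlinarith
      · obtain ⟨b, rfl⟩ : ∃ b, a = b + 1 := ⟨a - 1, by omega⟩
        have h1 := up al A hA (s+1) L b (fun i hi => by
          have := hcase (i+1) (by omega)
          have e : s + ((i+1 : ℕ) : ℤ) = s + 1 + (i:ℤ) := by push_cast; ring
          rwa [e] at this)
        have e2 : A (s + ((b+1 : ℕ) : ℤ)) = A (s + 1 + (b:ℤ)) := by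
          congr 1; push_cast; ring
        have e3 := hA s
        have h0 : (0:ℝ) ≤ L * m0 := by positivity
        rw [e2]; push_cast
        linarith
    have hk := htilt (a + ms + ks)
    have hq1 : q (a+ms+ks) ≤ qS * Real.exp (-(L+2)*((a:ℝ)+ms)) := by
      have e1 : Real.exp (-(L+2)*((a:ℝ)+ms))
          = Real.exp ((L+2)*ks) * Real.exp (-((L+2)*((a+ms+ks : ℕ):ℝ))) := by
        rw [← Real.exp_add]; congr 1; push_cast; ring
      have e2 : q (a+ms+ks) = q (a+ms+ks) * Real.exp ((L+2)*((a+ms+ks : ℕ):ℝ))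
          * Real.exp (-((L+2)*((a+ms+ks : ℕ):ℝ))) := by
        rw [mul_assoc, ← Real.exp_add, add_neg_cancel, Real.exp_zero, mul_one]
      rw [e2, e1, ← mul_assoc]
      exact mul_le_mul_of_nonneg_right hk (Real.exp_pos _).le
    have h3 : Real.exp (A (s + (a:ℤ)) - A s - L*a - L * ms) ≤ pS :=
      le_trans (Real.exp_le_exp.mpr (by linarith)) hpS
    have h4 : Real.exp (A (s + (a:ℤ)) - A s) * Real.exp (-(L+2)*((a:ℝ)+ms))
        = Real.exp (A (s + (a:ℤ)) - A s - L*a - L * ms) * Real.exp (-2*((a:ℝ) + ms)) := by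
      rw [← Real.exp_add, ← Real.exp_add]; congr 1; ring
    calc Real.exp (A (s + (a:ℤ)) - A s) * q (a + ms + ks)
        ≤ Real.exp (A (s + (a:ℤ)) - A s) * (qS * Real.exp (-(L+2)*((a:ℝ)+ms))) :=
          mul_le_mul_of_nonneg_left hq1 (Real.exp_pos _).le
      _ = qS * (Real.exp (A (s + (a:ℤ)) - A s) * Real.exp (-(L+2)*((a:ℝ)+ms))) := by ring
      _ = Real.exp (A (s + (a:ℤ)) - A s - L*a - L * ms) * qS
            * Real.exp (-2*((a:ℝ) + ms)) := by rw [h4]; ring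
      _ ≤ pS * qS * Real.exp (-2*((a:ℝ) + ms)) :=
          mul_le_mul_of_nonneg_right (mul_le_mul_of_nonneg_right h3 hqSpos.le)
            (Real.exp_pos _).le
  · -- case (b)
    push Not at hcase
    obtain ⟨i0, hi0a, hi0L⟩ := hcase
    have hi0N : N < i0 := by
      by_contra hcon
      have := hBi i0 (not_lt.mp hcon)
      linarith
    have hJ : J ≤ s + (i0:ℤ) := by
      have h1 : max J s - s ≤ (N:ℤ) := by rw [hN]; exact Int.self_le_toNat _
      have h2 : J ≤ max J s := le_max_left _ _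
      have h3 : (N:ℤ) < i0 := by exact_mod_cast hi0N
      linarith
    have hbig : ∀ r : ℕ, L ≤ al (s + (a:ℤ) + (r:ℤ)) := by
      intro r
      have h1 := mono al J hR (s + (i0:ℤ)) hJ (a - i0 + r)
      have e : s + (i0:ℤ) + ((a - i0 + r : ℕ) : ℤ) = s + (a:ℤ) + (r:ℤ) := by
        have : ((a - i0 : ℕ) : ℤ) = (a:ℤ) - i0 := by
          rw [Nat.cast_sub hi0a.le]
        push_cast [this]; ring
      rw [e] at h1
      linarith
    have ha0 : (0:ℝ) ≤ a := Nat.cast_nonneg a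
    have hks0 : (0:ℝ) ≤ ks := Nat.cast_nonneg ks
    have hms0 : (0:ℝ) ≤ ms := Nat.cast_nonneg ms
    have hkey : A (s + (a:ℤ)) - A (s + (a:ℤ) + ((ms+ks : ℕ):ℤ))
        ≤ -Cw + L*((m0:ℝ) - ms) + (-Cu + L*((k0:ℝ) - ks)) + (-2*((a:ℝ) + ms)) := by
      have hLmk : L ≤ L * ((m0:ℝ) + k0) := by nlinarith
      by_cases hsub : 2*((a:ℝ)+ms) ≤ L - Cw - Cu
      · have h1 := low al A hA (s + (a:ℤ)) L (ms+ks) (fun r _ => hbig r)
        push_cast at h1 ⊢
        nlinarith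
      · push Not at hsub
        have h1 := low al A hA (s + (a:ℤ)) (L + 2*a + 2) (ms+ks) (fun r _ => by
          have g := hgrow (s + (a:ℤ) + (r:ℤ))
          have g1 : ((s:ℝ) + a + r) ≤ |((s + (a:ℤ) + (r:ℤ) : ℤ) : ℝ)| := by
            push_cast; exact le_abs_self _
          have g2 : -|(s:ℝ)| ≤ (s:ℝ) := neg_abs_le _
          have g3 : (0:ℝ) ≤ r := Nat.cast_nonneg r
          linarith)
        have h5 := mul_nonneg ha0 (sub_nonneg.mpr hnR)
        push_cast at h1 ⊢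
        nlinarith
    have hk := hqA (a + ms + ks)
    have e : s + ((a + ms + ks : ℕ) : ℤ) = s + (a:ℤ) + ((ms+ks : ℕ):ℤ) := by push_cast; ring
    rw [e] at hk
    calc Real.exp (A (s + (a:ℤ)) - A s) * q (a + ms + ks)
        ≤ Real.exp (A (s + (a:ℤ)) - A s)
            * Real.exp (A s - A (s + (a:ℤ) + ((ms+ks : ℕ):ℤ))) :=
          mul_le_mul_of_nonneg_left hk (Real.exp_pos _).le
      _ = Real.exp (A (s + (a:ℤ)) - A (s + (a:ℤ) + ((ms+ks : ℕ):ℤ))) := by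
          rw [← Real.exp_add]; congr 1; ring
      _ ≤ Real.exp (-Cw + L*((m0:ℝ) - ms) + (-Cu + L*((k0:ℝ) - ks)) + (-2*((a:ℝ) + ms))) :=
          Real.exp_le_exp.mpr hkey
      _ = Real.exp (-Cw + L*((m0:ℝ) - ms)) * Real.exp (-Cu + L*((k0:ℝ) - ks))
            * Real.exp (-2*((a:ℝ) + ms)) := by rw [Real.exp_add, Real.exp_add]
      _ ≤ pS * qS * Real.exp (-2*((a:ℝ) + ms)) :=
          mul_le_mul_of_nonneg_right (mul_le_mul hpS hqS (Real.exp_pos _).le hpSpos.le)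
            (Real.exp_pos _).le

end Crest.Agent.S0150Aux.K3_71
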