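import Mathlib

/-! S0150, key lemma, task K3 (type II tail bound), helper74.  Part of row 113 (row incomplete). -/

set_option autoImplicit false

namespace Crest.Agent.S0150Aux.K3_74

lemma sum_lower (al A : ℤ → ℝ) (hA : ∀ j, A (j+1) = A j + al j) (base : ℤ) (β : ℝ) :
    ∀ n : ℕ, (∀ t : ℕ, t < n → β ≤ al (base + t)) → β * n ≤ A (base + n) - A base := by
  intro n
  induction n with
  | zero => intro _; simp
  | succ n ih =>
    intro h
    have h1 := ih (fun t ht => h t (Nat.lt_succ_of_lt ht))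
    have h2 := h n (Nat.lt_succ_self n)
    have h3 : A (base + ((n+1 : ℕ) : ℤ)) = A (base + n) + al (base + n) := by
      have : base + ((n+1 : ℕ) : ℤ) = (base + n) + 1 := by push_cast; ring
      rw [this, hA]
    rw [h3]; push_cast; linarith

lemma sum_upper (al A : ℤ → ℝ) (hA : ∀ j, A (j+1) = A j + al j) (base : ℤ) (β : ℝ) :
    ∀ n : ℕ, (∀ t : ℕ, t < n → al (base + t) ≤ β) → A (base + n) - A base ≤ β * n := by
  intro n
  induction n with
  | zero => intro _; simp
  | succ n ih =>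
    intro h
    have h1 := ih (fun t ht => h t (Nat.lt_succ_of_lt ht))
    have h2 := h n (Nat.lt_succ_self n)
    have h3 : A (base + ((n+1 : ℕ) : ℤ)) = A (base + n) + al (base + n) := by
      have : base + ((n+1 : ℕ) : ℤ) = (base + n) + 1 := by push_cast; ring
      rw [this, hA]
    rw [h3]; push_cast; linarith

lemma mono_from (al : ℤ → ℝ) (J : ℤ) (hR : ∀ j, J ≤ j → al j ≤ al (j+1)) (i : ℤ) (hi : J ≤ i) :
    ∀ t : ℕ, al i ≤ al (i + t) := by
  intro t
  induction t with
  | zero => simp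
  | succ t ih =>
    have h := hR (i + t) (by have : (0:ℤ) ≤ t := Int.natCast_nonneg t; linarith)
    have e : i + ((t+1 : ℕ) : ℤ) = (i + t) + 1 := by push_cast; ring
    rw [e]; exact ih.trans h

theorem typeII (al A : ℤ → ℝ) (hA : ∀ j, A (j+1) = A j + al j) (C0 : ℝ)
    (hgrow : ∀ j : ℤ, 10*|(j:ℝ)| - C0 ≤ al j) (J : ℤ) (hR : ∀ j, J ≤ j → al j ≤ al (j+1))
    (s : ℤ) (m0 k0 : ℕ) (hmk : 1 ≤ m0 + k0) (Cw Cu c : ℝ) :
    ∃ L0 : ℝ, ∀ L : ℝ, L0 ≤ L → ∀ (ms ks : ℕ) (pS qS : ℝ) (q : ℕ → ℝ), 1 ≤ ms + ks →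
      5*(ms:ℝ) ≤ L + c → (∀ k, 0 ≤ q k) → (∀ k, q k ≤ Real.exp (A s - A (s + k))) →
      (∀ k, q k * Real.exp ((L+2)*k) ≤ qS * Real.exp ((L+2)*ks)) →
      Real.exp (-Cw + L*((m0:ℝ) - ms)) ≤ pS → Real.exp (-Cu + L*((k0:ℝ) - ks)) ≤ qS →
      ∀ a : ℕ, (1 ≤ m0 ∨ 1 ≤ a) →
        Real.exp (A (s + a) - A s) * q (a + ms + ks) ≤ pS * qS * Real.exp (-2*((a:ℝ) + ms)) := by
  set N : ℕ := (max J s - s).toNat + 1 with hN
  set M1 : ℝ := ∑ i ∈ Finset.range N, |al (s + i)| with hM1
  set T : ℝ := |Cw| + |Cu| + |c| + |C0| + 10 * |(s:ℝ)| + |al s| with hT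
  have hM1nn : 0 ≤ M1 := Finset.sum_nonneg (fun _ _ => abs_nonneg _)
  refine ⟨5 * T + 2 + M1, ?_⟩
  intro L hL ms ks pS qS q hn h5 hq0 hqA htilt hpS hqS a ha
  have a1 := le_abs_self Cw
  have a2 := le_abs_self Cu
  have a3 := le_abs_self c
  have a4 := le_abs_self C0
  have a5 := neg_abs_le (s:ℝ)
  have a6 := le_abs_self (al s)
  have b1 := abs_nonneg Cw
  have b2 := abs_nonneg Cu
  have b3 := abs_nonneg c
  have b4 := abs_nonneg C0
  have b5 := abs_nonneg (s:ℝ)
  have b6 := abs_nonneg (al s)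
  have hL0 : 0 ≤ L := by linarith
  have hqS0 : 0 ≤ qS := (Real.exp_pos _).le.trans hqS
  have ha0 : (0:ℝ) ≤ a := Nat.cast_nonneg a
  have hms0 : (0:ℝ) ≤ ms := Nat.cast_nonneg ms
  have hks0 : (0:ℝ) ≤ ks := Nat.cast_nonneg ks
  have hm00 : (0:ℝ) ≤ m0 := Nat.cast_nonneg m0
  have hn1 : (1:ℝ) ≤ (ms:ℝ) + ks := by exact_mod_cast hn
  have hmk1 : (1:ℝ) ≤ (m0:ℝ) + k0 := by exact_mod_cast hmk
  have hLm : L ≤ L * ((m0:ℝ) + k0) := le_mul_of_one_le_right hL0 hmk1
  by_cases hall : ∀ i : ℕ, i < a → al (s + i) ≤ L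
  · -- case (a)
    have hup : A (s + a) - A s ≤ L * a := sum_upper al A hA s L a hall
    have hD : A (s + a) - A s - L * a ≤ -Cw + L * m0 := by
      rcases ha with h | h
      · have : (1:ℝ) ≤ m0 := by exact_mod_cast h
        have : L ≤ L * m0 := le_mul_of_one_le_right hL0 this
        linarith
      · obtain ⟨a', rfl⟩ : ∃ a', a = a' + 1 := ⟨a - 1, by omega⟩
        have h1 := sum_upper al A hA (s+1) L a' (fun t ht => by
          have := hall (t+1) (by omega)
          have e : s + ((t+1 : ℕ) : ℤ) = s + 1 + t := by push_cast; ring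
          rwa [e] at this)
        have e : s + ((a'+1 : ℕ) : ℤ) = s + 1 + a' := by push_cast; ring
        rw [e, hA s] at *
        have : 0 ≤ L * m0 := mul_nonneg hL0 hm00
        push_cast
        linarith
    have hk := htilt (a + ms + ks)
    have e1 : q (a+ms+ks) ≤ qS * Real.exp ((L+2)*ks - (L+2)*((a+ms+ks : ℕ):ℝ)) := by
      have hpos := Real.exp_pos ((L+2)*((a+ms+ks : ℕ):ℝ))
      rw [Real.exp_sub, ← mul_div_assoc, le_div_iff₀ hpos]
      exact hk
    calc Real.exp (A (s + a) - A s) * q (a + ms + ks)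
        ≤ Real.exp (A (s + a) - A s) * (qS * Real.exp ((L+2)*ks - (L+2)*((a+ms+ks : ℕ):ℝ))) :=
          mul_le_mul_of_nonneg_left e1 (Real.exp_pos _).le
      _ = qS * Real.exp ((A (s + a) - A s) + ((L+2)*ks - (L+2)*((a+ms+ks : ℕ):ℝ))) := by
          rw [Real.exp_add]; ring
      _ ≤ qS * Real.exp ((-Cw + L*((m0:ℝ) - ms)) + (-2*((a:ℝ) + ms))) := by
          apply mul_le_mul_of_nonneg_left _ hqS0
          apply Real.exp_le_exp.2
          push_cast
          linarith
      _ = Real.exp (-Cw + L*((m0:ℝ) - ms)) * qS * Real.exp (-2*((a:ℝ) + ms)) := by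
          rw [Real.exp_add]; ring
      _ ≤ pS * qS * Real.exp (-2*((a:ℝ) + ms)) := by
          apply mul_le_mul_of_nonneg_right _ (Real.exp_pos _).le
          exact mul_le_mul_of_nonneg_right hpS hqS0
  · -- case (b)
    push_neg at hall
    obtain ⟨i, hia, hiL⟩ := hall
    have ecast : s + a + ((ms+ks:ℕ):ℤ) = s + ((a+ms+ks:ℕ):ℤ) := by push_cast; ring
    have hc : (((ms+ks:ℕ)):ℝ) = (ms:ℝ)+ks := by push_cast; ring
    have hmain : A (s + a) - A (s + ((a + ms + ks : ℕ) : ℤ)) ≤
        (-Cw + L*((m0:ℝ) - ms)) + (-Cu + L*((k0:ℝ) - ks)) + (-2*((a:ℝ) + ms)) := by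
      by_cases hb : 2*((a:ℝ)+ms) ≤ L - Cw - Cu
      · -- (b1)
        have hNi : N ≤ i := by
          by_contra hlt
          push_neg at hlt
          have h1 : |al (s + i)| ≤ M1 :=
            Finset.single_le_sum (f := fun i : ℕ => |al (s + i)|) (fun _ _ => abs_nonneg _)
              (Finset.mem_range.2 hlt)
          have h2 := le_abs_self (al (s + i))
          linarith
        have hJi : J ≤ s + i := by
          have h1 := Int.self_le_toNat (max J s - s)
          have h2 := le_max_left J s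
          have h3 : ((max J s - s).toNat : ℤ) + 1 ≤ i := by
            have : ((N : ℕ) : ℤ) ≤ i := by exact_mod_cast hNi
            rw [hN] at this
            push_cast at this
            exact this
          linarith
        have hE := sum_lower al A hA (s+a) L (ms+ks) (fun t _ => by
          have h1 := mono_from al J hR (s+i) hJi (a - i + t)
          have e : s + i + ((a - i + t : ℕ) : ℤ) = s + a + t := by
            push_cast [Nat.cast_sub hia.le]; ring
          rw [e] at h1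
          linarith)
        rw [ecast, hc] at hE
        linarith
      · -- (b2)
        push_neg at hb
        have hE := sum_lower al A hA (s+a) (L + 2*a + 2) (ms+ks) (fun t _ => by
          have h1 := hgrow (s + a + t)
          have h2 := le_abs_self (((s + a + t : ℤ)) : ℝ)
          push_cast at h1 h2
          have ht0 : (0:ℝ) ≤ t := Nat.cast_nonneg t
          linarith)
        rw [ecast, hc] at hE
        have han : (a:ℝ) ≤ a * ((ms:ℝ) + ks) := le_mul_of_one_le_right ha0 hn1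
        nlinarith
    have hq1 := hqA (a + ms + ks)
    calc Real.exp (A (s + a) - A s) * q (a + ms + ks)
        ≤ Real.exp (A (s + a) - A s) * Real.exp (A s - A (s + ((a + ms + ks : ℕ) : ℤ))) :=
          mul_le_mul_of_nonneg_left hq1 (Real.exp_pos _).le
      _ = Real.exp (A (s + a) - A (s + ((a + ms + ks : ℕ) : ℤ))) := by
          rw [← Real.exp_add]; congr 1; ring
      _ ≤ Real.exp ((-Cw + L*((m0:ℝ) - ms)) + (-Cu + L*((k0:ℝ) - ks)) + (-2*((a:ℝ) + ms))) :=
          Real.exp_le_exp.2 hmain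
      _ = Real.exp (-Cw + L*((m0:ℝ) - ms)) * Real.exp (-Cu + L*((k0:ℝ) - ks))
            * Real.exp (-2*((a:ℝ) + ms)) := by
          rw [Real.exp_add, Real.exp_add]
      _ ≤ pS * qS * Real.exp (-2*((a:ℝ) + ms)) := by
          apply mul_le_mul_of_nonneg_right _ (Real.exp_pos _).le
          exact mul_le_mul hpS hqS (Real.exp_pos _).le ((Real.exp_pos _).le.trans hpS)

end Crest.Agent.S0150Aux.K3_74
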