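import Mathlib

/-! helper76: piece K3 (`typeII`) of the KEY lemma split of S0150 (note 1020 of row 113). -/

set_option autoImplicit false

namespace Crest.Agent.S0150Aux.K3_76

/-- partial sums -/
noncomputable def PS (f : ℕ → ℝ) (a : ℕ) : ℝ := ∑ k ∈ Finset.range a, f k

theorem PS_succ (f : ℕ → ℝ) (a : ℕ) : PS f (a + 1) = PS f a + f a := by
  unfold PS; rw [Finset.sum_range_succ]

theorem PS_lower (f : ℕ → ℝ) (a : ℕ) (b : ℝ) (h : ∀ k, a ≤ k → b ≤ f k) :
    ∀ n : ℕ, PS f a + n * b ≤ PS f (a + n) := by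
  intro n
  induction n with
  | zero => simp
  | succ n ih =>
    have h1 := h (a + n) (Nat.le_add_right _ _)
    have : a + (n + 1) = (a + n) + 1 := by ring
    rw [this, PS_succ]; push_cast; linarith

theorem PS_upper (f : ℕ → ℝ) (L : ℝ) : ∀ a : ℕ, (∀ k, k < a → f k ≤ L) → PS f a ≤ a * L := by
  intro a
  induction a with
  | zero => intro _; simp [PS]
  | succ a ih =>
    intro h
    have h1 := ih (fun k hk => h k (Nat.lt_succ_of_lt hk))
    have h2 := h a (Nat.lt_succ_self a)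
    rw [PS_succ]; push_cast; linarith

theorem PS_upper' (f : ℕ → ℝ) (L : ℝ) : ∀ a : ℕ, 1 ≤ a → (∀ k, k < a → f k ≤ L) →
    PS f a ≤ f 0 + (a - 1) * L := by
  intro a
  induction a with
  | zero => intro h; omega
  | succ a ih =>
    intro _ h
    rcases Nat.eq_zero_or_pos a with h0 | h0
    · subst h0; simp [PS]
    · have h1 := ih h0 (fun k hk => h k (Nat.lt_succ_of_lt hk))
      have h2 := h a (Nat.lt_succ_self a)
      rw [PS_succ]; push_cast; linarith

theorem typeII (al A : ℤ → ℝ) (hA : ∀ j, A (j+1) = A j + al j) (C0 : ℝ)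
    (hgrow : ∀ j : ℤ, 10*|(j:ℝ)| - C0 ≤ al j) (J : ℤ) (hR : ∀ j, J ≤ j → al j ≤ al (j+1))
    (s : ℤ) (m0 k0 : ℕ) (hmk : 1 ≤ m0 + k0) (Cw Cu c : ℝ) :
    ∃ L0 : ℝ, ∀ L : ℝ, L0 ≤ L → ∀ (ms ks : ℕ) (pS qS : ℝ) (q : ℕ → ℝ), 1 ≤ ms + ks →
      5*(ms:ℝ) ≤ L + c → (∀ k, 0 ≤ q k) → (∀ k, q k ≤ Real.exp (A s - A (s + k))) →
      (∀ k, q k * Real.exp ((L+2)*k) ≤ qS * Real.exp ((L+2)*ks)) →
      Real.exp (-Cw + L*((m0:ℝ) - ms)) ≤ pS → Real.exp (-Cu + L*((k0:ℝ) - ks)) ≤ qS →
      ∀ a : ℕ, (1 ≤ m0 ∨ 1 ≤ a) →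
        Real.exp (A (s + a) - A s) * q (a + ms + ks) ≤ pS * qS * Real.exp (-2*((a:ℝ) + ms)) := by
  set f : ℕ → ℝ := fun k => al (s + k) with hf
  have hAS : ∀ a : ℕ, A (s + a) = A s + PS f a := by
    intro a
    induction a with
    | zero => simp [PS]
    | succ a ih =>
      have : s + ((a + 1 : ℕ) : ℤ) = (s + a) + 1 := by push_cast; ring
      rw [this, hA, ih, PS_succ]; simp only [hf]; ring
  set K : ℕ := (max J s - s).toNat with hK
  have hmonoK : ∀ k, K ≤ k → f k ≤ f (k + 1) := by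
    intro k hk
    have h1 : J ≤ s + k := by
      have : max J s - s ≤ (K : ℤ) := Int.self_le_toNat _
      have h2 : J ≤ max J s := le_max_left _ _
      have h3 : (K : ℤ) ≤ k := by exact_mod_cast hk
      linarith
    have := hR (s + k) h1
    simp only [hf]; push_cast
    rw [← add_assoc]; exact this
  have hmono : ∀ k, K ≤ k → ∀ k', k ≤ k' → f k ≤ f k' := by
    intro k hk k' hkk'
    induction k', hkk' using Nat.le_induction with
    | base => exact le_refl _
    | succ m hm ih => exact le_trans ih (hmonoK m (le_trans hk hm))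
  set B : ℝ := ∑ k ∈ Finset.range (K + 1), |f k| with hB
  have hB0 : 0 ≤ B := Finset.sum_nonneg (fun _ _ => abs_nonneg _)
  have hfB : ∀ k, k ≤ K → f k ≤ B := by
    intro k hk
    have h1 : |f k| ≤ B :=
      Finset.single_le_sum (f := fun k => |f k|) (fun _ _ => abs_nonneg _)
        (Finset.mem_range.mpr (Nat.lt_succ_of_le hk))
    exact le_trans (le_abs_self _) h1
  refine ⟨B + 2 + 10 * |(s:ℝ)| + |C0| + 4 * |Cw| + 4 * |Cu| + 2 * |c|, ?_⟩
  intro L hL ms ks pS qS q hn hms hq0 hqA hqT hpS hqS a ha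
  have hs1 := abs_nonneg (s:ℝ)
  have hs2 := neg_abs_le (s:ℝ)
  have hC01 := abs_nonneg C0
  have hC02 := le_abs_self C0
  have hCw1 := abs_nonneg Cw
  have hCw2 := le_abs_self Cw
  have hCu1 := abs_nonneg Cu
  have hCu2 := le_abs_self Cu
  have hc1 := abs_nonneg c
  have hc2 := le_abs_self c
  have hL0 : 0 ≤ L := by linarith
  have hqSpos : 0 < qS := lt_of_lt_of_le (Real.exp_pos _) hqS
  have hpSpos : 0 < pS := lt_of_lt_of_le (Real.exp_pos _) hpS
  have hm0 : (0:ℝ) ≤ m0 := Nat.cast_nonneg _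
  have hk0 : (0:ℝ) ≤ k0 := Nat.cast_nonneg _
  have hms0 : (0:ℝ) ≤ ms := Nat.cast_nonneg _
  have hks0 : (0:ℝ) ≤ ks := Nat.cast_nonneg _
  have ha0 : (0:ℝ) ≤ a := Nat.cast_nonneg _
  have hD : A (s + a) - A s = PS f a := by rw [hAS a]; ring
  rw [hD]
  by_cases hcase : ∀ k, k < a → f k ≤ L
  · -- case (a)
    have hstar : PS f a ≤ L * a + L * m0 - Cw := by
      rcases ha with h | h
      · have h1 := PS_upper f L a hcase
        have h2 : (1:ℝ) ≤ m0 := by exact_mod_cast h
        have h3 : L ≤ L * m0 := le_mul_of_one_le_right hL0 h2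
        linarith
      · have h1 := PS_upper' f L a h hcase
        have h3 : 0 ≤ L * m0 := mul_nonneg hL0 hm0
        have h4 : f 0 ≤ B := hfB 0 (Nat.zero_le _)
        linarith
    have hT := hqT (a + ms + ks)
    have hq1 : q (a + ms + ks) ≤ qS * Real.exp (-(L+2)*((a:ℝ)+ms)) := by
      have e1 : Real.exp ((L+2)*ks) =
          Real.exp (-(L+2)*((a:ℝ)+ms)) * Real.exp ((L+2)*((a + ms + ks : ℕ) : ℝ)) := by
        rw [← Real.exp_add]; congr 1; push_cast; ring
      rw [e1, ← mul_assoc] at hT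
      exact le_of_mul_le_mul_right hT (Real.exp_pos _)
    have hp1 : Real.exp (PS f a - L * ((a:ℝ) + ms)) ≤ pS := by
      refine le_trans (Real.exp_le_exp.mpr ?_) hpS
      linarith
    calc Real.exp (PS f a) * q (a + ms + ks)
        ≤ Real.exp (PS f a) * (qS * Real.exp (-(L+2)*((a:ℝ)+ms))) :=
          mul_le_mul_of_nonneg_left hq1 (Real.exp_pos _).le
      _ = Real.exp (PS f a - L * ((a:ℝ) + ms)) * qS * Real.exp (-2*((a:ℝ) + ms)) := by
          have : Real.exp (PS f a) * Real.exp (-(L+2)*((a:ℝ)+ms)) =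
              Real.exp (PS f a - L * ((a:ℝ) + ms)) * Real.exp (-2*((a:ℝ) + ms)) := by
            rw [← Real.exp_add, ← Real.exp_add]; congr 1; ring
          calc Real.exp (PS f a) * (qS * Real.exp (-(L+2)*((a:ℝ)+ms)))
              = qS * (Real.exp (PS f a) * Real.exp (-(L+2)*((a:ℝ)+ms))) := by ring
            _ = _ := by rw [this]; ring
      _ ≤ pS * qS * Real.exp (-2*((a:ℝ) + ms)) := by
          apply mul_le_mul_of_nonneg_right _ (Real.exp_pos _).le
          exact mul_le_mul_of_nonneg_right hp1 hqSpos.le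
  · -- case (b)
    push_neg at hcase
    obtain ⟨i, hia, hiL⟩ := hcase
    have hiK : K ≤ i := by
      by_contra hcon
      push_neg at hcon
      have := hfB i hcon.le
      linarith
    have hbig : ∀ k, a ≤ k → L ≤ f k := by
      intro k hk
      have := hmono i hiK k (le_trans hia.le hk)
      linarith
    have hX1 := PS_lower f a L hbig (ms + ks)
    have hq2 := hqA (a + ms + ks)
    have hAS2 : A s - A (s + ((a + ms + ks : ℕ) : ℤ)) = - PS f (a + (ms + ks)) := by
      rw [hAS (a + ms + ks), add_assoc]; ring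
    rw [hAS2] at hq2
    have hLmk : L ≤ L * m0 + L * k0 := by
      have h2 : (1:ℝ) ≤ (m0:ℝ) + k0 := by exact_mod_cast hmk
      have h3 : L ≤ L * ((m0:ℝ) + k0) := le_mul_of_one_le_right hL0 h2
      linarith
    have hmain : PS f a - PS f (a + (ms + ks)) ≤
        (-Cw + L*((m0:ℝ) - ms)) + (-Cu + L*((k0:ℝ) - ks)) + (-2*((a:ℝ) + ms)) := by
      push_cast at hX1
      by_cases hsub : 2 * ((a:ℝ) + ms) ≤ L - Cw - Cu
      · nlinarith
      · push_neg at hsub
        have hbig2 : ∀ k, a ≤ k → L + 2 * a + 2 ≤ f k := by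
          intro k hk
          have h1 := hgrow (s + k)
          have h2 : ((s + k : ℤ) : ℝ) ≤ |((s + k : ℤ) : ℝ)| := le_abs_self _
          have h3 : (a:ℝ) ≤ k := by exact_mod_cast hk
          push_cast at h1 h2
          simp only [hf]
          linarith
        have hX2 := PS_lower f a (L + 2 * a + 2) hbig2 (ms + ks)
        push_cast at hX2
        have hn1 : (1:ℝ) ≤ (ms:ℝ) + ks := by exact_mod_cast hn
        have h5 : (a:ℝ) ≤ ((ms:ℝ) + ks) * a := le_mul_of_one_le_left ha0 hn1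
        nlinarith
    calc Real.exp (PS f a) * q (a + ms + ks)
        ≤ Real.exp (PS f a) * Real.exp (- PS f (a + (ms + ks))) :=
          mul_le_mul_of_nonneg_left hq2 (Real.exp_pos _).le
      _ = Real.exp (PS f a - PS f (a + (ms + ks))) := by
          rw [← Real.exp_add]; congr 1
      _ ≤ Real.exp ((-Cw + L*((m0:ℝ) - ms)) + (-Cu + L*((k0:ℝ) - ks)) + (-2*((a:ℝ) + ms))) :=
          Real.exp_le_exp.mpr hmain
      _ = Real.exp (-Cw + L*((m0:ℝ) - ms)) * Real.exp (-Cu + L*((k0:ℝ) - ks)) *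
            Real.exp (-2*((a:ℝ) + ms)) := by
          rw [Real.exp_add, Real.exp_add]
      _ ≤ pS * qS * Real.exp (-2*((a:ℝ) + ms)) := by
          apply mul_le_mul_of_nonneg_right _ (Real.exp_pos _).le
          exact mul_le_mul hpS hqS (Real.exp_pos _).le hpSpos.le

end Crest.Agent.S0150Aux.K3_76
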