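import Mathlib

/-!
S0150, key lemma, piece K3 (helper87): the "type II" tail bound, in the shape of helper13's board.
-/

namespace Crest.Agent.S0150Aux.K3_87

theorem typeII (al A : ℤ → ℝ) (hA : ∀ j, A (j+1) = A j + al j) (C0 : ℝ)
    (hgrow : ∀ j : ℤ, 10*|(j:ℝ)| - C0 ≤ al j) (J : ℤ) (hR : ∀ j, J ≤ j → al j ≤ al (j+1))
    (s : ℤ) (m0 k0 : ℕ) (hmk : 1 ≤ m0 + k0) (Cw Cu c : ℝ) :
    ∃ L0 : ℝ, ∀ L : ℝ, L0 ≤ L → ∀ (ms ks : ℕ) (pS qS : ℝ) (q : ℕ → ℝ), 1 ≤ ms + ks →
      5*(ms:ℝ) ≤ L + c → (∀ k, 0 ≤ q k) → (∀ k, q k ≤ Real.exp (A s - A (s + k))) →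
      (∀ k, q k * Real.exp ((L+2)*k) ≤ qS * Real.exp ((L+2)*ks)) →
      Real.exp (-Cw + L*((m0:ℝ) - ms)) ≤ pS → Real.exp (-Cu + L*((k0:ℝ) - ks)) ≤ qS →
      ∀ a : ℕ, (1 ≤ m0 ∨ 1 ≤ a) →
        Real.exp (A (s + a) - A s) * q (a + ms + ks) ≤ pS * qS * Real.exp (-2*((a:ℝ) + ms)) := by
  set β : ℕ → ℝ := fun i => al (s + i) with hβ
  set G : ℕ → ℝ := fun a => A (s + a) - A s with hG
  have G0 : G 0 = 0 := by simp [hG]
  have Gs : ∀ a, G (a+1) = G a + β a := by
    intro a
    simp only [hG, hβ]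
    have h := hA (s + a)
    have e : s + ((a+1 : ℕ) : ℤ) = s + a + 1 := by push_cast; ring
    rw [e, h]; ring
  have F2 : ∀ (B : ℝ) (a : ℕ), (∀ i < a, β i ≤ B) → G a ≤ B * a := by
    intro B a
    induction a with
    | zero => intro _; simp [G0]
    | succ a ih =>
      intro h
      have h1 := ih (fun i hi => h i (Nat.lt_succ_of_lt hi))
      have h2 := h a (Nat.lt_succ_self a)
      rw [Gs]; push_cast; linarith
  have F2' : ∀ (B : ℝ) (a : ℕ), (∀ i < a+1, β i ≤ B) → G (a+1) ≤ B * ((a:ℝ)+1) - (B - β 0) := by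
    intro B a
    induction a with
    | zero => intro _; rw [Gs, G0]; simp
    | succ a ih =>
      intro h
      have h1 := ih (fun i hi => h i (Nat.lt_succ_of_lt hi))
      have h2 := h (a+1) (Nat.lt_succ_self _)
      rw [Gs]; push_cast; linarith
  have F3 : ∀ (B : ℝ) (a n : ℕ), (∀ i, a ≤ i → B ≤ β i) → B * n ≤ G (a+n) - G a := by
    intro B a n h
    induction n with
    | zero => simp
    | succ n ih =>
      have h1 := h (a+n) (Nat.le_add_right _ _)
      have e : a + (n+1) = (a+n)+1 := by ring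
      rw [e, Gs]; push_cast; linarith
  set N : ℕ := (J - s).toNat with hN
  have hJN : J ≤ s + N := by
    have := Int.self_le_toNat (J - s)
    linarith
  have mono1 : ∀ i, N ≤ i → β i ≤ β (i+1) := by
    intro i hi
    simp only [hβ]
    have h := hR (s + i) (by have : (N:ℤ) ≤ i := by exact_mod_cast hi
                             linarith)
    have e : s + ((i+1 : ℕ) : ℤ) = s + i + 1 := by push_cast; ring
    rw [e]; exact h
  have mono : ∀ i i', N ≤ i → i ≤ i' → β i ≤ β i' := by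
    intro i i' hi hii
    induction i', hii using Nat.le_induction with
    | base => exact le_refl _
    | succ k hk ih => exact le_trans ih (mono1 k (le_trans hi hk))
  set M : ℝ := ∑ i ∈ Finset.range (N+1), |β i| with hM
  have hM0 : 0 ≤ M := Finset.sum_nonneg fun i _ => abs_nonneg _
  have hMle : ∀ i, i ≤ N → β i ≤ M := by
    intro i hi
    refine le_trans (le_abs_self _) ?_
    exact Finset.single_le_sum (f := fun i => |β i|) (fun i _ => abs_nonneg _)
      (Finset.mem_range.mpr (Nat.lt_succ_of_le hi))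
  have hlow : ∀ i : ℕ, 10 * ((s:ℝ) + i) - C0 ≤ β i := by
    intro i
    have h := hgrow (s + i)
    have h2 : ((s:ℝ) + i) ≤ |(((s + i : ℤ)) : ℝ)| := by
      push_cast; exact le_abs_self _
    simp only [hβ]
    linarith
  set X : ℝ := |C0| + 10*|(s:ℝ)| + |Cw| + |Cu| + |c| + 2 with hX
  refine ⟨M + |Cw| + |Cu| + |β 0| + 10 * X, ?_⟩
  intro L hL ms ks pS qS q hn hms hq0 hqA htilt hpS hqS a ha
  have aC0 := le_abs_self C0
  have as1 := neg_abs_le (s:ℝ)
  have aCw := le_abs_self Cw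
  have aCu := le_abs_self Cu
  have ac := le_abs_self c
  have ab0 := le_abs_self (β 0)
  have nC0 := abs_nonneg C0
  have ns := abs_nonneg (s:ℝ)
  have nCw := abs_nonneg Cw
  have nCu := abs_nonneg Cu
  have nc := abs_nonneg c
  have nb0 := abs_nonneg (β 0)
  have hL0 : 0 ≤ L := by linarith
  have hqSpos : 0 < qS := lt_of_lt_of_le (Real.exp_pos _) hqS
  have hpSpos : 0 < pS := lt_of_lt_of_le (Real.exp_pos _) hpS
  have hmk' : (1:ℝ) ≤ (m0:ℝ) + k0 := by exact_mod_cast hmk
  have hn' : (1:ℝ) ≤ (ms:ℝ) + ks := by exact_mod_cast hn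
  have ha0 : (0:ℝ) ≤ a := Nat.cast_nonneg _
  have hms0 : (0:ℝ) ≤ ms := Nat.cast_nonneg _
  have hks0 : (0:ℝ) ≤ ks := Nat.cast_nonneg _
  have hm00 : (0:ℝ) ≤ m0 := Nat.cast_nonneg _
  have hk00 : (0:ℝ) ≤ k0 := Nat.cast_nonneg _
  change Real.exp (G a) * q (a + ms + ks) ≤ pS * qS * Real.exp (-2*((a:ℝ) + ms))
  by_cases hcase : ∀ i < a, β i ≤ L
  · -- case (a)
    have hGa : G a - L * a ≤ L * m0 - Cw := by
      rcases ha with h1 | h1
      · have h2 := F2 L a hcase
        have h3 : (1:ℝ) ≤ m0 := by exact_mod_cast h1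
        have h4 : L ≤ L * m0 := le_mul_of_one_le_right hL0 h3
        linarith
      · obtain ⟨a', rfl⟩ : ∃ a', a = a' + 1 := ⟨a - 1, by omega⟩
        have h2 := F2' L a' hcase
        have h4 : 0 ≤ L * m0 := mul_nonneg hL0 hm00
        push_cast
        linarith
    have hE : Real.exp (G a - L * ((a:ℝ) + ms)) ≤ pS := by
      refine le_trans (Real.exp_le_exp.mpr ?_) hpS
      nlinarith
    have h1 := htilt (a + ms + ks)
    have hqk : q (a + ms + ks) ≤ qS * Real.exp (-(L+2) * ((a:ℝ) + ms)) := by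
      have h2 : q (a + ms + ks) = q (a + ms + ks) * Real.exp ((L+2)*((a + ms + ks : ℕ):ℝ)) *
          Real.exp (-((L+2)*((a + ms + ks : ℕ):ℝ))) := by
        rw [mul_assoc, ← Real.exp_add]; simp
      have h3 : qS * Real.exp (-(L+2) * ((a:ℝ) + ms)) = qS * Real.exp ((L+2)*ks) *
          Real.exp (-((L+2)*((a + ms + ks : ℕ):ℝ))) := by
        rw [mul_assoc, ← Real.exp_add]; congr 2; push_cast; ring
      rw [h2, h3]
      exact mul_le_mul_of_nonneg_right h1 (Real.exp_pos _).le
    calc Real.exp (G a) * q (a + ms + ks)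
        ≤ Real.exp (G a) * (qS * Real.exp (-(L+2) * ((a:ℝ) + ms))) :=
          mul_le_mul_of_nonneg_left hqk (Real.exp_pos _).le
      _ = Real.exp (G a - L * ((a:ℝ) + ms)) * qS * Real.exp (-2*((a:ℝ) + ms)) := by
          have : Real.exp (G a) * Real.exp (-(L+2) * ((a:ℝ) + ms)) =
              Real.exp (G a - L * ((a:ℝ) + ms)) * Real.exp (-2*((a:ℝ) + ms)) := by
            rw [← Real.exp_add, ← Real.exp_add]; congr 1; ring
          calc Real.exp (G a) * (qS * Real.exp (-(L+2) * ((a:ℝ) + ms)))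
              = qS * (Real.exp (G a) * Real.exp (-(L+2) * ((a:ℝ) + ms))) := by ring
            _ = _ := by rw [this]; ring
      _ ≤ pS * qS * Real.exp (-2*((a:ℝ) + ms)) := by
          apply mul_le_mul_of_nonneg_right _ (Real.exp_pos _).le
          exact mul_le_mul_of_nonneg_right hE hqSpos.le
  · -- case (b)
    push_neg at hcase
    obtain ⟨i, hia, hiL⟩ := hcase
    have hiN : N < i := by
      by_contra hcon
      have := hMle i (not_lt.mp hcon)
      linarith
    have hbig : ∀ i', a ≤ i' → L ≤ β i' := by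
      intro i' hi'
      have := mono i i' hiN.le (le_trans hia.le hi')
      linarith
    have hk : a + ms + ks = a + (ms + ks) := by ring
    have hqk : q (a + ms + ks) ≤ Real.exp (-(G (a + (ms + ks)))) := by
      have := hqA (a + ms + ks)
      rw [hk] at this ⊢
      refine le_trans this (le_of_eq ?_)
      congr 1
      simp only [hG]; ring
    have hLmk : L ≤ L * ((m0:ℝ) + k0) := le_mul_of_one_le_right hL0 hmk'
    have hmain : G a - G (a + (ms + ks)) ≤
        (-Cw + L*((m0:ℝ) - ms)) + (-Cu + L*((k0:ℝ) - ks)) + (-2*((a:ℝ) + ms)) := by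
      by_cases hsub : 2 * ((a:ℝ) + ms) ≤ L - Cw - Cu
      · have h3 := F3 L a (ms + ks) hbig
        push_cast at h3
        nlinarith
      · push_neg at hsub
        have hbig2 : ∀ i', a ≤ i' → L + 2 * a + 2 ≤ β i' := by
          intro i' hi'
          have h1 := hlow i'
          have h2 : (a:ℝ) ≤ i' := by exact_mod_cast hi'
          linarith
        have h3 := F3 (L + 2 * a + 2) a (ms + ks) hbig2
        push_cast at h3
        have h4 : (a:ℝ) ≤ a * ((ms:ℝ) + ks) := le_mul_of_one_le_right ha0 hn'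
        nlinarith
    calc Real.exp (G a) * q (a + ms + ks)
        ≤ Real.exp (G a) * Real.exp (-(G (a + (ms + ks)))) :=
          mul_le_mul_of_nonneg_left hqk (Real.exp_pos _).le
      _ = Real.exp (G a - G (a + (ms + ks))) := by rw [← Real.exp_add]; congr 1
      _ ≤ Real.exp ((-Cw + L*((m0:ℝ) - ms)) + (-Cu + L*((k0:ℝ) - ks)) + (-2*((a:ℝ) + ms))) :=
          Real.exp_le_exp.mpr hmain
      _ = Real.exp (-Cw + L*((m0:ℝ) - ms)) * Real.exp (-Cu + L*((k0:ℝ) - ks)) *
            Real.exp (-2*((a:ℝ) + ms)) := by rw [Real.exp_add, Real.exp_add]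
      _ ≤ pS * qS * Real.exp (-2*((a:ℝ) + ms)) := by
          apply mul_le_mul_of_nonneg_right _ (Real.exp_pos _).le
          exact mul_le_mul hpS hqS (Real.exp_pos _).le hpSpos.le

end Crest.Agent.S0150Aux.K3_87
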