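import Crest.Agent.S0150Aux.Tilt39
import Crest.Agent.S0150Aux.K1_4
import Crest.Agent.S0150Aux.Dom91

/-! helper2: K4 (backup): the key lemma of S0150 (row 113, incomplete) from the stable tilt
(Tilt39), the decay of `A` (K1), the dominant-term lemma (Dom91) and the type II bound (K3, taken
as a hypothesis in the exact shape of note 1020). -/

set_option autoImplicit false

namespace Crest.Agent.S0150Aux.K4_2

open Real

/-- the statement of K3 (note 1020) -/
def TypeII : Prop :=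
  ∀ (al A : ℤ → ℝ) (_hA : ∀ j, A (j+1) = A j + al j) (C0 : ℝ)
    (_hgrow : ∀ j : ℤ, 10*|(j:ℝ)| - C0 ≤ al j) (J : ℤ) (_hR : ∀ j, J ≤ j → al j ≤ al (j+1))
    (s : ℤ) (m0 k0 : ℕ) (_hmk : 1 ≤ m0 + k0) (Cw Cu c : ℝ),
  ∃ L0 : ℝ, ∀ L : ℝ, L0 ≤ L → ∀ (ms ks : ℕ) (pS qS : ℝ) (q : ℕ → ℝ), 1 ≤ ms + ks →
    5*(ms:ℝ) ≤ L + c → (∀ k, 0 ≤ q k) → (∀ k, q k ≤ Real.exp (A s - A (s + k))) →
    (∀ k, q k * Real.exp ((L+2)*k) ≤ qS * Real.exp ((L+2)*ks)) →
    Real.exp (-Cw + L*((m0:ℝ) - ms)) ≤ pS → Real.exp (-Cu + L*((k0:ℝ) - ks)) ≤ qS →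
    ∀ a : ℕ, (1 ≤ m0 ∨ 1 ≤ a) →
      Real.exp (A (s + a) - A s) * q (a + ms + ks) ≤ pS * qS * Real.exp (-2*((a:ℝ) + ms))

theorem tilt_le {x y a b : ℝ} (h : x * exp a ≤ y * exp b) : x ≤ y * exp (b - a) := by
  have h1 := mul_le_mul_of_nonneg_right h (exp_pos (-a)).le
  rw [mul_assoc, mul_assoc, ← exp_add, ← exp_add] at h1
  simpa [sub_eq_add_neg] using h1

theorem lb {x y a b : ℝ} (hx : 0 < x) (h : x * exp a ≤ y * exp b) :
    exp (-(-log x) + (a - b)) ≤ y := by
  have h1 := tilt_le h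
  rw [neg_neg, exp_add, exp_log hx]
  have h3 := mul_le_mul_of_nonneg_right h1 (exp_pos (a - b)).le
  rw [mul_assoc, ← exp_add] at h3
  have h4 : b - a + (a - b) = 0 := by ring
  rw [h4, exp_zero, mul_one] at h3
  exact h3

theorem key_of_typeII (hK3 : TypeII) (al A : ℤ → ℝ) (hA : ∀ j, A (j+1) = A j + al j) (C0 : ℝ)
    (hgrow : ∀ j : ℤ, 10*|(j:ℝ)| - C0 ≤ al j) (J : ℤ) (hR : ∀ j, J ≤ j → al j ≤ al (j+1))
    (hL : ∀ j, j ≤ -J → al j ≤ al (j-1)) (w u : ℤ → ℂ) (hw : ∀ j, ‖w j‖ ≤ 1)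
    (hu : ∀ j, ‖u j‖ ≤ 1)
    (horth : ∀ n : ℕ, 1 ≤ n →
      ∑' j : ℤ, w j * (starRingEnd ℂ) (u (j + n)) * ((Real.exp (A j - A (j + n)) : ℝ) : ℂ) = 0)
    {j0 k0 : ℤ} (h : j0 < k0) (hwj : w j0 ≠ 0) (huk : u k0 ≠ 0) : False := by
  set s : ℤ := k0 with hs
  obtain ⟨m0, hm0⟩ : ∃ m0 : ℕ, k0 - j0 = (m0 : ℤ) := Int.eq_ofNat_of_zero_le (by omega)
  have hm0pos : 1 ≤ m0 := by omega
  have hj0 : j0 = s - m0 := by omega
  set p : ℕ → ℝ := fun m => if m = 0 then 0 else ‖w (s - m)‖ * exp (A (s - m) - A s) with hp_def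
  set q : ℕ → ℝ := fun k => ‖u (s + k)‖ * exp (A s - A (s + k)) with hq_def
  obtain ⟨c, hc0, hcq, hcp⟩ := K1_4.A_decay al A hA C0 hgrow s
  have hp_nonneg : ∀ m, 0 ≤ p m := by
    intro m
    simp only [hp_def]
    split_ifs
    · exact le_rfl
    · positivity
  have hq_nonneg : ∀ k, 0 ≤ q k := by
    intro k
    simp only [hq_def]
    positivity
  have hp_le : ∀ m, p m ≤ exp (A (s - m) - A s) := by
    intro m
    simp only [hp_def]
    split_ifs
    · positivity
    · calc ‖w (s - m)‖ * exp (A (s - m) - A s) ≤ 1 * exp (A (s - m) - A s) :=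
          mul_le_mul_of_nonneg_right (hw _) (exp_pos _).le
        _ = _ := one_mul _
  have hq_le : ∀ k, q k ≤ exp (A s - A (s + k)) := by
    intro k
    simp only [hq_def]
    calc ‖u (s + k)‖ * exp (A s - A (s + k)) ≤ 1 * exp (A s - A (s + k)) :=
          mul_le_mul_of_nonneg_right (hu _) (exp_pos _).le
      _ = _ := one_mul _
  have hp : ∀ m : ℕ, p m ≤ exp (-5 * (m:ℝ)^2 + c * m) :=
    fun m => (hp_le m).trans (exp_le_exp.2 (hcp m))
  have hq : ∀ k : ℕ, q k ≤ exp (-5 * (k:ℝ)^2 + c * k) :=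
    fun k => (hq_le k).trans (exp_le_exp.2 (hcq k))
  have hpm0 : 0 < p m0 := by
    simp only [hp_def]
    rw [if_neg (by omega), ← hj0]
    have := norm_pos_iff.2 hwj
    positivity
  have hq0 : 0 < q 0 := by
    simp only [hq_def]
    have : s + ((0 : ℕ) : ℤ) = k0 := by simp [hs]
    rw [this]
    have := norm_pos_iff.2 huk
    positivity
  -- type II constants
  obtain ⟨L2, hL2⟩ := hK3 al A hA C0 hgrow J hR s m0 0 (by omega) (-log (p m0)) (-log (q 0))
    (c + |log (p m0)|)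
  -- mirror
  set al' : ℤ → ℝ := fun j => al (-j - 1) with hal'
  set A' : ℤ → ℝ := fun j => -A (-j) with hA'
  have hA'succ : ∀ j, A' (j + 1) = A' j + al' j := by
    intro j
    simp only [hA', hal']
    have h1 := hA (-j - 1)
    have h2 : -j - 1 + 1 = -j := by ring
    have h3 : -(j + 1) = -j - 1 := by ring
    rw [h2] at h1
    rw [h3, h1]
    ring
  have hgrow' : ∀ j : ℤ, 10*|(j:ℝ)| - (C0 + 10) ≤ al' j := by
    intro j
    simp only [hal']
    have h1 := hgrow (-j - 1)
    have h2 : |(j:ℝ)| ≤ |((-j - 1 : ℤ) : ℝ)| + 1 := by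
      push_cast
      have h3 : (j:ℝ) = -(-(j:ℝ) - 1) - 1 := by ring
      calc |(j:ℝ)| = |-(-(j:ℝ) - 1) - 1| := by rw [← h3]
        _ ≤ |-(-(j:ℝ) - 1)| + |(1:ℝ)| := abs_sub _ _
        _ = |-(j:ℝ) - 1| + 1 := by rw [abs_neg, abs_one]
    linarith
  have hR' : ∀ j, J ≤ j → al' j ≤ al' (j + 1) := by
    intro j hj
    simp only [hal']
    have h1 := hL (-j - 1) (by omega)
    have h2 : -(j + 1) - 1 = -j - 1 - 1 := by ring
    rw [h2]
    exact h1
  obtain ⟨L3, hL3⟩ := hK3 al' A' hA'succ (C0 + 10) hgrow' J hR' (-s) 0 m0 (by omega)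
    (-log (q 0)) (-log (p m0)) (c + |log (q 0)|)
  obtain ⟨L, ms, ks, hLL, hpS, hqS, P1, P2, Q1, Q2, h5m, h5k⟩ :=
    Tilt39.exists_stable_tilt p q c hp hq m0 0 hpm0 hq0 (max L2 L3)
  have hms : 1 ≤ ms := by
    by_contra hcon
    have : ms = 0 := by omega
    rw [this] at hpS
    simp [hp_def] at hpS
  have hpS_lb : exp (-(-log (p m0)) + L * ((m0:ℝ) - ms)) ≤ p ms := by
    have h1 := lb hpm0 (P1 m0)
    have h2 : L * ((m0:ℝ) - ms) = L * m0 - L * ms := by ring
    rw [h2]
    exact h1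
  have hqS_lb : exp (-(-log (q 0)) + L * (((0:ℕ):ℝ) - ks)) ≤ q ks := by
    have h1 := lb hq0 (Q1 0)
    have h2 : L * (((0:ℕ):ℝ) - ks) = L * ((0:ℕ):ℝ) - L * ks := by ring
    rw [h2]
    exact h1
  have II := hL2 L ((le_max_left _ _).trans hLL) ms ks (p ms) (q ks) q (by omega)
    (by linarith) hq_nonneg hq_le Q2 hpS_lb hqS_lb
  have hp_le' : ∀ k : ℕ, p k ≤ exp (A' (-s) - A' (-s + k)) := by
    intro k
    have h1 := hp_le k
    simp only [hA']
    have h2 : -(-s + (k:ℤ)) = s - k := by ring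
    rw [neg_neg, h2]
    have h3 : -A s - -A (s - k) = A (s - k) - A s := by ring
    rw [h3]
    exact h1
  have III := hL3 L ((le_max_right _ _).trans hLL) ks ms (q ks) (p ms) p (by omega)
    (by linarith) hp_nonneg hp_le' P2 hqS_lb hpS_lb
  -- the n-th equation
  set n : ℕ := ms + ks with hn
  set t : ℤ → ℂ := fun j => w j * (starRingEnd ℂ) (u (j + n)) *
    ((Real.exp (A j - A (j + n)) : ℝ) : ℂ) with ht
  have hnorm : ∀ j, ‖t j‖ = ‖w j‖ * ‖u (j + n)‖ * exp (A j - A (j + n)) := by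
    intro j
    simp only [ht]
    rw [norm_mul, norm_mul, RCLike.norm_conj, Complex.norm_real, Real.norm_eq_abs,
      abs_of_pos (exp_pos _)]
  have hM : 0 < p ms * q ks := mul_pos hpS hqS
  -- product formula in the middle region
  have hmid : ∀ (m k : ℕ), 1 ≤ m → m + k = n → ‖t (s - m)‖ = p m * q k := by
    intro m k hm hmk
    rw [hnorm]
    have h1 : s - (m:ℤ) + (n:ℤ) = s + k := by
      have : (n:ℤ) = m + k := by exact_mod_cast hmk.symm
      rw [this]; ring
    rw [h1]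
    simp only [hp_def, hq_def]
    rw [if_neg (by omega)]
    have h2 : exp (A (s - m) - A (s + k)) = exp (A (s - m) - A s) * exp (A s - A (s + k)) := by
      rw [← exp_add]; congr 1; ring
    rw [h2]
    ring
  refine Dom91.tsum_ne_zero_of_dominant t (s - ms) (p ms * q ks) hM (hmid ms ks hms rfl) ?_
    (horth n (by omega))
  intro d hd
  by_cases hcase2 : s ≤ s - ms + d
  · -- type II
    obtain ⟨a, ha⟩ : ∃ a : ℕ, (s - ms + d) - s = (a : ℤ) := Int.eq_ofNat_of_zero_le (by omega)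
    have hj : s - (ms:ℤ) + d = s + a := by omega
    have hdd : (d:ℝ) = (a:ℝ) + ms := by
      have : d = (a:ℤ) + ms := by omega
      rw [this]; push_cast; ring
    rw [hj, hnorm]
    have h1 := II a (Or.inl hm0pos)
    have h2 : |(d:ℝ)| = (a:ℝ) + ms := by
      rw [hdd]; exact abs_of_nonneg (by positivity)
    rw [h2]
    have h3 : s + (a:ℤ) + (n:ℤ) = s + ((a + ms + ks : ℕ) : ℤ) := by
      simp only [hn]; push_cast; ring
    calc ‖w (s + a)‖ * ‖u (s + a + n)‖ * exp (A (s + a) - A (s + a + n))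
        ≤ 1 * ‖u (s + a + n)‖ * exp (A (s + a) - A (s + a + n)) := by
          gcongr
          exact hw _
      _ = exp (A (s + a) - A s) * q (a + ms + ks) := by
          simp only [hq_def]
          rw [h3, one_mul]
          have h4 : exp (A (s + a) - A (s + ((a + ms + ks : ℕ) : ℤ))) =
              exp (A (s + a) - A s) * exp (A s - A (s + ((a + ms + ks : ℕ) : ℤ))) := by
            rw [← exp_add]; congr 1; ring
          rw [h4]; ring
      _ ≤ _ := h1
  · by_cases hcase3 : s - ms + d + n < s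
    · -- type III
      obtain ⟨a, ha⟩ : ∃ a : ℕ, s - (s - ms + d + n) = (a : ℤ) :=
        Int.eq_ofNat_of_zero_le (by omega)
      have ha1 : 1 ≤ a := by omega
      have hnz : (n:ℤ) = ms + ks := by simp only [hn]; push_cast; ring
      have hj : s - (ms:ℤ) + d = s - ((a + ks + ms : ℕ) : ℤ) := by push_cast; omega
      have hjn : s - ((a + ks + ms : ℕ) : ℤ) + n = s - a := by push_cast; omega
      have hdd : (d:ℝ) = -((a:ℝ) + ks) := by
        have : d = -((a:ℤ) + ks) := by omega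
        rw [this]; push_cast; ring
      rw [hj, hnorm, hjn]
      have h1 := III a (Or.inr ha1)
      have h2 : |(d:ℝ)| = (a:ℝ) + ks := by
        rw [hdd, abs_neg]; exact abs_of_nonneg (by positivity)
      rw [h2]
      have h5 : A' (-s + a) - A' (-s) = A s - A (s - a) := by
        simp only [hA']
        have : -(-s + (a:ℤ)) = s - a := by ring
        rw [this, neg_neg]; ring
      rw [h5] at h1
      calc ‖w (s - ((a + ks + ms : ℕ) : ℤ))‖ * ‖u (s - a)‖ *
            exp (A (s - ((a + ks + ms : ℕ) : ℤ)) - A (s - a))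
          ≤ ‖w (s - ((a + ks + ms : ℕ) : ℤ))‖ * 1 *
            exp (A (s - ((a + ks + ms : ℕ) : ℤ)) - A (s - a)) := by
            gcongr
            exact hu _
        _ = exp (A s - A (s - a)) * p (a + ks + ms) := by
            simp only [hp_def]
            rw [if_neg (by omega), mul_one]
            have h4 : exp (A (s - ((a + ks + ms : ℕ) : ℤ)) - A (s - a)) =
                exp (A s - A (s - a)) * exp (A (s - ((a + ks + ms : ℕ) : ℤ)) - A s) := by
              rw [← exp_add]; congr 1; ring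
            rw [h4]; ring
        _ ≤ q ks * p ms * exp (-2 * ((a:ℝ) + ks)) := h1
        _ = _ := by ring
    · -- type I
      obtain ⟨m, hm⟩ : ∃ m : ℕ, s - (s - ms + d) = (m : ℤ) := Int.eq_ofNat_of_zero_le (by omega)
      obtain ⟨k, hk⟩ : ∃ k : ℕ, (s - ms + d + n) - s = (k : ℤ) :=
        Int.eq_ofNat_of_zero_le (by omega)
      have hm1 : 1 ≤ m := by omega
      have hmk : m + k = n := by omega
      have hj : s - (ms:ℤ) + d = s - m := by omega
      rw [hj, hmid m k hm1 hmk]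
      have hdr : (d:ℝ) = (ms:ℝ) - m := by
        have : d = (ms:ℤ) - m := by omega
        rw [this]; push_cast; ring
      have hkr : (k:ℝ) - ks = (ms:ℝ) - m := by
        have h6 : (m:ℝ) + k = (ms:ℝ) + ks := by
          have : m + k = ms + ks := hmk
          exact_mod_cast this
        linarith
      rcases le_or_gt 0 d with hd0 | hd0
      · have habs : |(d:ℝ)| = (ms:ℝ) - m := by
          rw [← hdr]; exact abs_of_nonneg (by exact_mod_cast hd0)
        rw [habs]
        have e1 := tilt_le (P1 m)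
        have e2 := tilt_le (Q2 k)
        calc p m * q k ≤ (p ms * exp (L * ms - L * m)) * (q ks * exp ((L + 2) * ks - (L + 2) * k)) :=
              mul_le_mul e1 e2 (hq_nonneg k) (by positivity)
          _ = p ms * q ks * exp (-2 * ((ms:ℝ) - m)) := by
              rw [mul_mul_mul_comm, ← exp_add]
              congr 2
              have : (k:ℝ) = ks + ((ms:ℝ) - m) := by linarith
              rw [this]; ring
      · have habs : |(d:ℝ)| = -((ms:ℝ) - m) := by
          rw [← hdr]; exact abs_of_neg (by exact_mod_cast hd0)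
        rw [habs]
        have e1 := tilt_le (P2 m)
        have e2 := tilt_le (Q1 k)
        calc p m * q k ≤ (p ms * exp ((L + 2) * ms - (L + 2) * m)) * (q ks * exp (L * ks - L * k)) :=
              mul_le_mul e1 e2 (hq_nonneg k) (by positivity)
          _ = p ms * q ks * exp (-2 * (-((ms:ℝ) - m))) := by
              rw [mul_mul_mul_comm, ← exp_add]
              congr 2
              have : (k:ℝ) = ks + ((ms:ℝ) - m) := by linarith
              rw [this]; ring

end Crest.Agent.S0150Aux.K4_2
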