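import Mathlib

/-!
Argmax + pigeonhole part of the "bilateral Donoghue" key lemma (team note 427, sect. 2):
two nonnegative sequences with Gaussian decay have a common tilt `L` (arbitrarily large) at which the
maximisers of `p m * exp (L m)` and `q k * exp (L k)` are also maximisers for the tilt `L + 2`.
-/

set_option autoImplicit false

namespace Crest.Agent.S0150Aux.Tilt39

open Real

/-- existence of a maximiser of the tilted sequence -/
theorem exists_argmax (p : ℕ → ℝ) (c : ℝ)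
    (hp : ∀ m : ℕ, p m ≤ Real.exp (-5 * (m:ℝ)^2 + c * m))
    (m0 : ℕ) (hm0 : 0 < p m0) (L : ℝ) :
    ∃ ms : ℕ, ∀ m : ℕ, p m * Real.exp (L * m) ≤ p ms * Real.exp (L * ms) := by
  set g : ℕ → ℝ := fun m => p m * Real.exp (L * m) with hg
  have hg0 : 0 < g m0 := mul_pos hm0 (Real.exp_pos _)
  obtain ⟨N, hN⟩ := exists_nat_ge (|c + L| + |Real.log (g m0)| + 1)
  have hfar : ∀ m : ℕ, N ≤ m → g m ≤ g m0 := by
    intro m hm
    have hmR : |c + L| + |Real.log (g m0)| + 1 ≤ (m:ℝ) := le_trans hN (by exact_mod_cast hm)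
    have h1 : g m ≤ Real.exp (-5 * (m:ℝ)^2 + c * m) * Real.exp (L * m) :=
      mul_le_mul_of_nonneg_right (hp m) (Real.exp_pos _).le
    rw [← Real.exp_add] at h1
    have h2 : -5 * (m:ℝ)^2 + c * m + L * m ≤ Real.log (g m0) := by
      have ha := abs_nonneg (c + L)
      have hb := abs_nonneg (Real.log (g m0))
      have hc := le_abs_self (c + L)
      have hd := neg_abs_le (Real.log (g m0))
      have hm0' : (0:ℝ) ≤ m := by positivity
      have hm1 : (1:ℝ) ≤ m := by linarith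
      have : (c + L) * m ≤ |c + L| * m := mul_le_mul_of_nonneg_right hc hm0'
      have h3 : |c + L| * m ≤ (m:ℝ) * m := by nlinarith
      nlinarith
    calc g m ≤ Real.exp (-5 * (m:ℝ)^2 + c * m + L * m) := h1
      _ ≤ Real.exp (Real.log (g m0)) := Real.exp_le_exp.mpr h2
      _ = g m0 := Real.exp_log hg0
  obtain ⟨ms, -, hms⟩ := Finset.exists_max_image (Finset.range (N + m0 + 1)) g
    ⟨m0, Finset.mem_range.mpr (by omega)⟩
  refine ⟨ms, fun m => ?_⟩
  by_cases hm : m < N + m0 + 1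
  · exact hms m (Finset.mem_range.mpr hm)
  · exact le_trans (hfar m (by omega)) (hms m0 (Finset.mem_range.mpr (by omega)))

/-- a maximiser has a positive value -/
theorem argmax_pos (p : ℕ → ℝ) (m0 : ℕ) (hm0 : 0 < p m0) (L : ℝ) (ms : ℕ)
    (h : ∀ m : ℕ, p m * Real.exp (L * m) ≤ p ms * Real.exp (L * ms)) : 0 < p ms := by
  have h1 := h m0
  have h2 : 0 < p m0 * Real.exp (L * m0) := mul_pos hm0 (Real.exp_pos _)
  have h3 : 0 < p ms * Real.exp (L * ms) := lt_of_lt_of_le h2 h1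
  exact (pos_iff_pos_of_mul_pos h3).mpr (Real.exp_pos _)

/-- maximisers are monotone in the tilt -/
theorem argmax_mono (p : ℕ → ℝ) (L1 L2 : ℝ) (hL : L1 < L2) (m1 m2 : ℕ)
    (hp1 : 0 < p m1) (hp2 : 0 < p m2)
    (h1 : ∀ m : ℕ, p m * Real.exp (L1 * m) ≤ p m1 * Real.exp (L1 * m1))
    (h2 : ∀ m : ℕ, p m * Real.exp (L2 * m) ≤ p m2 * Real.exp (L2 * m2)) : m1 ≤ m2 := by
  by_contra hlt
  push Not at hlt
  have a1 := h1 m2
  have a2 := h2 m1
  -- multiply
  have hmul : (p m2 * Real.exp (L1 * m2)) * (p m1 * Real.exp (L2 * m1)) ≤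
      (p m1 * Real.exp (L1 * m1)) * (p m2 * Real.exp (L2 * m2)) :=
    mul_le_mul a1 a2 (mul_pos hp1 (Real.exp_pos _)).le (mul_pos hp1 (Real.exp_pos _)).le
  have hpp : 0 < p m1 * p m2 := mul_pos hp1 hp2
  have h3 : Real.exp (L1 * m2 + L2 * m1) ≤ Real.exp (L1 * m1 + L2 * m2) := by
    rw [Real.exp_add, Real.exp_add]
    have : (p m1 * p m2) * (Real.exp (L1 * m2) * Real.exp (L2 * m1)) ≤
        (p m1 * p m2) * (Real.exp (L1 * m1) * Real.exp (L2 * m2)) := by nlinarith [hmul]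
    exact le_of_mul_le_mul_left this hpp
  have h4 := Real.exp_le_exp.mp h3
  have h5 : (m2:ℝ) < m1 := by exact_mod_cast hlt
  nlinarith

/-- size of a maximiser -/
theorem argmax_le (p : ℕ → ℝ) (c : ℝ)
    (hp : ∀ m : ℕ, p m ≤ Real.exp (-5 * (m:ℝ)^2 + c * m))
    (m0 : ℕ) (hm0 : 0 < p m0) (L : ℝ) (hL0 : 0 ≤ L) (hLc : 0 ≤ L + c) (ms : ℕ)
    (h : ∀ m : ℕ, p m * Real.exp (L * m) ≤ p ms * Real.exp (L * ms)) :
    5 * (ms:ℝ) ≤ L + c + |Real.log (p m0)| := by
  have habs := abs_nonneg (Real.log (p m0))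
  rcases Nat.eq_zero_or_pos ms with h0 | hpos
  · subst h0; simp; linarith
  have h1 : p m0 ≤ p ms * Real.exp (L * ms) := by
    refine le_trans ?_ (h m0)
    have : (1:ℝ) ≤ Real.exp (L * m0) := Real.one_le_exp (by positivity)
    nlinarith
  have h2 : p ms * Real.exp (L * ms) ≤ Real.exp (-5 * (ms:ℝ)^2 + c * ms + L * ms) := by
    rw [Real.exp_add]
    exact mul_le_mul_of_nonneg_right (hp ms) (Real.exp_pos _).le
  have h3 : Real.log (p m0) ≤ -5 * (ms:ℝ)^2 + c * ms + L * ms := by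
    have := Real.log_le_log hm0 (le_trans h1 h2)
    rwa [Real.log_exp] at this
  have h4 := neg_abs_le (Real.log (p m0))
  have h5 : (1:ℝ) ≤ ms := by exact_mod_cast hpos
  by_contra hcon
  push Not at hcon
  nlinarith

theorem exists_stable_tilt (p q : ℕ → ℝ) (c : ℝ)
    (hp : ∀ m : ℕ, p m ≤ Real.exp (-5 * (m:ℝ)^2 + c * m))
    (hq : ∀ k : ℕ, q k ≤ Real.exp (-5 * (k:ℝ)^2 + c * k))
    (m0 k0 : ℕ) (hm0 : 0 < p m0) (hk0 : 0 < q k0) (L0 : ℝ) :
    ∃ (L : ℝ) (ms ks : ℕ), L0 ≤ L ∧ 0 < p ms ∧ 0 < q ks ∧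
      (∀ m : ℕ, p m * Real.exp (L * m) ≤ p ms * Real.exp (L * ms)) ∧
      (∀ m : ℕ, p m * Real.exp ((L + 2) * m) ≤ p ms * Real.exp ((L + 2) * ms)) ∧
      (∀ k : ℕ, q k * Real.exp (L * k) ≤ q ks * Real.exp (L * ks)) ∧
      (∀ k : ℕ, q k * Real.exp ((L + 2) * k) ≤ q ks * Real.exp ((L + 2) * ks)) ∧
      5 * (ms:ℝ) ≤ L + c + |Real.log (p m0)| ∧ 5 * (ks:ℝ) ≤ L + c + |Real.log (q k0)| := by
  set L1 : ℝ := |L0| + |c| with hL1
  have hL1a : L0 ≤ L1 := by have := le_abs_self L0; have := abs_nonneg c; linarith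
  have hL1b : 0 ≤ L1 := by positivity
  have hL1c : 0 ≤ L1 + c := by have := neg_abs_le c; have := abs_nonneg L0; linarith
  set Lf : ℕ → ℝ := fun i => L1 + 2 * i with hLf
  have hLf_succ : ∀ i : ℕ, Lf (i + 1) = Lf i + 2 := by intro i; simp [hLf]; ring
  have hLf0 : ∀ i : ℕ, L1 ≤ Lf i := by intro i; simp [hLf]
  choose M hM using fun i : ℕ => exists_argmax p c hp m0 hm0 (Lf i)
  choose K hK using fun i : ℕ => exists_argmax q c hq k0 hk0 (Lf i)
  have hMpos : ∀ i, 0 < p (M i) := fun i => argmax_pos p m0 hm0 (Lf i) (M i) (hM i)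
  have hKpos : ∀ i, 0 < q (K i) := fun i => argmax_pos q k0 hk0 (Lf i) (K i) (hK i)
  have hMmono : ∀ i, M i ≤ M (i + 1) := fun i =>
    argmax_mono p (Lf i) (Lf (i + 1)) (by rw [hLf_succ]; linarith) _ _ (hMpos i) (hMpos (i + 1))
      (hM i) (hM (i + 1))
  have hKmono : ∀ i, K i ≤ K (i + 1) := fun i =>
    argmax_mono q (Lf i) (Lf (i + 1)) (by rw [hLf_succ]; linarith) _ _ (hKpos i) (hKpos (i + 1))
      (hK i) (hK (i + 1))
  have hMle : ∀ i, 5 * (M i : ℝ) ≤ Lf i + c + |Real.log (p m0)| := fun i =>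
    argmax_le p c hp m0 hm0 (Lf i) (le_trans hL1b (hLf0 i)) (by have := hLf0 i; linarith) (M i) (hM i)
  have hKle : ∀ i, 5 * (K i : ℝ) ≤ Lf i + c + |Real.log (q k0)| := fun i =>
    argmax_le q c hq k0 hk0 (Lf i) (le_trans hL1b (hLf0 i)) (by have := hLf0 i; linarith) (K i) (hK i)
  -- pigeonhole
  have hex : ∃ i, M (i + 1) = M i ∧ K (i + 1) = K i := by
    by_contra hno
    push Not at hno
    have hstep : ∀ i, M i + K i + 1 ≤ M (i + 1) + K (i + 1) := by
      intro i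
      have a := hMmono i
      have b := hKmono i
      by_cases hMe : M (i + 1) = M i
      · have := hno i hMe
        omega
      · omega
    have hlin : ∀ i, i ≤ M i + K i := by
      intro i
      induction i with
      | zero => omega
      | succ i ih => have := hstep i; omega
    obtain ⟨i, hi⟩ := exists_nat_gt (2 * L1 + 2 * c + |Real.log (p m0)| + |Real.log (q k0)|)
    have h1 : (i:ℝ) ≤ (M i : ℝ) + (K i : ℝ) := by exact_mod_cast hlin i
    have h2 := hMle i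
    have h3 := hKle i
    have h4 : Lf i = L1 + 2 * i := rfl
    rw [h4] at h2 h3
    linarith
  obtain ⟨i, hiM, hiK⟩ := hex
  refine ⟨Lf i, M i, K i, le_trans hL1a (hLf0 i), hMpos i, hKpos i, hM i, ?_, hK i, ?_, hMle i, hKle i⟩
  · have := hM (i + 1)
    rw [hLf_succ, hiM] at this
    exact this
  · have := hK (i + 1)
    rw [hLf_succ, hiK] at this
    exact this

end Crest.Agent.S0150Aux.Tilt39
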