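import Mathlib
import Crest.Agent.S0150Aux.Tilt39

/-! K4: assembly of the key lemma from Tilt39 and K1, K2, K3 (helper13). -/

set_option autoImplicit false
open ComplexConjugate

namespace Crest.Agent.S0150Aux.Key13

def K1Prop : Prop := ∀ (al A : ℤ → ℝ) (_ : ∀ j, A (j+1) = A j + al j) (C0 : ℝ)
  (_ : ∀ j : ℤ, 10*|(j:ℝ)| - C0 ≤ al j) (s : ℤ), ∃ c : ℝ, 0 ≤ c ∧
    (∀ k : ℕ, A s - A (s + k) ≤ -5*(k:ℝ)^2 + c*k) ∧ (∀ m : ℕ, A (s - m) - A s ≤ -5*(m:ℝ)^2 + c*m)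

def K2Prop : Prop := ∀ (t : ℤ → ℂ) (P : ℝ), 0 < P → ‖t 0‖ = P →
  (∀ d : ℤ, d ≠ 0 → ‖t d‖ ≤ P * Real.exp (-2 * |(d:ℝ)|)) → ∑' d, t d ≠ 0

def K3Prop : Prop := ∀ (al A : ℤ → ℝ) (_ : ∀ j, A (j+1) = A j + al j) (C0 : ℝ)
  (_ : ∀ j : ℤ, 10*|(j:ℝ)| - C0 ≤ al j) (J : ℤ) (_ : ∀ j, J ≤ j → al j ≤ al (j+1)) (s : ℤ)
  (m0 k0 : ℕ) (_ : 1 ≤ m0 + k0) (Cw Cu c : ℝ),
  ∃ L0 : ℝ, ∀ L : ℝ, L0 ≤ L → ∀ (ms ks : ℕ) (pS qS : ℝ) (q : ℕ → ℝ), 1 ≤ ms + ks →
    5*(ms:ℝ) ≤ L + c → (∀ k, 0 ≤ q k) → (∀ k : ℕ, q k ≤ Real.exp (A s - A (s + k))) →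
    (∀ k : ℕ, q k * Real.exp ((L+2)*k) ≤ qS * Real.exp ((L+2)*ks)) →
    Real.exp (-Cw + L*((m0:ℝ) - ms)) ≤ pS → Real.exp (-Cu + L*((k0:ℝ) - ks)) ≤ qS →
    ∀ a : ℕ, (1 ≤ m0 ∨ 1 ≤ a) →
      Real.exp (A (s + a) - A s) * q (a + ms + ks) ≤ pS * qS * Real.exp (-2*((a:ℝ) + ms))

lemma le_of_tilt {x y a b : ℝ} (h : x * Real.exp a ≤ y * Real.exp b) : x ≤ y * Real.exp (b - a) := by
  rw [Real.exp_sub, ← mul_div_assoc, le_div_iff₀ (Real.exp_pos a)]; exact h

lemma mul_exp_mul_exp (x y a b : ℝ) :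
    x * Real.exp a * (y * Real.exp b) = x * y * Real.exp (a + b) := by
  rw [Real.exp_add]; ring

theorem key (k1 : K1Prop) (k2 : K2Prop) (k3 : K3Prop)
    (al A : ℤ → ℝ) (hA : ∀ j, A (j+1) = A j + al j) (C0 : ℝ)
    (hgrow : ∀ j : ℤ, 10*|(j:ℝ)| - C0 ≤ al j) (J : ℤ) (hR : ∀ j, J ≤ j → al j ≤ al (j+1))
    (hL : ∀ j, j ≤ -J → al j ≤ al (j-1)) (w u : ℤ → ℂ) (hw : ∀ j, ‖w j‖ ≤ 1) (hu : ∀ j, ‖u j‖ ≤ 1)
    (horth : ∀ n : ℕ, 1 ≤ n →
      ∑' j : ℤ, w j * conj (u (j+n)) * (Real.exp (A j - A (j+n)) : ℂ) = 0)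
    {j0 k0 : ℤ} (h : j0 < k0) (hwj : w j0 ≠ 0) (huk : u k0 ≠ 0) : False := by
  classical
  obtain ⟨s, hs⟩ : ∃ s : ℤ, s = k0 := ⟨k0, rfl⟩
  obtain ⟨m0, hm0, hm0s⟩ : ∃ m0 : ℕ, 1 ≤ m0 ∧ s - (m0:ℤ) = j0 :=
    ⟨(k0 - j0).toNat, by omega, by omega⟩
  obtain ⟨c, hc0, hcq, hcp⟩ := k1 al A hA C0 hgrow s
  obtain ⟨p, hpdef⟩ : ∃ p : ℕ → ℝ, ∀ m : ℕ, p m =
      if m = 0 then 0 else ‖w (s - m)‖ * Real.exp (A (s - m) - A s) := ⟨_, fun _ => rfl⟩
  obtain ⟨q, hqdef⟩ : ∃ q : ℕ → ℝ, ∀ k : ℕ, q k = ‖u (s + k)‖ * Real.exp (A s - A (s + k)) :=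
    ⟨_, fun _ => rfl⟩
  have hp_pos' : ∀ m : ℕ, m ≠ 0 → p m = ‖w (s - m)‖ * Real.exp (A (s - m) - A s) := by
    intro m hm; rw [hpdef, if_neg hm]
  have hp_nonneg : ∀ m, 0 ≤ p m := by
    intro m; rw [hpdef]; split_ifs
    · exact le_rfl
    · positivity
  have hq_nonneg : ∀ k, 0 ≤ q k := by intro k; rw [hqdef]; positivity
  have hp_le : ∀ m : ℕ, p m ≤ Real.exp (A (s - m) - A s) := by
    intro m; rw [hpdef]; split_ifs
    · exact (Real.exp_pos _).le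
    · calc ‖w (s - m)‖ * Real.exp (A (s - m) - A s) ≤ 1 * Real.exp (A (s - m) - A s) :=
          mul_le_mul_of_nonneg_right (hw _) (Real.exp_pos _).le
        _ = _ := one_mul _
  have hq_le : ∀ k : ℕ, q k ≤ Real.exp (A s - A (s + k)) := by
    intro k; rw [hqdef]
    calc ‖u (s + k)‖ * Real.exp (A s - A (s + k)) ≤ 1 * Real.exp (A s - A (s + k)) :=
          mul_le_mul_of_nonneg_right (hu _) (Real.exp_pos _).le
      _ = _ := one_mul _
  have hp : ∀ m : ℕ, p m ≤ Real.exp (-5 * (m:ℝ)^2 + c * m) :=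
    fun m => (hp_le m).trans (Real.exp_le_exp.2 (hcp m))
  have hq : ∀ k : ℕ, q k ≤ Real.exp (-5 * (k:ℝ)^2 + c * k) :=
    fun k => (hq_le k).trans (Real.exp_le_exp.2 (hcq k))
  have hpm0 : 0 < p m0 := by
    rw [hp_pos' m0 (by omega), hm0s]
    exact mul_pos (norm_pos_iff.2 hwj) (Real.exp_pos _)
  have hq0 : 0 < q 0 := by
    rw [hqdef]
    have : s + ((0:ℕ):ℤ) = k0 := by simp [hs]
    rw [this]
    exact mul_pos (norm_pos_iff.2 huk) (Real.exp_pos _)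
  set Cw : ℝ := -Real.log (p m0) with hCw
  set Cu : ℝ := -Real.log (q 0) with hCu
  set c' : ℝ := c + |Real.log (p m0)| + |Real.log (q 0)| with hc'
  -- type II constant
  obtain ⟨L2, hL2⟩ := k3 al A hA C0 hgrow J hR s m0 0 (by omega) Cw Cu c'
  -- mirrored data
  have hA' : ∀ j : ℤ, (fun j : ℤ => -A (-j)) (j+1) = (fun j : ℤ => -A (-j)) j + (fun j : ℤ => al (-j-1)) j := by
    intro j
    have e1 : -(j+1) = -j-1 := by ring
    have e2 : (-j-1)+1 = -j := by ring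
    have := hA (-j-1)
    rw [e2] at this
    show -A (-(j+1)) = -A (-j) + al (-j-1)
    rw [e1]; linarith
  have hgrow' : ∀ j : ℤ, 10*|(j:ℝ)| - (C0+10) ≤ (fun j : ℤ => al (-j-1)) j := by
    intro j
    have h1 := hgrow (-j-1)
    push_cast at h1
    have h2 : |(j:ℝ)| ≤ |(-(j:ℝ)-1)| + 1 := by
      calc |(j:ℝ)| = |(-(j:ℝ)-1) + 1| := by
            rw [show (-(j:ℝ)-1)+1 = -(j:ℝ) by ring, abs_neg]
        _ ≤ |(-(j:ℝ)-1)| + |(1:ℝ)| := abs_add_le _ _
        _ = _ := by rw [abs_one]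
    show 10*|(j:ℝ)| - (C0+10) ≤ al (-j-1)
    linarith
  have hR' : ∀ j : ℤ, J - 1 ≤ j → (fun j : ℤ => al (-j-1)) j ≤ (fun j : ℤ => al (-j-1)) (j+1) := by
    intro j hj
    have := hL (-j-1) (by omega)
    show al (-j-1) ≤ al (-(j+1)-1)
    have e : -(j+1)-1 = -j-1-1 := by ring
    rw [e]; exact this
  obtain ⟨L3, hL3⟩ := k3 (fun j : ℤ => al (-j-1)) (fun j : ℤ => -A (-j)) hA' (C0+10) hgrow' (J-1) hR'
    (-s) 0 m0 (by omega) Cu Cw c'
  obtain ⟨L, ms, ks, hLL, hpms, hqks, tpL, tpL2, tqL, tqL2, hms5, hks5⟩ :=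
    Tilt39.exists_stable_tilt p q c hp hq m0 0 hpm0 hq0 (max L2 L3)
  have hms1 : 1 ≤ ms := by
    rcases Nat.eq_zero_or_pos ms with h0 | h0
    · rw [h0, hpdef, if_pos rfl] at hpms; exact absurd hpms (lt_irrefl _)
    · exact h0
  have hn : 1 ≤ ms + ks := by omega
  have hpS : Real.exp (-Cw + L*((m0:ℝ) - ms)) ≤ p ms := by
    have := le_of_tilt (tpL m0)
    have e : Real.exp (-Cw + L*((m0:ℝ) - ms)) = p m0 * Real.exp (L * m0 - L * ms) := by
      rw [hCw, neg_neg, Real.exp_add, Real.exp_log hpm0]; congr 2; ring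
    rw [e]
    have h3 : p m0 * Real.exp (L * m0 - L * ms) ≤ p ms * Real.exp (L * ms - L * m0) * Real.exp (L * m0 - L * ms) :=
      mul_le_mul_of_nonneg_right this (Real.exp_pos _).le
    rw [mul_assoc, ← Real.exp_add] at h3
    have e3 : L * ms - L * m0 + (L * m0 - L * ms) = 0 := by ring
    rw [e3, Real.exp_zero, mul_one] at h3
    exact h3
  have hqS : Real.exp (-Cu + L*(((0:ℕ):ℝ) - ks)) ≤ q ks := by
    have := le_of_tilt (tqL 0)
    have e : Real.exp (-Cu + L*(((0:ℕ):ℝ) - ks)) = q 0 * Real.exp (L * ((0:ℕ):ℝ) - L * ks) := by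
      rw [hCu, neg_neg, Real.exp_add, Real.exp_log hq0]; congr 2; ring
    rw [e]
    have h3 : q 0 * Real.exp (L * ((0:ℕ):ℝ) - L * ks) ≤
        q ks * Real.exp (L * ks - L * ((0:ℕ):ℝ)) * Real.exp (L * ((0:ℕ):ℝ) - L * ks) :=
      mul_le_mul_of_nonneg_right this (Real.exp_pos _).le
    rw [mul_assoc, ← Real.exp_add] at h3
    have e3 : L * ks - L * ((0:ℕ):ℝ) + (L * ((0:ℕ):ℝ) - L * ks) = 0 := by ring
    rw [e3, Real.exp_zero, mul_one] at h3
    exact h3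
  have hms5' : 5 * (ms:ℝ) ≤ L + c' := by
    have := abs_nonneg (Real.log (q 0)); rw [hc']; linarith
  have hks5' : 5 * (ks:ℝ) ≤ L + c' := by
    have := abs_nonneg (Real.log (p m0)); rw [hc']; linarith
  have tII := hL2 L ((le_max_left _ _).trans hLL) ms ks (p ms) (q ks) q hn hms5' hq_nonneg hq_le tqL2 hpS hqS
  have hp_le' : ∀ k : ℕ, p k ≤ Real.exp ((fun j : ℤ => -A (-j)) (-s) - (fun j : ℤ => -A (-j)) (-s + k)) := by
    intro k
    have e : (fun j : ℤ => -A (-j)) (-s) - (fun j : ℤ => -A (-j)) (-s + k) = A (s - k) - A s := by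
      show -A (-(-s)) - -A (-(-s + (k:ℤ))) = _
      rw [neg_neg, show -(-s + (k:ℤ)) = s - k by ring]; ring
    rw [e]; exact hp_le k
  have tIII := hL3 L ((le_max_right _ _).trans hLL) ks ms (q ks) (p ms) p (by omega) hks5' hp_nonneg hp_le'
    tpL2 hqS hpS
  -- the terms
  set n : ℕ := ms + ks with hndef
  obtain ⟨term, hterm⟩ : ∃ term : ℤ → ℂ, ∀ j, term j =
      w j * conj (u (j+n)) * (Real.exp (A j - A (j+n)) : ℂ) := ⟨_, fun _ => rfl⟩
  have hnorm : ∀ j, ‖term j‖ = ‖w j‖ * ‖u (j+n)‖ * Real.exp (A j - A (j+n)) := by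
    intro j
    rw [hterm, norm_mul, norm_mul, RCLike.norm_conj, Complex.norm_real, Real.norm_eq_abs,
      abs_of_pos (Real.exp_pos _)]
  have hsum : ∑' d : ℤ, term (s - ms + d) = 0 := by
    have h1 := (Equiv.addLeft (s - (ms:ℤ))).tsum_eq term
    simp only [Equiv.coe_addLeft] at h1
    rw [h1]
    have h2 := horth n hn
    simpa only [hterm] using h2
  refine k2 (fun d => term (s - ms + d)) (p ms * q ks) (mul_pos hpms hqks) ?_ ?_ hsum
  · show ‖term (s - ms + 0)‖ = _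
    rw [add_zero, hnorm, hp_pos' ms (by omega), hqdef]
    have e : s - (ms:ℤ) + (n:ℤ) = s + ks := by rw [hndef]; push_cast; ring
    rw [e]
    have : Real.exp (A (s - ms) - A (s + ks)) = Real.exp (A (s - ms) - A s) * Real.exp (A s - A (s + ks)) := by
      rw [← Real.exp_add]; congr 1; ring
    rw [this]; ring
  · intro d hd
    show ‖term (s - ms + d)‖ ≤ _
    rcases lt_or_gt_of_ne hd with hneg | hpos
    · -- d < 0
      obtain ⟨e, he1, hde⟩ : ∃ e : ℕ, 1 ≤ e ∧ d = -(e:ℤ) := ⟨(-d).toNat, by omega, by omega⟩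
      have habs : |(d:ℝ)| = e := by rw [hde]; push_cast; rw [abs_neg, abs_of_nonneg (Nat.cast_nonneg e)]
      rw [habs]
      by_cases hek : e ≤ ks
      · obtain ⟨k, hk⟩ : ∃ k : ℕ, ks = k + e := ⟨ks - e, by omega⟩
        have ej : s - (ms:ℤ) + d = s - ((ms + e : ℕ):ℤ) := by rw [hde]; push_cast; ring
        have ejn : s - ((ms + e : ℕ):ℤ) + (n:ℤ) = s + (k:ℤ) := by rw [hndef, hk]; push_cast; ring
        have e0 : ‖term (s - ms + d)‖ = p (ms + e) * q k := by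
          rw [ej, hnorm, ejn, hp_pos' (ms+e) (by omega), hqdef]
          have : Real.exp (A (s - ((ms + e : ℕ):ℤ)) - A (s + k)) =
              Real.exp (A (s - ((ms + e : ℕ):ℤ)) - A s) * Real.exp (A s - A (s + k)) := by
            rw [← Real.exp_add]; congr 1; ring
          rw [this]; ring
        rw [e0]
        have b1 := le_of_tilt (tpL2 (ms + e))
        have b2 := le_of_tilt (tqL k)
        calc p (ms + e) * q k ≤ (p ms * Real.exp ((L+2)*ms - (L+2)*((ms+e:ℕ):ℝ))) *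
              (q ks * Real.exp (L*ks - L*k)) :=
              mul_le_mul b1 b2 (hq_nonneg _) (by positivity)
          _ = p ms * q ks * Real.exp (((L+2)*ms - (L+2)*((ms+e:ℕ):ℝ)) + (L*ks - L*k)) :=
              mul_exp_mul_exp _ _ _ _
          _ = p ms * q ks * Real.exp (-2 * (e:ℝ)) := by
              congr 2; rw [hk]; push_cast; ring
      · obtain ⟨a, ha1, hea⟩ : ∃ a : ℕ, 1 ≤ a ∧ e = ks + a := ⟨e - ks, by omega, by omega⟩
        have b := tIII a (Or.inr ha1)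
        have ej : s - (ms:ℤ) + d = s - ((a + ks + ms : ℕ):ℤ) := by rw [hde, hea]; push_cast; ring
        have ejn : s - ((a + ks + ms : ℕ):ℤ) + (n:ℤ) = s - (a:ℤ) := by rw [hndef]; push_cast; ring
        have e0 : ‖term (s - ms + d)‖ ≤
            Real.exp ((fun j : ℤ => -A (-j)) (-s + a) - (fun j : ℤ => -A (-j)) (-s)) * p (a + ks + ms) := by
          have e1 : (fun j : ℤ => -A (-j)) (-s + a) - (fun j : ℤ => -A (-j)) (-s) = A s - A (s - a) := by
            show -A (-(-s + (a:ℤ))) - -A (-(-s)) = _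
            rw [neg_neg, show -(-s + (a:ℤ)) = s - a by ring]; ring
          rw [e1, ej, hnorm, ejn, hp_pos' (a+ks+ms) (by omega)]
          have : Real.exp (A (s - ((a + ks + ms : ℕ):ℤ)) - A (s - a)) =
              Real.exp (A s - A (s - a)) * Real.exp (A (s - ((a + ks + ms : ℕ):ℤ)) - A s) := by
            rw [← Real.exp_add]; congr 1; ring
          rw [this]
          have hu1 := hu (s - (a:ℤ))
          have hw0 := norm_nonneg (w (s - ((a + ks + ms : ℕ):ℤ)))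
          have hE1 := (Real.exp_pos (A s - A (s - a))).le
          have hE2 := (Real.exp_pos (A (s - ((a + ks + ms : ℕ):ℤ)) - A s)).le
          calc ‖w (s - ((a + ks + ms : ℕ):ℤ))‖ * ‖u (s - a)‖ *
                (Real.exp (A s - A (s - a)) * Real.exp (A (s - ((a + ks + ms : ℕ):ℤ)) - A s))
              ≤ ‖w (s - ((a + ks + ms : ℕ):ℤ))‖ * 1 *
                (Real.exp (A s - A (s - a)) * Real.exp (A (s - ((a + ks + ms : ℕ):ℤ)) - A s)) := by
                gcongr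
            _ = _ := by ring
        refine e0.trans (b.trans (le_of_eq ?_))
        rw [hea]; push_cast; ring_nf
    · -- d > 0
      obtain ⟨e, he1, hde⟩ : ∃ e : ℕ, 1 ≤ e ∧ d = (e:ℤ) := ⟨d.toNat, by omega, by omega⟩
      have habs : |(d:ℝ)| = e := by rw [hde]; push_cast; rw [abs_of_nonneg (Nat.cast_nonneg e)]
      rw [habs]
      by_cases hem : e < ms
      · obtain ⟨m, hm1, hm⟩ : ∃ m : ℕ, 1 ≤ m ∧ ms = m + e := ⟨ms - e, by omega, by omega⟩
        have ej : s - (ms:ℤ) + d = s - (m:ℤ) := by rw [hde, hm]; push_cast; ring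
        have ejn : s - (m:ℤ) + (n:ℤ) = s + ((ks + e : ℕ):ℤ) := by rw [hndef, hm]; push_cast; ring
        have e0 : ‖term (s - ms + d)‖ = p m * q (ks + e) := by
          rw [ej, hnorm, ejn, hp_pos' m (by omega), hqdef]
          have : Real.exp (A (s - m) - A (s + ((ks + e : ℕ):ℤ))) =
              Real.exp (A (s - m) - A s) * Real.exp (A s - A (s + ((ks + e : ℕ):ℤ))) := by
            rw [← Real.exp_add]; congr 1; ring
          rw [this]; ring
        rw [e0]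
        have b1 := le_of_tilt (tpL m)
        have b2 := le_of_tilt (tqL2 (ks + e))
        calc p m * q (ks + e) ≤ (p ms * Real.exp (L*ms - L*m)) *
              (q ks * Real.exp ((L+2)*ks - (L+2)*((ks+e:ℕ):ℝ))) :=
              mul_le_mul b1 b2 (hq_nonneg _) (by positivity)
          _ = p ms * q ks * Real.exp ((L*ms - L*m) + ((L+2)*ks - (L+2)*((ks+e:ℕ):ℝ))) :=
              mul_exp_mul_exp _ _ _ _
          _ = p ms * q ks * Real.exp (-2 * (e:ℝ)) := by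
              congr 2; rw [hm]; push_cast; ring
      · obtain ⟨a, hea⟩ : ∃ a : ℕ, e = ms + a := ⟨e - ms, by omega⟩
        have b := tII a (Or.inl hm0)
        have ej : s - (ms:ℤ) + d = s + (a:ℤ) := by rw [hde, hea]; push_cast; ring
        have ejn : s + (a:ℤ) + (n:ℤ) = s + ((a + ms + ks : ℕ):ℤ) := by rw [hndef]; push_cast; ring
        have e0 : ‖term (s - ms + d)‖ ≤ Real.exp (A (s + a) - A s) * q (a + ms + ks) := by
          rw [ej, hnorm, ejn, hqdef]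
          have : Real.exp (A (s + a) - A (s + ((a + ms + ks : ℕ):ℤ))) =
              Real.exp (A (s + a) - A s) * Real.exp (A s - A (s + ((a + ms + ks : ℕ):ℤ))) := by
            rw [← Real.exp_add]; congr 1; ring
          rw [this]
          have hw1 := hw (s + (a:ℤ))
          calc ‖w (s + a)‖ * ‖u (s + ((a + ms + ks : ℕ):ℤ))‖ *
                (Real.exp (A (s + a) - A s) * Real.exp (A s - A (s + ((a + ms + ks : ℕ):ℤ))))
              ≤ 1 * ‖u (s + ((a + ms + ks : ℕ):ℤ))‖ *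
                (Real.exp (A (s + a) - A s) * Real.exp (A s - A (s + ((a + ms + ks : ℕ):ℤ)))) := by
                gcongr
            _ = _ := by ring
        refine e0.trans (b.trans (le_of_eq ?_))
        rw [hea]; push_cast; ring_nf

end Crest.Agent.S0150Aux.Key13
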