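import Mathlib
import Crest.Agent.S0150Aux.Tilt39

/-!
Independent backup of the "bilateral Donoghue" key lemma (team note 427, sect. 2), in pure sequence form.
-/

set_option autoImplicit false

namespace Crest.Agent.S0150Aux.Key27

open Real

theorem dom (f : ℤ → ℂ) (M : ℝ) (hM : 0 < M) (h0 : ‖f 0‖ = M)
    (hb : ∀ d : ℤ, d ≠ 0 → ‖f d‖ ≤ M * Real.exp (-2 * |(d:ℝ)|)) : ∑' d, f d ≠ 0 := by
  have hexp : ∀ n : ℕ, Real.exp (-2 * ((n:ℝ) + 1)) ≤ (1/4 : ℝ) ^ (n+1) := by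
    intro n
    have h2 : (2:ℝ) ≤ Real.exp 1 := by
      have := Real.add_one_le_exp (1:ℝ); linarith
    have h4 : Real.exp (-2) ≤ 1/4 := by
      have h5 : (4:ℝ) ≤ Real.exp 2 := by
        have : Real.exp 2 = Real.exp 1 * Real.exp 1 := by rw [← Real.exp_add]; norm_num
        rw [this]; nlinarith
      rw [Real.exp_neg, one_div]
      exact inv_anti₀ (by norm_num) h5
    calc Real.exp (-2 * ((n:ℝ) + 1)) = Real.exp (-2) ^ (n+1) := by
          rw [← Real.exp_nat_mul]; congr 1; push_cast; ring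
      _ ≤ (1/4 : ℝ) ^ (n+1) := pow_le_pow_left₀ (Real.exp_pos _).le h4 _
  have hgeo : HasSum (fun n : ℕ => M * (1/4 : ℝ) ^ (n+1)) (M / 3) := by
    have h := (hasSum_geometric_of_lt_one (by norm_num : (0:ℝ) ≤ 1/4)
      (by norm_num : (1/4:ℝ) < 1)).mul_left (M / 4)
    have e1 : (fun n : ℕ => M * (1/4 : ℝ) ^ (n+1)) = fun i => M / 4 * (1 / 4) ^ i := by
      funext n; rw [pow_succ]; ring
    have e3 : (1 - 1/4 : ℝ)⁻¹ = 4/3 := by norm_num
    have e2 : M / 3 = M / 4 * (1 - 1 / 4)⁻¹ := by rw [e3]; ring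
    rw [e1, e2]; exact h
  have b1 : ∀ n : ℕ, ‖f ((n:ℤ) + 1)‖ ≤ M * (1/4 : ℝ) ^ (n+1) := by
    intro n
    have h := hb ((n:ℤ)+1) (by omega)
    have habs : |(((n:ℤ)+1 : ℤ) : ℝ)| = (n:ℝ) + 1 := by
      push_cast; exact abs_of_nonneg (by positivity)
    rw [habs] at h
    exact h.trans (mul_le_mul_of_nonneg_left (hexp n) hM.le)
  have b2 : ∀ n : ℕ, ‖f (-((n:ℤ) + 1))‖ ≤ M * (1/4 : ℝ) ^ (n+1) := by
    intro n
    have h := hb (-((n:ℤ)+1)) (by omega)
    have habs : |((-((n:ℤ)+1) : ℤ) : ℝ)| = (n:ℝ) + 1 := by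
      push_cast; rw [abs_neg]; exact abs_of_nonneg (by positivity)
    rw [habs] at h
    exact h.trans (mul_le_mul_of_nonneg_left (hexp n) hM.le)
  have s1 : Summable (fun n : ℕ => f ((n:ℤ) + 1)) := Summable.of_norm_bounded hgeo.summable b1
  have s2 : Summable (fun n : ℕ => f (-((n:ℤ) + 1))) := Summable.of_norm_bounded hgeo.summable b2
  have n1 : ‖∑' n : ℕ, f ((n:ℤ) + 1)‖ ≤ M / 3 := tsum_of_norm_bounded hgeo b1
  have n2 : ‖∑' n : ℕ, f (-((n:ℤ) + 1))‖ ≤ M / 3 := tsum_of_norm_bounded hgeo b2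
  have hs1 : HasSum (fun n : ℕ => f (n:ℤ)) (∑' n : ℕ, f ((n:ℤ) + 1) + f 0) := by
    have := (hasSum_nat_add_iff (f := fun n : ℕ => f (n:ℤ)) 1).mp (by simpa using s1.hasSum)
    simpa using this
  have hs := HasSum.of_nat_of_neg_add_one hs1 s2.hasSum
  intro hz
  rw [hs.tsum_eq] at hz
  have h1 : f 0 = -(∑' n : ℕ, f ((n:ℤ) + 1) + ∑' n : ℕ, f (-((n:ℤ) + 1))) := by
    linear_combination hz
  have h3 : ‖f 0‖ ≤ M/3 + M/3 := by
    rw [h1, norm_neg]; exact (norm_add_le _ _).trans (add_le_add n1 n2)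
  linarith

theorem sum_ge (r R : ℕ → ℝ) (hRs : ∀ k, R (k+1) = R k + r k) (i : ℕ) (ρ : ℝ)
    (h : ∀ i', i ≤ i' → ρ ≤ r i') (n : ℕ) : (n:ℝ) * ρ ≤ R (i + n) - R i := by
  induction n with
  | zero => simp
  | succ n ih =>
    have h1 := hRs (i + n)
    have h2 := h (i + n) (by omega)
    have h3 : R (i + (n+1)) = R (i + n) + r (i+n) := by rw [← add_assoc]; exact h1
    rw [h3]; push_cast; linarith

theorem sum_le (r R : ℕ → ℝ) (hR0 : R 0 = 0) (hRs : ∀ k, R (k+1) = R k + r k) (L : ℝ) (i : ℕ)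
    (h : ∀ i', i' < i → r i' ≤ L) : R i ≤ L * i := by
  induction i with
  | zero => simp [hR0]
  | succ i ih =>
    have h1 := ih (fun i' hi' => h i' (by omega))
    have h2 := h i (by omega)
    rw [hRs]; push_cast; linarith

theorem mono_from (r : ℕ → ℝ) (J : ℕ) (hmono : ∀ i, J ≤ i → r i ≤ r (i+1)) (i1 : ℕ)
    (h1 : J ≤ i1) (i' : ℕ) (h : i1 ≤ i') : r i1 ≤ r i' := by
  induction i', h using Nat.le_induction with
  | base => exact le_rfl
  | succ k hk ih => exact ih.trans (hmono k (by omega))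

theorem exists_bound (f : ℕ → ℝ) (N : ℕ) : ∃ M : ℝ, ∀ i, i < N → f i ≤ M := by
  induction N with
  | zero => exact ⟨0, fun i hi => absurd hi (by omega)⟩
  | succ N ih =>
    obtain ⟨M, hM⟩ := ih
    refine ⟨max M (f N), fun i hi => ?_⟩
    rcases Nat.lt_succ_iff_lt_or_eq.mp hi with h | h
    · exact (hM i h).trans (le_max_left _ _)
    · rw [h]; exact le_max_right _ _

theorem gauss (r R : ℕ → ℝ) (hR0 : R 0 = 0) (hRs : ∀ k, R (k+1) = R k + r k) (c : ℝ)
    (hgrow : ∀ i : ℕ, 10 * (i:ℝ) - c ≤ r i) (m : ℕ) : 5 * (m:ℝ)^2 - (c + 5) * m ≤ R m := by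
  induction m with
  | zero => simp [hR0]
  | succ m ih =>
    rw [hRs]; have := hgrow m; push_cast; nlinarith

theorem tail_bound (r R : ℕ → ℝ) (hR0 : R 0 = 0) (hRs : ∀ k, R (k+1) = R k + r k) (c : ℝ)
    (hgrow : ∀ i : ℕ, 10 * (i:ℝ) - c ≤ r i) (J : ℕ) (hmono : ∀ i, J ≤ i → r i ≤ r (i+1))
    (q : ℕ → ℝ) (hq0 : ∀ k, 0 ≤ q k)
    (L : ℝ) (ks ms : ℕ)
    (htilt : ∀ k : ℕ, q k * Real.exp ((L+2) * k) ≤ q ks * Real.exp ((L+2) * ks))
    (B K c1 : ℝ) (hqs : Real.exp (-K - L * ks) ≤ q ks) (hB : Real.exp (-K - L * ms) ≤ B)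
    (hLJ : ∀ i, i < J → r i ≤ L) (hL3 : 2 * K ≤ L) (hK : 0 ≤ K) (hms : (ms:ℝ) ≤ L/5 + c1)
    (hL4 : 4 * (2 * K + 2 + 2 * c1) + c + 2 ≤ 1.4 * L)
    (i : ℕ) (X : ℝ) (hX1 : X ≤ Real.exp (R i) * q (i + (ms + ks + 1)))
    (hX2 : X ≤ Real.exp (R i - R (i + (ms + ks + 1)))) :
    X ≤ B * q ks * Real.exp (-2 * ((i:ℝ) + ms + 1)) := by
  have hqks : 0 ≤ q ks := hq0 ks
  have hBpos : 0 < B := lt_of_lt_of_le (Real.exp_pos _) hB
  by_cases hcase : R i ≤ L * i
  · have h1 : q (i + (ms+ks+1)) ≤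
        q ks * Real.exp ((L+2) * ks - (L+2) * ((i + (ms+ks+1) : ℕ) : ℝ)) := by
      have h := htilt (i + (ms+ks+1))
      rw [Real.exp_sub, ← mul_div_assoc, le_div_iff₀ (Real.exp_pos _)]
      exact h
    have h2 : X ≤ Real.exp (L * i) *
        (q ks * Real.exp ((L+2) * ks - (L+2) * ((i + (ms+ks+1) : ℕ) : ℝ))) := by
      calc X ≤ Real.exp (R i) * q (i + (ms + ks + 1)) := hX1
        _ ≤ Real.exp (L * i) * q (i + (ms+ks+1)) :=
            mul_le_mul_of_nonneg_right (Real.exp_le_exp.mpr hcase) (hq0 _)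
        _ ≤ _ := mul_le_mul_of_nonneg_left h1 (Real.exp_pos _).le
    have h3 : Real.exp (L * i) *
        (q ks * Real.exp ((L+2) * ks - (L+2) * ((i + (ms+ks+1) : ℕ) : ℝ)))
        = Real.exp (-L - L * ms) * q ks * Real.exp (-2 * ((i:ℝ) + ms + 1)) := by
      have h31 : Real.exp (L * i) * Real.exp ((L+2) * ks - (L+2) * ((i + (ms+ks+1) : ℕ) : ℝ))
          = Real.exp (-L - L * ms) * Real.exp (-2 * ((i:ℝ) + ms + 1)) := by
        rw [← Real.exp_add, ← Real.exp_add]; congr 1; push_cast; ring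
      calc _ = q ks * (Real.exp (L * i) *
            Real.exp ((L+2) * ks - (L+2) * ((i + (ms+ks+1) : ℕ) : ℝ))) := by ring
        _ = _ := by rw [h31]; ring
    have h4 : Real.exp (-L - L * ms) ≤ B :=
      le_trans (Real.exp_le_exp.mpr (by linarith)) hB
    rw [h3] at h2
    refine h2.trans ?_
    exact mul_le_mul_of_nonneg_right (mul_le_mul_of_nonneg_right h4 hqks) (Real.exp_pos _).le
  · push Not at hcase
    have hex : ∃ i1, i1 < i ∧ L < r i1 := by
      by_contra hcon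
      push Not at hcon
      exact absurd (sum_le r R hR0 hRs L i hcon) (not_le.mpr hcase)
    obtain ⟨i1, hi1, hr1⟩ := hex
    have hJ1 : J ≤ i1 := by
      by_contra hcon
      exact absurd (hLJ i1 (by omega)) (not_le.mpr hr1)
    have hbig : ∀ i', i ≤ i' → L ≤ r i' := fun i' hi' =>
      (hr1.le).trans (mono_from r J hmono i1 hJ1 i' (by omega))
    have hi0 : (0:ℝ) ≤ i := by positivity
    have hm0 : (0:ℝ) ≤ ms := by positivity
    have hk0 : (0:ℝ) ≤ ks := by positivity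
    have hkey : 2 * K + L * (ms + ks) + 2 * ((i:ℝ) + ms + 1) ≤ R (i + (ms+ks+1)) - R i := by
      by_cases hsub : 2 * ((i:ℝ) + ms + 1) ≤ L - 2 * K
      · have h := sum_ge r R hRs i L hbig (ms+ks+1)
        push_cast at h
        nlinarith
      · push Not at hsub
        have hi : L + c + 2 ≤ 8 * (i:ℝ) := by linarith
        have hbig2 : ∀ i', i ≤ i' → L + 2 * (i:ℝ) + 2 ≤ r i' := by
          intro i' hi'
          have h1 := hgrow i'
          have h2 : (i:ℝ) ≤ i' := by exact_mod_cast hi'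
          linarith
        have h := sum_ge r R hRs i (L + 2 * (i:ℝ) + 2) hbig2 (ms+ks+1)
        push_cast at h
        nlinarith [mul_nonneg hi0 hm0, mul_nonneg hi0 hk0]
    have h5 : Real.exp (-K - L * ms) * Real.exp (-K - L * ks) ≤ B * q ks :=
      mul_le_mul hB hqs (Real.exp_pos _).le hBpos.le
    calc X ≤ Real.exp (R i - R (i + (ms + ks + 1))) := hX2
      _ ≤ Real.exp (-K - L * ms) * Real.exp (-K - L * ks) * Real.exp (-2 * ((i:ℝ) + ms + 1)) := by
          rw [← Real.exp_add, ← Real.exp_add]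
          apply Real.exp_le_exp.mpr
          linarith
      _ ≤ _ := mul_le_mul_of_nonneg_right h5 (Real.exp_pos _).le

theorem typeI (p q : ℕ → ℝ) (hp0 : ∀ m, 0 ≤ p m) (hq0 : ∀ k, 0 ≤ q k) (L : ℝ) (ms ks : ℕ)
    (hp1 : ∀ m : ℕ, p m * Real.exp (L * m) ≤ p ms * Real.exp (L * ms))
    (hp2 : ∀ m : ℕ, p m * Real.exp ((L + 2) * m) ≤ p ms * Real.exp ((L + 2) * ms))
    (hq1 : ∀ k : ℕ, q k * Real.exp (L * k) ≤ q ks * Real.exp (L * ks))
    (hq2 : ∀ k : ℕ, q k * Real.exp ((L + 2) * k) ≤ q ks * Real.exp ((L + 2) * ks))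
    (m k : ℕ) (hmk : m + k = ms + ks) :
    p m * q k ≤ p ms * q ks * Real.exp (-2 * |(ms:ℝ) - m|) := by
  have conv : ∀ (f : ℕ → ℝ) (T : ℝ) (a b : ℕ),
      f a * Real.exp (T * a) ≤ f b * Real.exp (T * b) →
      f a ≤ f b * Real.exp (T * ((b:ℝ) - a)) := by
    intro f T a b h
    have h1 : f b * Real.exp (T * ((b:ℝ) - a)) = f b * Real.exp (T * b) / Real.exp (T * a) := by
      rw [mul_sub, Real.exp_sub]; ring
    rw [h1, le_div_iff₀ (Real.exp_pos _)]; exact h
  have hmkR : (m:ℝ) + k = ms + ks := by exact_mod_cast hmk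
  rcases le_total m ms with h | h
  · have hR : (m:ℝ) ≤ ms := by exact_mod_cast h
    have a1 := conv p L m ms (hp1 m)
    have a2 := conv q (L+2) k ks (hq2 k)
    calc p m * q k ≤ (p ms * Real.exp (L * ((ms:ℝ) - m))) *
          (q ks * Real.exp ((L+2) * ((ks:ℝ) - k))) :=
          mul_le_mul a1 a2 (hq0 k) (mul_nonneg (hp0 ms) (Real.exp_pos _).le)
      _ = p ms * q ks * (Real.exp (L * ((ms:ℝ) - m)) * Real.exp ((L+2) * ((ks:ℝ) - k))) := by ring
      _ = _ := by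
          rw [← Real.exp_add, abs_of_nonneg (by linarith)]
          congr 2
          have h7 : (ks:ℝ) - k = -((ms:ℝ) - m) := by linarith
          rw [h7]; ring
  · have hR : (ms:ℝ) ≤ m := by exact_mod_cast h
    have a1 := conv p (L+2) m ms (hp2 m)
    have a2 := conv q L k ks (hq1 k)
    calc p m * q k ≤ (p ms * Real.exp ((L+2) * ((ms:ℝ) - m))) *
          (q ks * Real.exp (L * ((ks:ℝ) - k))) :=
          mul_le_mul a1 a2 (hq0 k) (mul_nonneg (hp0 ms) (Real.exp_pos _).le)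
      _ = p ms * q ks * (Real.exp ((L+2) * ((ms:ℝ) - m)) * Real.exp (L * ((ks:ℝ) - k))) := by ring
      _ = _ := by
          rw [← Real.exp_add, abs_of_nonpos (by linarith)]
          congr 2
          have h7 : (ks:ℝ) - k = -((ms:ℝ) - m) := by linarith
          rw [h7]; ring

set_option maxHeartbeats 4000000 in
theorem key27 (al A : ℤ → ℝ) (hA : ∀ j, A (j+1) = A j + al j) (C0 : ℝ)
    (hgrow : ∀ j : ℤ, 10 * |(j:ℝ)| - C0 ≤ al j) (J : ℤ)
    (hR : ∀ j, J ≤ j → al j ≤ al (j+1)) (hL : ∀ j, j ≤ -J → al j ≤ al (j-1))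
    (w u : ℤ → ℂ) (hw : ∀ j, ‖w j‖ ≤ 1) (hu : ∀ j, ‖u j‖ ≤ 1)
    (horth : ∀ n : ℕ, 1 ≤ n → ∑' j : ℤ, w j * (starRingEnd ℂ) (u (j + n)) *
      (Real.exp (A j - A (j + n)) : ℂ) = 0)
    (j0 s : ℤ) (h : j0 < s) (hwj : w j0 ≠ 0) (huk : u s ≠ 0) : False := by
  set rr : ℕ → ℝ := fun i => al (s + i) with hrr
  set Rr : ℕ → ℝ := fun k => A (s + k) - A s with hRr
  set rl : ℕ → ℝ := fun i => al (s - 2 - i) with hrl
  set Rl : ℕ → ℝ := fun m => A (s - 1) - A (s - 1 - m) with hRl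
  set p : ℕ → ℝ := fun m => ‖w (s - 1 - m)‖ * Real.exp (-(Rl m)) with hp
  set q : ℕ → ℝ := fun k => ‖u (s + k)‖ * Real.exp (-(Rr k)) with hq
  have hRr0 : Rr 0 = 0 := by simp [hRr]
  have hRl0 : Rl 0 = 0 := by simp [hRl]
  have hRrs : ∀ k, Rr (k+1) = Rr k + rr k := by
    intro k
    have h1 := hA (s + k)
    have e : s + ((k+1 : ℕ) : ℤ) = s + k + 1 := by push_cast; ring
    simp only [hRr, hrr, e, h1]; ring
  have hRls : ∀ k, Rl (k+1) = Rl k + rl k := by
    intro k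
    have h1 := hA (s - 2 - k)
    have e : s - 1 - ((k+1 : ℕ) : ℤ) = s - 2 - k := by push_cast; ring
    have e2 : s - 2 - (k:ℤ) + 1 = s - 1 - k := by ring
    rw [e2] at h1
    simp only [hRl, hrl, e, h1]; ring
  set c : ℝ := 10 * (|(s:ℝ)| + 2) + |C0| with hc
  have hc0 : 0 ≤ c := by positivity
  have hgr : ∀ i : ℕ, 10 * (i:ℝ) - c ≤ rr i := by
    intro i
    have h1 := hgrow (s + i)
    have h2 := le_abs_self (((s + i : ℤ)) : ℝ)
    have h3 := neg_abs_le (s:ℝ)
    have h4 := le_abs_self C0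
    push_cast at h1 h2
    simp only [hrr, hc]; linarith
  have hgl : ∀ i : ℕ, 10 * (i:ℝ) - c ≤ rl i := by
    intro i
    have h1 := hgrow (s - 2 - i)
    have h2 := neg_le_abs (((s - 2 - i : ℤ)) : ℝ)
    have h3 := le_abs_self (s:ℝ)
    have h4 := le_abs_self C0
    push_cast at h1 h2
    simp only [hrl, hc]; linarith
  have hmr : ∀ i : ℕ, (J - s).toNat ≤ i → rr i ≤ rr (i+1) := by
    intro i hi
    have h1 := hR (s + i) (by omega)
    have e : s + ((i+1 : ℕ) : ℤ) = s + i + 1 := by push_cast; ring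
    simp only [hrr, e]; exact h1
  have hml : ∀ i : ℕ, (s - 2 + J).toNat ≤ i → rl i ≤ rl (i+1) := by
    intro i hi
    have h1 := hL (s - 2 - i) (by omega)
    have e : s - 2 - ((i+1 : ℕ) : ℤ) = s - 2 - i - 1 := by push_cast; ring
    simp only [hrl, e]; exact h1
  have hp0 : ∀ m, 0 ≤ p m := fun m => by simp only [hp]; positivity
  have hq0 : ∀ k, 0 ≤ q k := fun k => by simp only [hq]; positivity
  have hpE : ∀ m, p m ≤ Real.exp (-(Rl m)) := fun m => by
    simp only [hp]; exact mul_le_of_le_one_left (Real.exp_pos _).le (hw _)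
  have hqE : ∀ k, q k ≤ Real.exp (-(Rr k)) := fun k => by
    simp only [hq]; exact mul_le_of_le_one_left (Real.exp_pos _).le (hu _)
  have hpG : ∀ m : ℕ, p m ≤ Real.exp (-5 * (m:ℝ)^2 + (c+5) * m) := fun m =>
    (hpE m).trans (Real.exp_le_exp.mpr (by have := gauss rl Rl hRl0 hRls c hgl m; linarith))
  have hqG : ∀ k : ℕ, q k ≤ Real.exp (-5 * (k:ℝ)^2 + (c+5) * k) := fun k =>
    (hqE k).trans (Real.exp_le_exp.mpr (by have := gauss rr Rr hRr0 hRrs c hgr k; linarith))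
  obtain ⟨m0, hm0e⟩ : ∃ m0 : ℕ, s - 1 - (m0:ℤ) = j0 := ⟨(s - 1 - j0).toNat, by omega⟩
  have hm0 : 0 < p m0 := by
    simp only [hp, hm0e]; exact mul_pos (norm_pos_iff.mpr hwj) (Real.exp_pos _)
  have hk0 : 0 < q 0 := by
    have e : s + ((0:ℕ):ℤ) = s := by simp
    simp only [hq, e]; exact mul_pos (norm_pos_iff.mpr huk) (Real.exp_pos _)
  set κ : ℝ := Real.exp (-(al (s-1))) with hκ
  have hκpos : 0 < κ := Real.exp_pos _
  set K : ℝ := |Real.log (p m0)| + |Real.log (q 0)| + |al (s-1)| with hK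
  have hK0 : 0 ≤ K := by positivity
  set c1 : ℝ := (c + 5 + K) / 5 with hc1
  have hc10 : 0 ≤ c1 := by positivity
  obtain ⟨Mr, hMr⟩ := exists_bound rr (J - s).toNat
  obtain ⟨Ml, hMl⟩ := exists_bound rl (s - 2 + J).toNat
  obtain ⟨L, ms, ks, hL0, hpms, hqks, hp1, hp2, hq1, hq2, hms5, hks5⟩ :=
    Tilt39.exists_stable_tilt p q (c+5) hpG hqG m0 0 hm0 hk0
      (|Mr| + |Ml| + 2 * K + (4 * (2 * K + 2 + 2 * c1) + c + 2))
  have hLMr : Mr ≤ L := by have := le_abs_self Mr; have := abs_nonneg Ml; linarith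
  have hLMl : Ml ≤ L := by have := le_abs_self Ml; have := abs_nonneg Mr; linarith
  have hL2K : 2 * K ≤ L := by have := abs_nonneg Ml; have := abs_nonneg Mr; linarith
  have hLpos : 0 ≤ L := by linarith
  have hL4 : 4 * (2 * K + 2 + 2 * c1) + c + 2 ≤ 1.4 * L := by
    have := abs_nonneg Ml; have := abs_nonneg Mr; linarith
  have low : ∀ (f : ℕ → ℝ) (a b : ℕ), 0 < f a →
      f a * Real.exp (L * a) ≤ f b * Real.exp (L * b) →
      Real.exp (-|Real.log (f a)| - L * b) ≤ f b := by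
    intro f a b ha h1
    have h2 : f a ≤ f a * Real.exp (L * a) :=
      le_mul_of_one_le_right ha.le (Real.one_le_exp (by positivity))
    have h4 : Real.exp (-|Real.log (f a)|) ≤ f a := by
      calc _ ≤ Real.exp (Real.log (f a)) := Real.exp_le_exp.mpr (neg_abs_le _)
        _ = f a := Real.exp_log ha
    rw [Real.exp_sub, div_le_iff₀ (Real.exp_pos _)]
    exact h4.trans (h2.trans h1)
  have hpl := low p m0 ms hm0 (hp1 m0)
  have hql := low q 0 ks hk0 (hq1 0)
  have hκl : Real.exp (-|al (s-1)|) ≤ κ := Real.exp_le_exp.mpr (neg_le_neg (le_abs_self _))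
  have hpK : Real.exp (-K - L * ms) ≤ p ms :=
    le_trans (Real.exp_le_exp.mpr (by
      have := abs_nonneg (Real.log (q 0)); have := abs_nonneg (al (s-1)); simp only [hK]; linarith)) hpl
  have hqK : Real.exp (-K - L * ks) ≤ q ks :=
    le_trans (Real.exp_le_exp.mpr (by
      have := abs_nonneg (Real.log (p m0)); have := abs_nonneg (al (s-1)); simp only [hK]; linarith)) hql
  have hBp : Real.exp (-K - L * ms) ≤ κ * p ms := by
    calc Real.exp (-K - L * ms)
        ≤ Real.exp (-|al (s-1)| + (-|Real.log (p m0)| - L * ms)) := Real.exp_le_exp.mpr (by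
          have := abs_nonneg (Real.log (q 0)); simp only [hK]; linarith)
      _ = Real.exp (-|al (s-1)|) * Real.exp (-|Real.log (p m0)| - L * ms) := Real.exp_add _ _
      _ ≤ κ * p ms := mul_le_mul hκl hpl (Real.exp_pos _).le hκpos.le
  have hBq : Real.exp (-K - L * ks) ≤ κ * q ks := by
    calc Real.exp (-K - L * ks)
        ≤ Real.exp (-|al (s-1)| + (-|Real.log (q 0)| - L * ks)) := Real.exp_le_exp.mpr (by
          have := abs_nonneg (Real.log (p m0)); simp only [hK]; linarith)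
      _ = Real.exp (-|al (s-1)|) * Real.exp (-|Real.log (q 0)| - L * ks) := Real.exp_add _ _
      _ ≤ κ * q ks := mul_le_mul hκl hql (Real.exp_pos _).le hκpos.le
  have hmsb : (ms:ℝ) ≤ L/5 + c1 := by
    have := abs_nonneg (Real.log (q 0)); have := abs_nonneg (al (s-1))
    simp only [hc1, hK]; linarith
  have hksb : (ks:ℝ) ≤ L/5 + c1 := by
    have := abs_nonneg (Real.log (p m0)); have := abs_nonneg (al (s-1))
    simp only [hc1, hK]; linarith
  set n : ℕ := ms + ks + 1 with hn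
  set t : ℤ → ℂ := fun j => w j * (starRingEnd ℂ) (u (j + n)) *
      (Real.exp (A j - A (j + n)) : ℂ) with ht
  have hnorm : ∀ j, ‖t j‖ = ‖w j‖ * ‖u (j+n)‖ * Real.exp (A j - A (j+n)) := by
    intro j
    simp only [ht, norm_mul, RCLike.norm_conj, Complex.norm_real, Real.norm_eq_abs,
      abs_of_pos (Real.exp_pos _)]
  set M : ℝ := κ * p ms * q ks with hM
  have hMpos : 0 < M := by positivity
  have hAs : A s = A (s-1) + al (s-1) := by have := hA (s-1); simpa using this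
  have hI : ∀ m k : ℕ, m + k + 1 = n → ‖t (s - 1 - m)‖ = κ * (p m * q k) := by
    intro m k hmk
    have e : s - 1 - (m:ℤ) + (n:ℤ) = s + k := by rw [← hmk]; push_cast; ring
    rw [hnorm, e]
    simp only [hp, hq, hκ, hRl, hRr]
    have e2 : Real.exp (A (s - 1 - m) - A (s + k)) = Real.exp (-(al (s-1))) *
        (Real.exp (-(A (s - 1) - A (s - 1 - m))) * Real.exp (-(A (s + k) - A s))) := by
      rw [← Real.exp_add, ← Real.exp_add]; congr 1; rw [hAs]; ring
    rw [e2]; ring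
  have hII : ∀ i : ℕ, ‖t (s + i)‖ ≤ M * Real.exp (-2 * ((i:ℝ) + ms + 1)) := by
    intro i
    have e : s + (i:ℤ) + (n:ℤ) = s + ((i + (ms + ks + 1) : ℕ) : ℤ) := by
      rw [hn]; push_cast; ring
    have hx := hnorm (s + i)
    rw [e] at hx
    have hX1 : ‖t (s + i)‖ ≤ Real.exp (Rr i) * q (i + (ms + ks + 1)) := by
      rw [hx]
      simp only [hq, hRr]
      have e2 : Real.exp (A (s + i) - A (s + ((i + (ms + ks + 1) : ℕ) : ℤ)))
          = Real.exp (A (s + i) - A s) * Real.exp (-(A (s + ((i + (ms + ks + 1) : ℕ) : ℤ)) - A s)) := by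
        rw [← Real.exp_add]; congr 1; ring
      rw [e2]
      have h1 := hw (s + i)
      have h2 : 0 ≤ ‖u (s + ((i + (ms + ks + 1) : ℕ) : ℤ))‖ * (Real.exp (A (s + i) - A s) *
          Real.exp (-(A (s + ((i + (ms + ks + 1) : ℕ) : ℤ)) - A s))) := by positivity
      have h3 := mul_le_mul_of_nonneg_right h1 h2
      rw [one_mul] at h3
      refine le_trans (le_of_eq ?_) (le_trans h3 (le_of_eq ?_)) <;> ring
    have hX2 : ‖t (s + i)‖ ≤ Real.exp (Rr i - Rr (i + (ms + ks + 1))) := by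
      rw [hx]
      simp only [hRr]
      have e2 : A (s + i) - A s - (A (s + ((i + (ms + ks + 1) : ℕ) : ℤ)) - A s)
          = A (s + i) - A (s + ((i + (ms + ks + 1) : ℕ) : ℤ)) := by ring
      rw [e2]
      have h1 := hw (s + i)
      have h2 := hu (s + ((i + (ms + ks + 1) : ℕ) : ℤ))
      have h3 : ‖w (s + i)‖ * ‖u (s + ((i + (ms + ks + 1) : ℕ) : ℤ))‖ ≤ 1 :=
        mul_le_one₀ h1 (norm_nonneg _) h2
      exact mul_le_of_le_one_left (Real.exp_pos _).le h3
    have := tail_bound rr Rr hRr0 hRrs c hgr _ hmr q hq0 L ks ms hq2 (κ * p ms) K c1 hqK hBp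
      (fun i hi => (hMr i hi).trans hLMr) hL2K hK0 hmsb hL4 i _ hX1 hX2
    simpa [hM] using this
  have hIII : ∀ i : ℕ, ‖t (s - 1 - ((i + n : ℕ) : ℤ))‖ ≤ M * Real.exp (-2 * ((i:ℝ) + ks + 1)) := by
    intro i
    have e : s - 1 - ((i + n : ℕ) : ℤ) + (n:ℤ) = s - 1 - i := by push_cast; ring
    have e0 : ((i + n : ℕ) : ℤ) = ((i + (ks + ms + 1) : ℕ) : ℤ) := by rw [hn]; push_cast; ring
    have hx := hnorm (s - 1 - ((i + n : ℕ) : ℤ))
    rw [e, e0] at hx
    rw [e0]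
    have hX1 : ‖t (s - 1 - ((i + (ks + ms + 1) : ℕ) : ℤ))‖ ≤ Real.exp (Rl i) * p (i + (ks + ms + 1)) := by
      rw [hx]
      simp only [hp, hRl]
      have e2 : Real.exp (A (s - 1 - ((i + (ks + ms + 1) : ℕ) : ℤ)) - A (s - 1 - i))
          = Real.exp (A (s - 1) - A (s - 1 - i)) *
            Real.exp (-(A (s - 1) - A (s - 1 - ((i + (ks + ms + 1) : ℕ) : ℤ)))) := by
        rw [← Real.exp_add]; congr 1; ring
      rw [e2]
      have h1 := hu (s - 1 - i)
      have h2 : 0 ≤ ‖w (s - 1 - ((i + (ks + ms + 1) : ℕ) : ℤ))‖ * (Real.exp (A (s - 1) - A (s - 1 - i)) *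
            Real.exp (-(A (s - 1) - A (s - 1 - ((i + (ks + ms + 1) : ℕ) : ℤ))))) := by positivity
      have h3 := mul_le_mul_of_nonneg_right h1 h2
      rw [one_mul] at h3
      refine le_trans (le_of_eq ?_) (le_trans h3 (le_of_eq ?_)) <;> ring
    have hX2 : ‖t (s - 1 - ((i + (ks + ms + 1) : ℕ) : ℤ))‖ ≤ Real.exp (Rl i - Rl (i + (ks + ms + 1))) := by
      rw [hx]
      simp only [hRl]
      have e2 : A (s - 1) - A (s - 1 - i) - (A (s - 1) - A (s - 1 - ((i + (ks + ms + 1) : ℕ) : ℤ)))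
          = A (s - 1 - ((i + (ks + ms + 1) : ℕ) : ℤ)) - A (s - 1 - i) := by ring
      rw [e2]
      have h1 := hw (s - 1 - ((i + (ks + ms + 1) : ℕ) : ℤ))
      have h2 := hu (s - 1 - i)
      have h3 : ‖w (s - 1 - ((i + (ks + ms + 1) : ℕ) : ℤ))‖ * ‖u (s - 1 - i)‖ ≤ 1 :=
        mul_le_one₀ h1 (norm_nonneg _) h2
      exact mul_le_of_le_one_left (Real.exp_pos _).le h3
    have := tail_bound rl Rl hRl0 hRls c hgl _ hml p hp0 L ms ks hp2 (κ * q ks) K c1 hpK hBq
      (fun i hi => (hMl i hi).trans hLMl) hL2K hK0 hksb hL4 i _ hX1 hX2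
    have e3 : κ * q ks * p ms = M := by simp only [hM]; ring
    rw [e3] at this
    exact this
  -- final
  have hz := horth n (by omega)
  set js : ℤ := s - 1 - ms with hjs
  have hre : ∑' d : ℤ, t (js + d) = 0 := by
    rw [← hz]; exact (Equiv.addLeft js).tsum_eq t
  refine dom (fun d => t (js + d)) M hMpos ?_ ?_ hre
  · have := hI ms ks rfl
    simp only [add_zero, hjs, this, hM]; ring
  · intro d hd
    show ‖t (js + d)‖ ≤ _
    by_cases c1' : s ≤ js + d
    · obtain ⟨i, hi⟩ := Int.eq_ofNat_of_zero_le (show 0 ≤ js + d - s by omega)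
      have e : js + d = s + i := by omega
      have ed : (d:ℝ) = (i:ℝ) + ms + 1 := by
        have : d = (i:ℤ) + ms + 1 := by omega
        rw [this]; push_cast; ring
      rw [e, ed, abs_of_nonneg (by positivity)]
      exact hII i
    · by_cases c2' : js + d + n ≤ s - 1
      · obtain ⟨i, hi⟩ := Int.eq_ofNat_of_zero_le (show 0 ≤ s - 1 - (js + d + n) by omega)
        have e : js + d = s - 1 - ((i + n : ℕ) : ℤ) := by push_cast; omega
        have ed : (d:ℝ) = -((i:ℝ) + ks + 1) := by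
          have : d = -((i:ℤ) + ks + 1) := by push_cast at e; omega
          rw [this]; push_cast; ring
        rw [e, ed, abs_neg, abs_of_nonneg (by positivity)]
        exact hIII i
      · obtain ⟨m, hm⟩ := Int.eq_ofNat_of_zero_le (show 0 ≤ s - 1 - (js + d) by omega)
        obtain ⟨k, hk⟩ := Int.eq_ofNat_of_zero_le (show 0 ≤ js + d + n - s by omega)
        have e : js + d = s - 1 - m := by omega
        have hmk : m + k + 1 = n := by omega
        have ed : (d:ℝ) = (ms:ℝ) - m := by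
          have : d = (ms:ℤ) - m := by omega
          rw [this]; push_cast; ring
        rw [e, ed, hI m k hmk]
        have h1 := typeI p q hp0 hq0 L ms ks hp1 hp2 hq1 hq2 m k (by omega)
        calc κ * (p m * q k) ≤ κ * (p ms * q ks * Real.exp (-2 * |(ms:ℝ) - m|)) :=
              mul_le_mul_of_nonneg_left h1 hκpos.le
          _ = _ := by simp only [hM]; ring

end Crest.Agent.S0150Aux.Key27
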