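import Mathlib

/-! S0150 (row 113, incomplete): abstract "Type II / Type III" tail bound of the bilateral Donoghue
key lemma (team note 427, sect. 2).  helper33. -/

set_option autoImplicit false

namespace Crest.Agent.S0150Aux.Key33

open Real

/-- window sum lower bound -/
lemma window_ge (g G : ℕ → ℝ) (hG : ∀ a, G (a+1) = G a + g a) (a : ℕ) (X : ℝ)
    (hX : ∀ i, a ≤ i → X ≤ g i) (n : ℕ) : (n:ℝ) * X ≤ G (a+n) - G a := by
  induction n with
  | zero => simp
  | succ n ih =>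
    have h1 := hG (a+n)
    have h2 := hX (a+n) (Nat.le_add_right _ _)
    have h3 : a + (n+1) = (a+n)+1 := by ring
    rw [h3, h1]; push_cast; linarith

lemma cum_le (g G : ℕ → ℝ) (hG0 : G 0 = 0) (hG : ∀ a, G (a+1) = G a + g a) (L : ℝ) (a : ℕ)
    (h : ∀ i, i < a → g i ≤ L) : G a ≤ L * a := by
  induction a with
  | zero => simp [hG0]
  | succ a ih =>
    have h1 := ih (fun i hi => h i (Nat.lt_succ_of_lt hi))
    have h2 := h a (Nat.lt_succ_self a)
    rw [hG]; push_cast; linarith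

theorem typeII (g G : ℕ → ℝ) (hG0 : G 0 = 0) (hG : ∀ a, G (a+1) = G a + g a)
    (c : ℝ) (hc : 0 ≤ c) (hg : ∀ i : ℕ, 10 * (i:ℝ) - c ≤ g i)
    (I0 : ℕ) (hmono : ∀ i, I0 ≤ i → g i ≤ g (i+1))
    (B : ℝ) (hB : ∀ i, i ≤ I0 → g i ≤ B)
    (q : ℕ → ℝ) (hq0 : ∀ k, 0 ≤ q k) (hq : ∀ k, q k ≤ exp (-(G k)))
    (L K : ℝ) (hK : 0 ≤ K) (hLB : B ≤ L) (hL : 10 * (K + c + 1) ≤ L)
    (ms ks : ℕ) (hms : 1 ≤ ms) (ps : ℝ)
    (h1 : ∀ k : ℕ, q k * exp ((L+2) * k) ≤ q ks * exp ((L+2) * ks))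
    (hps : exp (-K - L * ms + L) ≤ ps)
    (hpq : exp (-K - L * ((ms:ℝ) + ks) + L) ≤ ps * q ks)
    (h5 : 5 * (ms:ℝ) ≤ L + c + K) (a : ℕ) :
    exp (G a) * q (a + (ms + ks)) ≤ ps * q ks * exp (-2 * ((a:ℝ) + ms)) := by
  have hms' : (1:ℝ) ≤ ms := by exact_mod_cast hms
  by_cases hcase : ∀ i, i < a → g i ≤ L
  · have hGa := cum_le g G hG0 hG L a hcase
    have h2 := h1 (a + (ms + ks))
    have h3 : q (a + (ms+ks)) ≤ q ks * exp (-(L+2) * ((a:ℝ) + ms)) := by
      have hpos := exp_pos ((L+2) * ((a + (ms+ks) : ℕ):ℝ))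
      have h4 : q ks * exp ((L+2) * ks)
          = q ks * exp (-(L+2) * ((a:ℝ) + ms)) * exp ((L+2) * ((a + (ms+ks) : ℕ):ℝ)) := by
        rw [mul_assoc, ← exp_add]; congr 2; push_cast; ring
      rw [h4] at h2
      exact le_of_mul_le_mul_right h2 hpos
    have h5' : exp (-(L * ms)) ≤ ps := by
      refine le_trans (exp_le_exp.mpr ?_) hps
      linarith
    calc exp (G a) * q (a + (ms+ks))
        ≤ exp (L * a) * (q ks * exp (-(L+2) * ((a:ℝ) + ms))) :=
          mul_le_mul (exp_le_exp.mpr hGa) h3 (hq0 _) (exp_pos _).le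
      _ = exp (-(L * ms)) * q ks * exp (-2 * ((a:ℝ) + ms)) := by
          have : exp (L * a) * exp (-(L+2) * ((a:ℝ) + ms))
              = exp (-(L * ms)) * exp (-2 * ((a:ℝ) + ms)) := by
            rw [← exp_add, ← exp_add]; congr 1; ring
          calc exp (L * a) * (q ks * exp (-(L+2) * ((a:ℝ) + ms)))
              = q ks * (exp (L * a) * exp (-(L+2) * ((a:ℝ) + ms))) := by ring
            _ = _ := by rw [this]; ring
      _ ≤ ps * q ks * exp (-2 * ((a:ℝ) + ms)) := by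
          apply mul_le_mul_of_nonneg_right _ (exp_pos _).le
          exact mul_le_mul_of_nonneg_right h5' (hq0 _)
  · push Not at hcase
    obtain ⟨i0, hi0a, hi0⟩ := hcase
    have hI : I0 < i0 := by
      by_contra hcon
      have := hB i0 (not_lt.mp hcon)
      linarith
    have hmon : ∀ i, i0 ≤ i → g i0 ≤ g i := by
      intro i hi
      induction i, hi using Nat.le_induction with
      | base => exact le_rfl
      | succ i hi ih => exact ih.trans (hmono i (hI.le.trans hi))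
    have hgL : ∀ i, a ≤ i → L ≤ g i := fun i hi => (hi0.le).trans (hmon i (hi0a.le.trans hi))
    have key : K + L * ((ms:ℝ) + ks) - L + 2 * ((a:ℝ) + ms) ≤ G (a + (ms+ks)) - G a := by
      by_cases hb : 2 * ((a:ℝ) + ms) ≤ L - K
      · have := window_ge g G hG a L hgL (ms+ks)
        push_cast at this
        nlinarith
      · push Not at hb
        have hX : ∀ i, a ≤ i → L + (2 * (a:ℝ) + 2 + K) ≤ g i := by
          intro i hi
          have h6 := hg i
          have h7 : (a:ℝ) ≤ i := by exact_mod_cast hi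
          linarith
        have := window_ge g G hG a _ hX (ms+ks)
        have e1 : ((ms+ks : ℕ):ℝ) * (L + (2 * (a:ℝ) + 2 + K))
            = ((ms:ℝ)+ks)*L + ks*(2*(a:ℝ)+2+K) + ((ms:ℝ)-1)*(2*(a:ℝ)+K) + (2*(a:ℝ) + 2*ms + K) := by
          push_cast; ring
        have e2 : 0 ≤ (ks:ℝ)*(2*(a:ℝ)+2+K) := by positivity
        have e3 : 0 ≤ ((ms:ℝ)-1)*(2*(a:ℝ)+K) := by
          apply mul_nonneg (by linarith); positivity
        have hL0 : 0 ≤ L := by linarith
        rw [e1] at this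
        nlinarith
    calc exp (G a) * q (a + (ms+ks)) ≤ exp (G a) * exp (-(G (a + (ms+ks)))) :=
          mul_le_mul_of_nonneg_left (hq _) (exp_pos _).le
      _ = exp (G a - G (a + (ms+ks))) := by rw [← exp_add]; congr 1
      _ ≤ exp ((-K - L * ((ms:ℝ) + ks) + L) + (-2 * ((a:ℝ) + ms))) := by
          apply exp_le_exp.mpr; linarith
      _ = exp (-K - L * ((ms:ℝ) + ks) + L) * exp (-2 * ((a:ℝ) + ms)) := by rw [exp_add]
      _ ≤ ps * q ks * exp (-2 * ((a:ℝ) + ms)) :=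
          mul_le_mul_of_nonneg_right hpq (exp_pos _).le

end Crest.Agent.S0150Aux.Key33
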