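import Mathlib
import Crest.Agent.S0150Aux.Tilt39
import Crest.Agent.S0150Aux.TypeII33
import Crest.Agent.S0150Aux.Dom33

/-! S0150 (row 113, incomplete): the "bilateral Donoghue" key lemma (team note 427, sect. 2) in the
pure sequence form of note 948.  helper33. -/

set_option autoImplicit false
open scoped ComplexConjugate

namespace Crest.Agent.S0150Aux.Key33

open Real

theorem key (al A : ℤ → ℝ) (hA : ∀ j, A (j+1) = A j + al j) (C0 : ℝ)
    (hgrow : ∀ j : ℤ, 10 * |(j:ℝ)| - C0 ≤ al j) (J : ℤ)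
    (hR : ∀ j, J ≤ j → al j ≤ al (j+1)) (hL : ∀ j, j ≤ -J → al j ≤ al (j-1))
    (w u : ℤ → ℂ) (hw : ∀ j, ‖w j‖ ≤ 1) (hu : ∀ j, ‖u j‖ ≤ 1)
    (horth : ∀ n : ℕ, 1 ≤ n →
      ∑' j : ℤ, w j * conj (u (j + n)) * (Real.exp (A j - A (j + n)) : ℂ) = 0)
    (j0 s : ℤ) (h : j0 < s) (hwj : w j0 ≠ 0) (huk : u s ≠ 0) : False := by
  obtain ⟨g, hg⟩ : ∃ g : ℕ → ℝ, ∀ i, g i = al (s + i) := ⟨_, fun _ => rfl⟩
  obtain ⟨G, hG⟩ : ∃ G : ℕ → ℝ, ∀ a, G a = A (s + a) - A s := ⟨_, fun _ => rfl⟩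
  obtain ⟨Q, hQ⟩ : ∃ Q : ℕ → ℝ, ∀ k, Q k = ‖u (s + k)‖ * exp (-(G k)) := ⟨_, fun _ => rfl⟩
  obtain ⟨g', hg'⟩ : ∃ g' : ℕ → ℝ, ∀ i, g' i = al (s - 2 - i) := ⟨_, fun _ => rfl⟩
  obtain ⟨G', hG'⟩ : ∃ G' : ℕ → ℝ, ∀ a, G' a = A (s - 1) - A (s - 1 - a) := ⟨_, fun _ => rfl⟩
  obtain ⟨P, hP⟩ : ∃ P : ℕ → ℝ, ∀ m, P m = ‖w (s - 1 - m)‖ * exp (-(G' m)) := ⟨_, fun _ => rfl⟩
  obtain ⟨θ, hθ⟩ : ∃ θ : ℝ, θ = al (s - 1) := ⟨_, rfl⟩
  have hAs : A s = A (s - 1) + θ := by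
    have := hA (s - 1); rw [sub_add_cancel] at this; rw [this, hθ]
  have hG0 : G 0 = 0 := by rw [hG]; simp
  have hGs : ∀ a, G (a+1) = G a + g a := by
    intro a
    rw [hG, hG, hg]
    have := hA (s + a)
    have e : s + ((a+1 : ℕ):ℤ) = s + a + 1 := by push_cast; ring
    rw [e, this]; ring
  have hG'0 : G' 0 = 0 := by rw [hG']; simp
  have hG's : ∀ a, G' (a+1) = G' a + g' a := by
    intro a
    rw [hG', hG', hg']
    have := hA (s - 2 - a)
    have e : s - 1 - ((a+1 : ℕ):ℤ) = s - 2 - a := by push_cast; ring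
    have e2 : s - 2 - (a:ℤ) + 1 = s - 1 - a := by ring
    rw [e2] at this
    rw [e, this]; ring
  obtain ⟨c1, hc1⟩ : ∃ c1 : ℝ, c1 = 10 * (|(s:ℝ)| + 2) + |C0| := ⟨_, rfl⟩
  have hc1nn : 0 ≤ c1 := by rw [hc1]; positivity
  have hgc : ∀ i : ℕ, 10 * (i:ℝ) - c1 ≤ g i := by
    intro i
    rw [hg]
    have h1 := hgrow (s + i)
    push_cast at h1
    have h2 := le_abs_self ((s:ℝ) + i)
    have h3 := neg_abs_le (s:ℝ)
    have h4 := le_abs_self C0
    rw [hc1]; linarith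
  have hg'c : ∀ i : ℕ, 10 * (i:ℝ) - c1 ≤ g' i := by
    intro i
    rw [hg']
    have h1 := hgrow (s - 2 - i)
    push_cast at h1
    have h2 := neg_abs_le ((s:ℝ) - 2 - i)
    have h3 := le_abs_self (s:ℝ)
    have h4 := le_abs_self C0
    rw [hc1]; linarith
  have hP0 : ∀ m, 0 ≤ P m := fun m => by rw [hP]; positivity
  have hQ0 : ∀ m, 0 ≤ Q m := fun m => by rw [hQ]; positivity
  have hPle : ∀ m, P m ≤ exp (-(G' m)) := fun m => by
    rw [hP]; exact mul_le_of_le_one_left (exp_pos _).le (hw _)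
  have hQle : ∀ m, Q m ≤ exp (-(G m)) := fun m => by
    rw [hQ]; exact mul_le_of_le_one_left (exp_pos _).le (hu _)
  have hPt : ∀ m : ℕ, P m ≤ exp (-5 * (m:ℝ)^2 + (c1 + 5) * m) := fun m => by
    refine (hPle m).trans (exp_le_exp.mpr ?_)
    have := cum_ge g' G' hG'0 hG's c1 hg'c m
    linarith
  have hQt : ∀ m : ℕ, Q m ≤ exp (-5 * (m:ℝ)^2 + (c1 + 5) * m) := fun m => by
    refine (hQle m).trans (exp_le_exp.mpr ?_)
    have := cum_ge g G hG0 hGs c1 hgc m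
    linarith
  obtain ⟨m0, hm0⟩ : ∃ m0 : ℕ, s - 1 - (m0:ℤ) = j0 :=
    ⟨(s - 1 - j0).toNat, by rw [Int.toNat_of_nonneg (by omega)]; ring⟩
  have hPm0 : 0 < P m0 := by
    rw [hP, hm0]; exact mul_pos (norm_pos_iff.mpr hwj) (exp_pos _)
  have hQ00 : 0 < Q 0 := by
    rw [hQ]; simp only [Nat.cast_zero, add_zero]; exact mul_pos (norm_pos_iff.mpr huk) (exp_pos _)
  obtain ⟨K, hK⟩ : ∃ K : ℝ, K = |log (P m0)| + |log (Q 0)| + |θ| := ⟨_, rfl⟩
  have hKnn : 0 ≤ K := by rw [hK]; positivity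
  have hlP := neg_abs_le (log (P m0))
  have hlQ := neg_abs_le (log (Q 0))
  have hlθ := le_abs_self θ
  have haP := abs_nonneg (log (P m0))
  have haQ := abs_nonneg (log (Q 0))
  have haθ := abs_nonneg θ
  have hK1 : exp (-K) ≤ P m0 * exp (-θ) := by
    conv_rhs => rw [← exp_log hPm0, ← exp_add]
    apply exp_le_exp.mpr; rw [hK]; linarith
  have hK2 : exp (-K) ≤ Q 0 * exp (-θ) := by
    conv_rhs => rw [← exp_log hQ00, ← exp_add]
    apply exp_le_exp.mpr; rw [hK]; linarith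
  have hK3 : exp (-K) ≤ P m0 * Q 0 * exp (-θ) := by
    conv_rhs => rw [← exp_log hPm0, ← exp_log hQ00, ← exp_add, ← exp_add]
    apply exp_le_exp.mpr; rw [hK]; linarith
  -- monotonicity data
  obtain ⟨I0, hI0⟩ : ∃ I0 : ℕ, I0 = (J - s).toNat := ⟨_, rfl⟩
  obtain ⟨I0', hI0'⟩ : ∃ I0' : ℕ, I0' = (s - 2 + J).toNat := ⟨_, rfl⟩
  have hmono : ∀ i, I0 ≤ i → g i ≤ g (i+1) := by
    intro i hi
    rw [hg, hg]
    have h1 : J ≤ s + i := by
      have := Int.self_le_toNat (J - s)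
      omega
    have := hR (s + i) h1
    have e : s + ((i+1 : ℕ):ℤ) = s + i + 1 := by push_cast; ring
    rw [e]; exact this
  have hmono' : ∀ i, I0' ≤ i → g' i ≤ g' (i+1) := by
    intro i hi
    rw [hg', hg']
    have h1 : s - 2 - i ≤ -J := by
      have := Int.self_le_toNat (s - 2 + J)
      omega
    have := hL (s - 2 - i) h1
    have e : s - 2 - ((i+1 : ℕ):ℤ) = s - 2 - i - 1 := by push_cast; ring
    rw [e]; exact this
  obtain ⟨B, hB⟩ : ∃ B : ℝ, ∀ i, i ≤ I0 → g i ≤ B :=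
    ⟨∑ i ∈ Finset.range (I0+1), |g i|, fun i hi => (le_abs_self _).trans
      (Finset.single_le_sum (f := fun i => |g i|) (fun _ _ => abs_nonneg _)
        (Finset.mem_range.mpr (by omega)))⟩
  obtain ⟨B', hB'⟩ : ∃ B' : ℝ, ∀ i, i ≤ I0' → g' i ≤ B' :=
    ⟨∑ i ∈ Finset.range (I0'+1), |g' i|, fun i hi => (le_abs_self _).trans
      (Finset.single_le_sum (f := fun i => |g' i|) (fun _ _ => abs_nonneg _)
        (Finset.mem_range.mpr (by omega)))⟩
  obtain ⟨L, Ms, Ks, hL0, hPs, hQs, hPL, hPL2, hQL, hQL2, h5P, h5Q⟩ :=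
    Tilt39.exists_stable_tilt P Q (c1 + 5) hPt hQt m0 0 hPm0 hQ00
      (max (max B B') (10 * (K + (c1 + 10) + 1)))
  have hLB : B ≤ L := le_trans (le_trans (le_max_left _ _) (le_max_left _ _)) hL0
  have hLB' : B' ≤ L := le_trans (le_trans (le_max_right _ _) (le_max_left _ _)) hL0
  have hLK : 10 * (K + (c1 + 10) + 1) ≤ L := le_trans (le_max_right _ _) hL0
  have hLnn : 0 ≤ L := by linarith
  have hPlow : P m0 * exp (-(L * Ms)) ≤ P Ms := by
    have h1 : P m0 ≤ P Ms * exp (L * Ms) := by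
      refine le_trans ?_ (hPL m0)
      have : (1:ℝ) ≤ exp (L * m0) := one_le_exp (by positivity)
      nlinarith
    calc P m0 * exp (-(L * Ms)) ≤ (P Ms * exp (L * Ms)) * exp (-(L * Ms)) :=
          mul_le_mul_of_nonneg_right h1 (exp_pos _).le
      _ = P Ms := by rw [mul_assoc, ← exp_add]; simp
  have hQlow : Q 0 * exp (-(L * Ks)) ≤ Q Ks := by
    have h1 : Q 0 ≤ Q Ks * exp (L * Ks) := by
      have := hQL 0
      simpa using this
    calc Q 0 * exp (-(L * Ks)) ≤ (Q Ks * exp (L * Ks)) * exp (-(L * Ks)) :=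
          mul_le_mul_of_nonneg_right h1 (exp_pos _).le
      _ = Q Ks := by rw [mul_assoc, ← exp_add]; simp
  have hpq : exp (-K) * exp (-(L * Ms)) * exp (-(L * Ks)) ≤ P Ms * Q Ks * exp (-θ) := by
    calc exp (-K) * exp (-(L * Ms)) * exp (-(L * Ks))
        ≤ (P m0 * Q 0 * exp (-θ)) * exp (-(L * Ms)) * exp (-(L * Ks)) := by
          gcongr
      _ = (P m0 * exp (-(L * Ms))) * (Q 0 * exp (-(L * Ks))) * exp (-θ) := by ring
      _ ≤ P Ms * Q Ks * exp (-θ) := by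
          gcongr
  -- Type II and III
  have hII := typeII g G hG0 hGs (c1 + 10) (by linarith) (fun i => by have := hgc i; linarith)
    I0 hmono B hB Q hQ0 hQle L K hKnn hLB hLK (Ms + 1) Ks (by omega) (P Ms * exp (-θ)) hQL2
    (by
      have e : -K - L * ((Ms + 1 : ℕ):ℝ) + L = -K + -(L * Ms) := by push_cast; ring
      rw [e, exp_add]
      calc exp (-K) * exp (-(L * Ms)) ≤ (P m0 * exp (-θ)) * exp (-(L * Ms)) := by gcongr
        _ = (P m0 * exp (-(L * Ms))) * exp (-θ) := by ring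
        _ ≤ P Ms * exp (-θ) := by gcongr)
    (by
      have e : -K - L * (((Ms + 1 : ℕ):ℝ) + Ks) + L = -K + -(L * Ms) + -(L * Ks) := by
        push_cast; ring
      rw [e, exp_add, exp_add]
      calc exp (-K) * exp (-(L * Ms)) * exp (-(L * Ks)) ≤ P Ms * Q Ks * exp (-θ) := hpq
        _ = P Ms * exp (-θ) * Q Ks := by ring)
    (by push_cast; rw [hK]; linarith)
  have hIII := typeII g' G' hG'0 hG's (c1 + 10) (by linarith) (fun i => by have := hg'c i; linarith)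
    I0' hmono' B' hB' P hP0 hPle L K hKnn hLB' hLK (Ks + 1) Ms (by omega) (Q Ks * exp (-θ)) hPL2
    (by
      have e : -K - L * ((Ks + 1 : ℕ):ℝ) + L = -K + -(L * Ks) := by push_cast; ring
      rw [e, exp_add]
      calc exp (-K) * exp (-(L * Ks)) ≤ (Q 0 * exp (-θ)) * exp (-(L * Ks)) := by gcongr
        _ = (Q 0 * exp (-(L * Ks))) * exp (-θ) := by ring
        _ ≤ Q Ks * exp (-θ) := by gcongr)
    (by
      have e : -K - L * (((Ks + 1 : ℕ):ℝ) + Ms) + L = -K + -(L * Ms) + -(L * Ks) := by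
        push_cast; ring
      rw [e, exp_add, exp_add]
      calc exp (-K) * exp (-(L * Ms)) * exp (-(L * Ks)) ≤ P Ms * Q Ks * exp (-θ) := hpq
        _ = Q Ks * exp (-θ) * P Ms := by ring)
    (by push_cast; rw [hK]; linarith)
  -- Type I
  have hIp : ∀ D r : ℕ, Ms = D + r → P r * Q (Ks + D) ≤ P Ms * Q Ks * exp (-2 * (D:ℝ)) := by
    intro D r hr
    have hr' : (Ms:ℝ) = D + r := by exact_mod_cast hr
    have h1 := tilt_le _ _ _ _ _ (hPL r)
    have h2 := tilt_le _ _ _ _ _ (hQL2 (Ks + D))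
    calc P r * Q (Ks + D)
        ≤ (P Ms * exp (L * ((Ms:ℝ) - r))) * (Q Ks * exp ((L + 2) * ((Ks:ℝ) - ((Ks + D : ℕ):ℝ)))) :=
          mul_le_mul h1 h2 (hQ0 _) (by positivity)
      _ = P Ms * Q Ks * (exp (L * ((Ms:ℝ) - r)) * exp ((L + 2) * ((Ks:ℝ) - ((Ks + D : ℕ):ℝ)))) := by
          ring
      _ = P Ms * Q Ks * exp (-2 * (D:ℝ)) := by
          rw [← exp_add]; congr 2; rw [hr']; push_cast; ring
  have hIn : ∀ D r : ℕ, Ks = D + r → P (Ms + D) * Q r ≤ P Ms * Q Ks * exp (-2 * (D:ℝ)) := by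
    intro D r hr
    have hr' : (Ks:ℝ) = D + r := by exact_mod_cast hr
    have h1 := tilt_le _ _ _ _ _ (hPL2 (Ms + D))
    have h2 := tilt_le _ _ _ _ _ (hQL r)
    calc P (Ms + D) * Q r
        ≤ (P Ms * exp ((L + 2) * ((Ms:ℝ) - ((Ms + D : ℕ):ℝ)))) * (Q Ks * exp (L * ((Ks:ℝ) - r))) :=
          mul_le_mul h1 h2 (hQ0 _) (by positivity)
      _ = P Ms * Q Ks * (exp ((L + 2) * ((Ms:ℝ) - ((Ms + D : ℕ):ℝ))) * exp (L * ((Ks:ℝ) - r))) := by
          ring
      _ = P Ms * Q Ks * exp (-2 * (D:ℝ)) := by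
          rw [← exp_add]; congr 2; rw [hr']; push_cast; ring
  -- the series
  obtain ⟨N, hN⟩ : ∃ N : ℕ, N = Ms + Ks + 1 := ⟨_, rfl⟩
  obtain ⟨t, ht⟩ : ∃ t : ℤ → ℂ, ∀ j, t j = w j * conj (u (j + N)) * (Real.exp (A j - A (j + N)) : ℂ) :=
    ⟨_, fun _ => rfl⟩
  have hT : ∀ j, ‖t j‖ = ‖w j‖ * ‖u (j + N)‖ * exp (A j - A (j + N)) := by
    intro j
    rw [ht, norm_mul, norm_mul, RCLike.norm_conj, Complex.norm_real, Real.norm_eq_abs,
      abs_of_pos (exp_pos _)]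
  have tI : ∀ (j : ℤ) (m k : ℕ), j = s - 1 - m → j + N = s + k →
      ‖t j‖ = P m * Q k * exp (-θ) := by
    intro j m k h1 h2
    rw [hT, h2, h1, hP, hQ, hG, hG', hAs]
    have : exp (A (s - 1 - m) - A (s + k))
        = exp (-(A (s - 1) - A (s - 1 - m))) * exp (-(A (s + k) - (A (s - 1) + θ))) * exp (-θ) := by
      rw [← exp_add, ← exp_add]; congr 1; ring
    rw [this]; ring
  have tII : ∀ (j : ℤ) (a b : ℕ), j = s + a → j + N = s + b → ‖t j‖ ≤ exp (G a) * Q b := by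
    intro j a b h1 h2
    rw [hT, h2, h1, hQ, hG, hG]
    have : exp (A (s + a) - A (s + b)) = exp (A (s + a) - A s) * exp (-(A (s + b) - A s)) := by
      rw [← exp_add]; congr 1; ring
    rw [this]
    have h3 := hw (s + a)
    have h4 : 0 ≤ ‖u (s + b)‖ * (exp (A (s + a) - A s) * exp (-(A (s + b) - A s))) := by positivity
    nlinarith
  have tIII : ∀ (j : ℤ) (a b : ℕ), j + N = s - 1 - a → j = s - 1 - b →
      ‖t j‖ ≤ exp (G' a) * P b := by
    intro j a b h1 h2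
    rw [hT, h1, h2, hP, hG', hG']
    have : exp (A (s - 1 - b) - A (s - 1 - a))
        = exp (A (s - 1) - A (s - 1 - a)) * exp (-(A (s - 1) - A (s - 1 - b))) := by
      rw [← exp_add]; congr 1; ring
    rw [this]
    have h3 := hu (s - 1 - a)
    have h4 : 0 ≤ ‖w (s - 1 - b)‖ *
        (exp (A (s - 1) - A (s - 1 - a)) * exp (-(A (s - 1) - A (s - 1 - b)))) := by positivity
    nlinarith
  have hmain : 0 < P Ms * Q Ks * exp (-θ) := by positivity
  have hne := dominant_ne_zero (fun d => t (s - 1 - Ms + d)) (P Ms * Q Ks * exp (-θ)) hmain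
    (by
      have := tI (s - 1 - Ms + 0) Ms Ks (by ring) (by rw [hN]; push_cast; ring)
      exact this.ge)
    (by
      intro e
      refine le_trans ?_ (mul_le_mul_of_nonneg_left (exp_neg_two_mul_le e) hmain.le)
      rcases le_or_gt (e + 1) Ms with hle | hgt
      · obtain ⟨r, hr⟩ := Nat.exists_eq_add_of_le hle
        have h1 := tI (s - 1 - Ms + ((e:ℤ) + 1)) r (Ks + (e + 1)) (by omega) (by omega)
        show ‖t (s - 1 - Ms + ((e:ℤ) + 1))‖ ≤ _
        rw [h1]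
        have h2 := hIp (e + 1) r hr
        calc P r * Q (Ks + (e + 1)) * exp (-θ)
            ≤ (P Ms * Q Ks * exp (-2 * ((e + 1 : ℕ):ℝ))) * exp (-θ) := by gcongr
          _ = _ := by ring
      · obtain ⟨a, ha⟩ := Nat.exists_eq_add_of_le (Nat.succ_le_of_lt hgt)
        have h1 := tII (s - 1 - Ms + ((e:ℤ) + 1)) a (a + (Ms + 1 + Ks)) (by omega) (by omega)
        show ‖t (s - 1 - Ms + ((e:ℤ) + 1))‖ ≤ _
        refine h1.trans ((hII a).trans (le_of_eq ?_))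
        have e3 : ((e + 1 : ℕ):ℝ) = (a:ℝ) + ((Ms + 1 : ℕ):ℝ) := by
          have : e + 1 = a + (Ms + 1) := by omega
          exact_mod_cast this
        rw [e3]; ring)
    (by
      intro e
      refine le_trans ?_ (mul_le_mul_of_nonneg_left (exp_neg_two_mul_le e) hmain.le)
      rcases le_or_gt (e + 1) Ks with hle | hgt
      · obtain ⟨r, hr⟩ := Nat.exists_eq_add_of_le hle
        have h1 := tI (s - 1 - Ms + (-((e:ℤ) + 1))) (Ms + (e + 1)) r (by omega) (by omega)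
        show ‖t (s - 1 - Ms + (-((e:ℤ) + 1)))‖ ≤ _
        rw [h1]
        have h2 := hIn (e + 1) r hr
        calc P (Ms + (e + 1)) * Q r * exp (-θ)
            ≤ (P Ms * Q Ks * exp (-2 * ((e + 1 : ℕ):ℝ))) * exp (-θ) := by gcongr
          _ = _ := by ring
      · obtain ⟨a, ha⟩ := Nat.exists_eq_add_of_le (Nat.succ_le_of_lt hgt)
        have h1 := tIII (s - 1 - Ms + (-((e:ℤ) + 1))) a (a + (Ks + 1 + Ms)) (by omega) (by omega)
        show ‖t (s - 1 - Ms + (-((e:ℤ) + 1)))‖ ≤ _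
        refine h1.trans ((hIII a).trans (le_of_eq ?_))
        have e3 : ((e + 1 : ℕ):ℝ) = (a:ℝ) + ((Ks + 1 : ℕ):ℝ) := by
          have : e + 1 = a + (Ks + 1) := by omega
          exact_mod_cast this
        rw [e3]; ring)
  apply hne
  have h1 := (Equiv.addLeft (s - 1 - (Ms:ℤ))).tsum_eq t
  have h2 := horth N (by omega)
  simp only [Equiv.coe_addLeft] at h1
  rw [h1]
  rw [← h2]
  exact tsum_congr ht

end Crest.Agent.S0150Aux.Key33
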