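import Mathlib

/-!
Pieces of the "bilateral Donoghue" key lemma (team note 427, sect. 2):
* `no_dominant`: a series over `ℤ` with one dominating term cannot vanish;
* half-line cost lemmas and the abstract tail bound (types II and III).
-/

set_option autoImplicit false

namespace Crest.Agent.S0150Aux.Key39

theorem no_dominant (F : ℤ → ℂ) (P : ℝ) (hP : 0 < P) (h0 : ‖F 0‖ = P)
    (hb : ∀ d : ℤ, d ≠ 0 → ‖F d‖ ≤ P * Real.exp (-2 * (d.natAbs : ℝ)))
    (hs : ∑' d, F d = 0) : False := by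
  set r : ℝ := Real.exp (-2) with hr
  have hr0 : 0 < r := Real.exp_pos _
  have hr3 : 3 * r < 1 := by
    have h1 : (2:ℝ) + 1 < Real.exp 2 := Real.add_one_lt_exp (by norm_num)
    have h2 : r * Real.exp 2 = 1 := by rw [hr, ← Real.exp_add]; simp
    nlinarith
  have hr1 : r < 1 := by linarith
  have hexp : ∀ k : ℕ, Real.exp (-2 * (k:ℝ)) = r ^ k := by
    intro k
    rw [hr, ← Real.exp_nat_mul]
    ring_nf
  set g : ℤ → ℝ := fun d => if d = 0 then 0 else P * r ^ d.natAbs with hg
  have hgeo : HasSum (fun n : ℕ => P * r ^ (n + 1)) (P * (r / (1 - r))) := by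
    have := (hasSum_geometric_of_lt_one hr0.le hr1).mul_left (P * r)
    have e1 : (fun n : ℕ => P * r ^ (n + 1)) = fun i : ℕ => P * r * r ^ i := by
      funext n; ring
    have e2 : P * (r / (1 - r)) = P * r * (1 - r)⁻¹ := by
      rw [div_eq_mul_inv]; ring
    rw [e1, e2]
    exact this
  have hg1 : HasSum (fun n : ℕ => g n) (P * (r / (1 - r))) := by
    have h1 : HasSum (fun n : ℕ => g ((n + 1 : ℕ) : ℤ)) (P * (r / (1 - r))) := by
      convert hgeo using 1
      funext n
      have : ((n + 1 : ℕ) : ℤ) ≠ 0 := by omega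
      simp only [hg, this, if_false, Int.natAbs_natCast]
    have h2 := (hasSum_nat_add_iff (f := fun n : ℕ => g n) 1).mp h1
    simpa [hg] using h2
  have hg2 : HasSum (fun n : ℕ => g (-((n : ℤ) + 1))) (P * (r / (1 - r))) := by
    convert hgeo using 1
    funext n
    have h1 : (-((n : ℤ) + 1)) ≠ 0 := by omega
    have h2 : (-((n : ℤ) + 1)).natAbs = n + 1 := by omega
    simp only [hg, h1, if_false, h2]
  have hgs : HasSum g (P * (r / (1 - r)) + P * (r / (1 - r))) :=
    HasSum.of_nat_of_neg_add_one hg1 hg2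
  set F' : ℤ → ℂ := fun d => if d = 0 then 0 else F d with hF'
  have hF'b : ∀ d, ‖F' d‖ ≤ g d := by
    intro d
    by_cases hd : d = 0
    · simp [hF', hg, hd]
    · simp only [hF', hg, hd, if_false]
      rw [← hexp]
      exact hb d hd
  have hF's : Summable F' := Summable.of_norm_bounded hgs.summable hF'b
  have hsum : HasSum F (∑' d, F' d + F 0) := by
    have h1 := hF's.hasSum.add (hasSum_ite_eq (0:ℤ) (F 0))
    convert h1 using 1
    funext d
    by_cases hd : d = 0
    · simp [hF', hd]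
    · simp [hF', hd]
  have h1 : ∑' d, F' d + F 0 = 0 := by rw [← hsum.tsum_eq, hs]
  have h2 : ‖∑' d, F' d‖ ≤ P * (r / (1 - r)) + P * (r / (1 - r)) :=
    tsum_of_norm_bounded hgs hF'b
  have h3 : F 0 = - ∑' d, F' d := by
    rw [eq_neg_iff_add_eq_zero, add_comm]; exact h1
  have h4 : P ≤ P * (r / (1 - r)) + P * (r / (1 - r)) := by
    rw [← h0, h3, norm_neg]; rw [← h0, h3, norm_neg] at h2; exact h2
  have h5 : r / (1 - r) < 1 / 2 := by
    rw [div_lt_div_iff₀ (by linarith) (by norm_num)]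
    linarith
  nlinarith

section halfline

variable (a AA : ℕ → ℝ) (hAA : ∀ k, AA (k + 1) = AA k + a k)

include hAA in
theorem window_ge (T : ℝ) (j : ℕ) (h : ∀ i, j ≤ i → T ≤ a i) (n : ℕ) :
    T * n ≤ AA (j + n) - AA j := by
  induction n with
  | zero => simp
  | succ n ih =>
    have h1 := hAA (j + n)
    have h2 := h (j + n) (by omega)
    have h3 : j + (n + 1) = j + n + 1 := by omega
    rw [h3, h1]
    push_cast
    linarith

include hAA in
theorem prefix_le (hAA0 : AA 0 = 0) (L : ℝ) (j : ℕ) (h : ∀ i, i < j → a i ≤ L) : AA j ≤ L * j := by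
  induction j with
  | zero => simp [hAA0]
  | succ j ih =>
    have h1 := hAA j
    have h2 := h j (by omega)
    have h3 := ih (fun i hi => h i (by omega))
    rw [h1]
    push_cast
    linarith

include hAA in
theorem dichotomy (hAA0 : AA 0 = 0) (J : ℕ) (hmono : ∀ i, J ≤ i → a i ≤ a (i + 1)) (L : ℝ)
    (hL : ∀ i, i < J → a i ≤ L) (j n : ℕ) : AA j ≤ L * j ∨ L * n ≤ AA (j + n) - AA j := by
  by_cases h : ∀ i, i < j → a i ≤ L
  · exact Or.inl (prefix_le a AA hAA hAA0 L j h)
  · right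
    push Not at h
    obtain ⟨i, hij, hi⟩ := h
    have hJi : J ≤ i := by
      by_contra hc
      exact absurd (hL i (by omega)) (not_le.mpr hi)
    have hm : ∀ i', i ≤ i' → a i ≤ a i' := by
      intro i' hi'
      induction i', hi' using Nat.le_induction with
      | base => exact le_rfl
      | succ k hk ih => exact le_trans ih (hmono k (by omega))
    exact window_ge a AA hAA L j (fun i' hi' => le_trans hi.le (hm i' (by omega))) n

include hAA in
/-- abstract tail bound (types II and III of note 427) -/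
theorem tail_bound (hAA0 : AA 0 = 0) (C : ℝ) (hgrow : ∀ i : ℕ, 10 * (i:ℝ) - C ≤ a i)
    (J : ℕ) (hmono : ∀ i, J ≤ i → a i ≤ a (i + 1)) (L : ℝ) (hL : ∀ i, i < J → a i ≤ L)
    (j n μ : ℕ) (hμn : μ ≤ n) (hn1 : 1 ≤ n) (D c' : ℝ) (hDL : D ≤ L) (hμ : 5 * (μ:ℝ) ≤ L + c')
    (hbig : 4 * D + 1.6 * c' + C + 2 ≤ 1.4 * L)
    (T X Y : ℝ)
    (Ha : AA j ≤ L * j → T ≤ X * Y * Real.exp (-2 * ((j + μ : ℕ) : ℝ)))
    (Hb : T ≤ Real.exp (-(AA (j + n) - AA j)))
    (HXY : Real.exp (-D + L - L * n) ≤ X * Y) :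
    T ≤ X * Y * Real.exp (-2 * ((j + μ : ℕ) : ℝ)) := by
  have key : ∀ E : ℝ, L * n - L + D + 2 * ((j + μ : ℕ) : ℝ) ≤ E → Real.exp (-E) ≤
      X * Y * Real.exp (-2 * ((j + μ : ℕ) : ℝ)) := by
    intro E hE
    calc Real.exp (-E) ≤ Real.exp ((-D + L - L * n) + (-2 * ((j + μ : ℕ) : ℝ))) :=
          Real.exp_le_exp.mpr (by linarith)
      _ = Real.exp (-D + L - L * n) * Real.exp (-2 * ((j + μ : ℕ) : ℝ)) := Real.exp_add _ _
      _ ≤ X * Y * Real.exp (-2 * ((j + μ : ℕ) : ℝ)) :=
          mul_le_mul_of_nonneg_right HXY (Real.exp_pos _).le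
  have hcast : ((j + μ : ℕ) : ℝ) = (j:ℝ) + μ := by push_cast; ring
  by_cases hsmall : 2 * ((j + μ : ℕ) : ℝ) ≤ L - D
  · rcases dichotomy a AA hAA hAA0 J hmono L hL j n with h | h
    · exact Ha h
    · exact le_trans Hb (key _ (by linarith))
  · push Not at hsmall
    rw [hcast] at hsmall
    have h8 : L + C + 2 ≤ 8 * (j:ℝ) := by linarith
    have hw := window_ge a AA hAA (L + 2 * j + 2) j (fun i hi => by
      have h1 := hgrow i
      have h2 : (j:ℝ) ≤ i := by exact_mod_cast hi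
      linarith) n
    refine le_trans Hb (key _ ?_)
    rw [hcast]
    have hn1' : (1:ℝ) ≤ n := by exact_mod_cast hn1
    have hμn' : (μ:ℝ) ≤ n := by exact_mod_cast hμn
    have hj0 : (0:ℝ) ≤ j := by positivity
    nlinarith

end halfline

end Crest.Agent.S0150Aux.Key39
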