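import Mathlib
import Crest.Agent.S0150Aux.Tilt39
import Crest.Agent.S0150Aux.Key39a

/-!
The "bilateral Donoghue" key lemma (team note 427, sect. 2), sequence form.
-/

set_option autoImplicit false
open scoped ComplexConjugate

namespace Crest.Agent.S0150Aux.Key39

theorem tilt_le (x y e1 e2 : ℝ) (h : x * Real.exp e1 ≤ y * Real.exp e2) :
    x ≤ y * Real.exp (e2 - e1) := by
  have h1 : x = x * Real.exp e1 * Real.exp (-e1) := by
    rw [mul_assoc, ← Real.exp_add]; simp
  rw [h1, sub_eq_add_neg, Real.exp_add, ← mul_assoc]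
  exact mul_le_mul_of_nonneg_right h (Real.exp_pos _).le

theorem exp_neg_abs_log_le (x : ℝ) (hx : 0 < x) : Real.exp (-|Real.log x|) ≤ x := by
  calc Real.exp (-|Real.log x|) ≤ Real.exp (Real.log x) :=
        Real.exp_le_exp.mpr (neg_abs_le _)
    _ = x := Real.exp_log hx

set_option maxHeartbeats 4000000 in
theorem key_centered (al A : ℤ → ℝ) (hA : ∀ j, A (j + 1) = A j + al j) (C : ℝ)
    (hgrow : ∀ j : ℤ, 10 * |(j:ℝ)| - C ≤ al j) (J : ℕ)
    (hR : ∀ j : ℤ, (J:ℤ) ≤ j → al j ≤ al (j + 1))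
    (hL : ∀ j : ℤ, j ≤ -(J:ℤ) → al j ≤ al (j - 1))
    (w u : ℤ → ℂ) (hw : ∀ j, ‖w j‖ ≤ 1) (hu : ∀ j, ‖u j‖ ≤ 1)
    (horth : ∀ n : ℕ, 1 ≤ n →
      ∑' j : ℤ, w j * conj (u (j + n)) * (Real.exp (A j - A (j + n)) : ℂ) = 0)
    (m0 k0 : ℕ) (hm0 : 1 ≤ m0) (hwj : w (-(m0:ℤ)) ≠ 0) (huk : u (k0:ℤ) ≠ 0) : False := by
  -- half-line data
  set a : ℕ → ℝ := fun i => al (i:ℤ) with ha
  set AA : ℕ → ℝ := fun k => A (k:ℤ) - A 0 with hAAdef
  set a' : ℕ → ℝ := fun i => al (-2 - (i:ℤ)) with ha'
  set AA' : ℕ → ℝ := fun k => A (-1) - A (-1 - (k:ℤ)) with hAA'def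
  have hAA : ∀ k, AA (k + 1) = AA k + a k := by
    intro k
    have := hA (k:ℤ)
    simp only [hAAdef, ha]
    push_cast
    rw [this]; ring
  have hAA0 : AA 0 = 0 := by simp [hAAdef]
  have hAA' : ∀ k, AA' (k + 1) = AA' k + a' k := by
    intro k
    have := hA (-2 - (k:ℤ))
    have e : (-2 - (k:ℤ) + 1) = -1 - (k:ℤ) := by ring
    rw [e] at this
    simp only [hAA'def, ha']
    have e2 : (-1 - ((k + 1 : ℕ) : ℤ)) = -2 - (k:ℤ) := by push_cast; ring
    rw [e2, this]; ring
  have hAA'0 : AA' 0 = 0 := by simp [hAA'def]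
  set c : ℝ := |C| + 5 with hc
  have hCc : C + 5 ≤ c := by have := le_abs_self C; linarith
  have hC0 : 0 ≤ |C| := abs_nonneg C
  -- quadratic growth
  have hA1 : ∀ k : ℕ, 5 * (k:ℝ)^2 - c * k ≤ A (k:ℤ) - A 0 := by
    intro k
    induction k with
    | zero => simp
    | succ k ih =>
      have h1 := hA (k:ℤ)
      have h2 := hgrow (k:ℤ)
      have h3 : |((k:ℤ):ℝ)| = (k:ℝ) := by simp
      rw [h3] at h2
      push_cast
      rw [h1]
      nlinarith
  have hA2 : ∀ m : ℕ, 5 * (m:ℝ)^2 - c * m ≤ A 0 - A (-(m:ℤ)) := by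
    intro m
    induction m with
    | zero => simp
    | succ m ih =>
      have h1 := hA (-((m:ℤ) + 1))
      have e : (-((m:ℤ) + 1) + 1) = -(m:ℤ) := by ring
      rw [e] at h1
      have h2 := hgrow (-((m:ℤ) + 1))
      have h3 : |((-((m:ℤ) + 1) : ℤ) : ℝ)| = (m:ℝ) + 1 := by
        push_cast
        rw [abs_neg, abs_of_nonneg (by positivity)]
      rw [h3] at h2
      push_cast
      nlinarith
  -- the two sequences
  set p : ℕ → ℝ := fun m => if m = 0 then 0 else ‖w (-(m:ℤ))‖ * Real.exp (A (-(m:ℤ)) - A 0) with hpdef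
  set q : ℕ → ℝ := fun k => ‖u (k:ℤ)‖ * Real.exp (A 0 - A (k:ℤ)) with hqdef
  have hp : ∀ m : ℕ, p m ≤ Real.exp (-5 * (m:ℝ)^2 + c * m) := by
    intro m
    by_cases hm : m = 0
    · simp only [hpdef, hm, if_true]; exact (Real.exp_pos _).le
    · simp only [hpdef, hm, if_false]
      calc ‖w (-(m:ℤ))‖ * Real.exp (A (-(m:ℤ)) - A 0) ≤ 1 * Real.exp (A (-(m:ℤ)) - A 0) :=
            mul_le_mul_of_nonneg_right (hw _) (Real.exp_pos _).le
        _ = Real.exp (A (-(m:ℤ)) - A 0) := one_mul _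
        _ ≤ _ := Real.exp_le_exp.mpr (by have := hA2 m; linarith)
  have hq : ∀ k : ℕ, q k ≤ Real.exp (-5 * (k:ℝ)^2 + c * k) := by
    intro k
    simp only [hqdef]
    calc ‖u (k:ℤ)‖ * Real.exp (A 0 - A (k:ℤ)) ≤ 1 * Real.exp (A 0 - A (k:ℤ)) :=
          mul_le_mul_of_nonneg_right (hu _) (Real.exp_pos _).le
      _ = Real.exp (A 0 - A (k:ℤ)) := one_mul _
      _ ≤ _ := Real.exp_le_exp.mpr (by have := hA1 k; linarith)
  have hpm0 : 0 < p m0 := by
    have : m0 ≠ 0 := by omega
    simp only [hpdef, this, if_false]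
    exact mul_pos (norm_pos_iff.mpr hwj) (Real.exp_pos _)
  have hqk0 : 0 < q k0 := mul_pos (norm_pos_iff.mpr huk) (Real.exp_pos _)
  set Cw : ℝ := |Real.log (p m0)| with hCw
  set Cu : ℝ := |Real.log (q k0)| with hCu
  have hCw0 : 0 ≤ Cw := abs_nonneg _
  have hCu0 : 0 ≤ Cu := abs_nonneg _
  set D : ℝ := Cw + Cu with hD
  set c' : ℝ := c + D + 5 with hc'
  set BR : ℝ := ∑ i ∈ Finset.range J, |a i| with hBR
  set BL : ℝ := ∑ i ∈ Finset.range J, |a' i| with hBL
  have hBR0 : 0 ≤ BR := Finset.sum_nonneg (fun _ _ => abs_nonneg _)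
  have hBL0 : 0 ≤ BL := Finset.sum_nonneg (fun _ _ => abs_nonneg _)
  have hBRi : ∀ i, i < J → a i ≤ BR := fun i hi =>
    le_trans (le_abs_self _) (Finset.single_le_sum (f := fun i => |a i|)
      (fun _ _ => abs_nonneg _) (Finset.mem_range.mpr hi))
  have hBLi : ∀ i, i < J → a' i ≤ BL := fun i hi =>
    le_trans (le_abs_self _) (Finset.single_le_sum (f := fun i => |a' i|)
      (fun _ _ => abs_nonneg _) (Finset.mem_range.mpr hi))
  obtain ⟨L, ms, ks, hL0, hpms, hqks, tp1, tp2, tq1, tq2, hms5, hks5⟩ :=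
    Tilt39.exists_stable_tilt p q c hp hq m0 k0 hpm0 hqk0
      (BR + BL + |al (-1)| + 4 * D + 2 * c' + |C| + 2)
  have hal1 : 0 ≤ |al (-1)| := abs_nonneg _
  have hal1' : al (-1) ≤ |al (-1)| := le_abs_self _
  have hc0 : 0 ≤ c := by positivity
  have hD0 : 0 ≤ D := by positivity
  have hc'0 : 0 ≤ c' := by positivity
  have hLpos : 0 ≤ L := by linarith
  have hms1 : 1 ≤ ms := by
    by_contra h
    have : ms = 0 := by omega
    simp [hpdef, this] at hpms
  set n : ℕ := ms + ks with hn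
  have hn1 : 1 ≤ n := by omega
  set P : ℝ := p ms * q ks with hPdef
  have hP : 0 < P := mul_pos hpms hqks
  -- lower bounds for the maximal values
  have hplow : Real.exp (-Cw + L * m0 - L * ms) ≤ p ms := by
    have h1 := tilt_le _ _ _ _ (tp1 m0)
    have h2 := exp_neg_abs_log_le (p m0) hpm0
    have h3 : Real.exp (-Cw) ≤ p ms * Real.exp (L * ms - L * m0) := le_trans h2 h1
    have h4 := tilt_le (Real.exp (-Cw)) (p ms) 0 (L * ms - L * m0) (by simpa using h3)
    have h5 : Real.exp (-Cw + L * m0 - L * ms) = Real.exp (-Cw) * Real.exp (-(L * ms - L * m0)) := by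
      rw [← Real.exp_add]; ring_nf
    rw [h5]
    have h6 : p ms = p ms * Real.exp (L * ms - L * m0) * Real.exp (-(L * ms - L * m0)) := by
      rw [mul_assoc, ← Real.exp_add]; simp
    rw [h6]
    exact mul_le_mul_of_nonneg_right h3 (Real.exp_pos _).le
  have hqlow : Real.exp (-Cu + L * k0 - L * ks) ≤ q ks := by
    have h1 := tilt_le _ _ _ _ (tq1 k0)
    have h2 := exp_neg_abs_log_le (q k0) hqk0
    have h3 : Real.exp (-Cu) ≤ q ks * Real.exp (L * ks - L * k0) := le_trans h2 h1
    have h5 : Real.exp (-Cu + L * k0 - L * ks) = Real.exp (-Cu) * Real.exp (-(L * ks - L * k0)) := by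
      rw [← Real.exp_add]; ring_nf
    rw [h5]
    have h6 : q ks = q ks * Real.exp (L * ks - L * k0) * Real.exp (-(L * ks - L * k0)) := by
      rw [mul_assoc, ← Real.exp_add]; simp
    rw [h6]
    exact mul_le_mul_of_nonneg_right h3 (Real.exp_pos _).le
  have hm0R : (1:ℝ) ≤ m0 := by exact_mod_cast hm0
  have hk0R : (0:ℝ) ≤ k0 := by positivity
  have hnR : (n:ℝ) = ms + ks := by simp [hn]
  have HXY : Real.exp (-D + L - L * n) ≤ P := by
    calc Real.exp (-D + L - L * n)
        ≤ Real.exp ((-Cw + L * m0 - L * ms) + (-Cu + L * k0 - L * ks)) := by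
          apply Real.exp_le_exp.mpr
          rw [hnR]
          nlinarith
      _ = Real.exp (-Cw + L * m0 - L * ms) * Real.exp (-Cu + L * k0 - L * ks) := Real.exp_add _ _
      _ ≤ P := mul_le_mul hplow hqlow (Real.exp_pos _).le hpms.le
  -- the terms
  set term : ℤ → ℂ := fun j => w j * conj (u (j + n)) * (Real.exp (A j - A (j + n)) : ℂ) with hterm
  have hnt : ∀ j : ℤ, ‖term j‖ = ‖w j‖ * ‖u (j + n)‖ * Real.exp (A j - A (j + n)) := by
    intro j
    simp only [hterm, norm_mul, RCLike.norm_conj, Complex.norm_real, Real.norm_eq_abs,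
      abs_of_pos (Real.exp_pos _)]
  have hntI : ∀ (m k : ℕ), 1 ≤ m → (-(m:ℤ) + n = k) → ‖term (-(m:ℤ))‖ = p m * q k := by
    intro m k hm hk
    have hm' : m ≠ 0 := by omega
    rw [hnt, hk]
    simp only [hpdef, hqdef, hm', if_false]
    have : Real.exp (A (-(m:ℤ)) - A (k:ℤ)) =
        Real.exp (A (-(m:ℤ)) - A 0) * Real.exp (A 0 - A (k:ℤ)) := by
      rw [← Real.exp_add]; ring_nf
    rw [this]; ring
  have hntb : ∀ j : ℤ, ‖term j‖ ≤ Real.exp (A j - A (j + n)) := by
    intro j
    rw [hnt]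
    have h1 : ‖w j‖ * ‖u (j + n)‖ ≤ 1 := by
      have := mul_le_mul (hw j) (hu (j + n)) (norm_nonneg _) zero_le_one
      simpa using this
    calc _ ≤ 1 * Real.exp (A j - A (j + n)) := mul_le_mul_of_nonneg_right h1 (Real.exp_pos _).le
      _ = _ := one_mul _
  set F : ℤ → ℂ := fun d => term (-(ms:ℤ) + d) with hF
  have hFs : ∑' d, F d = 0 := by
    have h1 := (Equiv.addLeft (-(ms:ℤ))).tsum_eq term
    have h2 := horth n hn1
    simp only [Equiv.coe_addLeft] at h1
    rw [hF, h1]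
    exact h2
  have hF0 : ‖F 0‖ = P := by
    simp only [hF, add_zero]
    exact hntI ms ks hms1 (by simp [hn])
  refine no_dominant F P hP hF0 ?_ hFs
  intro d hd
  obtain ⟨e, rfl | rfl⟩ := d.eq_nat_or_neg
  · -- d = e > 0
    have he : 1 ≤ e := by omega
    simp only [Int.natAbs_natCast]
    by_cases hlt : e < ms
    · -- type I
      obtain ⟨m, hm⟩ : ∃ m, ms = m + e := ⟨ms - e, by omega⟩
      have hm1 : 1 ≤ m := by omega
      have e1 : (-(ms:ℤ) + (e:ℤ)) = -(m:ℤ) := by rw [hm]; push_cast; ring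
      simp only [hF, e1]
      rw [hntI m (ks + e) hm1 (by rw [hn, hm]; push_cast; ring)]
      have h1 := tilt_le _ _ _ _ (tp1 m)
      have h2 := tilt_le _ _ _ _ (tq2 (ks + e))
      have hq0 : 0 ≤ q (ks + e) := mul_nonneg (norm_nonneg _) (Real.exp_pos _).le
      calc p m * q (ks + e)
          ≤ (p ms * Real.exp (L * ms - L * m)) *
            (q ks * Real.exp ((L + 2) * ks - (L + 2) * ((ks + e : ℕ) : ℝ))) :=
            mul_le_mul h1 h2 hq0 (mul_pos hpms (Real.exp_pos _)).le
        _ = P * (Real.exp (L * ms - L * m) *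
              Real.exp ((L + 2) * ks - (L + 2) * ((ks + e : ℕ) : ℝ))) := by rw [hPdef]; ring
        _ = P * Real.exp (-2 * (e:ℝ)) := by
            rw [← Real.exp_add]
            congr 2
            rw [hm]; push_cast; ring
    · -- type II
      obtain ⟨j, hj⟩ : ∃ j, e = j + ms := ⟨e - ms, by omega⟩
      have e1 : (-(ms:ℤ) + (e:ℤ)) = (j:ℤ) := by rw [hj]; push_cast; ring
      simp only [hF, e1]
      rw [hj]
      refine tail_bound a AA hAA hAA0 C (fun i => by
          have := hgrow (i:ℤ)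
          simpa using this) J (fun i hi => by
          have := hR (i:ℤ) (by exact_mod_cast hi)
          simpa [ha] using this) L (fun i hi => le_trans (hBRi i hi) (by linarith))
        j n ms (by omega) hn1 D c' (by linarith) (by linarith) (by linarith)
        _ (p ms) (q ks) ?_ ?_ HXY
      · intro hsm
        -- case (a)
        have h2 := tilt_le _ _ _ _ (tq2 (j + n))
        have h3 : ‖term (j:ℤ)‖ ≤ Real.exp (AA j) * q (j + n) := by
          rw [hnt]
          simp only [hqdef, hAAdef]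
          have e2 : ((j:ℤ) + (n:ℤ)) = ((j + n : ℕ) : ℤ) := by push_cast; ring
          rw [e2]
          have e3 : Real.exp (A (j:ℤ) - A ((j + n : ℕ) : ℤ)) =
              Real.exp (A (j:ℤ) - A 0) * Real.exp (A 0 - A ((j + n : ℕ) : ℤ)) := by
            rw [← Real.exp_add]; ring_nf
          rw [e3]
          have h4 : ‖w (j:ℤ)‖ * ‖u ((j + n : ℕ) : ℤ)‖ ≤ 1 * ‖u ((j + n : ℕ) : ℤ)‖ :=
            mul_le_mul_of_nonneg_right (hw _) (norm_nonneg _)
          have h5 : 0 ≤ Real.exp (A (j:ℤ) - A 0) * Real.exp (A 0 - A ((j + n : ℕ) : ℤ)) := by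
            positivity
          calc _ ≤ (1 * ‖u ((j + n : ℕ) : ℤ)‖) *
                (Real.exp (A (j:ℤ) - A 0) * Real.exp (A 0 - A ((j + n : ℕ) : ℤ))) :=
                mul_le_mul_of_nonneg_right h4 h5
            _ = _ := by ring
        have h6 : Real.exp (-(L * ms)) ≤ p ms := by
          refine le_trans (Real.exp_le_exp.mpr ?_) hplow
          nlinarith
        have hq0 : 0 ≤ q (j + n) := mul_nonneg (norm_nonneg _) (Real.exp_pos _).le
        calc ‖term (j:ℤ)‖ ≤ Real.exp (AA j) * q (j + n) := h3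
          _ ≤ Real.exp (L * j) * (q ks * Real.exp ((L + 2) * ks - (L + 2) * ((j + n : ℕ) : ℝ))) :=
              mul_le_mul (Real.exp_le_exp.mpr hsm) h2 hq0 (Real.exp_pos _).le
          _ = Real.exp (-(L * ms)) * q ks * Real.exp (-2 * ((j + ms : ℕ) : ℝ)) := by
              have : Real.exp (L * j) * Real.exp ((L + 2) * ks - (L + 2) * ((j + n : ℕ) : ℝ)) =
                  Real.exp (-(L * ms)) * Real.exp (-2 * ((j + ms : ℕ) : ℝ)) := by
                rw [← Real.exp_add, ← Real.exp_add]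
                congr 1
                rw [hn]; push_cast; ring
              calc _ = q ks * (Real.exp (L * j) *
                    Real.exp ((L + 2) * ks - (L + 2) * ((j + n : ℕ) : ℝ))) := by ring
                _ = _ := by rw [this]; ring
          _ ≤ p ms * q ks * Real.exp (-2 * ((j + ms : ℕ) : ℝ)) := by
              apply mul_le_mul_of_nonneg_right _ (Real.exp_pos _).le
              exact mul_le_mul_of_nonneg_right h6 hqks.le
      · -- case (b)
        have h := hntb (j:ℤ)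
        have e2 : ((j:ℤ) + (n:ℤ)) = ((j + n : ℕ) : ℤ) := by push_cast; ring
        rw [e2] at h
        refine le_trans h (le_of_eq ?_)
        simp only [hAAdef]
        congr 1; ring
  · -- d = -e
    have he : 1 ≤ e := by omega
    simp only [Int.natAbs_neg, Int.natAbs_natCast]
    by_cases hle : e ≤ ks
    · -- type I
      obtain ⟨k, hk⟩ : ∃ k, ks = k + e := ⟨ks - e, by omega⟩
      have e1 : (-(ms:ℤ) + -(e:ℤ)) = -((ms + e : ℕ):ℤ) := by push_cast; ring
      simp only [hF, e1]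
      rw [hntI (ms + e) k (by omega) (by rw [hn, hk]; push_cast; ring)]
      have h1 := tilt_le _ _ _ _ (tp2 (ms + e))
      have h2 := tilt_le _ _ _ _ (tq1 k)
      have hq0 : 0 ≤ q k := mul_nonneg (norm_nonneg _) (Real.exp_pos _).le
      calc p (ms + e) * q k
          ≤ (p ms * Real.exp ((L + 2) * ms - (L + 2) * ((ms + e : ℕ) : ℝ))) *
            (q ks * Real.exp (L * ks - L * k)) :=
            mul_le_mul h1 h2 hq0 (mul_pos hpms (Real.exp_pos _)).le
        _ = P * (Real.exp ((L + 2) * ms - (L + 2) * ((ms + e : ℕ) : ℝ)) *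
              Real.exp (L * ks - L * k)) := by rw [hPdef]; ring
        _ = P * Real.exp (-2 * (e:ℝ)) := by
            rw [← Real.exp_add]
            congr 2
            rw [hk]; push_cast; ring
    · -- type III
      obtain ⟨t, ht⟩ : ∃ t, e = t + (ks + 1) := ⟨e - (ks + 1), by omega⟩
      have e1 : (-(ms:ℤ) + -(e:ℤ)) = -((n + 1 + t : ℕ):ℤ) := by rw [ht, hn]; push_cast; ring
      simp only [hF, e1]
      rw [ht]
      have hPcomm : P = q ks * p ms := by rw [hPdef]; ring
      rw [hPcomm]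
      have e2 : (-((n + 1 + t : ℕ):ℤ) + (n:ℤ)) = -1 - (t:ℤ) := by push_cast; ring
      refine tail_bound a' AA' hAA' hAA'0 C (fun i => by
          have := hgrow (-2 - (i:ℤ))
          have h3 : |((-2 - (i:ℤ) : ℤ) : ℝ)| = (i:ℝ) + 2 := by
            push_cast
            rw [show (-2 - (i:ℝ)) = -((i:ℝ) + 2) by ring, abs_neg, abs_of_nonneg (by positivity)]
          rw [h3] at this
          simp only [ha']
          linarith) J (fun i hi => by
          have := hL (-2 - (i:ℤ)) (by omega)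
          simp only [ha']
          have e3 : (-2 - ((i + 1 : ℕ):ℤ)) = -2 - (i:ℤ) - 1 := by push_cast; ring
          rw [e3]; exact this) L (fun i hi => le_trans (hBLi i hi) (by linarith))
        t n (ks + 1) (by omega) hn1 D c' (by linarith) (by push_cast; linarith) (by linarith)
        _ (q ks) (p ms) ?_ ?_ (by rw [← hPcomm]; exact HXY)
      · intro hsm
        have h2 := tilt_le _ _ _ _ (tp2 (n + 1 + t))
        have h3 : ‖term (-((n + 1 + t : ℕ):ℤ))‖ ≤ p (n + 1 + t) * Real.exp (al (-1) + AA' t) := by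
          rw [hnt, e2]
          have hne : n + 1 + t ≠ 0 := by omega
          simp only [hpdef, hAA'def, hne, if_false]
          have hA0 : A 0 = A (-1) + al (-1) := by
            have := hA (-1); simpa using this
          have e3 : Real.exp (A (-((n + 1 + t : ℕ):ℤ)) - A (-1 - (t:ℤ))) =
              Real.exp (A (-((n + 1 + t : ℕ):ℤ)) - A 0) *
                Real.exp (al (-1) + (A (-1) - A (-1 - (t:ℤ)))) := by
            rw [← Real.exp_add, hA0]; ring_nf
          rw [e3]
          have h4 : ‖w (-((n + 1 + t : ℕ):ℤ))‖ * ‖u (-1 - (t:ℤ))‖ ≤ ‖w (-((n + 1 + t : ℕ):ℤ))‖ * 1 :=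
            mul_le_mul_of_nonneg_left (hu _) (norm_nonneg _)
          have h5 : 0 ≤ Real.exp (A (-((n + 1 + t : ℕ):ℤ)) - A 0) *
                Real.exp (al (-1) + (A (-1) - A (-1 - (t:ℤ)))) := by positivity
          calc _ ≤ (‖w (-((n + 1 + t : ℕ):ℤ))‖ * 1) *
                (Real.exp (A (-((n + 1 + t : ℕ):ℤ)) - A 0) *
                  Real.exp (al (-1) + (A (-1) - A (-1 - (t:ℤ))))) :=
                mul_le_mul_of_nonneg_right h4 h5
            _ = _ := by ring
        have h6 : Real.exp (al (-1) - L * ((ks:ℝ) + 1)) ≤ q ks := by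
          refine le_trans (Real.exp_le_exp.mpr ?_) hqlow
          nlinarith
        have hp0 : 0 ≤ p (n + 1 + t) := by
          have hne : n + 1 + t ≠ 0 := by omega
          simp only [hpdef, hne, if_false]
          exact mul_nonneg (norm_nonneg _) (Real.exp_pos _).le
        calc ‖term (-((n + 1 + t : ℕ):ℤ))‖ ≤ p (n + 1 + t) * Real.exp (al (-1) + AA' t) := h3
          _ ≤ (p ms * Real.exp ((L + 2) * ms - (L + 2) * ((n + 1 + t : ℕ) : ℝ))) *
                Real.exp (al (-1) + L * t) :=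
              mul_le_mul h2 (Real.exp_le_exp.mpr (by linarith)) (Real.exp_pos _).le
                (mul_pos hpms (Real.exp_pos _)).le
          _ = Real.exp (al (-1) - L * ((ks:ℝ) + 1)) * p ms *
                Real.exp (-2 * ((t + (ks + 1) : ℕ) : ℝ)) := by
              have : Real.exp ((L + 2) * ms - (L + 2) * ((n + 1 + t : ℕ) : ℝ)) *
                  Real.exp (al (-1) + L * t) =
                  Real.exp (al (-1) - L * ((ks:ℝ) + 1)) * Real.exp (-2 * ((t + (ks + 1) : ℕ) : ℝ)) := by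
                rw [← Real.exp_add, ← Real.exp_add]
                congr 1
                rw [hn]; push_cast; ring
              calc _ = p ms * (Real.exp ((L + 2) * ms - (L + 2) * ((n + 1 + t : ℕ) : ℝ)) *
                  Real.exp (al (-1) + L * t)) := by ring
                _ = _ := by rw [this]; ring
          _ ≤ q ks * p ms * Real.exp (-2 * ((t + (ks + 1) : ℕ) : ℝ)) := by
              apply mul_le_mul_of_nonneg_right _ (Real.exp_pos _).le
              exact mul_le_mul_of_nonneg_right h6 hpms.le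
      · have h := hntb (-((n + 1 + t : ℕ):ℤ))
        rw [e2] at h
        refine le_trans h (le_of_eq ?_)
        simp only [hAA'def]
        congr 1
        have e4 : (-1 - ((t + n : ℕ):ℤ)) = -((n + 1 + t : ℕ):ℤ) := by push_cast; ring
        rw [e4]; ring

/-- The key lemma in the shape used by `Lat61.lat_iff` / `Lat2.lat_iff` (hypothesis `key`). -/
theorem key (al A : ℤ → ℝ) (hA : ∀ j, A (j + 1) = A j + al j) (C0 : ℝ)
    (hgrow : ∀ j : ℤ, 10 * |(j:ℝ)| - C0 ≤ al j) (J : ℤ)
    (hR : ∀ j : ℤ, J ≤ j → al j ≤ al (j + 1)) (hL : ∀ j : ℤ, j ≤ -J → al j ≤ al (j - 1))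
    (w u : ℤ → ℂ) (hw : ∀ j, ‖w j‖ ≤ 1) (hu : ∀ j, ‖u j‖ ≤ 1)
    (horth : ∀ n : ℕ, 1 ≤ n →
      ∑' j : ℤ, w j * conj (u (j + n)) * (Real.exp (A j - A (j + n)) : ℂ) = 0)
    (j0 k0 : ℤ) (h : j0 < k0) (hwj : w j0 ≠ 0) (huk : u k0 ≠ 0) : False := by
  obtain ⟨m0, hm0⟩ : ∃ m0 : ℕ, k0 - j0 = m0 := ⟨(k0 - j0).toNat, by omega⟩
  refine key_centered (fun j => al (j + k0)) (fun j => A (j + k0)) ?_ (C0 + 10 * |(k0:ℝ)|) ?_
    (J.natAbs + k0.natAbs) ?_ ?_ (fun j => w (j + k0)) (fun j => u (j + k0))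
    (fun j => hw _) (fun j => hu _) ?_ m0 0 (by omega) ?_ ?_
  · intro j
    have := hA (j + k0)
    rw [← this]
    congr 1; ring
  · intro j
    have h1 := hgrow (j + k0)
    have h2 : |(j:ℝ)| ≤ |((j + k0 : ℤ):ℝ)| + |(k0:ℝ)| := by
      push_cast
      have h3 := abs_add_le ((j:ℝ) + k0) (-(k0:ℝ))
      rw [abs_neg] at h3
      have h4 : (j:ℝ) + k0 + -(k0:ℝ) = j := by ring
      rw [h4] at h3
      exact h3
    linarith
  · intro j hj
    have := hR (j + k0) (by omega)
    have e : j + 1 + k0 = j + k0 + 1 := by ring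
    rw [e]; exact this
  · intro j hj
    have := hL (j + k0) (by omega)
    have e : j - 1 + k0 = j + k0 - 1 := by ring
    rw [e]; exact this
  · intro n hn
    have h1 := (Equiv.addRight k0).tsum_eq
      (fun j : ℤ => w j * conj (u (j + n)) * (Real.exp (A j - A (j + n)) : ℂ))
    simp only [Equiv.coe_addRight] at h1
    rw [← horth n hn, ← h1]
    congr 1
    funext j
    have e : j + (n:ℤ) + k0 = j + k0 + n := by ring
    simp only [e]
  · have e : -(m0:ℤ) + k0 = j0 := by omega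
    simp only [e]; exact hwj
  · simpa using huk

end Crest.Agent.S0150Aux.Key39
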