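import Mathlib
import Crest.Agent.S0150Aux.Tilt39

/-! Independent backup of the KEY lemma (bilateral Donoghue, team note 427 sect. 2). helper44. -/

set_option autoImplicit false
set_option maxHeartbeats 1000000

namespace Crest.Agent.S0150Aux.Key44

open Real

theorem dominant0 (g : ℤ → ℂ) (M : ℝ) (hM : 0 < M) (h0 : ‖g 0‖ = M)
    (hb : ∀ d : ℤ, d ≠ 0 → ‖g d‖ ≤ M * Real.exp (-2) ^ d.natAbs) : ∑' d, g d ≠ 0 := by
  set r : ℝ := Real.exp (-2) with hr
  have hr0 : 0 < r := Real.exp_pos _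
  have hr3 : r < 1 / 3 := by
    have h1 : (3:ℝ) < Real.exp 2 := by
      have := Real.add_one_lt_exp (x := 2) (by norm_num)
      linarith
    have h2 : (Real.exp 2)⁻¹ < (3:ℝ)⁻¹ := (inv_lt_inv₀ (Real.exp_pos 2) (by norm_num)).2 h1
    rw [hr, Real.exp_neg]
    linarith [h2, (by norm_num : (3:ℝ)⁻¹ = 1/3)]
  have hr1 : r < 1 := by linarith
  have hgeo := hasSum_geometric_of_lt_one hr0.le hr1
  have hB : HasSum (fun d : ℤ => M * r ^ d.natAbs) (M * (1 - r)⁻¹ + M * (r * (1 - r)⁻¹)) := by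
    apply HasSum.of_nat_of_neg_add_one
    · simpa using hgeo.mul_left M
    · have hfun : (fun n : ℕ => M * r ^ (-((n:ℤ) + 1)).natAbs) = fun n : ℕ => M * (r * r ^ n) := by
        funext n
        have : (-((n:ℤ) + 1)).natAbs = n + 1 := by omega
        rw [this, pow_succ']
      rw [hfun]
      exact (hgeo.mul_left r).mul_left M
  have hbd : ∀ d, ‖g d‖ ≤ M * r ^ d.natAbs := by
    intro d
    by_cases hd : d = 0
    · subst hd; simp [h0]
    · exact hb d hd
  have hsg : Summable g := Summable.of_norm_bounded hB.summable hbd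
  intro hz
  have h1 := hsg.tsum_eq_add_tsum_ite 0
  rw [hz] at h1
  have h2 : ‖g 0‖ = ‖∑' d, ite (d = 0) 0 (g d)‖ := by
    have : g 0 = - ∑' d, ite (d = 0) 0 (g d) := by linear_combination (-1 : ℂ) * h1
    rw [this, norm_neg]
  have hBi : HasSum (fun d : ℤ => ite (d = 0) 0 (M * r ^ d.natAbs))
      (M * (1 - r)⁻¹ + M * (r * (1 - r)⁻¹) - M) := by
    have := hB.sub (hasSum_ite_eq (0:ℤ) M)
    have e : (fun d : ℤ => ite (d = 0) 0 (M * r ^ d.natAbs))
        = fun b : ℤ => M * r ^ b.natAbs - if b = 0 then M else 0 := by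
      funext d
      by_cases hd : d = 0 <;> simp [hd]
    rw [e]; exact this
  have h3 : ‖∑' d, ite (d = 0) 0 (g d)‖ ≤ M * (1 - r)⁻¹ + M * (r * (1 - r)⁻¹) - M :=
    tsum_of_norm_bounded hBi (fun d => by
      by_cases hd : d = 0
      · simp [hd]
      · simpa [hd] using hbd d)
  have h4 : M * (1 - r)⁻¹ + M * (r * (1 - r)⁻¹) - M < M := by
    have h1r : 0 < 1 - r := by linarith
    have e : M * (1 - r)⁻¹ + M * (r * (1 - r)⁻¹) - M = M * (2 * r / (1 - r)) := by
      field_simp; ring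
    rw [e]
    have : 2 * r / (1 - r) < 1 := by rw [div_lt_one h1r]; linarith
    nlinarith
  linarith

theorem dominant (f : ℤ → ℂ) (c : ℤ) (M : ℝ) (hM : 0 < M) (hc : ‖f c‖ = M)
    (hb : ∀ j, j ≠ c → ‖f j‖ ≤ M * Real.exp (-2 * |((j - c : ℤ) : ℝ)|)) : ∑' j, f j ≠ 0 := by
  have := dominant0 (fun d => f (c + d)) M hM (by simpa using hc) (fun d hd => by
    have h1 := hb (c + d) (by omega)
    have h2 : c + d - c = d := by ring
    rw [h2] at h1
    have h3 : Real.exp (-2 * |(d:ℝ)|) = Real.exp (-2) ^ d.natAbs := by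
      rw [← Real.exp_nat_mul, Nat.cast_natAbs, Int.cast_abs]; congr 1; ring
    rw [h3] at h1; exact h1)
  have e := (Equiv.addLeft c).tsum_eq f
  simp only [Equiv.coe_addLeft] at e
  rwa [e] at this

lemma A_add_ge {al A : ℤ → ℝ} (hA : ∀ j, A (j+1) = A j + al j) (t : ℝ) (j : ℤ) (n : ℕ)
    (ht : ∀ i, j ≤ i → i < j + n → t ≤ al i) : A j + n * t ≤ A (j + n) := by
  induction n with
  | zero => simp
  | succ n ih =>
    have h1 : A (j + ((n+1 : ℕ) : ℤ)) = A (j + n) + al (j + n) := by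
      rw [← hA]; congr 1; push_cast; ring
    have h2 := ht (j + n) (by omega) (by push_cast; omega)
    have h3 := ih (fun i hi hi' => ht i hi (by push_cast; omega))
    rw [h1]; push_cast; linarith

lemma A_add_le {al A : ℤ → ℝ} (hA : ∀ j, A (j+1) = A j + al j) (t : ℝ) (j : ℤ) (n : ℕ)
    (ht : ∀ i, j ≤ i → i < j + n → al i ≤ t) : A (j + n) ≤ A j + n * t := by
  induction n with
  | zero => simp
  | succ n ih =>
    have h1 : A (j + ((n+1 : ℕ) : ℤ)) = A (j + n) + al (j + n) := by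
      rw [← hA]; congr 1; push_cast; ring
    have h2 := ht (j + n) (by omega) (by push_cast; omega)
    have h3 := ih (fun i hi hi' => ht i hi (by push_cast; omega))
    rw [h1]; push_cast; linarith

lemma tilt_le {a b x y : ℝ} (h : a * exp x ≤ b * exp y) : a ≤ b * exp (y - x) := by
  have := mul_le_mul_of_nonneg_right h (exp_pos (-x)).le
  rwa [mul_assoc, mul_assoc, ← exp_add, ← exp_add, add_neg_cancel, exp_zero, mul_one,
    ← sub_eq_add_neg] at this

lemma tilt_le' {a b x y : ℝ} (h : a * exp x ≤ b * exp y) : a * exp (x - y) ≤ b := by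
  have := mul_le_mul_of_nonneg_right h (exp_pos (-y)).le
  rwa [mul_assoc, mul_assoc, ← exp_add, ← exp_add, add_neg_cancel, exp_zero, mul_one,
    ← sub_eq_add_neg] at this

/-- left profile -/
noncomputable def pp (w : ℤ → ℂ) (A : ℤ → ℝ) (s : ℤ) (m : ℕ) : ℝ :=
  ‖w (s - 1 - m)‖ * Real.exp (A (s - 1 - m) - A (s - 1))

/-- right profile -/
noncomputable def qq (u : ℤ → ℂ) (A : ℤ → ℝ) (s : ℤ) (k : ℕ) : ℝ :=
  ‖u (s + k)‖ * Real.exp (A s - A (s + k))

lemma quadR {al A : ℤ → ℝ} (hA : ∀ j, A (j+1) = A j + al j) (C0 : ℝ)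
    (hgrow : ∀ j : ℤ, 10*|(j:ℝ)| - C0 ≤ al j) (s : ℤ) (k : ℕ) :
    5 * (k:ℝ)^2 - (5 + 10 * |(s:ℝ)| + |C0|) * k ≤ A (s + k) - A s := by
  induction k with
  | zero => simp
  | succ k ih =>
    have h1 : A (s + ((k+1 : ℕ) : ℤ)) = A (s + k) + al (s + k) := by
      rw [← hA]; congr 1; push_cast; ring
    have h2 := hgrow (s + k)
    have h3 : (k:ℝ) - |(s:ℝ)| ≤ |((s + k : ℤ) : ℝ)| := by
      have := le_abs_self ((s + k : ℤ) : ℝ)
      have h4 := neg_abs_le (s:ℝ)
      push_cast at this ⊢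
      linarith
    have h5 := le_abs_self C0
    rw [h1]; push_cast; nlinarith

lemma quadL {al A : ℤ → ℝ} (hA : ∀ j, A (j+1) = A j + al j) (C0 : ℝ)
    (hgrow : ∀ j : ℤ, 10*|(j:ℝ)| - C0 ≤ al j) (s : ℤ) (m : ℕ) :
    5 * (m:ℝ)^2 - (5 + 10 * |(s:ℝ)| + |C0|) * m ≤ A (s - 1) - A (s - 1 - m) := by
  induction m with
  | zero => simp
  | succ m ih =>
    have h1 : A (s - 1 - m) = A (s - 1 - ((m+1 : ℕ) : ℤ)) + al (s - 1 - ((m+1 : ℕ) : ℤ)) := by
      rw [← hA]; congr 1; push_cast; ring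
    have h2 := hgrow (s - 1 - ((m+1 : ℕ) : ℤ))
    have h3 : (m:ℝ) + 2 - |(s:ℝ)| ≤ |((s - 1 - ((m+1 : ℕ) : ℤ) : ℤ) : ℝ)| := by
      have := neg_abs_le ((s - 1 - ((m+1 : ℕ) : ℤ) : ℤ) : ℝ)
      have h4 := le_abs_self (s:ℝ)
      push_cast at this ⊢
      linarith
    have h5 := le_abs_self C0
    rw [h1] at ih; push_cast at ih h2 h3 ⊢; nlinarith

theorem key (al A : ℤ → ℝ) (hA : ∀ j, A (j+1) = A j + al j) (C0 : ℝ)
    (hgrow : ∀ j : ℤ, 10*|(j:ℝ)| - C0 ≤ al j) (J : ℤ)
    (hR : ∀ j, J ≤ j → al j ≤ al (j+1)) (hL : ∀ j, j ≤ -J → al j ≤ al (j-1))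
    (w u : ℤ → ℂ) (hw : ∀ j, ‖w j‖ ≤ 1) (hu : ∀ j, ‖u j‖ ≤ 1)
    (horth : ∀ n : ℕ, 1 ≤ n → ∑' j : ℤ, w j * (starRingEnd ℂ) (u (j+n)) *
      (Real.exp (A j - A (j+n)) : ℂ) = 0)
    {j0 k0 : ℤ} (h : j0 < k0) (hwj : w j0 ≠ 0) (huk : u k0 ≠ 0) : False := by
  obtain ⟨m0, hm0⟩ : ∃ m0 : ℕ, j0 = k0 - 1 - m0 := ⟨(k0 - 1 - j0).toNat, by omega⟩
  have monoR : ∀ i, J ≤ i → ∀ n : ℕ, al i ≤ al (i + n) := by
    intro i hi n
    induction n with
    | zero => simp
    | succ n ih =>
      have := hR (i + n) (by omega)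
      have e : i + ((n+1:ℕ):ℤ) = i + n + 1 := by push_cast; ring
      rw [e]; linarith
  have monoL : ∀ i, i ≤ -J → ∀ n : ℕ, al i ≤ al (i - n) := by
    intro i hi n
    induction n with
    | zero => simp
    | succ n ih =>
      have := hL (i - n) (by omega)
      have e : i - ((n+1:ℕ):ℤ) = i - n - 1 := by push_cast; ring
      rw [e]; linarith
  obtain ⟨lo, hlo1, hlo2⟩ : ∃ lo : ℤ, lo ≤ j0 ∧ lo ≤ -J := ⟨min j0 (-J), min_le_left _ _, min_le_right _ _⟩
  obtain ⟨hi, hhi1, hhi2⟩ : ∃ hi : ℤ, k0 ≤ hi ∧ J ≤ hi := ⟨max k0 J, le_max_left _ _, le_max_right _ _⟩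
  obtain ⟨Bm, hBm⟩ : ∃ Bm : ℝ, ∀ i : ℤ, lo ≤ i → i ≤ hi → al i ≤ Bm := by
    obtain ⟨Bm, hB⟩ := ((Set.finite_Icc lo hi).image al).bddAbove
    exact ⟨Bm, fun i h1 h2 => hB ⟨i, ⟨h1, h2⟩, rfl⟩⟩
  obtain ⟨Cw, hCw, hCw0⟩ : ∃ Cw : ℝ, ‖w j0‖ = exp (-Cw) ∧ 0 ≤ Cw := by
    refine ⟨-Real.log ‖w j0‖, ?_, ?_⟩
    · rw [neg_neg, Real.exp_log (norm_pos_iff.2 hwj)]
    · have := Real.log_nonpos (norm_nonneg _) (hw j0); linarith
  obtain ⟨Cu, hCu, hCu0⟩ : ∃ Cu : ℝ, ‖u k0‖ = exp (-Cu) ∧ 0 ≤ Cu := by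
    refine ⟨-Real.log ‖u k0‖, ?_, ?_⟩
    · rw [neg_neg, Real.exp_log (norm_pos_iff.2 huk)]
    · have := Real.log_nonpos (norm_nonneg _) (hu k0); linarith
  obtain ⟨c, hc⟩ : ∃ c : ℝ, c = 5 + 10 * |(k0:ℝ)| + |C0| := ⟨_, rfl⟩
  obtain ⟨p, hpdef⟩ : ∃ p : ℕ → ℝ, p = pp w A k0 := ⟨_, rfl⟩
  obtain ⟨q, hqdef⟩ : ∃ q : ℕ → ℝ, q = qq u A k0 := ⟨_, rfl⟩
  have hpe : ∀ m : ℕ, p m = ‖w (k0 - 1 - m)‖ * Real.exp (A (k0 - 1 - m) - A (k0 - 1)) := by
    intro m; rw [hpdef]; rfl
  have hqe : ∀ k : ℕ, q k = ‖u (k0 + k)‖ * Real.exp (A k0 - A (k0 + k)) := by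
    intro m; rw [hqdef]; rfl
  have hp0 : ∀ m, 0 ≤ p m := fun m => by rw [hpe]; positivity
  have hq0 : ∀ m, 0 ≤ q m := fun m => by rw [hqe]; positivity
  have hp : ∀ m : ℕ, p m ≤ Real.exp (-5 * (m:ℝ)^2 + c * m) := by
    intro m
    rw [hpe]
    have h1 := quadL hA C0 hgrow k0 m
    calc ‖w (k0 - 1 - m)‖ * Real.exp (A (k0 - 1 - m) - A (k0 - 1))
        ≤ 1 * Real.exp (A (k0 - 1 - m) - A (k0 - 1)) := by gcongr; exact hw _
      _ ≤ _ := by rw [one_mul]; apply Real.exp_le_exp.2; rw [hc]; linarith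
  have hq : ∀ k : ℕ, q k ≤ Real.exp (-5 * (k:ℝ)^2 + c * k) := by
    intro m
    rw [hqe]
    have h1 := quadR hA C0 hgrow k0 m
    calc ‖u (k0 + m)‖ * Real.exp (A k0 - A (k0 + m))
        ≤ 1 * Real.exp (A k0 - A (k0 + m)) := by gcongr; exact hu _
      _ ≤ _ := by rw [one_mul]; apply Real.exp_le_exp.2; rw [hc]; linarith
  have hpm0e : p m0 = exp (-Cw + A j0 - A (k0 - 1)) := by
    rw [hpe, ← hm0, hCw, ← exp_add]; congr 1; ring
  have hq0e : q 0 = exp (-Cu) := by
    rw [hqe]; simp [hCu]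
  have hpm0 : 0 < p m0 := by rw [hpm0e]; exact exp_pos _
  have hq00 : 0 < q 0 := by rw [hq0e]; exact exp_pos _
  obtain ⟨K, hK⟩ : ∃ K : ℝ, K = Cw + Cu + A k0 - A j0 := ⟨_, rfl⟩
  obtain ⟨L, ms, ks, hL0, hpms, hqks, hpL, hpL2, hqL, hqL2, hms, hks⟩ :=
    Tilt39.exists_stable_tilt p q c hp hq m0 0 hpm0 hq00
      (|Bm| + Cw + Cu + 4 * (|K| + |C0| + 10 * |(k0:ℝ)| + c + |Real.log (p m0)| + |Real.log (q 0)| + 10))
  have a1 := abs_nonneg K
  have a2 := abs_nonneg C0
  have a3 := abs_nonneg (k0:ℝ)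
  have a4 := abs_nonneg (Real.log (p m0))
  have a5 := abs_nonneg (Real.log (q 0))
  have a6 := abs_nonneg Bm
  have a7 := le_abs_self Bm
  have a8 := le_abs_self K
  have hc0 : 0 ≤ c := by rw [hc]; positivity
  have hLpos : 0 ≤ L := by linarith
  have hp1 : ∀ m : ℕ, p m ≤ p ms * exp (L * ms - L * m) := fun m => tilt_le (hpL m)
  have hp2 : ∀ m : ℕ, p m ≤ p ms * exp ((L+2) * ms - (L+2) * m) := fun m => tilt_le (hpL2 m)
  have hq1 : ∀ m : ℕ, q m ≤ q ks * exp (L * ks - L * m) := fun m => tilt_le (hqL m)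
  have hq2 : ∀ m : ℕ, q m ≤ q ks * exp ((L+2) * ks - (L+2) * m) := fun m => tilt_le (hqL2 m)
  have hpms_low : exp (-Cw + A j0 - A (k0-1) + L*m0 - L*ms) ≤ p ms := by
    have := tilt_le' (hpL m0)
    rw [hpm0e, ← exp_add] at this
    refine le_trans (le_of_eq ?_) this
    congr 1; ring
  have hqks_low : exp (-Cu - L*ks) ≤ q ks := by
    have := tilt_le' (hqL 0)
    rw [hq0e, ← exp_add] at this
    refine le_trans (le_of_eq ?_) this
    congr 1; push_cast; ring
  obtain ⟨n, hn⟩ : ∃ n : ℕ, n = ms + ks + 1 := ⟨_, rfl⟩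
  have hnR : (n:ℝ) = ms + ks + 1 := by rw [hn]; push_cast; ring
  have horthn := horth n (by omega)
  obtain ⟨f, hf⟩ : ∃ f : ℤ → ℂ, f = fun j => w j * (starRingEnd ℂ) (u (j+n)) *
      (Real.exp (A j - A (j+n)) : ℂ) := ⟨_, rfl⟩
  have hnorm : ∀ j, ‖f j‖ = ‖w j‖ * ‖u (j+n)‖ * Real.exp (A j - A (j+n)) := by
    intro j
    rw [hf]
    simp only [norm_mul, RCLike.norm_conj, Complex.norm_real, Real.norm_eq_abs, Real.abs_exp]
  obtain ⟨E, hE⟩ : ∃ E : ℝ, E = exp (A (k0-1) - A k0) := ⟨_, rfl⟩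
  have hEpos : 0 < E := by rw [hE]; exact exp_pos _
  have hI : ∀ (m κ : ℕ), m + κ = ms + ks → ‖f (k0 - 1 - m)‖ = p m * q κ * E := by
    intro m κ hmk
    have e1 : k0 - 1 - (m:ℤ) + n = k0 + κ := by omega
    rw [hnorm, e1, hpe, hqe, hE]
    have : exp (A (k0 - 1 - m) - A (k0+κ)) = exp (A (k0 - 1 - m) - A (k0-1)) * exp (A k0 - A (k0+κ))
        * exp (A (k0-1) - A k0) := by
      rw [← exp_add, ← exp_add]; congr 1; ring
    rw [this]; ring
  obtain ⟨M, hM⟩ : ∃ M : ℝ, M = p ms * q ks * E := ⟨_, rfl⟩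
  have hMpos : 0 < M := by rw [hM]; positivity
  have hMlow : exp (-K - L * (ms + ks)) ≤ M := by
    have h1 : exp (-Cw + A j0 - A (k0-1) + L*m0 - L*ms) * exp (-Cu - L*ks) * E ≤ M := by
      rw [hM]; gcongr
    refine le_trans ?_ h1
    rw [hE, ← exp_add, ← exp_add]
    apply Real.exp_le_exp.2
    have : 0 ≤ L * m0 := by positivity
    rw [hK]; linarith
  -- generic (b)-type bound
  have hB : ∀ (j : ℤ) (d : ℝ), A j + (K + L * (ms + ks) + 2 * d) ≤ A (j + n) →
      ‖f j‖ ≤ M * exp (-2 * d) := by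
    intro j d hjd
    rw [hnorm]
    calc ‖w j‖ * ‖u (j+n)‖ * Real.exp (A j - A (j+n))
        ≤ 1 * 1 * Real.exp (A j - A (j+n)) := by
          gcongr
          · exact hw _
          · exact hu _
      _ ≤ exp (-K - L * (ms + ks)) * exp (-2 * d) := by
          rw [one_mul, one_mul, ← exp_add]; apply Real.exp_le_exp.2; linarith
      _ ≤ M * exp (-2 * d) := by gcongr
  apply dominant f (k0 - 1 - ms) M hMpos (by rw [hI ms ks rfl, hM]) ?_ (by rw [hf]; exact horthn)
  intro j hj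
  rcases lt_or_ge j k0 with hjk | hjk
  · obtain ⟨m, rfl⟩ : ∃ m : ℕ, j = k0 - 1 - m := ⟨(k0 - 1 - j).toNat, by omega⟩
    have hmne : m ≠ ms := by rintro rfl; exact hj rfl
    have hdd : ((k0 - 1 - m - (k0 - 1 - ms) : ℤ) : ℝ) = (ms:ℝ) - m := by push_cast; ring
    rw [hdd]
    by_cases hm : m ≤ ms + ks
    · obtain ⟨κ, hκ⟩ : ∃ κ : ℕ, m + κ = ms + ks := ⟨ms + ks - m, by omega⟩
      have hκR : (κ:ℝ) = ms + ks - m := by
        have : ((m + κ : ℕ) : ℝ) = ((ms + ks : ℕ) : ℝ) := by rw [hκ]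
        push_cast at this; linarith
      rw [hI m κ hκ]
      have n1 := hq0 κ
      have n2 := hp0 m
      rcases lt_or_gt_of_ne hmne with hlt | hgt
      · have habs : |(ms:ℝ) - m| = ms - m :=
          abs_of_nonneg (by have : (m:ℝ) < ms := by exact_mod_cast hlt
                            linarith)
        rw [habs]
        calc p m * q κ * E
            ≤ (p ms * exp (L * ms - L * m)) * (q ks * exp ((L+2) * ks - (L+2) * κ)) * E := by
              gcongr
              · exact hp1 m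
              · exact hq2 κ
          _ = M * exp (-2 * ((ms:ℝ) - m)) := by
              rw [hM]
              have : exp (-2 * ((ms:ℝ) - m))
                  = exp (L * ms - L * m) * exp ((L+2) * ks - (L+2) * κ) := by
                rw [← exp_add]; congr 1; rw [hκR]; ring
              rw [this]; ring
      · have habs : |(ms:ℝ) - m| = m - ms := by
          have : (ms:ℝ) < m := by exact_mod_cast hgt
          rw [abs_of_nonpos (by linarith)]; ring
        rw [habs]
        calc p m * q κ * E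
            ≤ (p ms * exp ((L+2) * ms - (L+2) * m)) * (q ks * exp (L * ks - L * κ)) * E := by
              gcongr
              · exact hp2 m
              · exact hq1 κ
          _ = M * exp (-2 * ((m:ℝ) - ms)) := by
              rw [hM]
              have : exp (-2 * ((m:ℝ) - ms))
                  = exp ((L+2) * ms - (L+2) * m) * exp (L * ks - L * κ) := by
                rw [← exp_add]; congr 1; rw [hκR]; ring
              rw [this]; ring
    · obtain ⟨b, hmb⟩ : ∃ b : ℕ, m = ms + ks + 1 + b := ⟨m - (ms + ks + 1), by omega⟩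
      have hmR : (m:ℝ) = ms + ks + 1 + b := by rw [hmb]; push_cast; ring
      have habs : |(ms:ℝ) - m| = ks + 1 + b := by
        have : (ms:ℝ) - m = -(ks + 1 + b) := by rw [hmR]; ring
        rw [this, abs_neg]; exact abs_of_nonneg (by positivity)
      rw [habs]
      have ejn : k0 - 1 - (m:ℤ) + n = k0 - 1 - b := by omega
      by_cases hbig : L + 10*|(k0:ℝ)| + |C0| + 2 ≤ 8 * b
      · apply hB
        have h1 := A_add_ge hA (L + 2*b + 2) (k0 - 1 - (m:ℤ)) n (fun i _ hi => by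
          rw [ejn] at hi
          have h2 := hgrow i
          have h3 := neg_abs_le (i:ℝ)
          have h4 : (i:ℝ) + 1 ≤ (k0:ℝ) - 1 - b := by exact_mod_cast (by omega : i + 1 ≤ k0 - 1 - b)
          have h5 := le_abs_self (k0:ℝ)
          have h6 := le_abs_self C0
          linarith)
        have e : (n:ℝ)*(L + 2*b + 2)
            = L*(ms+ks) + L + 2*(ms*b) + 2*(ks*b) + 2*b + 2*ms + 2*ks + 2 := by
          rw [hnR]; ring
        have p1 : (0:ℝ) ≤ ms * b := by positivity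
        have p2 : (0:ℝ) ≤ ks * b := by positivity
        have p3 : (0:ℝ) ≤ ms := by positivity
        linarith
      · push Not at hbig
        by_cases hall : ∀ i, k0 - 1 - b ≤ i → i < k0 → al i ≤ L
        · have hAk : A k0 - A (k0 - 1 - b) ≤ L * (1 + b) - Cu := by
            have h1 := A_add_le hA L (k0 - 1 - b) b (fun i hi hi' => hall i hi (by omega))
            have e1 : k0 - 1 - (b:ℤ) + b = k0 - 1 := by ring
            rw [e1] at h1
            have h2 := hA (k0 - 1)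
            have e2 : k0 - 1 + 1 = k0 := by ring
            rw [e2] at h2
            have h3 := hBm (k0 - 1) (by omega) (by omega)
            nlinarith
          rw [hnorm, ejn]
          have hp' := hp2 m
          rw [hpe] at hp'
          calc ‖w (k0 - 1 - m)‖ * ‖u (k0 - 1 - b)‖ * exp (A (k0 - 1 - m) - A (k0 - 1 - b))
              = (‖w (k0 - 1 - m)‖ * exp (A (k0 - 1 - m) - A (k0 - 1))) * ‖u (k0 - 1 - b)‖
                  * exp (A (k0 - 1) - A (k0 - 1 - b)) := by
                have : exp (A (k0 - 1 - m) - A (k0 - 1 - b))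
                    = exp (A (k0 - 1 - m) - A (k0-1)) * exp (A (k0-1) - A (k0-1-b)) := by
                  rw [← exp_add]; congr 1; ring
                rw [this]; ring
            _ ≤ (p ms * exp ((L+2) * ms - (L+2) * m)) * 1 * exp (A (k0 - 1) - A (k0 - 1 - b)) := by
                gcongr
                exact hu _
            _ = p ms * exp ((L+2) * ms - (L+2) * m + (A (k0 - 1) - A (k0 - 1 - b))) := by
                rw [mul_one, mul_assoc, ← exp_add]
            _ ≤ p ms * (exp (-Cu - L*ks) * E * exp (-2 * (ks + 1 + b))) := by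
                apply mul_le_mul_of_nonneg_left _ hpms.le
                rw [hE, ← exp_add, ← exp_add]; apply exp_le_exp.2; rw [hmR]; nlinarith
            _ ≤ p ms * (q ks * E * exp (-2 * (ks + 1 + b))) := by gcongr
            _ = M * exp (-2 * (ks + 1 + b)) := by rw [hM]; ring
        · push Not at hall
          obtain ⟨i, hi1, hi2, hi3⟩ := hall
          have hiJ : i < lo := by
            by_contra hcon
            have := hBm i (by omega) (by omega)
            linarith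
          apply hB
          have h1 := A_add_ge hA L (k0 - 1 - (m:ℤ)) n (fun i' _ hi' => by
            rw [ejn] at hi'
            obtain ⟨nn, rfl⟩ : ∃ nn : ℕ, i' = i - nn := ⟨(i - i').toNat, by omega⟩
            have := monoL i (by omega) nn
            linarith)
          have e : (n:ℝ) * L = L * (ms + ks) + L := by rw [hnR]; ring
          linarith
  · obtain ⟨a, rfl⟩ : ∃ a : ℕ, j = k0 + a := ⟨(j - k0).toNat, by omega⟩
    have hd : |((k0 + a - (k0 - 1 - ms) : ℤ) : ℝ)| = a + 1 + ms := by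
      have : ((k0 + a - (k0 - 1 - ms) : ℤ) : ℝ) = a + 1 + ms := by push_cast; ring
      rw [this]; exact abs_of_nonneg (by positivity)
    rw [hd]
    by_cases hbig : L + 10*|(k0:ℝ)| + |C0| + 2 ≤ 8 * a
    · apply hB
      have h1 := A_add_ge hA (L + 2*a + 2) (k0 + a) n (fun i hi _ => by
        have h2 := hgrow i
        have h3 := le_abs_self (i:ℝ)
        have h4 : (k0:ℝ) + a ≤ i := by exact_mod_cast hi
        have h5 := neg_abs_le (k0:ℝ)
        have h6 := le_abs_self C0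
        linarith)
      have e : (n:ℝ)*(L + 2*a + 2)
          = L*(ms+ks) + L + 2*(ms*a) + 2*(ks*a) + 2*a + 2*ms + 2*ks + 2 := by
        rw [hnR]; ring
      have p1 : (0:ℝ) ≤ ms * a := by positivity
      have p2 : (0:ℝ) ≤ ks * a := by positivity
      have p3 : (0:ℝ) ≤ ks := by positivity
      linarith
    · push Not at hbig
      by_cases hall : ∀ i, j0 ≤ i → i < k0 + a → al i ≤ L
      · have hAj : A (k0 + a) - A j0 ≤ L * (a + 1 + m0) - Cw := by
          have h1 := A_add_le hA L (j0 + 1) (m0 + a)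
            (fun i hi hi' => hall i (by omega) (by push_cast at hi'; omega))
          have e1 : j0 + 1 + ((m0 + a : ℕ) : ℤ) = k0 + a := by push_cast; omega
          rw [e1, hA j0] at h1
          have h2 := hBm j0 hlo1 (by omega)
          push_cast at h1
          nlinarith
        rw [hnorm]
        have e2 : k0 + (a:ℤ) + n = k0 + ((a + n : ℕ) : ℤ) := by push_cast; ring
        have hq' := hq2 (a + n)
        rw [hqe] at hq'
        rw [e2]
        calc ‖w (k0 + a)‖ * ‖u (k0 + ((a + n : ℕ) : ℤ))‖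
              * exp (A (k0 + a) - A (k0 + ((a + n : ℕ) : ℤ)))
            = ‖w (k0 + a)‖ * (‖u (k0 + ((a + n : ℕ) : ℤ))‖
                * exp (A k0 - A (k0 + ((a + n : ℕ) : ℤ)))) * exp (A (k0 + a) - A k0) := by
              have : exp (A (k0 + a) - A (k0 + ((a + n : ℕ) : ℤ)))
                  = exp (A k0 - A (k0 + ((a + n : ℕ) : ℤ))) * exp (A (k0 + a) - A k0) := by
                rw [← exp_add]; congr 1; ring
              rw [this]; ring
          _ ≤ 1 * (q ks * exp ((L+2) * ks - (L+2) * ((a + n : ℕ) : ℝ)))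
                * exp (A (k0 + a) - A k0) := by
              gcongr
              exact hw _
          _ = q ks * exp ((L+2) * ks - (L+2) * ((a + n : ℕ) : ℝ) + (A (k0 + a) - A k0)) := by
              rw [one_mul, mul_assoc, ← exp_add]
          _ ≤ q ks * (exp (-Cw + A j0 - A (k0-1) + L*m0 - L*ms) * E
                * exp (-2 * (a + 1 + ms))) := by
              apply mul_le_mul_of_nonneg_left _ hqks.le
              rw [hE, ← exp_add, ← exp_add]; apply exp_le_exp.2; push_cast; rw [hnR]; nlinarith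
          _ ≤ q ks * (p ms * E * exp (-2 * (a + 1 + ms))) := by gcongr
          _ = M * exp (-2 * (a + 1 + ms)) := by rw [hM]; ring
      · push Not at hall
        obtain ⟨i, hi1, hi2, hi3⟩ := hall
        have hiJ : hi < i := by
          by_contra hcon
          have := hBm i (by omega) (by omega)
          linarith
        apply hB
        have h1 := A_add_ge hA L (k0 + a) n (fun i' hi' _ => by
          obtain ⟨nn, rfl⟩ : ∃ nn : ℕ, i' = i + nn := ⟨(i' - i).toNat, by omega⟩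
          have := monoR i (by omega) nn
          linarith)
        have e : (n:ℝ) * L = L * (ms + ks) + L := by rw [hnR]; ring
        linarith

end Crest.Agent.S0150Aux.Key44
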