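import Mathlib

/-! Auxiliary lemmas for an independent proof of the key lemma of S0150 (team note 427, sect. 2).
helper67. -/

set_option autoImplicit false

namespace Crest.Agent.S0150Aux.Key67

lemma diff_le (al A : ℤ → ℝ) (hA : ∀ j, A (j + 1) = A j + al j) (L : ℝ) (a : ℤ) (n : ℕ)
    (h : ∀ i, a ≤ i → i < a + n → al i ≤ L) : A (a + n) - A a ≤ n * L := by
  induction n with
  | zero => simp
  | succ n ih =>
    have h1 := ih (fun i hi hi2 => h i hi (by push_cast; omega))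
    have h2 := h (a + n) (by omega) (by push_cast; omega)
    have h3 := hA (a + n)
    have h4 : a + ((n + 1 : ℕ) : ℤ) = a + n + 1 := by push_cast; ring
    rw [h4, h3]; push_cast; linarith

lemma diff_ge (al A : ℤ → ℝ) (hA : ∀ j, A (j + 1) = A j + al j) (L : ℝ) (a : ℤ) (n : ℕ)
    (h : ∀ i, a ≤ i → i < a + n → L ≤ al i) : n * L ≤ A (a + n) - A a := by
  induction n with
  | zero => simp
  | succ n ih =>
    have h1 := ih (fun i hi hi2 => h i hi (by push_cast; omega))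
    have h2 := h (a + n) (by omega) (by push_cast; omega)
    have h3 := hA (a + n)
    have h4 : a + ((n + 1 : ℕ) : ℤ) = a + n + 1 := by push_cast; ring
    rw [h4, h3]; push_cast; linarith

lemma monoR (al : ℤ → ℝ) (J : ℤ) (hR : ∀ j, J ≤ j → al j ≤ al (j + 1)) (i1 : ℤ) (h1 : J ≤ i1)
    (i : ℤ) (hi : i1 ≤ i) : al i1 ≤ al i := by
  induction i, hi using Int.leInduction with
  | base => exact le_refl _
  | succ k hk ih => exact le_trans ih (hR k (le_trans h1 hk))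

lemma monoL (al : ℤ → ℝ) (J : ℤ) (hL : ∀ j, j ≤ -J → al j ≤ al (j - 1)) (i1 : ℤ) (h1 : i1 ≤ -J)
    (i : ℤ) (hi : i ≤ i1) : al i1 ≤ al i := by
  induction i, hi using Int.leInductionDown with
  | base => exact le_refl _
  | pred k hk ih => exact le_trans ih (hL k (le_trans hk h1))

lemma exp_neg_two_lt : Real.exp (-2) < 1 / 3 := by
  have h := Real.add_one_lt_exp (by norm_num : (2 : ℝ) ≠ 0)
  rw [Real.exp_neg, inv_eq_one_div]
  apply one_div_lt_one_div_of_lt (by norm_num)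
  linarith

lemma dominant (t : ℤ → ℂ) (js : ℤ) (P : ℝ) (hP : 0 < P) (h0 : ‖t js‖ = P)
    (hR : ∀ e : ℕ, ‖t (js + ((e : ℤ) + 1))‖ ≤ P * Real.exp (-2 * ((e : ℝ) + 1)))
    (hL : ∀ e : ℕ, ‖t (js - ((e : ℤ) + 1))‖ ≤ P * Real.exp (-2 * ((e : ℝ) + 1))) :
    ∑' j, t j ≠ 0 := by
  set r : ℝ := Real.exp (-2) with hr
  have hr0 : 0 < r := Real.exp_pos _
  have hr3 : r < 1 / 3 := exp_neg_two_lt
  have hexp : ∀ e : ℕ, Real.exp (-2 * ((e : ℝ) + 1)) = r * r ^ e := by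
    intro e
    rw [hr, ← Real.exp_nat_mul, ← Real.exp_add]
    congr 1; ring
  have hgeo : HasSum (fun e : ℕ => P * (r * r ^ e)) (P * (r * (1 - r)⁻¹)) :=
    ((hasSum_geometric_of_lt_one hr0.le (by linarith)).mul_left r).mul_left P
  set f : ℤ → ℂ := fun d => t (js + d) with hf
  have hsum : ∑' j, t j = ∑' d, f d := ((Equiv.addLeft js).tsum_eq t).symm
  have hb1 : ∀ e : ℕ, ‖f ((e : ℤ) + 1)‖ ≤ P * (r * r ^ e) := by
    intro e; rw [← hexp]; exact hR e
  have hb2 : ∀ e : ℕ, ‖f (-((e : ℤ) + 1))‖ ≤ P * (r * r ^ e) := by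
    intro e; rw [← hexp]
    have := hL e
    simpa [hf, sub_eq_add_neg] using this
  have hs1' : Summable (fun e : ℕ => f ((e : ℤ) + 1)) := Summable.of_norm_bounded hgeo.summable hb1
  have hs2 : Summable (fun e : ℕ => f (-((e : ℤ) + 1))) := Summable.of_norm_bounded hgeo.summable hb2
  have hs1 : Summable (fun e : ℕ => f (e : ℤ)) := by
    rw [← summable_nat_add_iff 1]
    simpa using hs1'
  have hn1 : ‖∑' e : ℕ, f ((e : ℤ) + 1)‖ ≤ P * (r * (1 - r)⁻¹) := tsum_of_norm_bounded hgeo hb1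
  have hn2 : ‖∑' e : ℕ, f (-((e : ℤ) + 1))‖ ≤ P * (r * (1 - r)⁻¹) := tsum_of_norm_bounded hgeo hb2
  have hsplit : ∑' d, f d = f 0 + ∑' e : ℕ, f ((e : ℤ) + 1) + ∑' e : ℕ, f (-((e : ℤ) + 1)) := by
    rw [tsum_of_nat_of_neg_add_one hs1 hs2, hs1.tsum_eq_zero_add]
    simp
  intro hzero
  rw [hsum, hsplit] at hzero
  have hf0 : ‖f 0‖ = P := by simpa [hf] using h0
  have h1 : f 0 = -(∑' e : ℕ, f ((e : ℤ) + 1) + ∑' e : ℕ, f (-((e : ℤ) + 1))) := by
    linear_combination hzero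
  have h2 : ‖f 0‖ ≤ P * (r * (1 - r)⁻¹) + P * (r * (1 - r)⁻¹) := by
    rw [h1, norm_neg]
    exact le_trans (norm_add_le _ _) (add_le_add hn1 hn2)
  rw [hf0] at h2
  have h3 : r * (1 - r)⁻¹ < 1 / 2 := by
    rw [← div_eq_mul_inv, div_lt_iff₀ (by linarith)]
    linarith
  nlinarith

end Crest.Agent.S0150Aux.Key67
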