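import Mathlib
import Crest.Agent.S0150Aux.Tilt39
import Crest.Agent.S0150Aux.Key67a

/-! Independent proof of the key lemma ("bilateral Donoghue") of S0150 (team note 427, sect. 2),
in the shape of team note 948.  helper67. -/

set_option autoImplicit false
set_option maxHeartbeats 1000000

namespace Crest.Agent.S0150Aux.Key67

open scoped ComplexConjugate

lemma gaussL (al A : ℤ → ℝ) (hA : ∀ j, A (j + 1) = A j + al j) (C0 : ℝ)
    (hgrow : ∀ j : ℤ, 10 * |(j : ℝ)| - C0 ≤ al j) (j0 : ℤ) (c : ℝ)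
    (hc : 10 * (j0 : ℝ) + C0 ≤ c + 5) (m : ℕ) :
    5 * (m : ℝ) ^ 2 - c * m ≤ A j0 - A (j0 - m) := by
  induction m with
  | zero => simp
  | succ m ih =>
    have h1 := hA (j0 - m - 1)
    have h2 := hgrow (j0 - m - 1)
    have h3 : j0 - m - 1 + 1 = j0 - (m : ℤ) := by ring
    rw [h3] at h1
    have h4 : j0 - ((m + 1 : ℕ) : ℤ) = j0 - m - 1 := by push_cast; ring
    rw [h4]
    have h5 := neg_le_abs (((j0 - m - 1 : ℤ)) : ℝ)
    push_cast at h5 h2 ⊢
    nlinarith

lemma gaussR (al A : ℤ → ℝ) (hA : ∀ j, A (j + 1) = A j + al j) (C0 : ℝ)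
    (hgrow : ∀ j : ℤ, 10 * |(j : ℝ)| - C0 ≤ al j) (k0 : ℤ) (c : ℝ)
    (hc : C0 + 5 ≤ c + 10 * (k0 : ℝ)) (k : ℕ) :
    5 * (k : ℝ) ^ 2 - c * k ≤ A (k0 + k) - A k0 := by
  induction k with
  | zero => simp
  | succ k ih =>
    have h1 := hA (k0 + k)
    have h2 := hgrow (k0 + k)
    have h4 : k0 + ((k + 1 : ℕ) : ℤ) = k0 + k + 1 := by push_cast; ring
    rw [h4, h1]
    have h5 := le_abs_self (((k0 + k : ℤ)) : ℝ)
    push_cast at h5 h2 ⊢
    nlinarith

lemma tilt_le (x y a b : ℝ) (h : x * Real.exp a ≤ y * Real.exp b) :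
    x ≤ y * Real.exp (b - a) := by
  have h1 : x = x * Real.exp a * Real.exp (-a) := by
    rw [mul_assoc, ← Real.exp_add]; simp
  rw [h1, sub_eq_add_neg, Real.exp_add, ← mul_assoc]
  exact mul_le_mul_of_nonneg_right h (Real.exp_pos _).le

lemma lower_of (X y a : ℝ) (h : Real.exp X ≤ y * Real.exp a) : Real.exp (X - a) ≤ y := by
  have h1 : y = y * Real.exp a * Real.exp (-a) := by
    rw [mul_assoc, ← Real.exp_add]; simp
  rw [h1, sub_eq_add_neg, Real.exp_add]
  exact mul_le_mul_of_nonneg_right h (Real.exp_pos _).le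

theorem key (al A : ℤ → ℝ) (hA : ∀ j, A (j + 1) = A j + al j) (C0 : ℝ)
    (hgrow : ∀ j : ℤ, 10 * |(j : ℝ)| - C0 ≤ al j) (J : ℤ)
    (hR : ∀ j, J ≤ j → al j ≤ al (j + 1)) (hL : ∀ j, j ≤ -J → al j ≤ al (j - 1))
    (w u : ℤ → ℂ) (hw : ∀ j, ‖w j‖ ≤ 1) (hu : ∀ j, ‖u j‖ ≤ 1)
    (horth : ∀ n : ℕ, 1 ≤ n →
      ∑' j : ℤ, w j * conj (u (j + n)) * (Real.exp (A j - A (j + n)) : ℂ) = 0)
    {j0 k0 : ℤ} (h : j0 < k0) (hwj : w j0 ≠ 0) (huk : u k0 ≠ 0) : False := by
  obtain ⟨δ, hδ⟩ : ∃ δ : ℕ, k0 = j0 + δ + 1 := ⟨(k0 - j0 - 1).toNat, by omega⟩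
  obtain ⟨R, hRa, hRb, hRc, hRd, hRe⟩ :
      ∃ R : ℤ, -R ≤ j0 ∧ j0 ≤ R ∧ -R ≤ k0 ∧ k0 ≤ R ∧ J ≤ R := by
    have a1 := neg_abs_le j0
    have a2 := le_abs_self j0
    have a3 := neg_abs_le k0
    have a4 := le_abs_self k0
    have a5 := le_abs_self J
    have a6 := abs_nonneg j0
    have a7 := abs_nonneg k0
    have a8 := abs_nonneg J
    exact ⟨|j0| + |k0| + |J|, by linarith, by linarith, by linarith, by linarith, by linarith⟩
  set c : ℝ := 10 * |(j0 : ℝ)| + 10 * |(k0 : ℝ)| + |C0| + 5 with hc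
  set p : ℕ → ℝ := fun m => ‖w (j0 - m)‖ * Real.exp (A (j0 - m) - A j0) with hp
  set q : ℕ → ℝ := fun k => ‖u (k0 + k)‖ * Real.exp (A k0 - A (k0 + k)) with hq
  have hj0a := le_abs_self (j0 : ℝ)
  have hj0b := neg_abs_le (j0 : ℝ)
  have hk0a := le_abs_self (k0 : ℝ)
  have hk0b := neg_abs_le (k0 : ℝ)
  have hC0a := le_abs_self C0
  have hC0b := neg_abs_le C0
  have hj0n := abs_nonneg (j0 : ℝ)
  have hk0n := abs_nonneg (k0 : ℝ)
  have hC0n := abs_nonneg C0
  have hpn : ∀ m, 0 ≤ p m := fun m => by simp only [hp]; positivity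
  have hqn : ∀ k, 0 ≤ q k := fun k => by simp only [hq]; positivity
  have hpG : ∀ m : ℕ, p m ≤ Real.exp (-5 * (m : ℝ) ^ 2 + c * m) := by
    intro m
    have h1 := gaussL al A hA C0 hgrow j0 c (by rw [hc]; linarith) m
    calc p m ≤ 1 * Real.exp (A (j0 - m) - A j0) :=
          mul_le_mul_of_nonneg_right (hw _) (Real.exp_pos _).le
      _ = Real.exp (A (j0 - m) - A j0) := one_mul _
      _ ≤ _ := Real.exp_le_exp.mpr (by linarith)
  have hqG : ∀ k : ℕ, q k ≤ Real.exp (-5 * (k : ℝ) ^ 2 + c * k) := by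
    intro k
    have h1 := gaussR al A hA C0 hgrow k0 c (by rw [hc]; linarith) k
    calc q k ≤ 1 * Real.exp (A k0 - A (k0 + k)) :=
          mul_le_mul_of_nonneg_right (hu _) (Real.exp_pos _).le
      _ = Real.exp (A k0 - A (k0 + k)) := one_mul _
      _ ≤ _ := Real.exp_le_exp.mpr (by linarith)
  have hp0 : 0 < p 0 := by simpa [hp] using hwj
  have hq0 : 0 < q 0 := by simpa [hq] using huk
  set Cw : ℝ := |Real.log (p 0)| with hCw
  set Cu : ℝ := |Real.log (q 0)| with hCu
  have hCwn : 0 ≤ Cw := abs_nonneg _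
  have hCun : 0 ≤ Cu := abs_nonneg _
  set Bs : ℝ := ∑ i ∈ Finset.Icc (-R) R, |al i| with hBs
  have hBs0 : 0 ≤ Bs := Finset.sum_nonneg (fun i _ => abs_nonneg _)
  have hrange : ∀ i : ℤ, -R ≤ i → i ≤ R → al i ≤ Bs := by
    intro i h1 h2
    exact le_trans (le_abs_self _) (Finset.single_le_sum (f := fun i => |al i|)
      (fun i _ => abs_nonneg _) (Finset.mem_Icc.mpr ⟨h1, h2⟩))
  have hDa := le_abs_self (A k0 - A j0)
  have hDn := abs_nonneg (A k0 - A j0)
  obtain ⟨L, ms, ks, hLL0, hpms, hqks, F1, F2, G1, G2, hms5, hks5⟩ :=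
    Tilt39.exists_stable_tilt p q c hpG hqG 0 0 hp0 hq0
      (Bs + 10 * (|A k0 - A j0| + Cw + Cu + c + |C0|))
  have hcn : 0 ≤ c := by rw [hc]; positivity
  have hL0 : 0 ≤ L := by linarith
  have hp0e : Real.exp (-Cw) ≤ p 0 := by
    have h1 := neg_abs_le (Real.log (p 0))
    calc Real.exp (-Cw) ≤ Real.exp (Real.log (p 0)) := Real.exp_le_exp.mpr h1
      _ = p 0 := Real.exp_log hp0
  have hq0e : Real.exp (-Cu) ≤ q 0 := by
    have h1 := neg_abs_le (Real.log (q 0))
    calc Real.exp (-Cu) ≤ Real.exp (Real.log (q 0)) := Real.exp_le_exp.mpr h1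
      _ = q 0 := Real.exp_log hq0
  have hpl : Real.exp (-Cw - L * ms) ≤ p ms := by
    apply lower_of
    have h1 := F1 0
    simp only [Nat.cast_zero, mul_zero, Real.exp_zero, mul_one] at h1
    linarith
  have hql : Real.exp (-Cu - L * ks) ≤ q ks := by
    apply lower_of
    have h1 := G1 0
    simp only [Nat.cast_zero, mul_zero, Real.exp_zero, mul_one] at h1
    linarith
  set n : ℕ := ms + ks + δ + 1 with hn
  have hnZ : (n : ℤ) = ms + ks + δ + 1 := by rw [hn]; push_cast; ring
  set t : ℤ → ℂ := fun j => w j * conj (u (j + n)) * (Real.exp (A j - A (j + n)) : ℂ) with ht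
  have hnorm : ∀ j, ‖t j‖ = ‖w j‖ * ‖u (j + n)‖ * Real.exp (A j - A (j + n)) := by
    intro j
    simp only [ht, norm_mul, Complex.norm_real, RCLike.norm_conj, Real.norm_eq_abs,
      abs_of_pos (Real.exp_pos _)]
  set E : ℝ := Real.exp (A j0 - A k0) with hE
  have hEpos : 0 < E := Real.exp_pos _
  have ID : ∀ (m k : ℕ) (j : ℤ), j = j0 - m → j + n = k0 + k → ‖t j‖ = p m * q k * E := by
    intro m k j hj hk
    rw [hnorm, hk, hj]
    simp only [hp, hq, hE]
    have h1 : Real.exp (A (j0 - m) - A (k0 + k)) = Real.exp (A (j0 - m) - A j0)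
        * Real.exp (A k0 - A (k0 + k)) * Real.exp (A j0 - A k0) := by
      rw [← Real.exp_add, ← Real.exp_add]; congr 1; ring
    rw [h1]; ring
  have hPpos : 0 < p ms * q ks * E := by positivity
  refine dominant t (j0 - ms) (p ms * q ks * E) hPpos (ID ms ks _ rfl (by omega)) ?_ ?_
    (horth n (by omega))
  · intro e
    have hG2 := tilt_le _ _ _ _ (G2 (ks + (e + 1)))
    by_cases hcase : e + 1 ≤ ms
    · have hid := ID (ms - (e + 1)) (ks + (e + 1)) (j0 - ms + ((e : ℤ) + 1)) (by omega)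
        (by push_cast; omega)
      rw [hid]
      have h1 := tilt_le _ _ _ _ (F1 (ms - (e + 1)))
      have hcast : ((ms - (e + 1) : ℕ) : ℝ) = (ms : ℝ) - ((e : ℝ) + 1) := by
        rw [Nat.cast_sub hcase]; push_cast; ring
      rw [hcast] at h1
      have hee : Real.exp (L * ms - L * ((ms : ℝ) - ((e : ℝ) + 1)))
          * Real.exp ((L + 2) * ks - (L + 2) * ((ks + (e + 1) : ℕ) : ℝ))
          = Real.exp (-2 * ((e : ℝ) + 1)) := by
        rw [← Real.exp_add]; congr 1; push_cast; ring
      calc p (ms - (e + 1)) * q (ks + (e + 1)) * E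
          ≤ (p ms * Real.exp (L * ms - L * ((ms : ℝ) - ((e : ℝ) + 1))))
            * (q ks * Real.exp ((L + 2) * ks - (L + 2) * ((ks + (e + 1) : ℕ) : ℝ))) * E := by
            apply mul_le_mul_of_nonneg_right _ hEpos.le
            exact mul_le_mul h1 hG2 (hqn _) (by positivity)
        _ = p ms * q ks * E * (Real.exp (L * ms - L * ((ms : ℝ) - ((e : ℝ) + 1)))
          * Real.exp ((L + 2) * ks - (L + 2) * ((ks + (e + 1) : ℕ) : ℝ))) := by ring
        _ = _ := by rw [hee]
    · obtain ⟨x, hx⟩ : ∃ x : ℕ, e = ms + x := ⟨e - ms, by omega⟩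
      have hj : j0 - ms + ((e : ℤ) + 1) = j0 + x + 1 := by omega
      rw [hj]
      have hk : j0 + x + 1 + (n : ℤ) = k0 + ((ks + (e + 1) : ℕ) : ℤ) := by push_cast; omega
      have hexR : (e : ℝ) = ms + x := by rw [hx]; push_cast; ring
      by_cases hall : ∀ i, j0 ≤ i → i < j0 + x + 1 → al i ≤ L
      · have hb : ‖t (j0 + x + 1)‖ ≤ q (ks + (e + 1)) * Real.exp (A (j0 + x + 1) - A k0) := by
          rw [hnorm, hk]
          simp only [hq]
          have h1 : Real.exp (A (j0 + x + 1) - A (k0 + ((ks + (e + 1) : ℕ) : ℤ)))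
              = Real.exp (A k0 - A (k0 + ((ks + (e + 1) : ℕ) : ℤ)))
                * Real.exp (A (j0 + x + 1) - A k0) := by
            rw [← Real.exp_add]; congr 1; ring
          rw [h1]
          calc ‖w (j0 + x + 1)‖ * ‖u (k0 + ((ks + (e + 1) : ℕ) : ℤ))‖
                * (Real.exp (A k0 - A (k0 + ((ks + (e + 1) : ℕ) : ℤ)))
                * Real.exp (A (j0 + x + 1) - A k0))
              ≤ 1 * ‖u (k0 + ((ks + (e + 1) : ℕ) : ℤ))‖
                * (Real.exp (A k0 - A (k0 + ((ks + (e + 1) : ℕ) : ℤ)))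
                * Real.exp (A (j0 + x + 1) - A k0)) := by
                apply mul_le_mul_of_nonneg_right _ (by positivity)
                exact mul_le_mul_of_nonneg_right (hw _) (norm_nonneg _)
            _ = _ := by ring
        have hd := diff_le al A hA L (j0 + 1) x (fun i h1 h2 => hall i (by omega) (by omega))
        have hA0 := hA j0
        have hal0 := hrange j0 hRa hRb
        have h3 : j0 + 1 + (x : ℤ) = j0 + x + 1 := by ring
        rw [h3] at hd
        have hexpo : (L + 2) * ks - (L + 2) * ((ks + (e + 1) : ℕ) : ℝ)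
            + (A (j0 + x + 1) - A k0)
            ≤ (-Cw - L * ms) + (A j0 - A k0) + (-2 * ((e : ℝ) + 1)) := by
          push_cast
          rw [hexR]
          nlinarith
        calc ‖t (j0 + x + 1)‖ ≤ q (ks + (e + 1)) * Real.exp (A (j0 + x + 1) - A k0) := hb
          _ ≤ (q ks * Real.exp ((L + 2) * ks - (L + 2) * ((ks + (e + 1) : ℕ) : ℝ)))
              * Real.exp (A (j0 + x + 1) - A k0) :=
              mul_le_mul_of_nonneg_right hG2 (Real.exp_pos _).le
          _ = q ks * Real.exp ((L + 2) * ks - (L + 2) * ((ks + (e + 1) : ℕ) : ℝ)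
              + (A (j0 + x + 1) - A k0)) := by rw [Real.exp_add]; ring
          _ ≤ q ks * Real.exp ((-Cw - L * ms) + (A j0 - A k0) + (-2 * ((e : ℝ) + 1))) :=
              mul_le_mul_of_nonneg_left (Real.exp_le_exp.mpr hexpo) (hqn _)
          _ = Real.exp (-Cw - L * ms) * (q ks * E * Real.exp (-2 * ((e : ℝ) + 1))) := by
              rw [Real.exp_add, Real.exp_add]; ring
          _ ≤ p ms * (q ks * E * Real.exp (-2 * ((e : ℝ) + 1))) :=
              mul_le_mul_of_nonneg_right hpl (by positivity)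
          _ = _ := by ring
      · push Not at hall
        obtain ⟨i1, hi1a, hi1b, hi1c⟩ := hall
        have hi1R : R < i1 := by
          by_contra hcon
          push Not at hcon
          have h1 := hrange i1 (by omega) hcon
          linarith
        have hmono : ∀ i, i1 ≤ i → L ≤ al i := fun i hi =>
          le_trans hi1c.le (monoR al J hR i1 (by omega) i hi)
        have hb2 : ‖t (j0 + x + 1)‖ ≤ Real.exp (A (j0 + x + 1) - A (j0 + x + 1 + n)) := by
          rw [hnorm]
          calc _ ≤ 1 * 1 * Real.exp (A (j0 + x + 1) - A (j0 + x + 1 + n)) := by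
                apply mul_le_mul_of_nonneg_right _ (Real.exp_pos _).le
                exact mul_le_mul (hw _) (hu _) (norm_nonneg _) zero_le_one
            _ = _ := by ring
        have hd := diff_ge al A hA L (j0 + x + 1 + 1) (ms + ks + δ)
          (fun i h1 h2 => hmono i (by omega))
        have h3 : j0 + x + 1 + 1 + ((ms + ks + δ : ℕ) : ℤ) = j0 + x + 1 + n := by
          push_cast; omega
        rw [h3] at hd
        have hAj := hA (j0 + x + 1)
        have hg := hgrow (j0 + x + 1)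
        have hab := le_abs_self (((j0 + x + 1 : ℤ)) : ℝ)
        have hLj := hmono (j0 + x + 1) (by omega)
        have hδL : 0 ≤ (δ : ℝ) * L := by positivity
        have hxn : (0 : ℝ) ≤ x := Nat.cast_nonneg x
        have hexpo : A (j0 + x + 1) - A (j0 + x + 1 + n)
            ≤ (-Cw - L * ms) + (-Cu - L * ks) + (A j0 - A k0) + (-2 * ((e : ℝ) + 1)) := by
          push_cast at hd hg hab
          rw [hexR]
          nlinarith
        calc ‖t (j0 + x + 1)‖ ≤ Real.exp (A (j0 + x + 1) - A (j0 + x + 1 + n)) := hb2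
          _ ≤ Real.exp ((-Cw - L * ms) + (-Cu - L * ks) + (A j0 - A k0)
              + (-2 * ((e : ℝ) + 1))) := Real.exp_le_exp.mpr hexpo
          _ = Real.exp (-Cw - L * ms) * Real.exp (-Cu - L * ks) * E
              * Real.exp (-2 * ((e : ℝ) + 1)) := by
              rw [Real.exp_add, Real.exp_add, Real.exp_add]
          _ ≤ p ms * q ks * E * Real.exp (-2 * ((e : ℝ) + 1)) := by
              apply mul_le_mul_of_nonneg_right _ (Real.exp_pos _).le
              apply mul_le_mul_of_nonneg_right _ hEpos.le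
              exact mul_le_mul hpl hql (Real.exp_pos _).le hpms.le
  · intro e
    set M : ℕ := ms + (e + 1) with hM
    have hMZ : (M : ℤ) = ms + e + 1 := by rw [hM]; push_cast; ring
    have hMR : (M : ℝ) = ms + e + 1 := by rw [hM]; push_cast; ring
    have hjj : j0 - (ms : ℤ) - ((e : ℤ) + 1) = j0 - (M : ℤ) := by omega
    rw [hjj]
    have hF2 := tilt_le _ _ _ _ (F2 M)
    by_cases hcase : e + 1 ≤ ks
    · have hid := ID M (ks - (e + 1)) (j0 - (M : ℤ)) rfl (by omega)
      rw [hid]
      have h1 := tilt_le _ _ _ _ (G1 (ks - (e + 1)))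
      have hcast : ((ks - (e + 1) : ℕ) : ℝ) = (ks : ℝ) - ((e : ℝ) + 1) := by
        rw [Nat.cast_sub hcase]; push_cast; ring
      rw [hcast] at h1
      have hee : Real.exp ((L + 2) * ms - (L + 2) * (M : ℝ))
          * Real.exp (L * ks - L * ((ks : ℝ) - ((e : ℝ) + 1)))
          = Real.exp (-2 * ((e : ℝ) + 1)) := by
        rw [← Real.exp_add]; congr 1; rw [hMR]; ring
      calc p M * q (ks - (e + 1)) * E
          ≤ (p ms * Real.exp ((L + 2) * ms - (L + 2) * (M : ℝ)))
            * (q ks * Real.exp (L * ks - L * ((ks : ℝ) - ((e : ℝ) + 1)))) * E := by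
            apply mul_le_mul_of_nonneg_right _ hEpos.le
            exact mul_le_mul hF2 h1 (hqn _) (by positivity)
        _ = p ms * q ks * E * (Real.exp ((L + 2) * ms - (L + 2) * (M : ℝ))
          * Real.exp (L * ks - L * ((ks : ℝ) - ((e : ℝ) + 1)))) := by ring
        _ = _ := by rw [hee]
    · obtain ⟨y, hy⟩ : ∃ y : ℕ, e = ks + y := ⟨e - ks, by omega⟩
      have hkk : j0 - (M : ℤ) + (n : ℤ) = k0 - y - 1 := by omega
      have heyR : (e : ℝ) = ks + y := by rw [hy]; push_cast; ring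
      by_cases hall : ∀ i, k0 - y - 1 ≤ i → i < k0 → al i ≤ L
      · have hb : ‖t (j0 - (M : ℤ))‖ ≤ p M * Real.exp (A j0 - A (k0 - y - 1)) := by
          rw [hnorm, hkk]
          simp only [hp]
          have h1 : Real.exp (A (j0 - (M : ℤ)) - A (k0 - y - 1))
              = Real.exp (A (j0 - (M : ℤ)) - A j0) * Real.exp (A j0 - A (k0 - y - 1)) := by
            rw [← Real.exp_add]; congr 1; ring
          rw [h1]
          calc ‖w (j0 - (M : ℤ))‖ * ‖u (k0 - y - 1)‖
                * (Real.exp (A (j0 - (M : ℤ)) - A j0) * Real.exp (A j0 - A (k0 - y - 1)))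
              ≤ ‖w (j0 - (M : ℤ))‖ * 1
                * (Real.exp (A (j0 - (M : ℤ)) - A j0) * Real.exp (A j0 - A (k0 - y - 1))) := by
                apply mul_le_mul_of_nonneg_right _ (by positivity)
                exact mul_le_mul_of_nonneg_left (hu _) (norm_nonneg _)
            _ = _ := by ring
        have hd := diff_le al A hA L (k0 - y - 1) y (fun i h1 h2 => hall i h1 (by omega))
        have h3 : k0 - y - 1 + (y : ℤ) = k0 - 1 := by ring
        rw [h3] at hd
        have hA0 := hA (k0 - 1)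
        have h4 : k0 - 1 + 1 = k0 := by ring
        rw [h4] at hA0
        have hal0 := hrange (k0 - 1) (by omega) (by omega)
        have hexpo : (L + 2) * ms - (L + 2) * (M : ℝ) + (A j0 - A (k0 - y - 1))
            ≤ (-Cu - L * ks) + (A j0 - A k0) + (-2 * ((e : ℝ) + 1)) := by
          rw [hMR, heyR]
          nlinarith
        calc ‖t (j0 - (M : ℤ))‖ ≤ p M * Real.exp (A j0 - A (k0 - y - 1)) := hb
          _ ≤ (p ms * Real.exp ((L + 2) * ms - (L + 2) * (M : ℝ)))
              * Real.exp (A j0 - A (k0 - y - 1)) :=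
              mul_le_mul_of_nonneg_right hF2 (Real.exp_pos _).le
          _ = p ms * Real.exp ((L + 2) * ms - (L + 2) * (M : ℝ)
              + (A j0 - A (k0 - y - 1))) := by rw [Real.exp_add]; ring
          _ ≤ p ms * Real.exp ((-Cu - L * ks) + (A j0 - A k0) + (-2 * ((e : ℝ) + 1))) :=
              mul_le_mul_of_nonneg_left (Real.exp_le_exp.mpr hexpo) (hpn _)
          _ = Real.exp (-Cu - L * ks) * (p ms * E * Real.exp (-2 * ((e : ℝ) + 1))) := by
              rw [Real.exp_add, Real.exp_add]; ring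
          _ ≤ q ks * (p ms * E * Real.exp (-2 * ((e : ℝ) + 1))) :=
              mul_le_mul_of_nonneg_right hql (by positivity)
          _ = _ := by ring
      · push Not at hall
        obtain ⟨i1, hi1a, hi1b, hi1c⟩ := hall
        have hi1R : i1 < -R := by
          by_contra hcon
          push Not at hcon
          have h1 := hrange i1 hcon (by omega)
          linarith
        have hmono : ∀ i, i ≤ i1 → L ≤ al i := fun i hi =>
          le_trans hi1c.le (monoL al J hL i1 (by omega) i hi)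
        have hb2 : ‖t (j0 - (M : ℤ))‖ ≤ Real.exp (A (j0 - (M : ℤ)) - A (k0 - y - 1)) := by
          rw [hnorm, hkk]
          calc _ ≤ 1 * 1 * Real.exp (A (j0 - (M : ℤ)) - A (k0 - y - 1)) := by
                apply mul_le_mul_of_nonneg_right _ (Real.exp_pos _).le
                exact mul_le_mul (hw _) (hu _) (norm_nonneg _) zero_le_one
            _ = _ := by ring
        have hd := diff_ge al A hA L (j0 - (M : ℤ)) (ms + ks + δ)
          (fun i h1 h2 => hmono i (by push_cast at h2; omega))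
        have h3 : j0 - (M : ℤ) + ((ms + ks + δ : ℕ) : ℤ) = k0 - y - 1 - 1 := by
          push_cast; omega
        rw [h3] at hd
        have hAj := hA (k0 - y - 1 - 1)
        have h4 : k0 - (y : ℤ) - 1 - 1 + 1 = k0 - y - 1 := by ring
        rw [h4] at hAj
        have hg := hgrow (k0 - y - 1 - 1)
        have hab := neg_le_abs (((k0 - y - 1 - 1 : ℤ)) : ℝ)
        have hLj := hmono (k0 - y - 1 - 1) (by omega)
        have hδL : 0 ≤ (δ : ℝ) * L := by positivity
        have hyn : (0 : ℝ) ≤ y := Nat.cast_nonneg y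
        have hexpo : A (j0 - (M : ℤ)) - A (k0 - y - 1)
            ≤ (-Cw - L * ms) + (-Cu - L * ks) + (A j0 - A k0) + (-2 * ((e : ℝ) + 1)) := by
          push_cast at hd hg hab
          rw [heyR]
          nlinarith
        calc ‖t (j0 - (M : ℤ))‖ ≤ Real.exp (A (j0 - (M : ℤ)) - A (k0 - y - 1)) := hb2
          _ ≤ Real.exp ((-Cw - L * ms) + (-Cu - L * ks) + (A j0 - A k0)
              + (-2 * ((e : ℝ) + 1))) := Real.exp_le_exp.mpr hexpo
          _ = Real.exp (-Cw - L * ms) * Real.exp (-Cu - L * ks) * E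
              * Real.exp (-2 * ((e : ℝ) + 1)) := by
              rw [Real.exp_add, Real.exp_add, Real.exp_add]
          _ ≤ p ms * q ks * E * Real.exp (-2 * ((e : ℝ) + 1)) := by
              apply mul_le_mul_of_nonneg_right _ (Real.exp_pos _).le
              apply mul_le_mul_of_nonneg_right _ hEpos.le
              exact mul_le_mul hpl hql (Real.exp_pos _).le hpms.le

end Crest.Agent.S0150Aux.Key67
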