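import Mathlib

/-!
helper85: pieces of the key lemma of S0150 (part of row 113), pure real/complex sequences:
`dominance` (a bilateral series with one dominating term is nonzero) and `tail_bound`.
-/

set_option autoImplicit false

namespace Crest.Agent.S0150Aux.Key85

open Real

theorem exp_neg_two_le : Real.exp (-2) ≤ 1 / 4 := by
  have h1 : Real.exp 2 = Real.exp 1 * Real.exp 1 := by rw [← Real.exp_add]; norm_num
  have h2 : (4 : ℝ) ≤ Real.exp 2 := by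
    rw [h1]; nlinarith [Real.exp_one_gt_d9]
  rw [Real.exp_neg, one_div]
  exact inv_anti₀ (by norm_num) h2

theorem exp_bound (n : ℕ) : Real.exp (-2 * ((n : ℝ) + 1)) ≤ (1 / 4) * (1 / 4 : ℝ) ^ n := by
  have : Real.exp (-2 * ((n : ℝ) + 1)) = Real.exp (-2) ^ (n + 1) := by
    rw [← Real.exp_nat_mul]; congr 1; push_cast; ring
  rw [this, ← pow_succ']
  exact pow_le_pow_left₀ (Real.exp_pos _).le exp_neg_two_le _

theorem dominance (g : ℤ → ℂ) (M : ℝ) (hM : 0 < M) (h0 : ‖g 0‖ = M)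
    (hd : ∀ d : ℤ, d ≠ 0 → ‖g d‖ ≤ M * Real.exp (-2 * |(d : ℝ)|)) : ∑' d, g d ≠ 0 := by
  have hgeo : HasSum (fun n : ℕ => M * ((1 / 4) * (1 / 4 : ℝ) ^ n)) (M * ((1 / 4) * (1 - 1 / 4)⁻¹)) :=
    ((hasSum_geometric_of_lt_one (by norm_num) (by norm_num)).mul_left _).mul_left _
  have hp : ∀ n : ℕ, ‖g ((n : ℤ) + 1)‖ ≤ M * ((1 / 4) * (1 / 4 : ℝ) ^ n) := by
    intro n
    refine (hd _ (by omega)).trans (mul_le_mul_of_nonneg_left ?_ hM.le)
    have : |(((n : ℤ) + 1 : ℤ) : ℝ)| = (n : ℝ) + 1 := by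
      push_cast; exact abs_of_nonneg (by positivity)
    rw [this]; exact exp_bound n
  have hn : ∀ n : ℕ, ‖g (-((n : ℤ) + 1))‖ ≤ M * ((1 / 4) * (1 / 4 : ℝ) ^ n) := by
    intro n
    refine (hd _ (by omega)).trans (mul_le_mul_of_nonneg_left ?_ hM.le)
    have : |((-((n : ℤ) + 1) : ℤ) : ℝ)| = (n : ℝ) + 1 := by
      push_cast; rw [abs_neg]; exact abs_of_nonneg (by positivity)
    rw [this]; exact exp_bound n
  have sp : Summable fun n : ℕ => g ((n : ℤ) + 1) := Summable.of_norm_bounded hgeo.summable hp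
  have sn : Summable fun n : ℕ => g (-((n : ℤ) + 1)) := Summable.of_norm_bounded hgeo.summable hn
  have sp0 : Summable fun n : ℕ => g (n : ℤ) := by
    have := (summable_nat_add_iff (f := fun n : ℕ => g (n : ℤ)) 1).mp (by simpa using sp)
    exact this
  have e1 : ∑' d, g d = ∑' n : ℕ, g (n : ℤ) + ∑' n : ℕ, g (-((n : ℤ) + 1)) :=
    tsum_of_nat_of_neg_add_one sp0 sn
  have e2 : ∑' n : ℕ, g (n : ℤ) = g 0 + ∑' n : ℕ, g ((n : ℤ) + 1) := by
    have := sp0.tsum_eq_zero_add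
    simpa using this
  have b1 : ‖∑' n : ℕ, g ((n : ℤ) + 1)‖ ≤ M * ((1 / 4) * (1 - 1 / 4)⁻¹) :=
    tsum_of_norm_bounded hgeo hp
  have b2 : ‖∑' n : ℕ, g (-((n : ℤ) + 1))‖ ≤ M * ((1 / 4) * (1 - 1 / 4)⁻¹) :=
    tsum_of_norm_bounded hgeo hn
  intro hz
  rw [e1, e2] at hz
  have : g 0 = -(∑' n : ℕ, g ((n : ℤ) + 1) + ∑' n : ℕ, g (-((n : ℤ) + 1))) := by
    linear_combination hz
  have h3 : M ≤ M * ((1 / 4) * (1 - 1 / 4)⁻¹) + M * ((1 / 4) * (1 - 1 / 4)⁻¹) := by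
    calc M = ‖g 0‖ := h0.symm
      _ = ‖∑' n : ℕ, g ((n : ℤ) + 1) + ∑' n : ℕ, g (-((n : ℤ) + 1))‖ := by rw [this, norm_neg]
      _ ≤ _ := (norm_add_le _ _).trans (add_le_add b1 b2)
  norm_num at h3
  linarith

section tail

variable (G g : ℕ → ℝ) (hG : ∀ i, G (i + 1) = G i + g i)

include hG in
theorem G_le (L : ℝ) (i : ℕ) (h : ∀ i1, i1 < i → g i1 ≤ L) : G i ≤ G 0 + L * i := by
  induction i with
  | zero => simp
  | succ i ih =>
    have := ih (fun i1 h1 => h i1 (by omega))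
    have h2 := h i (by omega)
    rw [hG]; push_cast; linarith

include hG in
theorem G_diff_ge (μ : ℝ) (i : ℕ) (h : ∀ i', i ≤ i' → μ ≤ g i') (n : ℕ) :
    (n : ℝ) * μ ≤ G (i + n) - G i := by
  induction n with
  | zero => simp
  | succ n ih =>
    have h2 := h (i + n) (by omega)
    rw [← add_assoc, hG]; push_cast; linarith

theorem mono_from (J : ℕ) (hmono : ∀ i, J ≤ i → g i ≤ g (i + 1)) (i1 : ℕ) (hJ : J ≤ i1) :
    ∀ i', i1 ≤ i' → g i1 ≤ g i' := by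
  intro i' h
  induction i', h using Nat.le_induction with
  | base => exact le_rfl
  | succ k hk ih => exact ih.trans (hmono k (by omega))

include hG in
theorem tail_bound (X : ℕ → ℝ) (C0 B : ℝ) (J : ℕ)
    (hgrow : ∀ i : ℕ, 10 * (i : ℝ) - C0 ≤ g i)
    (hmono : ∀ i, J ≤ i → g i ≤ g (i + 1)) (hB : ∀ i, i ≤ J → g i ≤ B)
    (hX : ∀ k, X k ≤ Real.exp (-(G k)))
    (L c1 c2 c3 lx ly : ℝ) (xs ys : ℕ)
    (H1 : ∀ k : ℕ, X k ≤ Real.exp (lx + (L + 2) * ((xs : ℝ) - k)))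
    (H2 : -c1 ≤ lx + L * xs) (H3 : -c2 ≤ ly + L * ys) (H4 : 5 * (ys : ℝ) ≤ L + c3)
    (hL1 : G 0 + c2 ≤ L) (hL2 : B ≤ L) (hL3 : c1 + c2 ≤ L)
    (hL4 : C0 + 4 * (c1 + c2 + 2 + (2 / 5) * c3) + 2 ≤ (7 / 5) * L) (i : ℕ) :
    Real.exp (G i) * X (i + (xs + ys + 1)) ≤ Real.exp (lx + ly - 2 * ((i : ℝ) + ys + 1)) := by
  have key : ∀ E : ℝ, X (i + (xs + ys + 1)) ≤ Real.exp E →
      G i + E ≤ lx + ly - 2 * ((i : ℝ) + ys + 1) →
      Real.exp (G i) * X (i + (xs + ys + 1)) ≤ Real.exp (lx + ly - 2 * ((i : ℝ) + ys + 1)) := by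
    intro E h1 h2
    calc Real.exp (G i) * X (i + (xs + ys + 1)) ≤ Real.exp (G i) * Real.exp E :=
          mul_le_mul_of_nonneg_left h1 (Real.exp_pos _).le
      _ = Real.exp (G i + E) := (Real.exp_add _ _).symm
      _ ≤ _ := Real.exp_le_exp.mpr h2
  have hi0 : (0 : ℝ) ≤ i := Nat.cast_nonneg _
  have hx0 : (0 : ℝ) ≤ xs := Nat.cast_nonneg _
  have hy0 : (0 : ℝ) ≤ ys := Nat.cast_nonneg _
  by_cases ha : G i ≤ G 0 + L * i
  · refine key _ (H1 _) ?_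
    push_cast
    nlinarith
  · push Not at ha
    obtain ⟨i1, hi1, hgi1⟩ : ∃ i1, i1 < i ∧ L < g i1 := by
      by_contra hc
      push Not at hc
      exact absurd (G_le G g hG L i hc) (not_le.mpr ha)
    have hJ : J ≤ i1 := by
      by_contra hc
      have := hB i1 (by omega)
      linarith
    have hbig : ∀ i', i ≤ i' → L ≤ g i' := fun i' h =>
      hgi1.le.trans (mono_from g J hmono i1 hJ i' (by omega))
    refine key _ (hX _) ?_
    by_cases hb : 2 * ((i : ℝ) + ys + 1) ≤ L - c1 - c2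
    · have := G_diff_ge G g hG L i hbig (xs + ys + 1)
      push_cast at this
      nlinarith
    · push Not at hb
      have hbig2 : ∀ i', i ≤ i' → 10 * (i : ℝ) - C0 ≤ g i' := fun i' h => by
        have h1 := hgrow i'
        have h2 : (i : ℝ) ≤ i' := by exact_mod_cast h
        linarith
      have := G_diff_ge G g hG (10 * (i : ℝ) - C0) i hbig2 (xs + ys + 1)
      push_cast at this
      have hδ : 2 * (i : ℝ) + 2 ≤ 10 * (i : ℝ) - C0 - L := by linarith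
      have h1 : ((xs : ℝ) + ys + 1) * (2 * (i : ℝ) + 2) ≤ ((xs : ℝ) + ys + 1) * (10 * (i : ℝ) - C0 - L) :=
        mul_le_mul_of_nonneg_left hδ (by positivity)
      have h2 : 2 * (i : ℝ) + 2 * ((ys : ℝ) + 1) ≤ ((xs : ℝ) + ys + 1) * (2 * (i : ℝ) + 2) := by
        nlinarith [mul_nonneg hx0 hi0, mul_nonneg hy0 hi0]
      nlinarith

end tail

end Crest.Agent.S0150Aux.Key85
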