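import Mathlib
import Crest.Agent.S0150Aux.Key85a
import Crest.Agent.S0150Aux.Tilt39

/-!
helper85: the key lemma of S0150 (part of row 113) with the split at 0.
-/

set_option autoImplicit false

namespace Crest.Agent.S0150Aux.Key85

open scoped ComplexConjugate

theorem le_exp_of_mul {a b s t : ℝ} (hb : 0 < b) (h : a * Real.exp s ≤ b * Real.exp t) :
    a ≤ Real.exp (Real.log b + (t - s)) := by
  rw [Real.exp_add, Real.exp_log hb, Real.exp_sub, ← mul_div_assoc, le_div_iff₀ (Real.exp_pos s)]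
  exact h

theorem G_quad (G g : ℕ → ℝ) (hG : ∀ i, G (i + 1) = G i + g i) (C0 : ℝ)
    (hgrow : ∀ i : ℕ, 10 * (i : ℝ) - C0 ≤ g i) (k : ℕ) :
    G 0 + 5 * (k : ℝ) ^ 2 - (5 + C0) * k ≤ G k := by
  induction k with
  | zero => simp
  | succ k ih =>
    have := hgrow k
    rw [hG]; push_cast; nlinarith

set_option maxHeartbeats 1000000 in
theorem core (al A : ℤ → ℝ) (hA : ∀ j, A (j + 1) = A j + al j) (hpos : ∀ j, 0 ≤ al j) (C0 : ℝ)
    (hgrow : ∀ j : ℤ, 10 * |(j : ℝ)| - C0 ≤ al j) (J : ℕ)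
    (hR : ∀ j : ℤ, (J : ℤ) ≤ j → al j ≤ al (j + 1))
    (hL : ∀ j : ℤ, j ≤ -(J : ℤ) → al j ≤ al (j - 1))
    (w u : ℤ → ℂ) (hw : ∀ j, ‖w j‖ ≤ 1) (hu : ∀ j, ‖u j‖ ≤ 1)
    (horth : ∀ n : ℕ, 1 ≤ n →
      ∑' j : ℤ, w j * conj (u (j + n)) * (Real.exp (A j - A (j + n)) : ℂ) = 0)
    (m0 k0 : ℕ) (hwj : w (-((m0 : ℤ) + 1)) ≠ 0) (huk : u (k0 : ℤ) ≠ 0) : False := by
  let Gr : ℕ → ℝ := fun k => A k - A 0
  let gr : ℕ → ℝ := fun i => al i
  let Gl : ℕ → ℝ := fun k => A 0 - A (-((k : ℤ) + 1))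
  let gl : ℕ → ℝ := fun i => al (-((i : ℤ) + 2))
  have hGr_succ : ∀ i, Gr (i + 1) = Gr i + gr i := by
    intro i
    show A ((i + 1 : ℕ) : ℤ) - A 0 = A i - A 0 + al i
    push_cast
    rw [hA]; ring
  have hGl_succ : ∀ i, Gl (i + 1) = Gl i + gl i := by
    intro i
    show A 0 - A (-(((i + 1 : ℕ) : ℤ) + 1)) = A 0 - A (-((i : ℤ) + 1)) + al (-((i : ℤ) + 2))
    have h1 := hA (-((i : ℤ) + 2))
    have e : -((i : ℤ) + 2) + 1 = -((i : ℤ) + 1) := by ring
    rw [e] at h1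
    have e2 : -(((i + 1 : ℕ) : ℤ) + 1) = -((i : ℤ) + 2) := by push_cast; ring
    rw [e2, h1]; ring
  have hGr0 : Gr 0 = 0 := by show A ((0 : ℕ) : ℤ) - A 0 = 0; simp
  have hGl0 : 0 ≤ Gl 0 := by
    show 0 ≤ A 0 - A (-(((0 : ℕ) : ℤ) + 1))
    have h1 := hA (-1)
    have h2 := hpos (-1)
    norm_num at h1 ⊢
    linarith
  have hgr_grow : ∀ i : ℕ, 10 * (i : ℝ) - C0 ≤ gr i := by
    intro i
    have := hgrow (i : ℤ)
    simpa using this
  have hgl_grow : ∀ i : ℕ, 10 * (i : ℝ) - C0 ≤ gl i := by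
    intro i
    have h1 := hgrow (-((i : ℤ) + 2))
    have h2 : |((-((i : ℤ) + 2) : ℤ) : ℝ)| = (i : ℝ) + 2 := by
      push_cast; rw [abs_neg]; exact abs_of_nonneg (by positivity)
    rw [h2] at h1
    show _ ≤ al (-((i : ℤ) + 2))
    linarith
  have hgr_mono : ∀ i, J ≤ i → gr i ≤ gr (i + 1) := by
    intro i hi
    have := hR (i : ℤ) (by exact_mod_cast hi)
    show al i ≤ al ((i + 1 : ℕ) : ℤ)
    push_cast; exact this
  have hgl_mono : ∀ i, J ≤ i → gl i ≤ gl (i + 1) := by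
    intro i hi
    have := hL (-((i : ℤ) + 2)) (by omega)
    show al (-((i : ℤ) + 2)) ≤ al (-(((i + 1 : ℕ) : ℤ) + 2))
    have e : -(((i + 1 : ℕ) : ℤ) + 2) = -((i : ℤ) + 2) - 1 := by push_cast; ring
    rw [e]; exact this
  -- bound on the initial increments
  let B : ℝ := ∑ i ∈ Finset.range (J + 1), (gr i + gl i)
  have hBle : ∀ i, i ≤ J → gr i + gl i ≤ B := by
    intro i hi
    exact Finset.single_le_sum (f := fun i => gr i + gl i)
      (fun i _ => add_nonneg (hpos _) (hpos _)) (Finset.mem_range.mpr (by omega))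
  have hBr : ∀ i, i ≤ J → gr i ≤ B := fun i hi => by
    have := hBle i hi
    have h2 : 0 ≤ gl i := hpos _
    linarith
  have hBl : ∀ i, i ≤ J → gl i ≤ B := fun i hi => by
    have := hBle i hi
    have h2 : 0 ≤ gr i := hpos _
    linarith
  have hB0 : 0 ≤ B := Finset.sum_nonneg fun i _ => add_nonneg (hpos _) (hpos _)
  let q : ℕ → ℝ := fun k => ‖u k‖ * Real.exp (-(Gr k))
  let P : ℕ → ℝ := fun k => ‖w (-((k : ℤ) + 1))‖ * Real.exp (-(Gl k))
  have hqX : ∀ k, q k ≤ Real.exp (-(Gr k)) := fun k =>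
    mul_le_of_le_one_left (Real.exp_pos _).le (hu _)
  have hPX : ∀ k, P k ≤ Real.exp (-(Gl k)) := fun k =>
    mul_le_of_le_one_left (Real.exp_pos _).le (hw _)
  have hq_quad : ∀ k : ℕ, q k ≤ Real.exp (-5 * (k : ℝ) ^ 2 + (5 + C0) * k) := by
    intro k
    refine (hqX k).trans (Real.exp_le_exp.mpr ?_)
    have := G_quad Gr gr hGr_succ C0 hgr_grow k
    linarith
  have hP_quad : ∀ k : ℕ, P k ≤ Real.exp (-5 * (k : ℝ) ^ 2 + (5 + C0) * k) := by
    intro k
    refine (hPX k).trans (Real.exp_le_exp.mpr ?_)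
    have := G_quad Gl gl hGl_succ C0 hgl_grow k
    linarith
  have hP0 : 0 < P m0 := mul_pos (norm_pos_iff.mpr hwj) (Real.exp_pos _)
  have hq0 : 0 < q k0 := mul_pos (norm_pos_iff.mpr huk) (Real.exp_pos _)
  let cp : ℝ := |Real.log (P m0)|
  let cq : ℝ := |Real.log (q k0)|
  have hcp : 0 ≤ cp := abs_nonneg _
  have hcq : 0 ≤ cq := abs_nonneg _
  let L0 : ℝ := Gl 0 + cp + cq + B + |C0| + 4 * (cq + cp + 2 + (2 / 5) * (|5 + C0| + cp + cq)) + 2
  obtain ⟨L, ms, ks, hL0, hPms, hqks, hP1, hP2, hq1, hq2, hms, hks⟩ :=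
    Tilt39.exists_stable_tilt P q (5 + C0) hP_quad hq_quad m0 k0 hP0 hq0 L0
  have hC0a := le_abs_self C0
  have hC0b := abs_nonneg C0
  have hCa := le_abs_self (5 + C0)
  have hCb := abs_nonneg (5 + C0)
  have hLnn : 0 ≤ L := by
    have : 0 ≤ L0 := by positivity
    linarith
  have hms' : 5 * (ms : ℝ) ≤ L + (5 + C0 + cp) := by
    have : 5 * (ms : ℝ) ≤ L + (5 + C0) + cp := hms
    linarith
  have hks' : 5 * (ks : ℝ) ≤ L + (5 + C0 + cq) := by
    have : 5 * (ks : ℝ) ≤ L + (5 + C0) + cq := hks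
    linarith
  have hL0' : Gl 0 + cp + cq + B + |C0| + 4 * (cq + cp + 2 + (2 / 5) * (|5 + C0| + cp + cq)) + 2
      ≤ L := hL0
  obtain ⟨lp, hlp⟩ : ∃ lp : ℝ, lp = Real.log (P ms) := ⟨_, rfl⟩
  obtain ⟨lq, hlq⟩ : ∃ lq : ℝ, lq = Real.log (q ks) := ⟨_, rfl⟩
  have hP_L : ∀ m : ℕ, P m ≤ Real.exp (lp + L * ((ms : ℝ) - m)) := by
    intro m
    have := le_exp_of_mul hPms (hP1 m)
    rw [← hlp] at this
    convert this using 2; ring
  have hP_L2 : ∀ m : ℕ, P m ≤ Real.exp (lp + (L + 2) * ((ms : ℝ) - m)) := by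
    intro m
    have := le_exp_of_mul hPms (hP2 m)
    rw [← hlp] at this
    convert this using 2; ring
  have hq_L : ∀ k : ℕ, q k ≤ Real.exp (lq + L * ((ks : ℝ) - k)) := by
    intro k
    have := le_exp_of_mul hqks (hq1 k)
    rw [← hlq] at this
    convert this using 2; ring
  have hq_L2 : ∀ k : ℕ, q k ≤ Real.exp (lq + (L + 2) * ((ks : ℝ) - k)) := by
    intro k
    have := le_exp_of_mul hqks (hq2 k)
    rw [← hlq] at this
    convert this using 2; ring
  have hH_P : -cp ≤ lp + L * ms := by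
    have h1 := (Real.log_le_iff_le_exp hP0).mpr (hP_L m0)
    have h2 : -cp ≤ Real.log (P m0) := neg_abs_le _
    have h3 : 0 ≤ L * m0 := by positivity
    nlinarith
  have hH_q : -cq ≤ lq + L * ks := by
    have h1 := (Real.log_le_iff_le_exp hq0).mpr (hq_L k0)
    have h2 : -cq ≤ Real.log (q k0) := neg_abs_le _
    have h3 : 0 ≤ L * k0 := by positivity
    nlinarith
  obtain ⟨n, hn⟩ : ∃ n : ℕ, n = ks + ms + 1 := ⟨_, rfl⟩
  have hn' : n = ms + ks + 1 := by omega
  have tailR : ∀ i : ℕ, Real.exp (Gr i) * q (i + n)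
      ≤ Real.exp (lq + lp - 2 * ((i : ℝ) + ms + 1)) := by
    intro i
    rw [hn]
    exact tail_bound Gr gr hGr_succ q C0 B J hgr_grow hgr_mono hBr hqX L cq cp (5 + C0 + cp) lq lp
      ks ms hq_L2 hH_q hH_P hms' (by linarith) (by linarith) (by linarith) (by linarith) i
  have tailL : ∀ i : ℕ, Real.exp (Gl i) * P (i + n)
      ≤ Real.exp (lp + lq - 2 * ((i : ℝ) + ks + 1)) := by
    intro i
    rw [hn']
    exact tail_bound Gl gl hGl_succ P C0 B J hgl_grow hgl_mono hBl hPX L cp cq (5 + C0 + cq) lp lq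
      ms ks hP_L2 hH_P hH_q hks' (by linarith) (by linarith) (by linarith) (by linarith) i
  obtain ⟨t, ht⟩ : ∃ t : ℤ → ℂ, ∀ j, t j =
      w j * conj (u (j + n)) * (Real.exp (A j - A (j + n)) : ℂ) := ⟨_, fun _ => rfl⟩
  have hnorm : ∀ j, ‖t j‖ = ‖w j‖ * ‖u (j + n)‖ * Real.exp (A j - A (j + n)) := by
    intro j
    rw [ht, norm_mul, norm_mul, RCLike.norm_conj, Complex.norm_real,
      Real.norm_of_nonneg (Real.exp_pos _).le]
  obtain ⟨js, hjs⟩ : ∃ js : ℤ, js = -((ms : ℤ) + 1) := ⟨_, rfl⟩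
  have typeI : ∀ m k : ℕ, ‖w (-((m : ℤ) + 1))‖ * ‖u k‖ * Real.exp (A (-((m : ℤ) + 1)) - A k)
      = P m * q k := by
    intro m k
    show _ = ‖w (-((m : ℤ) + 1))‖ * Real.exp (-(A 0 - A (-((m : ℤ) + 1)))) *
      (‖u k‖ * Real.exp (-(A k - A 0)))
    have : Real.exp (A (-((m : ℤ) + 1)) - A k) =
        Real.exp (-(A 0 - A (-((m : ℤ) + 1)))) * Real.exp (-(A k - A 0)) := by
      rw [← Real.exp_add]; congr 1; ring
    rw [this]; ring
  have hM : ‖t js‖ = Real.exp (lp + lq) := by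
    rw [hnorm]
    have e : js + (n : ℤ) = (ks : ℤ) := by omega
    rw [e, hjs, typeI, Real.exp_add, hlp, hlq, Real.exp_log hPms, Real.exp_log hqks]
  have hbound : ∀ d : ℤ, d ≠ 0 →
      ‖t (js + d)‖ ≤ Real.exp (lp + lq) * Real.exp (-2 * |(d : ℝ)|) := by
    intro d hd
    rw [← Real.exp_add, hnorm]
    by_cases h1 : 0 ≤ js + d
    · obtain ⟨i, hi⟩ := Int.eq_ofNat_of_zero_le h1
      have hdi : d = (i : ℤ) + ms + 1 := by omega
      have e : js + d + (n : ℤ) = ((i + n : ℕ) : ℤ) := by push_cast; omega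
      rw [e, hi]
      have habs : |(d : ℝ)| = (i : ℝ) + ms + 1 := by
        rw [hdi]; push_cast; exact abs_of_nonneg (by positivity)
      rw [habs]
      calc ‖w i‖ * ‖u ((i + n : ℕ) : ℤ)‖ * Real.exp (A i - A ((i + n : ℕ) : ℤ))
          ≤ 1 * ‖u ((i + n : ℕ) : ℤ)‖ * Real.exp (A i - A ((i + n : ℕ) : ℤ)) := by
            gcongr; exact hw _
        _ = Real.exp (Gr i) * q (i + n) := by
            show _ = Real.exp (A i - A 0) *
              (‖u ((i + n : ℕ) : ℤ)‖ * Real.exp (-(A ((i + n : ℕ) : ℤ) - A 0)))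
            have : Real.exp (A i - A ((i + n : ℕ) : ℤ)) =
                Real.exp (A i - A 0) * Real.exp (-(A ((i + n : ℕ) : ℤ) - A 0)) := by
              rw [← Real.exp_add]; congr 1; ring
            rw [this]; ring
        _ ≤ Real.exp (lq + lp - 2 * ((i : ℝ) + ms + 1)) := tailR i
        _ = _ := by congr 1; ring
    · by_cases h2 : js + d + (n : ℤ) < 0
      · obtain ⟨i, hi⟩ : ∃ i : ℕ, js + d + (n : ℤ) = -((i : ℤ) + 1) :=
          ⟨(-(js + d + n) - 1).toNat, by omega⟩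
        have hj : js + d = -(((i + n : ℕ) : ℤ) + 1) := by push_cast; omega
        have hdi : d = -((i : ℤ) + ks + 1) := by omega
        have habs : |(d : ℝ)| = (i : ℝ) + ks + 1 := by
          rw [hdi]; push_cast; rw [abs_neg]; exact abs_of_nonneg (by positivity)
        rw [hi, hj, habs]
        calc ‖w (-(((i + n : ℕ) : ℤ) + 1))‖ * ‖u (-((i : ℤ) + 1))‖ *
              Real.exp (A (-(((i + n : ℕ) : ℤ) + 1)) - A (-((i : ℤ) + 1)))
            ≤ ‖w (-(((i + n : ℕ) : ℤ) + 1))‖ * 1 *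
              Real.exp (A (-(((i + n : ℕ) : ℤ) + 1)) - A (-((i : ℤ) + 1))) := by
              gcongr; exact hu _
          _ = Real.exp (Gl i) * P (i + n) := by
              show _ = Real.exp (A 0 - A (-((i : ℤ) + 1))) *
                (‖w (-(((i + n : ℕ) : ℤ) + 1))‖ * Real.exp (-(A 0 - A (-(((i + n : ℕ) : ℤ) + 1)))))
              have : Real.exp (A (-(((i + n : ℕ) : ℤ) + 1)) - A (-((i : ℤ) + 1))) =
                  Real.exp (A 0 - A (-((i : ℤ) + 1))) *
                    Real.exp (-(A 0 - A (-(((i + n : ℕ) : ℤ) + 1)))) := by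
                rw [← Real.exp_add]; congr 1; ring
              rw [this]; ring
          _ ≤ Real.exp (lp + lq - 2 * ((i : ℝ) + ks + 1)) := tailL i
          _ = _ := by congr 1; ring
      · obtain ⟨m, hm⟩ : ∃ m : ℕ, js + d = -((m : ℤ) + 1) :=
          ⟨(-(js + d) - 1).toNat, by omega⟩
        obtain ⟨k, hk⟩ := Int.eq_ofNat_of_zero_le (not_lt.mp h2)
        rw [hk, hm, typeI]
        have hdm : (d : ℝ) = (ms : ℝ) - m := by
          have : d = (ms : ℤ) - m := by omega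
          rw [this]; push_cast; ring
        have hdk : (d : ℝ) = (k : ℝ) - ks := by
          have : d = (k : ℤ) - ks := by omega
          rw [this]; push_cast; ring
        have hPnn : 0 ≤ P m := mul_nonneg (norm_nonneg _) (Real.exp_pos _).le
        rcases lt_or_gt_of_ne hd with hneg | hpos'
        · have hdneg : (d : ℝ) < 0 := by exact_mod_cast hneg
          rw [abs_of_neg hdneg]
          calc P m * q k ≤ Real.exp (lp + (L + 2) * ((ms : ℝ) - m)) *
                Real.exp (lq + L * ((ks : ℝ) - k)) :=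
                mul_le_mul (hP_L2 m) (hq_L k) (mul_nonneg (norm_nonneg _) (Real.exp_pos _).le)
                  (Real.exp_pos _).le
            _ = _ := by
                rw [← Real.exp_add]; congr 1
                have e1 : (ms : ℝ) - m = d := hdm.symm
                have e2 : (ks : ℝ) - k = -d := by rw [hdk]; ring
                rw [e1, e2]; ring
        · have hdpos : (0 : ℝ) < d := by exact_mod_cast hpos'
          rw [abs_of_pos hdpos]
          calc P m * q k ≤ Real.exp (lp + L * ((ms : ℝ) - m)) *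
                Real.exp (lq + (L + 2) * ((ks : ℝ) - k)) :=
                mul_le_mul (hP_L m) (hq_L2 k) (mul_nonneg (norm_nonneg _) (Real.exp_pos _).le)
                  (Real.exp_pos _).le
            _ = _ := by
                rw [← Real.exp_add]; congr 1
                have e1 : (ms : ℝ) - m = d := hdm.symm
                have e2 : (ks : ℝ) - k = -d := by rw [hdk]; ring
                rw [e1, e2]; ring
  have hne := dominance (fun d => t (js + d)) (Real.exp (lp + lq)) (Real.exp_pos _)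
    (by simpa using hM) hbound
  apply hne
  have h1 : ∑' d : ℤ, t (js + d) = ∑' j : ℤ, t j := (Equiv.addLeft js).tsum_eq t
  rw [h1, tsum_congr ht]
  exact horth n (by omega)

end Crest.Agent.S0150Aux.Key85
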