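import Mathlib
import Crest.Agent.S0150Aux.Key85b

/-!
helper85: the key lemma ("bilateral Donoghue") of S0150 (part of row 113) in the pure-sequence shape
of team note 948, with the extra hypothesis `0 ≤ al j` (automatic when `C0 = 0`).
-/

set_option autoImplicit false

namespace Crest.Agent.S0150Aux.Key85

open scoped ComplexConjugate

theorem key (al A : ℤ → ℝ) (hA : ∀ j, A (j + 1) = A j + al j) (hpos : ∀ j, 0 ≤ al j) (C0 : ℝ)
    (hgrow : ∀ j : ℤ, 10 * |(j : ℝ)| - C0 ≤ al j) (J : ℤ)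
    (hR : ∀ j : ℤ, J ≤ j → al j ≤ al (j + 1)) (hL : ∀ j : ℤ, j ≤ -J → al j ≤ al (j - 1))
    (w u : ℤ → ℂ) (hw : ∀ j, ‖w j‖ ≤ 1) (hu : ∀ j, ‖u j‖ ≤ 1)
    (horth : ∀ n : ℕ, 1 ≤ n →
      ∑' j : ℤ, w j * conj (u (j + n)) * (Real.exp (A j - A (j + n)) : ℂ) = 0)
    {j0 k0 : ℤ} (h : j0 < k0) (hwj : w j0 ≠ 0) (huk : u k0 ≠ 0) : False := by
  refine core (fun j => al (j + k0)) (fun j => A (j + k0)) ?_ (fun j => hpos _)
    (C0 + 10 * |(k0 : ℝ)|) ?_ (J.natAbs + k0.natAbs) ?_ ?_ (fun j => w (j + k0))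
    (fun j => u (j + k0)) (fun j => hw _) (fun j => hu _) ?_ (k0 - j0 - 1).toNat 0 ?_ ?_
  · intro j
    show A (j + 1 + k0) = A (j + k0) + al (j + k0)
    rw [← hA]; congr 1; ring
  · intro j
    show _ ≤ al (j + k0)
    have h1 := hgrow (j + k0)
    have h2 : |(j : ℝ)| ≤ |((j + k0 : ℤ) : ℝ)| + |(k0 : ℝ)| := by
      have : (j : ℝ) = ((j + k0 : ℤ) : ℝ) - (k0 : ℝ) := by push_cast; ring
      calc |(j : ℝ)| = |((j + k0 : ℤ) : ℝ) - (k0 : ℝ)| := by rw [← this]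
        _ ≤ _ := abs_sub _ _
    linarith
  · intro j hj
    show al (j + k0) ≤ al (j + 1 + k0)
    have := hR (j + k0) (by omega)
    have e : j + 1 + k0 = j + k0 + 1 := by ring
    rw [e]; exact this
  · intro j hj
    show al (j + k0) ≤ al (j - 1 + k0)
    have := hL (j + k0) (by omega)
    have e : j - 1 + k0 = j + k0 - 1 := by ring
    rw [e]; exact this
  · intro n hn
    have h1 := (Equiv.addRight k0).tsum_eq
      (fun i : ℤ => w i * conj (u (i + n)) * (Real.exp (A i - A (i + n)) : ℂ))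
    rw [horth n hn] at h1
    rw [← h1]
    refine tsum_congr fun j => ?_
    have e : j + (n : ℤ) + k0 = j + k0 + n := by ring
    simp only [Equiv.coe_addRight, e]
  · show w (-(((k0 - j0 - 1).toNat : ℤ) + 1) + k0) ≠ 0
    have e : -(((k0 - j0 - 1).toNat : ℤ) + 1) + k0 = j0 := by omega
    rw [e]; exact hwj
  · show u (((0 : ℕ) : ℤ) + k0) ≠ 0
    simpa using huk

/-- the form used by the wrappers `Lat85.KeyProp`, `Lat2.KeyProp`, `Lat61.lat_iff`, with the facts T1 of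
the board (`C0 = 0`, `J = 1`). -/
theorem keyProp (al A : ℤ → ℝ) (hA : ∀ j, A (j + 1) = A j + al j)
    (hgrow : ∀ j : ℤ, 10 * |(j : ℝ)| - 0 ≤ al j)
    (hR : ∀ j : ℤ, 1 ≤ j → al j ≤ al (j + 1)) (hL : ∀ j : ℤ, j ≤ -1 → al j ≤ al (j - 1)) :
    ∀ (w u : ℤ → ℂ), (∀ j, ‖w j‖ ≤ 1) → (∀ j, ‖u j‖ ≤ 1) →
      (∀ n : ℕ, 1 ≤ n →
        ∑' j : ℤ, w j * conj (u (j + n)) * (Real.exp (A j - A (j + n)) : ℂ) = 0) →
      ∀ j0 k0 : ℤ, j0 < k0 → w j0 ≠ 0 → u k0 ≠ 0 → False :=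
  fun w u hw hu ho _ _ h h1 h2 =>
    key al A hA (fun j => by have := hgrow j; have := abs_nonneg (j : ℝ); linarith) 0 hgrow 1 hR hL
      w u hw hu ho h h1 h2

end Crest.Agent.S0150Aux.Key85
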