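import Crest.Prelude.Def_TwoAdicShift

/-! helper2: for one fibre of S0150 (row 113, incomplete): the closed invariant subspaces of a
bilateral weighted shift on `ℓ²(ℤ)` are `⊥`, `⊤` and the tails, GIVEN the abstract key property
`KeyProp` (the conclusion of the "bilateral Donoghue" lemma, note 427 section 2). -/

set_option autoImplicit false

namespace Crest.Agent.S0150Aux.Lat2

open Crest.AnalysisR.TwoAdic
open scoped InnerProductSpace ComplexConjugate

theorem inner_basisVec_left (k : ℤ) (v : seqHilbert) : ⟪basisVec k, v⟫_ℂ = v k := by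
  unfold basisVec
  rw [lp.inner_single_left]
  simp

theorem basisVec_apply (j k : ℤ) : (basisVec j : seqHilbert) k = if k = j then 1 else 0 := by
  unfold basisVec
  rw [lp.coeFn_single, Pi.single_apply]

theorem T_apply (T : seqHilbert →L[ℂ] seqHilbert) (c : ℤ → ℂ)
    (hT : ∀ j, T (basisVec j) = c j • basisVec (j + 1)) (v : seqHilbert) (k : ℤ) :
    (T v) (k + 1) = c k * v k := by
  have h1 : HasSum (fun i : ℤ => lp.single 2 i (v i)) v := lp.hasSum_single (by norm_num) v
  have h2 := (h1.mapL T).mapL (innerSL ℂ (basisVec (k + 1)))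
  have h3 : ∀ i : ℤ, innerSL ℂ (basisVec (k + 1)) (T (lp.single 2 i (v i)))
      = if i = k then c k * v k else 0 := by
    intro i
    have h4 : lp.single 2 i (v i) = v i • basisVec i := by
      unfold basisVec
      rw [← lp.single_smul]
      simp
    rw [h4, map_smul, hT, innerSL_apply_apply, inner_smul_right, inner_smul_right,
      inner_basisVec_left, basisVec_apply]
    by_cases hik : i = k
    · subst hik
      simp [mul_comm]
    · have : ¬ (k + 1 = i + 1) := by omega
      simp [hik, this]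
  simp only [h3] at h2
  have h4 := h2.unique (hasSum_ite_eq k (c k * v k))
  rw [innerSL_apply_apply, inner_basisVec_left] at h4
  exact h4

section shift

variable (T : seqHilbert →L[ℂ] seqHilbert) (al A : ℤ → ℝ) (hA : ∀ j, A (j + 1) = A j + al j)
  (hT : ∀ j, T (basisVec j) = ((Real.exp (-(al j)) : ℝ) : ℂ) • basisVec (j + 1))

include hA hT

theorem pow_apply (n : ℕ) (v : seqHilbert) (k : ℤ) :
    ((T ^ n) v) (k + n) = ((Real.exp (A k - A (k + n)) : ℝ) : ℂ) * v k := by
  induction n with
  | zero => simp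
  | succ n ih =>
    rw [pow_succ', ContinuousLinearMap.mul_apply]
    have h1 : k + ((n + 1 : ℕ) : ℤ) = (k + n) + 1 := by push_cast; ring
    rw [h1, T_apply T _ hT, ih, hA (k + n)]
    rw [← mul_assoc, ← Complex.ofReal_mul, ← Real.exp_add]
    congr 3
    ring

theorem inner_pow (w u : seqHilbert) (n : ℕ) :
    ⟪u, (T ^ n) w⟫_ℂ =
      ∑' j : ℤ, w j * conj (u (j + n)) * ((Real.exp (A j - A (j + n)) : ℝ) : ℂ) := by
  rw [lp.inner_eq_tsum]
  rw [← (Equiv.addRight (n : ℤ)).tsum_eq]
  apply tsum_congr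
  intro j
  simp only [Equiv.coe_addRight]
  rw [pow_apply T al A hA hT]
  simp only [RCLike.inner_apply]
  ring

end shift

/-- the conclusion of the key lemma for a fixed cumulative cost `A` -/
def KeyProp (A : ℤ → ℝ) : Prop :=
  ∀ (w u : ℤ → ℂ), (∀ j, ‖w j‖ ≤ 1) → (∀ j, ‖u j‖ ≤ 1) →
    (∀ n : ℕ, 1 ≤ n →
      ∑' j : ℤ, w j * conj (u (j + n)) * ((Real.exp (A j - A (j + n)) : ℝ) : ℂ) = 0) →
    ∀ j0 k0 : ℤ, j0 < k0 → w j0 ≠ 0 → u k0 ≠ 0 → False

theorem scaled_norm_le (v : seqHilbert) (j : ℤ) : ‖(((‖v‖ + 1)⁻¹ : ℝ) : ℂ) * v j‖ ≤ 1 := by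
  have h0 : 0 ≤ ‖v‖ := norm_nonneg v
  have h1 : ‖v j‖ ≤ ‖v‖ := lp.norm_apply_le_norm (by norm_num) v j
  rw [norm_mul, Complex.norm_real, Real.norm_eq_abs, abs_of_pos (by positivity)]
  rw [inv_mul_le_iff₀ (by positivity)]
  linarith

theorem noCross (T : seqHilbert →L[ℂ] seqHilbert) (al A : ℤ → ℝ)
    (hA : ∀ j, A (j + 1) = A j + al j)
    (hT : ∀ j, T (basisVec j) = ((Real.exp (-(al j)) : ℝ) : ℂ) • basisVec (j + 1))
    (hkey : KeyProp A) (W : Submodule ℂ seqHilbert) (hinv : ∀ v ∈ W, T v ∈ W)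
    (w : seqHilbert) (hw : w ∈ W) (u : seqHilbert) (hu : u ∈ Wᗮ) (j0 k0 : ℤ) (h : j0 < k0)
    (hw0 : w j0 ≠ 0) : u k0 = 0 := by
  by_contra hu0
  have hpow : ∀ n : ℕ, (T ^ n) w ∈ W := by
    intro n
    induction n with
    | zero => simpa using hw
    | succ n ih =>
      rw [pow_succ', ContinuousLinearMap.mul_apply]
      exact hinv _ ih
  have ha : (0 : ℝ) < (‖w‖ + 1)⁻¹ := by have := norm_nonneg w; positivity
  have hb : (0 : ℝ) < (‖u‖ + 1)⁻¹ := by have := norm_nonneg u; positivity
  refine hkey (fun j => (((‖w‖ + 1)⁻¹ : ℝ) : ℂ) * w j) (fun j => (((‖u‖ + 1)⁻¹ : ℝ) : ℂ) * u j)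
    (scaled_norm_le w) (scaled_norm_le u) ?_ j0 k0 h ?_ ?_
  · intro n _
    have h1 : ⟪u, (T ^ n) w⟫_ℂ = 0 := (Submodule.mem_orthogonal' _ _).1 hu _ (hpow n)
    rw [inner_pow T al A hA hT] at h1
    have h2 : ∀ j : ℤ, (((‖w‖ + 1)⁻¹ : ℝ) : ℂ) * w j * conj ((((‖u‖ + 1)⁻¹ : ℝ) : ℂ) * u (j + n)) *
        ((Real.exp (A j - A (j + n)) : ℝ) : ℂ) =
        ((((‖w‖ + 1)⁻¹ : ℝ) : ℂ) * (((‖u‖ + 1)⁻¹ : ℝ) : ℂ)) *
          (w j * conj (u (j + n)) * ((Real.exp (A j - A (j + n)) : ℝ) : ℂ)) := by
      intro j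
      rw [map_mul, Complex.conj_ofReal]
      ring
    simp only [h2]
    rw [tsum_mul_left, h1, mul_zero]
  · exact mul_ne_zero (by exact_mod_cast ha.ne') hw0
  · exact mul_ne_zero (by exact_mod_cast hb.ne') hu0

theorem basisVec_mem_tail {h j : ℤ} (hj : h ≤ j) : basisVec j ∈ tailSpace h :=
  Submodule.le_topologicalClosure _ (Submodule.subset_span ⟨⟨j, hj⟩, rfl⟩)

theorem isClosed_tail (h : ℤ) : IsClosed (tailSpace h : Set seqHilbert) :=
  Submodule.isClosed_topologicalClosure _

theorem mem_of_orth (W : Submodule ℂ seqHilbert) (hW : IsClosed (W : Set seqHilbert))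
    (v : seqHilbert) (hv : ∀ u ∈ Wᗮ, ⟪u, v⟫_ℂ = 0) : v ∈ W := by
  have : CompleteSpace W := hW.completeSpace_coe
  rw [← Submodule.orthogonal_orthogonal W, Submodule.mem_orthogonal]
  exact hv

theorem mem_tailSpace_iff (h : ℤ) (v : seqHilbert) : v ∈ tailSpace h ↔ ∀ j < h, v j = 0 := by
  constructor
  · intro hv j hj
    have hle : tailSpace h ≤ (ℂ ∙ basisVec j)ᗮ := by
      apply Submodule.topologicalClosure_minimal _ _ (Submodule.isClosed_orthogonal _)
      rw [Submodule.span_le]
      rintro _ ⟨⟨i, hi⟩, rfl⟩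
      rw [SetLike.mem_coe, Submodule.mem_orthogonal_singleton_iff_inner_right,
        inner_basisVec_left, basisVec_apply, if_neg]
      intro hji
      change j = i at hji
      omega
    have h1 := hle hv
    rwa [Submodule.mem_orthogonal_singleton_iff_inner_right, inner_basisVec_left] at h1
  · intro hv
    apply mem_of_orth _ (isClosed_tail h)
    intro u hu
    rw [lp.inner_eq_tsum]
    have h1 : ∀ i, ⟪u i, v i⟫_ℂ = 0 := by
      intro i
      by_cases hi : i < h
      · rw [hv i hi]; simp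
      · have h2 : u i = 0 := by
          have h3 := (Submodule.mem_orthogonal _ _).1 hu (basisVec i) (basisVec_mem_tail (by omega))
          rwa [inner_basisVec_left] at h3
        rw [h2]; simp
    simp only [h1, tsum_zero]

theorem lat_iff (T : seqHilbert →L[ℂ] seqHilbert) (al A : ℤ → ℝ)
    (hA : ∀ j, A (j + 1) = A j + al j)
    (hT : ∀ j, T (basisVec j) = ((Real.exp (-(al j)) : ℝ) : ℂ) • basisVec (j + 1))
    (hkey : KeyProp A) (W : Submodule ℂ seqHilbert) (hW : IsClosed (W : Set seqHilbert)) :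
    (∀ v ∈ W, T v ∈ W) ↔ (W = ⊥ ∨ W = ⊤ ∨ ∃ h : ℤ, W = tailSpace h) := by
  classical
  constructor
  · intro hinv
    have : CompleteSpace W := hW.completeSpace_coe
    by_cases hbot : W = ⊥
    · left; exact hbot
    right
    have hne : ∃ j : ℤ, ∃ w ∈ W, (w : seqHilbert) j ≠ 0 := by
      by_contra hcon
      push Not at hcon
      apply hbot
      rw [Submodule.eq_bot_iff]
      intro w hw
      ext j
      simpa using hcon j w hw
    by_cases hbdd : ∃ b : ℤ, ∀ j : ℤ, (∃ w ∈ W, (w : seqHilbert) j ≠ 0) → b ≤ j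
    · right
      obtain ⟨m, ⟨w, hw, hwm⟩, hmin⟩ :=
        Int.exists_least_of_bdd (P := fun j => ∃ w ∈ W, (w : seqHilbert) j ≠ 0) hbdd hne
      refine ⟨m, le_antisymm ?_ ?_⟩
      · intro v hv
        rw [mem_tailSpace_iff]
        intro j hj
        by_contra hvj
        have := hmin j ⟨v, hv, hvj⟩
        omega
      · apply Submodule.topologicalClosure_minimal _ _ hW
        rw [Submodule.span_le]
        rintro _ ⟨⟨i, hi⟩, rfl⟩
        apply mem_of_orth W hW
        intro u hu
        have hui : u i = 0 := by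
          rcases eq_or_lt_of_le hi with hmi | hlt
          · subst hmi
            have h1 : ⟪w, u⟫_ℂ = 0 := (Submodule.mem_orthogonal _ _).1 hu w hw
            rw [lp.inner_eq_tsum, tsum_eq_single m] at h1
            · simp only [RCLike.inner_apply] at h1
              rcases mul_eq_zero.1 h1 with h2 | h2
              · exact h2
              · exact absurd ((map_eq_zero _).1 h2) hwm
            · intro k hk
              rcases lt_or_gt_of_ne hk with hlt | hgt
              · have : w k = 0 := by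
                  by_contra hwk
                  have := hmin k ⟨w, hw, hwk⟩
                  omega
                rw [this]; simp
              · rw [noCross T al A hA hT hkey W hinv w hw u hu m k hgt hwm]; simp
          · exact noCross T al A hA hT hkey W hinv w hw u hu m i hlt hwm
        rw [← inner_conj_symm, inner_basisVec_left, hui]
        simp
    · left
      push Not at hbdd
      rw [← Submodule.orthogonal_eq_bot_iff, Submodule.eq_bot_iff]
      intro u hu
      ext k
      obtain ⟨j, ⟨w, hw, hwj⟩, hjk⟩ := hbdd k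
      simpa using noCross T al A hA hT hkey W hinv w hw u hu j k hjk hwj
  · rintro (rfl | rfl | ⟨h, rfl⟩)
    · intro v hv
      rw [Submodule.mem_bot] at hv
      simp [hv]
    · intro v _
      exact Submodule.mem_top
    · intro v hv
      rw [mem_tailSpace_iff] at hv ⊢
      intro j hj
      have h1 := T_apply T _ hT v (j - 1)
      rw [sub_add_cancel] at h1
      rw [h1, hv (j - 1) (by omega)]
      simp

end Crest.Agent.S0150Aux.Lat2
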