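import Crest.Prelude.Def_TwoAdicShift

/-!
helper77: pure ℓ²(ℤ) pieces for S0150 (row 113, row incomplete).
* `mem_tailSpace_iff` : `v ∈ tailSpace h ↔ ∀ j < h, v j = 0`
* `tail_invariant` : tails are invariant under every forward weighted shift
* `lat_of_keyProp` : (bilateral Donoghue claim, as a hypothesis `KeyProp S`) ⇒ the closed invariant
  subspaces are `⊥`, `⊤` and the tails
* `keyProp_of_seqKey` : `KeyProp S` from the key lemma in pure sequence form.
-/

set_option autoImplicit false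
open Crest.AnalysisR.TwoAdic
open scoped InnerProductSpace ComplexConjugate

namespace Crest.Agent.S0150Aux.Lat77

lemma inner_basisVec_left (j : ℤ) (v : seqHilbert) : ⟪basisVec j, v⟫_ℂ = v j := by
  unfold basisVec
  rw [lp.inner_single_left]
  simp

lemma basisVec_apply_self (j : ℤ) : (basisVec j) j = 1 := lp.single_apply_self 2 j 1

lemma basisVec_apply_ne {i j : ℤ} (h : i ≠ j) : (basisVec j) i = 0 := lp.single_apply_ne 2 j 1 h

lemma single_eq_smul (i : ℤ) (a : ℂ) :
    (lp.single 2 i a : seqHilbert) = a • basisVec i := by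
  unfold basisVec
  rw [← lp.single_smul]
  simp

lemma basisVec_mem_tailSpace {h j : ℤ} (hj : h ≤ j) : basisVec j ∈ tailSpace h :=
  Submodule.le_topologicalClosure _ (Submodule.subset_span ⟨⟨j, hj⟩, rfl⟩)

lemma tailSpace_isClosed (h : ℤ) : IsClosed (tailSpace h : Set seqHilbert) :=
  Submodule.isClosed_topologicalClosure _

lemma tailSpace_le_of_basisVec_mem {h : ℤ} {W : Submodule ℂ seqHilbert}
    (hW : IsClosed (W : Set seqHilbert)) (hb : ∀ j, h ≤ j → basisVec j ∈ W) : tailSpace h ≤ W := by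
  apply Submodule.topologicalClosure_minimal _ _ hW
  rw [Submodule.span_le]
  rintro _ ⟨⟨j, hj⟩, rfl⟩
  exact hb j hj

lemma mem_of_coord {W : Submodule ℂ seqHilbert} (hW : IsClosed (W : Set seqHilbert))
    (v : seqHilbert) (hb : ∀ j, v j ≠ 0 → basisVec j ∈ W) : v ∈ W := by
  have hs := lp.hasSum_single (p := 2) (by simp) v
  refine hW.mem_of_tendsto hs (Filter.Eventually.of_forall fun s => ?_)
  refine Submodule.sum_mem _ fun i _ => ?_
  rw [single_eq_smul]
  by_cases h0 : v i = 0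
  · rw [h0, zero_smul]; exact W.zero_mem
  · exact W.smul_mem _ (hb i h0)

lemma mem_tailSpace_iff (h : ℤ) (v : seqHilbert) : v ∈ tailSpace h ↔ ∀ j, j < h → v j = 0 := by
  constructor
  · intro hv j hj
    have hle : tailSpace h ≤ LinearMap.ker (lp.evalCLM ℂ (fun _ : ℤ => ℂ) 2 j).toLinearMap := by
      apply tailSpace_le_of_basisVec_mem
      · exact (lp.evalCLM ℂ (fun _ : ℤ => ℂ) 2 j).isClosed_ker
      · intro i hi
        rw [LinearMap.mem_ker]
        exact basisVec_apply_ne (by omega)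
    exact hle hv
  · intro hv
    refine mem_of_coord (tailSpace_isClosed h) v fun j hj => basisVec_mem_tailSpace ?_
    by_contra hlt
    exact hj (hv j (by omega))

lemma tailSpace_anti {h h' : ℤ} (hh : h ≤ h') : tailSpace h' ≤ tailSpace h :=
  tailSpace_le_of_basisVec_mem (tailSpace_isClosed h) fun _ hj =>
    basisVec_mem_tailSpace (hh.trans hj)

lemma tail_invariant (S : seqHilbert →L[ℂ] seqHilbert) (c : ℤ → ℂ)
    (hS : ∀ j, S (basisVec j) = c j • basisVec (j + 1)) (h : ℤ) :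
    ∀ v ∈ tailSpace h, S v ∈ tailSpace h := by
  intro v hv
  have hle : tailSpace h ≤ (tailSpace h).comap S.toLinearMap := by
    apply tailSpace_le_of_basisVec_mem
    · exact (tailSpace_isClosed h).preimage S.continuous
    · intro j hj
      show S (basisVec j) ∈ tailSpace h
      rw [hS]
      exact Submodule.smul_mem _ _ (basisVec_mem_tailSpace (by omega))
  exact hle hv

/-- The bilateral Donoghue claim for all cut points. -/
def KeyProp (S : seqHilbert →L[ℂ] seqHilbert) : Prop :=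
  ∀ (w u : seqHilbert), (∀ n : ℕ, ⟪u, (S ^ n) w⟫_ℂ = 0) →
    ∀ j0 k0 : ℤ, j0 < k0 → w j0 ≠ 0 → u k0 ≠ 0 → False

lemma comparable (S : seqHilbert →L[ℂ] seqHilbert) (hK : KeyProp S)
    (W : Submodule ℂ seqHilbert) (hWc : IsClosed (W : Set seqHilbert))
    (hinv : ∀ v ∈ W, S v ∈ W) (s : ℤ) : W ≤ tailSpace s ∨ tailSpace s ≤ W := by
  by_cases hle : W ≤ tailSpace s
  · exact Or.inl hle
  · right
    obtain ⟨w, hwW, hwt⟩ := SetLike.not_le_iff_exists.mp hle
    rw [mem_tailSpace_iff] at hwt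
    push Not at hwt
    obtain ⟨j0, hj0, hwj0⟩ := hwt
    have hpow : ∀ n : ℕ, (S ^ n) w ∈ W := by
      intro n
      induction n with
      | zero => simpa using hwW
      | succ n ih =>
        rw [pow_succ']
        exact hinv _ ih
    apply tailSpace_le_of_basisVec_mem hWc
    intro k hk
    have hWW : Wᗮᗮ = W := by
      have : CompleteSpace W := hWc.completeSpace_coe
      exact Submodule.orthogonal_orthogonal W
    rw [← hWW, Submodule.mem_orthogonal']
    intro u hu
    rw [inner_basisVec_left]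
    by_contra hne
    exact hK w u (fun n => (Submodule.mem_orthogonal' W u).mp hu _ (hpow n)) j0 k (by omega)
      hwj0 hne

theorem lat_of_keyProp (S : seqHilbert →L[ℂ] seqHilbert) (hK : KeyProp S)
    (W : Submodule ℂ seqHilbert) (hWc : IsClosed (W : Set seqHilbert))
    (hinv : ∀ v ∈ W, S v ∈ W) : W = ⊥ ∨ W = ⊤ ∨ ∃ h : ℤ, W = tailSpace h := by
  have hcmp := comparable S hK W hWc hinv
  by_cases h1 : ∀ s, W ≤ tailSpace s
  · left
    rw [eq_bot_iff]
    intro w hw
    rw [Submodule.mem_bot]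
    apply lp.ext
    funext j
    exact (mem_tailSpace_iff (j + 1) w).mp (h1 (j + 1) hw) j (by omega)
  by_cases h2 : ∃ s, W ≤ tailSpace s
  · right; right
    push Not at h1
    obtain ⟨s1, hs1⟩ := h1
    obtain ⟨ub, hub, hmax⟩ := Int.exists_greatest_of_bdd (P := fun s => W ≤ tailSpace s)
      ⟨s1, fun z hz => by
        by_contra hlt
        exact hs1 (hz.trans (tailSpace_anti (by omega)))⟩ h2
    refine ⟨ub, le_antisymm hub ?_⟩
    have hnot : ¬ W ≤ tailSpace (ub + 1) := fun hle => by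
      have := hmax _ hle
      omega
    have hle1 : tailSpace (ub + 1) ≤ W := (hcmp (ub + 1)).resolve_left hnot
    obtain ⟨w, hwW, hwt⟩ := SetLike.not_le_iff_exists.mp hnot
    have hw0 := (mem_tailSpace_iff ub w).mp (hub hwW)
    have hwub : w ub ≠ 0 := by
      intro h0
      apply hwt
      rw [mem_tailSpace_iff]
      intro j hj
      rcases (show j < ub ∨ j = ub by omega) with h | h
      · exact hw0 j h
      · rw [h]; exact h0
    have hdiff : w - (w ub) • basisVec ub ∈ tailSpace (ub + 1) := by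
      rw [mem_tailSpace_iff]
      intro j hj
      have hc : (w - (w ub) • basisVec ub) j = w j - w ub * (basisVec ub) j := rfl
      rw [hc]
      rcases (show j < ub ∨ j = ub by omega) with h | h
      · have : (basisVec ub) j = 0 := basisVec_apply_ne (by omega)
        rw [hw0 j h, this]; simp
      · subst h
        rw [basisVec_apply_self]; simp
    have hb : basisVec ub ∈ W := by
      have h3 : (w ub) • basisVec ub ∈ W := by
        have := W.sub_mem hwW (hle1 hdiff)
        simpa using this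
      have := W.smul_mem (w ub)⁻¹ h3
      rwa [smul_smul, inv_mul_cancel₀ hwub, one_smul] at this
    apply tailSpace_le_of_basisVec_mem hWc
    intro j hj
    rcases (show j = ub ∨ ub + 1 ≤ j by omega) with h | h
    · rw [h]; exact hb
    · exact hle1 (basisVec_mem_tailSpace h)
  · right; left
    push Not at h2
    rw [eq_top_iff]
    intro v _
    refine mem_of_coord hWc v fun j _ => ?_
    exact ((hcmp j).resolve_left (h2 j)) (basisVec_mem_tailSpace le_rfl)

/-- The full `Lat` clause of S0150 for one fibre. -/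
theorem lat_iff (S : seqHilbert →L[ℂ] seqHilbert) (c : ℤ → ℂ)
    (hS : ∀ j, S (basisVec j) = c j • basisVec (j + 1)) (hK : KeyProp S)
    (W : Submodule ℂ seqHilbert) (hWc : IsClosed (W : Set seqHilbert)) :
    (∀ v ∈ W, S v ∈ W) ↔ (W = ⊥ ∨ W = ⊤ ∨ ∃ h : ℤ, W = tailSpace h) := by
  constructor
  · exact lat_of_keyProp S hK W hWc
  · rintro (rfl | rfl | ⟨h, rfl⟩)
    · intro v hv
      rw [Submodule.mem_bot] at hv
      simp [hv]
    · intro v _
      exact Submodule.mem_top
    · exact tail_invariant S c hS h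

/-- Coordinates of a forward weighted shift. -/
lemma shift_apply (S : seqHilbert →L[ℂ] seqHilbert) (c : ℤ → ℂ)
    (hS : ∀ j, S (basisVec j) = c j • basisVec (j + 1)) (v : seqHilbert) (j : ℤ) :
    (S v) (j + 1) = c j * v j := by
  have hs := lp.hasSum_single (p := 2) (by simp) v
  have h1 := S.hasSum hs
  have h2 := (lp.evalCLM ℂ (fun _ : ℤ => ℂ) 2 (j + 1)).hasSum h1
  have h3 : HasSum (fun i : ℤ => if i = j then c j * v j else 0) (c j * v j) := hasSum_ite_eq j _
  have h4 : (fun i : ℤ => (lp.evalCLM ℂ (fun _ : ℤ => ℂ) 2 (j + 1)) (S (lp.single 2 i (v i))))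
      = fun i : ℤ => if i = j then c j * v j else 0 := by
    funext i
    rw [single_eq_smul, map_smul, hS]
    have hc : (lp.evalCLM ℂ (fun _ : ℤ => ℂ) 2 (j + 1)) (v i • c i • basisVec (i + 1))
        = v i * (c i * (basisVec (i + 1)) (j + 1)) := rfl
    rw [hc]
    split_ifs with h
    · subst h
      rw [basisVec_apply_self]; ring
    · rw [basisVec_apply_ne (by omega)]; ring
  rw [h4] at h2
  exact h2.unique h3

lemma shift_pow_apply (S : seqHilbert →L[ℂ] seqHilbert) (β A : ℤ → ℝ)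
    (hβ : ∀ j, β j = Real.exp (A j - A (j + 1)))
    (hS : ∀ j, S (basisVec j) = (β j : ℂ) • basisVec (j + 1)) (v : seqHilbert) (n : ℕ) (j : ℤ) :
    ((S ^ n) v) (j + n) = (Real.exp (A j - A (j + n)) : ℂ) * v j := by
  induction n with
  | zero => simp
  | succ n ih =>
    rw [pow_succ']
    have h1 : j + ((n + 1 : ℕ) : ℤ) = (j + n) + 1 := by push_cast; ring
    rw [h1]
    show (S ((S ^ n) v)) (j + n + 1) = _
    rw [shift_apply S (fun j => (β j : ℂ)) hS, ih, hβ, ← mul_assoc, ← Complex.ofReal_mul,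
      ← Real.exp_add]
    congr 3
    ring

lemma inner_shift_pow (S : seqHilbert →L[ℂ] seqHilbert) (β A : ℤ → ℝ)
    (hβ : ∀ j, β j = Real.exp (A j - A (j + 1)))
    (hS : ∀ j, S (basisVec j) = (β j : ℂ) • basisVec (j + 1)) (w u : seqHilbert) (n : ℕ) :
    ⟪u, (S ^ n) w⟫_ℂ
      = ∑' j : ℤ, w j * conj (u (j + n)) * (Real.exp (A j - A (j + n)) : ℂ) := by
  rw [lp.inner_eq_tsum, ← (Equiv.addRight (n : ℤ)).tsum_eq]
  refine tsum_congr fun j => ?_
  show ⟪u (j + n), ((S ^ n) w) (j + n)⟫_ℂ = _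
  rw [shift_pow_apply S β A hβ hS]
  simp only [RCLike.inner_apply]
  ring

/-- `KeyProp S` from the key lemma in pure sequence form (`hkey` has the shape of the conclusion of
helper36's planned `Key36.key` for fixed `A`). -/
theorem keyProp_of_seqKey (S : seqHilbert →L[ℂ] seqHilbert) (β A : ℤ → ℝ)
    (hβ : ∀ j, β j = Real.exp (A j - A (j + 1)))
    (hS : ∀ j, S (basisVec j) = (β j : ℂ) • basisVec (j + 1))
    (hkey : ∀ (w u : ℤ → ℂ), (∀ j, ‖w j‖ ≤ 1) → (∀ j, ‖u j‖ ≤ 1) →
      (∀ n : ℕ, 1 ≤ n →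
        ∑' j : ℤ, w j * conj (u (j + n)) * (Real.exp (A j - A (j + n)) : ℂ) = 0) →
      ∀ j0 k0 : ℤ, j0 < k0 → w j0 ≠ 0 → u k0 ≠ 0 → False) : KeyProp S := by
  intro w u horth j0 k0 hjk hw hu
  have hwn : 0 < ‖w‖ := lt_of_lt_of_le (norm_pos_iff.mpr hw) (lp.norm_apply_le_norm (by simp) w j0)
  have hun : 0 < ‖u‖ := lt_of_lt_of_le (norm_pos_iff.mpr hu) (lp.norm_apply_le_norm (by simp) u k0)
  refine hkey (fun j => ((‖w‖⁻¹ : ℝ) : ℂ) * w j) (fun j => ((‖u‖⁻¹ : ℝ) : ℂ) * u j) ?_ ?_ ?_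
    j0 k0 hjk ?_ ?_
  · intro j
    rw [norm_mul, Complex.norm_real, norm_inv, norm_norm, inv_mul_le_iff₀ hwn, mul_one]
    exact lp.norm_apply_le_norm (by simp) w j
  · intro j
    rw [norm_mul, Complex.norm_real, norm_inv, norm_norm, inv_mul_le_iff₀ hun, mul_one]
    exact lp.norm_apply_le_norm (by simp) u j
  · intro n _
    have h0 := horth n
    rw [inner_shift_pow S β A hβ hS] at h0
    have : (fun j : ℤ => ((‖w‖⁻¹ : ℝ) : ℂ) * w j * conj (((‖u‖⁻¹ : ℝ) : ℂ) * u (j + n))
          * (Real.exp (A j - A (j + n)) : ℂ))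
        = fun j : ℤ => (((‖w‖⁻¹ : ℝ) : ℂ) * ((‖u‖⁻¹ : ℝ) : ℂ))
          * (w j * conj (u (j + n)) * (Real.exp (A j - A (j + n)) : ℂ)) := by
      funext j
      rw [map_mul, Complex.conj_ofReal]
      ring
    rw [this, tsum_mul_left, h0, mul_zero]
  · exact mul_ne_zero (by exact_mod_cast (inv_pos.mpr hwn).ne') hw
  · exact mul_ne_zero (by exact_mod_cast (inv_pos.mpr hun).ne') hu

/-- The `Lat` clause of S0150 for one fibre, from the key lemma in sequence form. -/
theorem lat_iff_of_seqKey (S : seqHilbert →L[ℂ] seqHilbert) (β A : ℤ → ℝ)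
    (hβ : ∀ j, β j = Real.exp (A j - A (j + 1)))
    (hS : ∀ j, S (basisVec j) = (β j : ℂ) • basisVec (j + 1))
    (hkey : ∀ (w u : ℤ → ℂ), (∀ j, ‖w j‖ ≤ 1) → (∀ j, ‖u j‖ ≤ 1) →
      (∀ n : ℕ, 1 ≤ n →
        ∑' j : ℤ, w j * conj (u (j + n)) * (Real.exp (A j - A (j + n)) : ℂ) = 0) →
      ∀ j0 k0 : ℤ, j0 < k0 → w j0 ≠ 0 → u k0 ≠ 0 → False)
    (W : Submodule ℂ seqHilbert) (hWc : IsClosed (W : Set seqHilbert)) :
    (∀ v ∈ W, S v ∈ W) ↔ (W = ⊥ ∨ W = ⊤ ∨ ∃ h : ℤ, W = tailSpace h) :=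
  lat_iff S (fun j => (β j : ℂ)) hS (keyProp_of_seqKey S β A hβ hS hkey) W hWc

end Crest.Agent.S0150Aux.Lat77
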