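import Mathlib
import Crest.Prelude.Def_TwoAdicShift
import Crest.Agent.S0150Aux.Erg15

/-!
helper85: for S0150 (part of row 113): lift of a measurable bounded field of weighted shifts on ℓ²(ℤ)
to a bounded operator on `fibreSpace = L²(ℤ₂; ℓ²(ℤ))`, with or without the odometer translation;
norm bounds, powers and commutation from the fibre formulas.
-/

set_option autoImplicit false
open Crest.AnalysisR.TwoAdic MeasureTheory
open scoped InnerProductSpace
attribute [local instance] Crest.AnalysisR.TwoAdic.borelTwoAdic Crest.AnalysisR.TwoAdic.borelSpace_twoAdic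

namespace Crest.Agent.S0150Aux.Lift85

open Crest.Agent.S0150Aux.Erg15

theorem inner_basis_left (j : ℤ) (v : seqHilbert) : ⟪basisVec j, v⟫_ℂ = v j := by
  unfold basisVec
  rw [lp.inner_single_left]
  simp

theorem hasSum_basis (v : seqHilbert) : HasSum (fun j : ℤ => v j • basisVec j) v := by
  have h := lp.hasSum_single (p := 2) (E := fun _ : ℤ => ℂ) (by simp) v
  have e : (fun j : ℤ => v j • basisVec j) = fun j : ℤ => lp.single 2 j (v j) := by
    funext j
    unfold basisVec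
    rw [← lp.single_smul]
    simp
  rw [e]
  exact h

theorem measurePreserving_sub_one :
    MeasurePreserving (fun x : ℤ_[2] => x - 1) haarTwoAdic haarTwoAdic := by
  have := measurePreserving_add_left haarTwoAdic (-1 : ℤ_[2])
  simpa [add_comm, sub_eq_add_neg] using this

section

variable (Φ : ℤ_[2] → (seqHilbert →L[ℂ] seqHilbert)) (c : ℤ → ℤ_[2] → ℝ) (k : ℤ)
  (hc : ∀ j, Measurable (c j))
  (hΦ : ∀ x j, Φ x (basisVec j) = (c j x : ℂ) • basisVec (j + k))

include hc hΦ in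
/-- measurability of the fibrewise image -/
theorem stronglyMeasurable_fibre (f : ℤ_[2] → seqHilbert) (hf : StronglyMeasurable f) :
    StronglyMeasurable (fun x => Φ x (f x)) := by
  have hterm : ∀ s : Finset ℤ, StronglyMeasurable
      (fun x => ∑ j ∈ s, ((f x) j * (c j x : ℂ)) • basisVec (j + k)) := by
    intro s
    refine Finset.stronglyMeasurable_fun_sum s (fun j _ => ?_)
    refine StronglyMeasurable.smul_const ?_ _
    refine StronglyMeasurable.mul ?_ ?_
    · have : (fun x => (f x) j) = fun x => ⟪basisVec j, f x⟫_ℂ := by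
        funext x
        rw [inner_basis_left]
      rw [this]
      exact stronglyMeasurable_const.inner hf
    · exact (Complex.measurable_ofReal.comp (hc j)).stronglyMeasurable
  refine stronglyMeasurable_of_tendsto (Filter.atTop : Filter (Finset ℤ)) hterm ?_
  rw [tendsto_pi_nhds]
  intro x
  have hs := (hasSum_basis (f x)).mapL (Φ x)
  have e : (fun j : ℤ => Φ x ((f x) j • basisVec j)) =
      fun j => ((f x) j * (c j x : ℂ)) • basisVec (j + k) := by
    funext j
    rw [map_smul, hΦ, smul_smul]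
  rw [e] at hs
  exact hs

include hc hΦ in
theorem exists_lift (C : ℝ) (hC : ∀ x, ‖Φ x‖ ≤ C) :
    ∃ S : fibreSpace →L[ℂ] fibreSpace, ‖S‖ ≤ C ∧ ∀ f : fibreSpace, ∀ᵐ x ∂haarTwoAdic,
      (S f : ℤ_[2] → seqHilbert) x = Φ x ((f : ℤ_[2] → seqHilbert) x) := by
  have hC0 : 0 ≤ C := (norm_nonneg _).trans (hC 0)
  have hmem : ∀ f : fibreSpace,
      MemLp (fun x => Φ x ((f : ℤ_[2] → seqHilbert) x)) 2 haarTwoAdic := by
    intro f
    refine (Lp.memLp f).of_le_mul (c := C)
      (stronglyMeasurable_fibre Φ c k hc hΦ _ (Lp.stronglyMeasurable f)).aestronglyMeasurable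
      (Filter.Eventually.of_forall fun x => ?_)
    exact ((Φ x).le_opNorm _).trans (mul_le_mul_of_nonneg_right (hC x) (norm_nonneg _))
  let L : fibreSpace →ₗ[ℂ] fibreSpace :=
    { toFun := fun f => (hmem f).toLp _
      map_add' := by
        intro f g
        rw [← MemLp.toLp_add]
        apply MemLp.toLp_congr
        filter_upwards [Lp.coeFn_add f g] with x hx
        show Φ x ((f + g : fibreSpace) x) = _
        rw [hx, Pi.add_apply, map_add]
        rfl
      map_smul' := by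
        intro a f
        rw [RingHom.id_apply, ← MemLp.toLp_const_smul]
        apply MemLp.toLp_congr
        filter_upwards [Lp.coeFn_smul a f] with x hx
        show Φ x ((a • f : fibreSpace) x) = _
        rw [hx, Pi.smul_apply, map_smul]
        rfl }
  have hLf : ∀ f : fibreSpace, ∀ᵐ x ∂haarTwoAdic,
      (L f : ℤ_[2] → seqHilbert) x = Φ x ((f : ℤ_[2] → seqHilbert) x) :=
    fun f => MemLp.coeFn_toLp (hmem f)
  have hb : ∀ f : fibreSpace, ‖L f‖ ≤ C * ‖f‖ := by
    intro f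
    apply Lp.norm_le_mul_norm_of_ae_le_mul
    filter_upwards [hLf f] with x hx
    rw [hx]
    exact ((Φ x).le_opNorm _).trans (mul_le_mul_of_nonneg_right (hC x) (norm_nonneg _))
  exact ⟨L.mkContinuous C hb, L.mkContinuous_norm_le hC0 hb, hLf⟩

include hc hΦ in
theorem exists_lift_shift (C : ℝ) (hC : ∀ x, ‖Φ x‖ ≤ C) :
    ∃ V : fibreSpace →L[ℂ] fibreSpace, ‖V‖ ≤ C ∧ ∀ f : fibreSpace, ∀ᵐ x ∂haarTwoAdic,
      (V f : ℤ_[2] → seqHilbert) (x + 1) = Φ x ((f : ℤ_[2] → seqHilbert) x) := by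
  obtain ⟨S0, hn, hS0⟩ := exists_lift Φ c k hc hΦ C hC
  let τ : fibreSpace →L[ℂ] fibreSpace :=
    (Lp.compMeasurePreservingₗᵢ ℂ (fun x : ℤ_[2] => x - 1)
      measurePreserving_sub_one).toContinuousLinearMap
  refine ⟨τ.comp S0, ?_, fun f => ?_⟩
  · refine (ContinuousLinearMap.opNorm_comp_le _ _).trans ?_
    have h1 : ‖τ‖ ≤ 1 := LinearIsometry.norm_toContinuousLinearMap_le _
    calc ‖τ‖ * ‖S0‖ ≤ 1 * C := mul_le_mul h1 hn (norm_nonneg _) zero_le_one
      _ = C := one_mul C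
  · have h1 : ∀ᵐ y ∂haarTwoAdic, (τ (S0 f) : ℤ_[2] → seqHilbert) y
        = (S0 f : ℤ_[2] → seqHilbert) (y - 1) :=
      Lp.coeFn_compMeasurePreserving (S0 f) measurePreserving_sub_one
    have h2 := measurePreserving_add_one.quasiMeasurePreserving.ae h1
    filter_upwards [h2, hS0 f] with x a b
    rw [ContinuousLinearMap.comp_apply, a, add_sub_cancel_right, b]

end

theorem norm_le_of_fibre (T : fibreSpace →L[ℂ] fibreSpace)
    (Ψ : ℤ_[2] → (seqHilbert →L[ℂ] seqHilbert))
    (h : ∀ f : fibreSpace, ∀ᵐ x ∂haarTwoAdic,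
      (T f : ℤ_[2] → seqHilbert) x = Ψ x ((f : ℤ_[2] → seqHilbert) x))
    (C : ℝ) (hC0 : 0 ≤ C) (hC : ∀ x, ‖Ψ x‖ ≤ C) : ‖T‖ ≤ C := by
  refine T.opNorm_le_bound hC0 fun f => ?_
  apply Lp.norm_le_mul_norm_of_ae_le_mul
  filter_upwards [h f] with x hx
  rw [hx]
  exact ((Ψ x).le_opNorm _).trans (mul_le_mul_of_nonneg_right (hC x) (norm_nonneg _))

theorem fibre_pow (S : fibreSpace →L[ℂ] fibreSpace)
    (Φ : ℤ_[2] → (seqHilbert →L[ℂ] seqHilbert))
    (h : ∀ f : fibreSpace, ∀ᵐ x ∂haarTwoAdic,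
      (S f : ℤ_[2] → seqHilbert) x = Φ x ((f : ℤ_[2] → seqHilbert) x)) (n : ℕ) :
    ∀ f : fibreSpace, ∀ᵐ x ∂haarTwoAdic,
      ((S ^ n) f : ℤ_[2] → seqHilbert) x = ((Φ x) ^ n) ((f : ℤ_[2] → seqHilbert) x) := by
  induction n with
  | zero =>
    intro f
    simp
  | succ n ih =>
    intro f
    filter_upwards [h ((S ^ n) f), ih f] with x h1 h2
    rw [pow_succ', pow_succ', mul_apply_eq_comp, mul_apply_eq_comp, h1, h2]

theorem comm_of_fibre (S V : fibreSpace →L[ℂ] fibreSpace)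
    (Sfib Vfib : ℤ_[2] → (seqHilbert →L[ℂ] seqHilbert))
    (hS : ∀ f : fibreSpace, ∀ᵐ x ∂haarTwoAdic,
      (S f : ℤ_[2] → seqHilbert) x = Sfib x ((f : ℤ_[2] → seqHilbert) x))
    (hV : ∀ f : fibreSpace, ∀ᵐ x ∂haarTwoAdic,
      (V f : ℤ_[2] → seqHilbert) (x + 1) = Vfib x ((f : ℤ_[2] → seqHilbert) x))
    (hcomm : ∀ x v, Vfib x (Sfib x v) = Sfib (x + 1) (Vfib x v)) : V * S = S * V := by
  apply ContinuousLinearMap.ext
  intro f
  apply Lp.ext
  have h1 : ∀ᵐ x ∂haarTwoAdic, (V (S f) : ℤ_[2] → seqHilbert) (x + 1)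
      = (S (V f) : ℤ_[2] → seqHilbert) (x + 1) := by
    have hSV := measurePreserving_add_one.quasiMeasurePreserving.ae (hS (V f))
    filter_upwards [hV (S f), hS f, hSV, hV f] with x a b c d
    rw [a, b, c, d, hcomm]
  have h2 := measurePreserving_sub_one.quasiMeasurePreserving.ae h1
  filter_upwards [h2] with x hx
  rw [sub_add_cancel] at hx
  exact hx

end Crest.Agent.S0150Aux.Lift85
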