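import Mathlib

/-!
Final step of the KEY lemma of S0150 (helper61): a series over `ℤ` with one dominant term
(all other terms bounded by `M * exp (-2 |d|)`) cannot sum to zero.
-/

set_option autoImplicit false

namespace Crest.Agent.S0150Aux.NoCancel61

/-- `g' d = r ^ |d|` for `d ≠ 0`, `0` at `0`. -/
noncomputable def gg (r : ℝ) (d : ℤ) : ℝ := if d = 0 then 0 else r ^ d.natAbs

theorem hasSum_gg {r : ℝ} (h0 : 0 ≤ r) (h1 : r < 1) : HasSum (gg r) (r / (1 - r) + r / (1 - r)) := by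
  have hg := hasSum_geometric_of_lt_one h0 h1
  have hne : (1 - r) ≠ 0 := by linarith
  apply HasSum.of_nat_of_neg_add_one
  · have e : (fun n : ℕ => gg r (n : ℤ)) = fun n : ℕ => r ^ n - if n = 0 then 1 else 0 := by
      funext n
      unfold gg
      by_cases hn : n = 0
      · subst hn; simp
      · have : ¬ ((n : ℤ) = 0) := by exact_mod_cast hn
        simp [hn]
    rw [e]
    have := hg.sub (hasSum_ite_eq (0 : ℕ) (1 : ℝ))
    have e2 : r / (1 - r) = (1 - r)⁻¹ - 1 := by
      field_simp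
      ring
    rw [e2]
    exact this
  · have e : (fun n : ℕ => gg r (-((n : ℤ) + 1))) = fun n : ℕ => r * r ^ n := by
      funext n
      unfold gg
      have h : ¬ (-((n : ℤ) + 1) = 0) := by omega
      have h2 : (-((n : ℤ) + 1)).natAbs = n + 1 := by omega
      rw [if_neg h, h2, pow_succ]; ring
    rw [e]
    have := hg.mul_left r
    rw [div_eq_mul_inv]
    exact this

theorem no_cancel_pow (t : ℤ → ℂ) (js : ℤ) (M r : ℝ) (hM : 0 < M) (hr0 : 0 ≤ r) (hr : 3 * r < 1)
    (h0 : ‖t js‖ = M) (hd : ∀ d : ℤ, d ≠ 0 → ‖t (js + d)‖ ≤ M * r ^ d.natAbs) :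
    ∑' j : ℤ, t j ≠ 0 := by
  have hr1 : r < 1 := by linarith
  set f : ℤ → ℂ := fun d => t (js + d) with hf
  have hsumeq : ∑' j : ℤ, t j = ∑' d : ℤ, f d := ((Equiv.addLeft js).tsum_eq t).symm
  rw [hsumeq]
  have hG := hasSum_gg hr0 hr1
  set rest : ℤ → ℂ := fun d => if d = 0 then 0 else f d with hrest
  have hrest_le : ∀ d, ‖rest d‖ ≤ M * gg r d := by
    intro d
    by_cases h : d = 0
    · simp [hrest, gg, h]
    · simp only [hrest, gg, if_neg h]; exact hd d h
  have hsr : Summable rest :=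
    Summable.of_norm_bounded (hG.summable.mul_left M) hrest_le
  have hfs : Summable f := by
    have : f = fun d => rest d + if d = 0 then f 0 else 0 := by
      funext d
      by_cases h : d = 0
      · subst h; simp [hrest]
      · simp [hrest, h]
    rw [this]
    exact hsr.add (hasSum_ite_eq (0 : ℤ) (f 0)).summable
  have hsplit : ∑' d : ℤ, f d = f 0 + ∑' d : ℤ, rest d := hfs.tsum_eq_add_tsum_ite 0
  have hbound : ‖∑' d : ℤ, rest d‖ ≤ M * (r / (1 - r) + r / (1 - r)) := by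
    have h1 : ‖∑' d : ℤ, rest d‖ ≤ ∑' d : ℤ, ‖rest d‖ := norm_tsum_le_tsum_norm hsr.norm
    have h2 : ∑' d : ℤ, ‖rest d‖ ≤ ∑' d : ℤ, M * gg r d :=
      hsr.norm.tsum_le_tsum hrest_le (hG.summable.mul_left M)
    rw [tsum_mul_left, hG.tsum_eq] at h2
    exact h1.trans h2
  have hlt : r / (1 - r) + r / (1 - r) < 1 := by
    have h1r : 0 < 1 - r := by linarith
    rw [← add_div, div_lt_one h1r]; linarith
  intro hzero
  rw [hsplit] at hzero
  have hf0 : ‖f 0‖ = M := by simp [hf, h0]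
  have : f 0 = -∑' d : ℤ, rest d := eq_neg_of_add_eq_zero_left hzero
  rw [this, norm_neg] at hf0
  nlinarith

/-- the form with `exp (-2 |d|)`. -/
theorem no_cancel (t : ℤ → ℂ) (js : ℤ) (M : ℝ) (hM : 0 < M) (h0 : ‖t js‖ = M)
    (hd : ∀ d : ℤ, d ≠ 0 → ‖t (js + d)‖ ≤ M * Real.exp (-2 * |(d : ℝ)|)) :
    ∑' j : ℤ, t j ≠ 0 := by
  apply no_cancel_pow t js M (Real.exp (-2)) hM (Real.exp_pos _).le _ h0
  · intro d hd0
    refine (hd d hd0).trans (le_of_eq ?_)
    congr 1
    rw [← Real.exp_nat_mul]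
    congr 1
    have : ((d.natAbs : ℕ) : ℝ) = |(d : ℝ)| := by
      rw [Nat.cast_natAbs]; push_cast; rfl
    rw [this]; ring
  · have h1 : (3 : ℝ) < Real.exp 2 := by
      have := Real.add_one_lt_exp (show (2 : ℝ) ≠ 0 by norm_num)
      linarith
    rw [Real.exp_neg]
    have hpos := Real.exp_pos 2
    rw [← div_eq_mul_inv, div_lt_one hpos]
    exact h1

end Crest.Agent.S0150Aux.NoCancel61
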