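import Crest.Agent.S0150Aux.Wts2
import Crest.Agent.S0150Aux.Lat2

/-! helper2: task T1 of the S0150 board (note 986) in the exact shapes, and `noCross_vec`
(note 991).  Row 113 is incomplete. -/

set_option autoImplicit false
open Crest.AnalysisR.TwoAdic MeasureTheory
attribute [local instance] Crest.AnalysisR.TwoAdic.borelTwoAdic
  Crest.AnalysisR.TwoAdic.borelSpace_twoAdic

namespace Crest.Agent.S0150Aux.T1_2

open Crest.Agent.S0150Aux.D13 Crest.Agent.S0150Aux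

theorem cum_succ (δ : ℤ → ℝ) (j : ℤ) : cum δ (j + 1) = cum δ j + δ j := Wts2.cum_succ δ j

theorem AA_succ (x : ℤ_[2]) (j : ℤ) : AA x (j + 1) = AA x j + al x j := Wts2.AA_succ x j

theorem Vw_le_aw (j : ℤ) (x : ℤ_[2]) : (H35.Vw j : ℝ) ≤ aw j x := Wts2.Vw_le_aw j x

theorem al_grow (x : ℤ_[2]) (j : ℤ) : 10 * |(j : ℝ)| - 0 ≤ al x j := by
  rw [sub_zero]; exact Wts2.growth x j

theorem al_mono_right (x : ℤ_[2]) : ∀ j : ℤ, 1 ≤ j → al x j ≤ al x (j + 1) :=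
  fun j hj => Wts2.mono_right x j (by omega)

theorem al_mono_left (x : ℤ_[2]) : ∀ j : ℤ, j ≤ -1 → al x j ≤ al x (j - 1) :=
  fun j hj => Wts2.mono_left x j hj

theorem measurable_aw (j : ℤ) : Measurable (aw j) := Wts2.measurable_aw j

theorem measurable_bet (j : ℤ) : Measurable (bet j) := Wts2.measurable_bet j

theorem measurable_bw (j : ℤ) : Measurable (bw j) := Wts2.measurable_bw j

theorem bet_pos (j : ℤ) (x : ℤ_[2]) : 0 < bet j x := Wts2.bet_pos j x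

theorem bet_le (j : ℤ) (x : ℤ_[2]) : bet j x ≤ Real.exp (-10) := by
  unfold bet
  apply Real.exp_le_exp.2
  have := Wts2.ten_le_al x j
  linarith

theorem aw_zero_of_norm_one {x : ℤ_[2]} (h : ‖x‖ = 1) : aw 0 x = 1 := by
  have h1 : win 0 = {0} := by
    unfold win
    simp
  have h2 : ‖x‖₊ = 1 := by
    apply NNReal.eq
    simpa using h
  have h3 : rc 0 x = 1 := by
    unfold rc nu
    rw [h1]
    simp [h2]
  have h4 : H35.Vw 0 = 1 := by
    simp [H35.Vw]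
  unfold aw
  rw [h3, h4]
  simp

open scoped InnerProductSpace in
/-- vector form of the no-crossing property (note 991) -/
theorem noCross_vec (T : seqHilbert →L[ℂ] seqHilbert) (al A : ℤ → ℝ)
    (hA : ∀ j, A (j + 1) = A j + al j)
    (hT : ∀ j, T (basisVec j) = ((Real.exp (-(al j)) : ℝ) : ℂ) • basisVec (j + 1))
    (hkey : Lat2.KeyProp A) (w u : seqHilbert) (h : ∀ n : ℕ, inner ℂ u ((T ^ n) w) = 0) :
    ∀ j k : ℤ, w j ≠ 0 → u k ≠ 0 → k ≤ j := by
  intro j k hwj huk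
  by_contra hjk
  have hlt : j < k := by omega
  have ha : (0 : ℝ) < (‖w‖ + 1)⁻¹ := by have := norm_nonneg w; positivity
  have hb : (0 : ℝ) < (‖u‖ + 1)⁻¹ := by have := norm_nonneg u; positivity
  refine hkey (fun j => (((‖w‖ + 1)⁻¹ : ℝ) : ℂ) * w j) (fun j => (((‖u‖ + 1)⁻¹ : ℝ) : ℂ) * u j)
    (Lat2.scaled_norm_le w) (Lat2.scaled_norm_le u) ?_ j k hlt ?_ ?_
  · intro n _
    have h1 := h n
    rw [Lat2.inner_pow T al A hA hT] at h1
    have h2 : ∀ j : ℤ, (((‖w‖ + 1)⁻¹ : ℝ) : ℂ) * w j *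
        (starRingEnd ℂ) ((((‖u‖ + 1)⁻¹ : ℝ) : ℂ) * u (j + n)) *
        ((Real.exp (A j - A (j + n)) : ℝ) : ℂ) =
        ((((‖w‖ + 1)⁻¹ : ℝ) : ℂ) * (((‖u‖ + 1)⁻¹ : ℝ) : ℂ)) *
          (w j * (starRingEnd ℂ) (u (j + n)) * ((Real.exp (A j - A (j + n)) : ℝ) : ℂ)) := by
      intro j
      rw [map_mul, Complex.conj_ofReal]
      ring
    simp only [h2]
    rw [tsum_mul_left, h1, mul_zero]
  · exact mul_ne_zero (by exact_mod_cast ha.ne') hwj
  · exact mul_ne_zero (by exact_mod_cast hb.ne') huk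

end Crest.Agent.S0150Aux.T1_2
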