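import Crest.Agent.S0150Aux.Key36
import Crest.Agent.S0150Aux.T1_2

/-! helper36: the key lemma `Key36.key` plugged into the canonical weights `D13` of S0150
(hypotheses `h_lat`, `h_noCross` of `Asm13.assemble`, exact shapes).  Row 113 is incomplete. -/

set_option autoImplicit false
open Crest.AnalysisR.TwoAdic MeasureTheory
attribute [local instance] Crest.AnalysisR.TwoAdic.borelTwoAdic
  Crest.AnalysisR.TwoAdic.borelSpace_twoAdic

namespace Crest.Agent.S0150Aux.Plug36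

open Crest.Agent.S0150Aux.D13 Crest.Agent.S0150Aux

theorem keyProp (x : ℤ_[2]) : Lat2.KeyProp (AA x) :=
  fun w u hw hu ho _ _ h h1 h2 =>
    Key36.key (al x) (AA x) (T1_2.AA_succ x) 0 (T1_2.al_grow x) 1 (T1_2.al_mono_right x)
      (T1_2.al_mono_left x) w u hw hu ho h h1 h2

theorem h_lat : ∀ (x : ℤ_[2]) (T : seqHilbert →L[ℂ] seqHilbert),
    (∀ j, T (basisVec j) = ((Real.exp (-(al x j)) : ℝ) : ℂ) • basisVec (j + 1)) →
    ∀ W : Submodule ℂ seqHilbert, IsClosed (W : Set seqHilbert) →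
      ((∀ v ∈ W, T v ∈ W) ↔ (W = ⊥ ∨ W = ⊤ ∨ ∃ h : ℤ, W = tailSpace h)) :=
  fun x T hT W hW => Lat2.lat_iff T (al x) (AA x) (T1_2.AA_succ x) hT (keyProp x) W hW

theorem h_noCross : ∀ (x : ℤ_[2]) (T : seqHilbert →L[ℂ] seqHilbert),
    (∀ j, T (basisVec j) = ((Real.exp (-(al x j)) : ℝ) : ℂ) • basisVec (j + 1)) →
    ∀ (w u : seqHilbert), (∀ n : ℕ, inner ℂ u ((T ^ n) w) = 0) →
      ∀ j k : ℤ, w j ≠ 0 → u k ≠ 0 → k ≤ j :=
  fun x T hT w u h => T1_2.noCross_vec T (al x) (AA x) (T1_2.AA_succ x) hT (keyProp x) w u h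

end Crest.Agent.S0150Aux.Plug36
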