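import Mathlib

/-! helper75: the final summation step of the KEY LEMMA of S0150 (team note 427, sect. 2):
a series over `ℤ` with one dominant term and all other terms bounded by
`c * exp (-2 |j - j1|)` does not vanish. Mathlib only. -/

set_option autoImplicit false

namespace Crest.Agent.S0150Aux.Sum75

open Real

lemma exp_neg_two_lt : Real.exp (-2) < 1 / 4 := by
  have h2 : Real.exp 2 = Real.exp 1 * Real.exp 1 := by
    rw [← Real.exp_add]
    norm_num
  have h4 : (4 : ℝ) < Real.exp 2 := by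
    have h5 : (2 : ℝ) < Real.exp 1 := by
      have := Real.add_one_lt_exp (one_ne_zero : (1 : ℝ) ≠ 0)
      linarith
    rw [h2]
    nlinarith
  rw [Real.exp_neg, one_div]
  exact inv_strictAnti₀ (by norm_num) h4

/-- the majorant and its sum -/
lemma hasSum_major (c : ℝ) :
    HasSum (fun d : ℤ => if d = 0 then 0 else c * Real.exp (-2 * |(d : ℝ)|))
      (c * (Real.exp (-2) / (1 - Real.exp (-2))) + c * (Real.exp (-2) / (1 - Real.exp (-2)))) := by
  set r := Real.exp (-2) with hr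
  have hr0 : 0 ≤ r := (Real.exp_pos _).le
  have hr1 : r < 1 := lt_trans exp_neg_two_lt (by norm_num)
  have hgeo : HasSum (fun n : ℕ => c * (r * r ^ n)) (c * (r / (1 - r))) := by
    have := (hasSum_geometric_of_lt_one hr0 hr1).mul_left r
    have h2 := this.mul_left c
    simpa [div_eq_mul_inv] using h2
  have hpow : ∀ n : ℕ, Real.exp (-2 * ((n : ℝ) + 1)) = r * r ^ n := by
    intro n
    rw [hr, ← Real.exp_nat_mul, ← Real.exp_add]
    congr 1
    ring
  apply HasSum.of_nat_of_neg_add_one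
  · -- natural part
    have h0 : HasSum (fun n : ℕ => (if (((n + 1 : ℕ) : ℤ)) = 0 then 0
        else c * Real.exp (-2 * |((((n + 1 : ℕ) : ℤ)) : ℝ)|))) (c * (r / (1 - r))) := by
      convert hgeo using 2 with n
      have h1 : (((n + 1 : ℕ) : ℤ)) ≠ 0 := by positivity
      rw [if_neg h1, ← hpow n]
      have h2 : ((((n + 1 : ℕ) : ℤ)) : ℝ) = (n : ℝ) + 1 := by push_cast; ring
      rw [h2, abs_of_nonneg (by positivity)]
    have h3 := (hasSum_nat_add_iff (f := fun n : ℕ => (if ((n : ℤ)) = 0 then (0 : ℝ)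
        else c * Real.exp (-2 * |(((n : ℤ)) : ℝ)|))) 1).1 h0
    simpa using h3
  · convert hgeo using 2 with n
    have h1 : (-((n : ℤ) + 1)) ≠ 0 := by
      have : (0 : ℤ) ≤ n := Int.natCast_nonneg n
      omega
    rw [if_neg h1, ← hpow n]
    have h2 : ((-((n : ℤ) + 1) : ℤ) : ℝ) = -((n : ℝ) + 1) := by push_cast; ring
    rw [h2, abs_neg, abs_of_nonneg (by positivity)]

lemma major_lt (c : ℝ) (hc : 0 < c) :
    c * (Real.exp (-2) / (1 - Real.exp (-2))) + c * (Real.exp (-2) / (1 - Real.exp (-2))) < c := by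
  set r := Real.exp (-2) with hr
  have hr0 : 0 < r := Real.exp_pos _
  have hr1 : r < 1 / 4 := exp_neg_two_lt
  have h1 : r / (1 - r) < 1 / 3 := by
    rw [div_lt_div_iff₀ (by linarith) (by norm_num)]
    linarith
  nlinarith

/-- centred version -/
theorem tsum_ne_zero_centred (f : ℤ → ℂ) (c : ℝ) (hc : 0 < c) (h1 : ‖f 0‖ = c)
    (hb : ∀ d : ℤ, d ≠ 0 → ‖f d‖ ≤ c * Real.exp (-2 * |(d : ℝ)|)) :
    ∑' d, f d ≠ 0 := by
  intro h0
  set F : ℤ → ℂ := fun d => if d = 0 then 0 else f d with hF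
  have hFb : ∀ d, ‖F d‖ ≤ (if d = 0 then 0 else c * Real.exp (-2 * |(d : ℝ)|)) := by
    intro d
    by_cases hd : d = 0
    · simp [hF, hd]
    · simp only [hF, if_neg hd]
      exact hb d hd
  have hnorm := tsum_of_norm_bounded (hasSum_major c) hFb
  have hFs : Summable F := Summable.of_norm_bounded (hasSum_major c).summable hFb
  have hsplit : f = fun d => F d + (Pi.single (0 : ℤ) (f 0) : ℤ → ℂ) d := by
    funext d
    by_cases hd : d = 0
    · subst hd
      simp [hF]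
    · simp [hF, hd]
  have hsingle : HasSum (fun d : ℤ => (Pi.single (0 : ℤ) (f 0) : ℤ → ℂ) d) (f 0) :=
    hasSum_pi_single 0 (f 0)
  have htot : HasSum f (∑' d, F d + f 0) := by
    have h5 := hFs.hasSum.add hsingle
    have h6 : (fun d => F d + (Pi.single (0 : ℤ) (f 0) : ℤ → ℂ) d) = f := hsplit.symm
    rw [h6] at h5
    exact h5
  have h2 : ∑' d, F d + f 0 = 0 := by rw [← htot.tsum_eq, h0]
  have h3 : f 0 = -∑' d, F d := by
    have := eq_neg_of_add_eq_zero_right h2
    exact this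
  have h4 : ‖f 0‖ = ‖∑' d, F d‖ := by rw [h3, norm_neg]
  have := major_lt c hc
  linarith

/-- **Dominant term**: if `‖f j1‖ = c > 0` and `‖f j‖ ≤ c * exp (-2 |j - j1|)` for `j ≠ j1`
then `∑' j, f j ≠ 0`. -/
theorem tsum_ne_zero_of_dominant (f : ℤ → ℂ) (j1 : ℤ) (c : ℝ) (hc : 0 < c) (h1 : ‖f j1‖ = c)
    (hb : ∀ j : ℤ, j ≠ j1 → ‖f j‖ ≤ c * Real.exp (-2 * |((j : ℝ) - (j1 : ℝ))|)) :
    ∑' j, f j ≠ 0 := by
  have h := tsum_ne_zero_centred (fun d => f (d + j1)) c hc (by simpa using h1) (by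
    intro d hd
    have := hb (d + j1) (by omega)
    simpa using this)
  have he : ∑' d, f (d + j1) = ∑' j, f j := (Equiv.addRight j1).tsum_eq f
  rwa [he] at h

/-- variant with `c ≤ ‖f j1‖` replaced by an explicit product and `d`-indexing:
`‖f (j1 + d)‖ ≤ ‖f j1‖ * exp (-2 |d|)` for all `d ≠ 0`, `f j1 ≠ 0`. -/
theorem tsum_ne_zero_of_dominant' (f : ℤ → ℂ) (j1 : ℤ) (h1 : f j1 ≠ 0)
    (hb : ∀ d : ℤ, d ≠ 0 → ‖f (j1 + d)‖ ≤ ‖f j1‖ * Real.exp (-2 * |(d : ℝ)|)) :
    ∑' j, f j ≠ 0 := by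
  refine tsum_ne_zero_of_dominant f j1 ‖f j1‖ (norm_pos_iff.2 h1) rfl ?_
  intro j hj
  have := hb (j - j1) (by omega)
  have e : j1 + (j - j1) = j := by ring
  rw [e] at this
  simpa using this

end Crest.Agent.S0150Aux.Sum75
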