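import Mathlib
import Crest.Prelude.Def_TwoAdicShift
import Crest.Agent.S0150Aux.Erg15

set_option autoImplicit false
open Crest.AnalysisR.TwoAdic MeasureTheory
attribute [local instance] Crest.AnalysisR.TwoAdic.borelTwoAdic Crest.AnalysisR.TwoAdic.borelSpace_twoAdic

namespace Crest.Agent.S0150Aux.T11c83

open Crest.Agent.S0150Aux.Erg15

theorem measurePreserving_add_nat (t : ℕ) :
    MeasurePreserving (fun x : ℤ_[2] => x + (t : ℤ_[2])) haarTwoAdic haarTwoAdic := by
  have := measurePreserving_add_left haarTwoAdic ((t : ℤ_[2]))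
  simpa [add_comm] using this

/-- Board task T11(c) of S0150 (note 986): ergodic recurrence of the odometer. -/
theorem hit (A B : Set ℤ_[2]) (hA : MeasurableSet A) (hB : MeasurableSet B)
    (hA0 : haarTwoAdic A ≠ 0) (hB0 : haarTwoAdic B ≠ 0) (T0 : ℕ) :
    ∃ t : ℕ, T0 ≤ t ∧ haarTwoAdic (A ∩ {x | x + (t : ℤ_[2]) ∈ B}) ≠ 0 := by
  classical
  by_contra hcon
  push_neg at hcon
  set P : ℕ → Set ℤ_[2] := fun t => {x | x + (t : ℤ_[2]) ∈ B} with hP
  have hPm : ∀ t, MeasurableSet (P t) := fun t =>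
    (measurePreserving_add_nat t).measurable hB
  set U : Set ℤ_[2] := ⋃ t : ℕ, P (T0 + t) with hU
  have hUm : MeasurableSet U := MeasurableSet.iUnion fun t => hPm _
  have hsub : (fun x : ℤ_[2] => x + 1) ⁻¹' U ⊆ U := by
    intro x hx
    simp only [hU, hP, Set.mem_preimage, Set.mem_iUnion, Set.mem_setOf_eq] at hx ⊢
    obtain ⟨t, ht⟩ := hx
    refine ⟨t + 1, ?_⟩
    have : x + ((T0 + (t + 1) : ℕ) : ℤ_[2]) = x + 1 + ((T0 + t : ℕ) : ℤ_[2]) := by
      push_cast; ring
    rw [this]; exact ht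
  have hdich := ergodic_add_one.ae_empty_or_univ_of_preimage_ae_le hUm.nullMeasurableSet
    (Filter.Eventually.of_forall hsub)
  have hUpos : haarTwoAdic U ≠ 0 := by
    intro h0
    have h1 : haarTwoAdic (P (T0 + 0)) = 0 :=
      measure_mono_null (Set.subset_iUnion (fun t : ℕ => P (T0 + t)) 0) h0
    have h2 : haarTwoAdic (P (T0 + 0)) = haarTwoAdic B :=
      (measurePreserving_add_nat (T0 + 0)).measure_preimage hB.nullMeasurableSet
    exact hB0 (h2 ▸ h1)
  have hUuniv : U =ᵐ[haarTwoAdic] Set.univ := by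
    rcases hdich with h | h
    · exact absurd (by rw [measure_congr h, measure_empty]) hUpos
    · exact h
  have hAU : haarTwoAdic (A ∩ U) = haarTwoAdic A := by
    have : (A ∩ U : Set ℤ_[2]) =ᵐ[haarTwoAdic] (A ∩ Set.univ : Set ℤ_[2]) :=
      (Filter.EventuallyEq.refl _ A).inter hUuniv
    rw [measure_congr this, Set.inter_univ]
  have hzero : haarTwoAdic (A ∩ U) = 0 := by
    rw [hU, Set.inter_iUnion]
    exact measure_iUnion_null fun t => hcon (T0 + t) (Nat.le_add_right _ _)
  exact hA0 (hAU ▸ hzero)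

end Crest.Agent.S0150Aux.T11c83
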