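import Mathlib
import Crest.Prelude.Def_TwoAdicShift

set_option autoImplicit false

namespace Crest.Agent.S0150Aux.T4_82

open Crest.AnalysisR.TwoAdic
open scoped ENNReal

/-- T4 of helper13's board: bounded weighted shift by `s` on `ℓ²(ℤ)`. -/
theorem exists_wshift (c : ℤ → ℝ) (s : ℤ) (C : ℝ) (hc : ∀ j, |c j| ≤ C) :
    ∃ T : seqHilbert →L[ℂ] seqHilbert,
      (∀ (v : seqHilbert) (j : ℤ), T v (j + s) = (c j : ℂ) * v j) ∧
      ‖T‖ ≤ C ∧ ∀ j, T (basisVec j) = (c j : ℂ) • basisVec (j + s) := by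
  have hC0 : 0 ≤ C := le_trans (abs_nonneg _) (hc 0)
  have h2 : (0 : ℝ) < (2 : ℝ≥0∞).toReal := by norm_num
  have key : ∀ (v : seqHilbert) (F : Finset ℤ),
      ∑ k ∈ F, ‖(c (k - s) : ℂ) * v (k - s)‖ ^ (2 : ℝ≥0∞).toReal
        ≤ (C * ‖v‖) ^ (2 : ℝ≥0∞).toReal := by
    intro v F
    have h1 : ∀ k ∈ F, ‖(c (k - s) : ℂ) * v (k - s)‖ ^ (2 : ℝ≥0∞).toReal
        ≤ C ^ (2 : ℝ≥0∞).toReal * ‖v (k - s)‖ ^ (2 : ℝ≥0∞).toReal := by
      intro k _
      rw [norm_mul, Real.mul_rpow (norm_nonneg _) (norm_nonneg _)]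
      have h3 : ‖(c (k - s) : ℂ)‖ ≤ C := by
        rw [Complex.norm_real, Real.norm_eq_abs]; exact hc _
      have h4 : ‖(c (k - s) : ℂ)‖ ^ (2 : ℝ≥0∞).toReal ≤ C ^ (2 : ℝ≥0∞).toReal :=
        Real.rpow_le_rpow (norm_nonneg _) h3 h2.le
      exact mul_le_mul_of_nonneg_right h4 (Real.rpow_nonneg (norm_nonneg _) _)
    calc ∑ k ∈ F, ‖(c (k - s) : ℂ) * v (k - s)‖ ^ (2 : ℝ≥0∞).toReal
        ≤ ∑ k ∈ F, C ^ (2 : ℝ≥0∞).toReal * ‖v (k - s)‖ ^ (2 : ℝ≥0∞).toReal :=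
          Finset.sum_le_sum h1
      _ = C ^ (2 : ℝ≥0∞).toReal * ∑ k ∈ F, ‖v (k - s)‖ ^ (2 : ℝ≥0∞).toReal := by
          rw [Finset.mul_sum]
      _ = C ^ (2 : ℝ≥0∞).toReal *
            ∑ i ∈ F.map (Equiv.subRight s).toEmbedding, ‖v i‖ ^ (2 : ℝ≥0∞).toReal := by
          rw [Finset.sum_map]; rfl
      _ ≤ C ^ (2 : ℝ≥0∞).toReal * ‖v‖ ^ (2 : ℝ≥0∞).toReal :=
          mul_le_mul_of_nonneg_left (lp.sum_rpow_le_norm_rpow h2 v _)
            (Real.rpow_nonneg hC0 _)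
      _ = (C * ‖v‖) ^ (2 : ℝ≥0∞).toReal := (Real.mul_rpow hC0 (norm_nonneg _)).symm
  let g : seqHilbert → seqHilbert := fun v =>
    ⟨fun k => (c (k - s) : ℂ) * v (k - s), memℓp_gen' (key v)⟩
  have hg : ∀ (v : seqHilbert) (k : ℤ), g v k = (c (k - s) : ℂ) * v (k - s) := fun _ _ => rfl
  let L : seqHilbert →ₗ[ℂ] seqHilbert :=
    { toFun := g
      map_add' := by
        intro u v
        ext k
        rw [lp.coeFn_add, Pi.add_apply, hg, hg, hg, lp.coeFn_add, Pi.add_apply]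
        ring
      map_smul' := by
        intro a v
        ext k
        rw [RingHom.id_apply, lp.coeFn_smul, Pi.smul_apply, hg, hg, lp.coeFn_smul, Pi.smul_apply,
          smul_eq_mul, smul_eq_mul]
        ring }
  have hL : ∀ v, L v = g v := fun _ => rfl
  have hbound : ∀ v, ‖L v‖ ≤ C * ‖v‖ := by
    intro v
    refine lp.norm_le_of_forall_sum_le h2 (mul_nonneg hC0 (norm_nonneg _)) ?_
    intro F
    exact key v F
  refine ⟨L.mkContinuous C hbound, ?_, LinearMap.mkContinuous_norm_le _ hC0 _, ?_⟩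
  · intro v j
    rw [LinearMap.mkContinuous_apply, hL, hg, add_sub_cancel_right]
  · intro j
    ext k
    rw [LinearMap.mkContinuous_apply, hL, hg, lp.coeFn_smul, Pi.smul_apply, smul_eq_mul]
    unfold basisVec
    rw [lp.single_apply, lp.single_apply]
    by_cases hk : k = j + s
    · subst hk
      simp
    · have hk' : k - s ≠ j := by
        intro h; apply hk; omega
      simp [hk, hk']

end Crest.Agent.S0150Aux.T4_82
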