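import Mathlib
import Crest.Prelude.Def_TwoAdicShift
import Crest.Agent.S0150Aux.Defs13
import Crest.Agent.S0150Aux.Erg15

/-! S0150 board (helper13), tasks T8(c) `norm_pow_fib` and T8(d) `norm_S_ge`.  helper5. -/

set_option autoImplicit false

open Crest.AnalysisR.TwoAdic Crest.Agent.S0150Aux.D13 MeasureTheory

attribute [local instance] borelTwoAdic borelSpace_twoAdic

namespace Crest.Agent.S0150Aux.T8cd5

/-- an operator acting coordinatewise (with a shift `s`) with factors `≤ C` has norm `≤ C`. -/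
theorem norm_le_of_coord (T : seqHilbert →L[ℂ] seqHilbert) (C : ℝ) (hC : 0 ≤ C) (s : ℤ)
    (h : ∀ (v : seqHilbert) (j : ℤ), ‖T v (j + s)‖ ≤ C * ‖v j‖) : ‖T‖ ≤ C := by
  refine ContinuousLinearMap.opNorm_le_bound _ hC (fun v => ?_)
  have hp : 0 < (2 : ENNReal).toReal := by norm_num
  apply lp.norm_le_of_tsum_le hp (by positivity)
  have h1 := lp.hasSum_norm hp v
  have h2 := lp.hasSum_norm hp (T v)
  have h3 : HasSum (fun j : ℤ => ‖T v (j + s)‖ ^ (2 : ENNReal).toReal)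
      (‖T v‖ ^ (2 : ENNReal).toReal) := (Equiv.addRight s).hasSum_iff.2 h2
  rw [h2.tsum_eq]
  have h4 := h1.mul_left (C ^ (2 : ENNReal).toReal)
  rw [Real.mul_rpow hC (norm_nonneg _)]
  refine hasSum_le (fun j => ?_) h3 h4
  rw [← Real.mul_rpow hC (norm_nonneg _)]
  exact Real.rpow_le_rpow (norm_nonneg _) (h v j) hp.le

theorem pow_coord (x : ℤ_[2]) (T : seqHilbert →L[ℂ] seqHilbert)
    (hT : ∀ (v : seqHilbert) (j : ℤ), T v (j + 1) = (bet j x : ℂ) * v j) (n : ℕ)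
    (v : seqHilbert) (j : ℤ) :
    (T ^ n) v (j + n) = ((∏ i ∈ Finset.range n, bet (j + i) x : ℝ) : ℂ) * v j := by
  induction n with
  | zero => simp
  | succ n ih =>
    have e : j + ((n + 1 : ℕ) : ℤ) = (j + n) + 1 := by push_cast; ring
    rw [pow_succ', ContinuousLinearMap.mul_apply, e, hT, ih, Finset.prod_range_succ]
    push_cast
    ring

theorem prod_bet_le (x : ℤ_[2]) (n : ℕ) (j : ℤ) :
    ∏ i ∈ Finset.range n, bet (j + i) x ≤ Real.exp (-10 * (((n + 1) ^ 2 / 4 : ℕ) : ℝ)) := by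
  have h1 : (((n + 1) ^ 2 / 4 : ℕ) : ℝ) ≤ ∑ i ∈ Finset.range n, aw (j + i) x := by
    calc (((n + 1) ^ 2 / 4 : ℕ) : ℝ) ≤ ((∑ i ∈ Finset.range n, H35.Vw (j + i) : ℕ) : ℝ) := by
          exact_mod_cast H35.window n j
      _ = ∑ i ∈ Finset.range n, (H35.Vw (j + i) : ℝ) := by push_cast; rfl
      _ ≤ _ := Finset.sum_le_sum (fun i _ => le_max_left _ _)
  have h2 : ∑ i ∈ Finset.range n, -(al x (j + i)) = -10 * ∑ i ∈ Finset.range n, aw (j + i) x := by
    rw [Finset.mul_sum]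
    apply Finset.sum_congr rfl
    intro i _
    unfold al
    ring
  unfold bet
  rw [← Real.exp_sum, h2]
  apply Real.exp_le_exp.2
  nlinarith

/-- T8(c) -/
theorem norm_pow_fib (x : ℤ_[2]) (T : seqHilbert →L[ℂ] seqHilbert)
    (hT : ∀ (v : seqHilbert) (j : ℤ), T v (j + 1) = (bet j x : ℂ) * v j) (n : ℕ) (hn : 1 ≤ n) :
    ‖T ^ n‖ ≤ Real.exp (-10 * (((n + 1) ^ 2 / 4 : ℕ) : ℝ)) := by
  refine norm_le_of_coord _ _ (Real.exp_pos _).le (n : ℤ) (fun v j => ?_)
  have h0 : 0 ≤ ∏ i ∈ Finset.range n, bet (j + i) x :=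
    Finset.prod_nonneg (fun i _ => (Real.exp_pos _).le)
  rw [pow_coord x T hT n v j, norm_mul, Complex.norm_real, Real.norm_eq_abs, abs_of_nonneg h0]
  exact mul_le_mul_of_nonneg_right (prod_bet_le x n j) (norm_nonneg _)

theorem aw_zero_of_norm_one {x : ℤ_[2]} (h : ‖x‖ = 1) : aw 0 x = 1 := by
  have hw : win 0 = {0} := by
    unfold win
    simp
  have hn : nu x = 1 := by
    unfold nu
    have : ‖x‖₊ = 1 := by
      apply NNReal.eq
      simpa using h
    rw [this]; simp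
  have hrc : rc 0 x = 1 := by
    unfold rc
    rw [hw]
    simp [hn]
  have hV : H35.Vw 0 = 1 := by
    unfold H35.Vw
    simp
  unfold aw
  rw [hrc, hV]
  simp

theorem isOpen_sphere : IsOpen {x : ℤ_[2] | ‖x‖ = 1} := by
  rw [Metric.isOpen_iff]
  intro x hx
  refine ⟨1, one_pos, ?_⟩
  intro y hy
  rw [Metric.mem_ball, dist_eq_norm] at hy
  have hx' : ‖x‖ = 1 := hx
  have hne : ‖y - x‖ ≠ ‖x‖ := by rw [hx']; exact ne_of_lt hy
  have := PadicInt.norm_add_eq_max_of_ne hne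
  rw [sub_add_cancel, hx', max_eq_right hy.le] at this
  exact this

theorem norm_basisVec (j : ℤ) : ‖basisVec j‖ = 1 := by
  unfold basisVec
  rw [lp.norm_single (by norm_num)]
  simp

/-- T8(d) -/
theorem norm_S_ge (S : fibreSpace →L[ℂ] fibreSpace)
    (Sfib : ℤ_[2] → seqHilbert →L[ℂ] seqHilbert)
    (hS : ∀ f : fibreSpace, ∀ᵐ x ∂haarTwoAdic,
      (S f : ℤ_[2] → seqHilbert) x = Sfib x ((f : ℤ_[2] → seqHilbert) x))
    (hT : ∀ x j, Sfib x (basisVec j) = (bet j x : ℂ) • basisVec (j + 1)) :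
    Real.exp (-10) ≤ ‖S‖ := by
  have hE : MeasurableSet {x : ℤ_[2] | ‖x‖ = 1} := isOpen_sphere.measurableSet
  have hfin : haarTwoAdic {x : ℤ_[2] | ‖x‖ = 1} ≠ ⊤ := measure_ne_top _ _
  have hpos : 0 < haarTwoAdic {x : ℤ_[2] | ‖x‖ = 1} :=
    isOpen_sphere.measure_pos _ ⟨1, by simp⟩
  set f : fibreSpace := indicatorConstLp 2 hE hfin (basisVec 0) with hf
  set g : fibreSpace := indicatorConstLp 2 hE hfin
    (((Real.exp (-10) : ℝ) : ℂ) • basisVec (0 + 1)) with hg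
  have hSf : S f = g := by
    apply Lp.ext
    filter_upwards [hS f, (indicatorConstLp_coeFn (p := 2) (hs := hE) (hμs := hfin)
      (c := basisVec 0)), (indicatorConstLp_coeFn (p := 2) (hs := hE) (hμs := hfin)
      (c := ((Real.exp (-10) : ℝ) : ℂ) • basisVec (0 + 1)))] with x h1 h2 h3
    rw [h1, hg, h3, hf, h2]
    by_cases hx : x ∈ {x : ℤ_[2] | ‖x‖ = 1}
    · rw [Set.indicator_of_mem hx, Set.indicator_of_mem hx, hT]
      have : bet 0 x = Real.exp (-10) := by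
        unfold bet al
        rw [aw_zero_of_norm_one hx]
        norm_num
      rw [this]
    · rw [Set.indicator_of_notMem hx, Set.indicator_of_notMem hx, map_zero]
  have hm : 0 < (haarTwoAdic.real {x : ℤ_[2] | ‖x‖ = 1}) ^ (1 / (2 : ENNReal).toReal) := by
    apply Real.rpow_pos_of_pos
    exact ENNReal.toReal_pos hpos.ne' hfin
  have hnf : ‖f‖ = (haarTwoAdic.real {x : ℤ_[2] | ‖x‖ = 1}) ^ (1 / (2 : ENNReal).toReal) := by
    rw [hf, norm_indicatorConstLp (by norm_num) (by norm_num), norm_basisVec, one_mul]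
  have hng : ‖g‖ = Real.exp (-10) *
      (haarTwoAdic.real {x : ℤ_[2] | ‖x‖ = 1}) ^ (1 / (2 : ENNReal).toReal) := by
    rw [hg, norm_indicatorConstLp (by norm_num) (by norm_num), norm_smul, norm_basisVec, mul_one,
      Complex.norm_real, Real.norm_eq_abs, abs_of_pos (Real.exp_pos _)]
  have hle := S.le_opNorm f
  rw [hSf, hng, hnf] at hle
  exact le_of_mul_le_mul_right hle hm

end Crest.Agent.S0150Aux.T8cd5
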