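/-
helper10: abstract "stable tilt" lemma used in the key lemma (bilateral Donoghue) of S0150
(note 427, section 2).  Pure statements on real sequences indexed by the natural numbers.
Part of the incomplete row 113.
-/
import Mathlib

set_option autoImplicit false

namespace Crest.Agent.S0150Aux.Tilt10

open Real

/-- `m` maximises `p m * exp (L * m)`. -/
def IsArgmax (p : ℕ → ℝ) (L : ℝ) (m : ℕ) : Prop :=
  ∀ m' : ℕ, p m' * exp (L * m') ≤ p m * exp (L * m)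

/-- the a priori bound for maximisers -/
noncomputable def bnd (C Cw L : ℝ) : ℝ := (C + L + Cw + 1) / 5

section one
variable (p : ℕ → ℝ) (C Cw : ℝ) (m0 : ℕ)

/-- beyond the bound the tilted sequence is strictly below its value at `m0`. -/
lemma small_beyond (hC : ∀ m : ℕ, p m ≤ exp (-5 * (m:ℝ)^2 + C * m))
    (hCw : 0 ≤ Cw) (hm0 : exp (-Cw) ≤ p m0) (L : ℝ) (hL : 0 ≤ L) (m : ℕ)
    (hm : bnd C Cw L < m) (hm1 : 1 ≤ m) :
    p m * exp (L * m) < p m0 * exp (L * m0) := by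
  have hmR : (1:ℝ) ≤ m := by exact_mod_cast hm1
  have h5 : C + L + Cw + 1 < 5 * (m:ℝ) := by
    unfold bnd at hm
    linarith
  have h1 : p m * exp (L * m) ≤ exp (-5 * (m:ℝ)^2 + C * m) * exp (L * m) :=
    mul_le_mul_of_nonneg_right (hC m) (exp_pos _).le
  have h2 : exp (-5 * (m:ℝ)^2 + C * m) * exp (L * m) = exp (-5 * (m:ℝ)^2 + C * m + L * m) := by
    rw [← exp_add]
  have h3 : -5 * (m:ℝ)^2 + C * m + L * m < -Cw := by
    nlinarith
  have h4 : exp (-5 * (m:ℝ)^2 + C * m + L * m) < exp (-Cw) := exp_lt_exp.mpr h3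
  have h5' : exp (-Cw) ≤ p m0 * exp (L * m0) := by
    have : (1:ℝ) ≤ exp (L * m0) := by
      apply one_le_exp
      positivity
    have hp : 0 ≤ p m0 := le_trans (exp_pos _).le hm0
    calc exp (-Cw) ≤ p m0 := hm0
      _ = p m0 * 1 := by ring
      _ ≤ p m0 * exp (L * m0) := mul_le_mul_of_nonneg_left this hp
  linarith

/-- every maximiser is below the bound -/
lemma argmax_le (hC : ∀ m : ℕ, p m ≤ exp (-5 * (m:ℝ)^2 + C * m))
    (hCw : 0 ≤ Cw) (hC0 : 0 ≤ C) (hm0 : exp (-Cw) ≤ p m0) (L : ℝ) (hL : 0 ≤ L) (m : ℕ)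
    (hm : IsArgmax p L m) : (m:ℝ) ≤ bnd C Cw L := by
  by_contra hcon
  replace hcon := not_le.mp hcon
  have hb : 0 < bnd C Cw L := by unfold bnd; positivity
  have hm1 : 1 ≤ m := by
    rcases Nat.eq_zero_or_pos m with h | h
    · subst h; simp at hcon; linarith
    · exact h
  have := small_beyond p C Cw m0 hC hCw hm0 L hL m hcon hm1
  have h2 := hm m0
  linarith

/-- a maximiser exists -/
lemma exists_argmax (hC : ∀ m : ℕ, p m ≤ exp (-5 * (m:ℝ)^2 + C * m))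
    (hCw : 0 ≤ Cw) (hC0 : 0 ≤ C) (hm0 : exp (-Cw) ≤ p m0) (L : ℝ) (hL : 0 ≤ L) :
    ∃ m, IsArgmax p L m := by
  classical
  set B : ℕ := max m0 (⌈bnd C Cw L⌉₊ + 1) with hB
  obtain ⟨m, hmem, hmax⟩ := Finset.exists_max_image (Finset.range (B + 1))
    (fun m : ℕ => p m * exp (L * m)) ⟨0, by simp⟩
  refine ⟨m, fun m' => ?_⟩
  by_cases hm' : m' ≤ B
  · exact hmax m' (by simp; omega)
  · replace hm' := not_le.mp hm'
    have h1 : bnd C Cw L < m' := by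
      have : (⌈bnd C Cw L⌉₊ : ℝ) < m' := by
        have : ⌈bnd C Cw L⌉₊ + 1 ≤ B := le_max_right _ _
        exact_mod_cast (by omega : ⌈bnd C Cw L⌉₊ < m')
      exact lt_of_le_of_lt (Nat.le_ceil _) this
    have h2 : 1 ≤ m' := by omega
    have h3 := small_beyond p C Cw m0 hC hCw hm0 L hL m' h1 h2
    have h4 := hmax m0 (by simp; have : m0 ≤ B := le_max_left _ _; omega)
    linarith

open Classical in
/-- the largest maximiser -/
noncomputable def M (L : ℝ) : ℕ := Nat.findGreatest (IsArgmax p L) ⌊bnd C Cw L⌋₊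

lemma M_spec (hC : ∀ m : ℕ, p m ≤ exp (-5 * (m:ℝ)^2 + C * m))
    (hCw : 0 ≤ Cw) (hC0 : 0 ≤ C) (hm0 : exp (-Cw) ≤ p m0) (L : ℝ) (hL : 0 ≤ L) :
    IsArgmax p L (M p C Cw L) := by
  classical
  obtain ⟨m, hm⟩ := exists_argmax p C Cw m0 hC hCw hC0 hm0 L hL
  have hle : m ≤ ⌊bnd C Cw L⌋₊ := Nat.le_floor (argmax_le p C Cw m0 hC hCw hC0 hm0 L hL m hm)
  exact Nat.findGreatest_spec hle hm

lemma le_M (hC : ∀ m : ℕ, p m ≤ exp (-5 * (m:ℝ)^2 + C * m))
    (hCw : 0 ≤ Cw) (hC0 : 0 ≤ C) (hm0 : exp (-Cw) ≤ p m0) (L : ℝ) (hL : 0 ≤ L) (m : ℕ)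
    (hm : IsArgmax p L m) : m ≤ M p C Cw L := by
  classical
  have hle : m ≤ ⌊bnd C Cw L⌋₊ := Nat.le_floor (argmax_le p C Cw m0 hC hCw hC0 hm0 L hL m hm)
  exact Nat.le_findGreatest hle hm

lemma M_le_bnd (hCw : 0 ≤ Cw) (hC0 : 0 ≤ C) (L : ℝ) (hL : 0 ≤ L) :
    (M p C Cw L : ℝ) ≤ bnd C Cw L := by
  classical
  have h1 : M p C Cw L ≤ ⌊bnd C Cw L⌋₊ := Nat.findGreatest_le _
  have hb : 0 ≤ bnd C Cw L := by unfold bnd; positivity
  calc (M p C Cw L : ℝ) ≤ (⌊bnd C Cw L⌋₊ : ℝ) := by exact_mod_cast h1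
    _ ≤ bnd C Cw L := Nat.floor_le hb

lemma M_mono (hC : ∀ m : ℕ, p m ≤ exp (-5 * (m:ℝ)^2 + C * m))
    (hCw : 0 ≤ Cw) (hC0 : 0 ≤ C) (hm0 : exp (-Cw) ≤ p m0) (L L' : ℝ) (hL : 0 ≤ L) (hLL : L ≤ L') :
    M p C Cw L ≤ M p C Cw L' := by
  have hL' : 0 ≤ L' := le_trans hL hLL
  by_contra hcon
  replace hcon := not_le.mp hcon
  set m := M p C Cw L with hm
  set m' := M p C Cw L' with hm'
  have a1 : IsArgmax p L m := M_spec p C Cw m0 hC hCw hC0 hm0 L hL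
  have a2 : IsArgmax p L' m' := M_spec p C Cw m0 hC hCw hC0 hm0 L' hL'
  have key : IsArgmax p L' m := by
    intro x
    have h1 := a2 x
    have h2 := a1 m'
    have e1 : p m' * exp (L' * m') = (p m' * exp (L * m')) * exp ((L' - L) * m') := by
      rw [mul_assoc, ← exp_add]; congr 2; ring
    have e2 : p m * exp (L' * m) = (p m * exp (L * m)) * exp ((L' - L) * m) := by
      rw [mul_assoc, ← exp_add]; congr 2; ring
    have h3 : exp ((L' - L) * m') ≤ exp ((L' - L) * m) := by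
      apply exp_le_exp.mpr
      have : (m':ℝ) ≤ m := by exact_mod_cast hcon.le
      have h0 : 0 ≤ L' - L := by linarith
      exact mul_le_mul_of_nonneg_left this h0
    have hpos : 0 ≤ p m * exp (L * m) := by
      have := a1 m0
      have hp : 0 ≤ p m0 := le_trans (exp_pos _).le hm0
      have : 0 ≤ p m0 * exp (L * m0) := mul_nonneg hp (exp_pos _).le
      linarith [a1 m0]
    calc p x * exp (L' * x) ≤ p m' * exp (L' * m') := h1
      _ = (p m' * exp (L * m')) * exp ((L' - L) * m') := e1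
      _ ≤ (p m * exp (L * m)) * exp ((L' - L) * m') :=
          mul_le_mul_of_nonneg_right h2 (exp_pos _).le
      _ ≤ (p m * exp (L * m)) * exp ((L' - L) * m) := mul_le_mul_of_nonneg_left h3 hpos
      _ = p m * exp (L' * m) := e2.symm
  have := le_M p C Cw m0 hC hCw hC0 hm0 L' hL' m key
  omega

lemma M_pos_val (hC : ∀ m : ℕ, p m ≤ exp (-5 * (m:ℝ)^2 + C * m))
    (hCw : 0 ≤ Cw) (hC0 : 0 ≤ C) (hm0 : exp (-Cw) ≤ p m0) (L : ℝ) (hL : 0 ≤ L) :
    0 < p (M p C Cw L) := by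
  have a1 := M_spec p C Cw m0 hC hCw hC0 hm0 L hL m0
  have hp : 0 < p m0 := lt_of_lt_of_le (exp_pos _) hm0
  have : 0 < p m0 * exp (L * m0) := mul_pos hp (exp_pos _)
  have h2 : 0 < p (M p C Cw L) * exp (L * (M p C Cw L : ℕ)) := lt_of_lt_of_le this a1
  exact (pos_iff_pos_of_mul_pos h2).mpr (exp_pos _)

end one

/-- integer pigeonhole: a monotone sequence of naturals growing at most like `(4/5) i + c`
is stationary at some step. -/
lemma exists_stationary (s : ℕ → ℕ) (hmono : Monotone s) (c : ℝ)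
    (hs : ∀ i : ℕ, (s i : ℝ) ≤ 4 / 5 * i + c) : ∃ i, s (i + 1) = s i := by
  by_contra hcon
  have hstep : ∀ i, s i + 1 ≤ s (i + 1) := by
    intro i
    have h1 : s i ≤ s (i + 1) := hmono (Nat.le_succ i)
    have h2 : s (i + 1) ≠ s i := fun h => hcon ⟨i, h⟩
    omega
  have hlin : ∀ i, i ≤ s i := by
    intro i
    induction i with
    | zero => exact Nat.zero_le _
    | succ k ih => have := hstep k; omega
  obtain ⟨N, hN⟩ := exists_nat_gt (5 * c)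
  have h1 : (N:ℝ) ≤ s N := by exact_mod_cast hlin N
  have h2 := hs N
  linarith

/-- **Stable tilt lemma.**  Two nonnegative sequences with Gaussian decay `exp (-5 m^2 + C m)`,
each with a point of size at least `exp (-Cw)`.  Then for every `L0 ≥ 0` there are `L ≥ L0` and indices
`ms`, `ks` which maximise the tilted sequences simultaneously for the tilts `L` and `L + 2`;
moreover `ms, ks ≤ (C + L + Cw + 1) / 5`. -/
theorem stable_tilt (p q : ℕ → ℝ) (C Cw : ℝ) (m0 k0 : ℕ)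
    (hp : ∀ m : ℕ, p m ≤ exp (-5 * (m:ℝ)^2 + C * m))
    (hq : ∀ m : ℕ, q m ≤ exp (-5 * (m:ℝ)^2 + C * m))
    (hCw : 0 ≤ Cw) (hC0 : 0 ≤ C) (hm0 : exp (-Cw) ≤ p m0) (hk0 : exp (-Cw) ≤ q k0)
    (L0 : ℝ) (hL0 : 0 ≤ L0) :
    ∃ (L : ℝ) (ms ks : ℕ), L0 ≤ L ∧ 0 < p ms ∧ 0 < q ks ∧
      (∀ m : ℕ, p m * exp (L * m) ≤ p ms * exp (L * ms)) ∧
      (∀ m : ℕ, p m * exp ((L + 2) * m) ≤ p ms * exp ((L + 2) * ms)) ∧
      (∀ k : ℕ, q k * exp (L * k) ≤ q ks * exp (L * ks)) ∧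
      (∀ k : ℕ, q k * exp ((L + 2) * k) ≤ q ks * exp ((L + 2) * ks)) ∧
      (ms : ℝ) ≤ (C + L + Cw + 1) / 5 ∧ (ks : ℝ) ≤ (C + L + Cw + 1) / 5 := by
  set Lf : ℕ → ℝ := fun i => L0 + 2 * i with hLf
  have hLnn : ∀ i, 0 ≤ Lf i := fun i => by simp only [hLf]; positivity
  have hLmono : ∀ i j : ℕ, i ≤ j → Lf i ≤ Lf j := by
    intro i j hij
    have : (i:ℝ) ≤ j := by exact_mod_cast hij
    simp only [hLf]; linarith
  set s : ℕ → ℕ := fun i => M p C Cw (Lf i) + M q C Cw (Lf i) with hs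
  have hmono : Monotone s := by
    intro i j hij
    have h1 := M_mono p C Cw m0 hp hCw hC0 hm0 (Lf i) (Lf j) (hLnn i) (hLmono i j hij)
    have h2 := M_mono q C Cw k0 hq hCw hC0 hk0 (Lf i) (Lf j) (hLnn i) (hLmono i j hij)
    simp only [hs]; omega
  have hbound : ∀ i : ℕ, (s i : ℝ) ≤ 4 / 5 * i + 2 * (C + L0 + Cw + 1) / 5 := by
    intro i
    have h1 := M_le_bnd p C Cw hCw hC0 (Lf i) (hLnn i)
    have h2 := M_le_bnd q C Cw hCw hC0 (Lf i) (hLnn i)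
    simp only [hs, bnd, hLf] at *
    push_cast
    linarith
  obtain ⟨i, hi⟩ := exists_stationary s hmono _ hbound
  have h1 := M_mono p C Cw m0 hp hCw hC0 hm0 (Lf i) (Lf (i+1)) (hLnn i) (hLmono i (i+1) (Nat.le_succ i))
  have h2 := M_mono q C Cw k0 hq hCw hC0 hk0 (Lf i) (Lf (i+1)) (hLnn i) (hLmono i (i+1) (Nat.le_succ i))
  have e1 : M p C Cw (Lf (i+1)) = M p C Cw (Lf i) := by simp only [hs] at hi; omega
  have e2 : M q C Cw (Lf (i+1)) = M q C Cw (Lf i) := by simp only [hs] at hi; omega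
  have hL2 : Lf (i+1) = Lf i + 2 := by simp only [hLf]; push_cast; ring
  refine ⟨Lf i, M p C Cw (Lf i), M q C Cw (Lf i), ?_, ?_, ?_, ?_, ?_, ?_, ?_, ?_, ?_⟩
  · simp only [hLf]; have : (0:ℝ) ≤ i := Nat.cast_nonneg i; linarith
  · exact M_pos_val p C Cw m0 hp hCw hC0 hm0 _ (hLnn i)
  · exact M_pos_val q C Cw k0 hq hCw hC0 hk0 _ (hLnn i)
  · exact M_spec p C Cw m0 hp hCw hC0 hm0 _ (hLnn i)
  · have := M_spec p C Cw m0 hp hCw hC0 hm0 _ (hLnn (i+1))
    rw [e1, hL2] at this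
    exact this
  · exact M_spec q C Cw k0 hq hCw hC0 hk0 _ (hLnn i)
  · have := M_spec q C Cw k0 hq hCw hC0 hk0 _ (hLnn (i+1))
    rw [e2, hL2] at this
    exact this
  · exact M_le_bnd p C Cw hCw hC0 _ (hLnn i)
  · exact M_le_bnd q C Cw hCw hC0 _ (hLnn i)

end Crest.Agent.S0150Aux.Tilt10
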