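import Mathlib
import Crest.Prelude.Def_TwoAdicShift

/-!
helper97: item (5) of the S0150 plan (transitivity), as an abstract theorem.
-/

namespace Crest.Agent.S0150Aux.Trans97

open Crest.AnalysisR.TwoAdic MeasureTheory Filter
attribute [local instance] Crest.AnalysisR.TwoAdic.borelTwoAdic
  Crest.AnalysisR.TwoAdic.borelSpace_twoAdic

instance instHaar : (haarTwoAdic).IsAddHaarMeasure := by
  unfold haarTwoAdic; infer_instance

instance instProb : IsProbabilityMeasure haarTwoAdic := by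
  constructor
  unfold haarTwoAdic
  have := Measure.addHaarMeasure_self (G := ℤ_[2]) (K₀ := ⊤)
  simpa using this

theorem ergodic_one_add : Ergodic (fun x : ℤ_[2] => 1 + x) haarTwoAdic := by
  apply ergodic_add_left_of_denseRange_zsmul
  have h := PadicInt.denseRange_intCast (p := 2)
  convert h using 2 with n
  simp

theorem ergodic_add_one : Ergodic (fun x : ℤ_[2] => x + 1) haarTwoAdic := by
  have := ergodic_one_add
  simpa [add_comm] using this

theorem recurrence {E F : Set ℤ_[2]} (hF : MeasurableSet F)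
    (hE0 : haarTwoAdic E ≠ 0) (hF0 : haarTwoAdic F ≠ 0) (K : ℕ) :
    ∃ k : ℕ, K ≤ k ∧ haarTwoAdic {x | x ∈ E ∧ x + (k : ℤ_[2]) ∈ F} ≠ 0 := by
  classical
  let A : Set ℤ_[2] := ⋃ k : {k : ℕ // K ≤ k}, (fun x : ℤ_[2] => x + ((k : ℕ) : ℤ_[2])) ⁻¹' F
  have hAm : MeasurableSet A := MeasurableSet.iUnion fun k => (measurable_add_const _) hF
  have hsub : (fun x : ℤ_[2] => x + 1) ⁻¹' A ⊆ A := by
    intro x hx
    simp only [A, Set.mem_preimage, Set.mem_iUnion] at hx ⊢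
    obtain ⟨⟨k, hk⟩, hx⟩ := hx
    refine ⟨⟨k + 1, by omega⟩, ?_⟩
    have : x + (((k + 1 : ℕ)) : ℤ_[2]) = x + 1 + (k : ℤ_[2]) := by push_cast; ring
    rw [this]; exact hx
  have hA := ergodic_add_one.ae_empty_or_univ_of_preimage_ae_le hAm.nullMeasurableSet
    (hsub.eventuallyLE)
  have hApos : haarTwoAdic A ≠ 0 := by
    intro h
    have h1 : haarTwoAdic ((fun x : ℤ_[2] => x + ((K : ℕ) : ℤ_[2])) ⁻¹' F) = 0 :=
      measure_mono_null (Set.subset_iUnion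
        (fun k : {k : ℕ // K ≤ k} => (fun x : ℤ_[2] => x + ((k : ℕ) : ℤ_[2])) ⁻¹' F)
        ⟨K, le_rfl⟩) h
    rw [measure_preimage_add_right] at h1
    exact hF0 h1
  rcases hA with hA | hA
  · exact absurd (by rw [measure_congr hA]; simp) hApos
  · by_contra hcon
    push Not at hcon
    have h1 : haarTwoAdic (E ∩ A) = 0 := by
      have h2 : E ∩ A = ⋃ k : {k : ℕ // K ≤ k}, {x | x ∈ E ∧ x + ((k : ℕ) : ℤ_[2]) ∈ F} := by
        ext x; simp [A]
      rw [h2, measure_iUnion_null_iff]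
      exact fun k => hcon k k.2
    have h2 : haarTwoAdic (E ∩ A) = haarTwoAdic E := by
      apply measure_congr
      have := (ae_eq_refl E).inter hA
      simpa using this
    exact hE0 (h2 ▸ h1)

theorem coord_eq_inner (v : seqHilbert) (i : ℤ) : v i = inner ℂ (basisVec i) v := by
  unfold basisVec
  rw [lp.inner_single_left]
  simp

theorem basisVec_apply (a c : ℤ) : (basisVec a) c = if c = a then 1 else 0 := by
  unfold basisVec
  rw [lp.single_apply, Pi.single_apply]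

theorem coord_shift (T : seqHilbert →L[ℂ] seqHilbert) (c : ℤ → ℂ)
    (hT : ∀ j, T (basisVec j) = c j • basisVec (j - 1)) (v : seqHilbert) (j : ℤ) :
    (T v) (j - 1) = c j * v j := by
  have hv : HasSum (fun i => lp.single 2 i (v i)) v := lp.hasSum_single (by norm_num) v
  have h1 : HasSum (fun i => inner ℂ (basisVec (j - 1)) (T (lp.single 2 i (v i))))
      (inner ℂ (basisVec (j - 1)) (T v)) :=
    ((innerSL ℂ (basisVec (j - 1))).comp T).hasSum hv
  have hterm : ∀ i, inner ℂ (basisVec (j - 1)) (T (lp.single 2 i (v i)))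
      = if i = j then c j * v j else 0 := by
    intro i
    have h3 : lp.single 2 i (v i) = v i • basisVec i := by
      unfold basisVec
      rw [← lp.single_smul]; simp
    rw [h3, map_smul, hT, ← coord_eq_inner]
    simp only [lp.coeFn_smul, Pi.smul_apply, basisVec_apply, smul_eq_mul]
    by_cases hij : i = j
    · subst hij; simp [mul_comm]
    · have : ¬ (j - 1 = i - 1) := by omega
      simp [hij, this]
  rw [coord_eq_inner]
  simp_rw [hterm] at h1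
  exact h1.unique (hasSum_ite_eq j (c j * v j))


theorem ex_ind (h : fibreSpace) (A : Set ℤ_[2]) (hA : MeasurableSet A) :
    ∃ h' : fibreSpace,
      (h' : ℤ_[2] → seqHilbert) =ᵐ[haarTwoAdic] A.indicator (h : ℤ_[2] → seqHilbert) :=
  ⟨((Lp.memLp h).indicator hA).toLp _, MemLp.coeFn_toLp _⟩

theorem ex_ind2 (h : fibreSpace) (A : Set ℤ_[2]) (hA : MeasurableSet A) :
    ∃ h' : fibreSpace, ∀ᵐ x ∂haarTwoAdic, (h' : ℤ_[2] → seqHilbert) x
      = (A.indicator (fun _ => (1 : ℂ)) x) • (h : ℤ_[2] → seqHilbert) x := by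
  obtain ⟨h', hh'⟩ := ex_ind h A hA
  refine ⟨h', ?_⟩
  filter_upwards [hh'] with x hx
  rw [hx]
  by_cases hxA : x ∈ A
  · rw [Set.indicator_of_mem hxA, Set.indicator_of_mem hxA, one_smul]
  · rw [Set.indicator_of_notMem hxA, Set.indicator_of_notMem hxA, zero_smul]

theorem ae_inner_zero (W : Submodule ℂ fibreSpace)
    (hM : ∀ g : ℤ_[2] → ℂ, Measurable g → (∃ C : ℝ, ∀ x, ‖g x‖ ≤ C) →
          ∀ f ∈ W, ∀ f' : fibreSpace,
            (∀ᵐ x ∂haarTwoAdic, (f' : ℤ_[2] → seqHilbert) x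
              = g x • (f : ℤ_[2] → seqHilbert) x) → f' ∈ W)
    (g : fibreSpace) (hg : ∀ f ∈ W, inner ℂ g f = 0) (h : fibreSpace) (hh : h ∈ W) :
    ∀ᵐ x ∂haarTwoAdic,
      inner ℂ ((g : ℤ_[2] → seqHilbert) x) ((h : ℤ_[2] → seqHilbert) x) = (0 : ℂ) := by
  have hint : Integrable (fun x => inner ℂ ((g : ℤ_[2] → seqHilbert) x)
      ((h : ℤ_[2] → seqHilbert) x)) haarTwoAdic := L2.integrable_inner g h
  apply hint.ae_eq_zero_of_forall_setIntegral_eq_zero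
  intro A hA _
  obtain ⟨h', hh'⟩ := ex_ind2 h A hA
  have hmem : h' ∈ W := hM _ (measurable_const.indicator hA)
    ⟨1, fun x => by by_cases hxA : x ∈ A <;> simp [hxA]⟩ h hh h' hh'
  have h0 := hg h' hmem
  rw [L2.inner_def] at h0
  rw [← integral_indicator hA, ← h0]
  apply integral_congr_ae
  filter_upwards [hh'] with x hx
  rw [hx]
  by_cases hxA : x ∈ A
  · rw [Set.indicator_of_mem hxA, Set.indicator_of_mem hxA, one_smul]
  · rw [Set.indicator_of_notMem hxA, Set.indicator_of_notMem hxA, zero_smul, inner_zero_right]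

theorem S_pow_ae (Sfib : ℤ_[2] → (seqHilbert →L[ℂ] seqHilbert))
    (S : fibreSpace →L[ℂ] fibreSpace)
    (hS : ∀ f : fibreSpace, ∀ᵐ x ∂haarTwoAdic,
      (S f : ℤ_[2] → seqHilbert) x = Sfib x ((f : ℤ_[2] → seqHilbert) x))
    (r : ℕ) (h : fibreSpace) :
    ∀ᵐ x ∂haarTwoAdic, ((S ^ r) h : ℤ_[2] → seqHilbert) x
      = (Sfib x ^ r) ((h : ℤ_[2] → seqHilbert) x) := by
  induction r with
  | zero => simp
  | succ r ih =>
    filter_upwards [ih, hS ((S ^ r) h)] with x h1 h2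
    rw [pow_succ', mul_apply_eq_comp, h2, h1, pow_succ',
      mul_apply_eq_comp]

/-- the composite `V_{x+k-1} ∘ ⋯ ∘ V_x`. -/
noncomputable def Vit (Vfib : ℤ_[2] → (seqHilbert →L[ℂ] seqHilbert)) :
    ℕ → ℤ_[2] → (seqHilbert →L[ℂ] seqHilbert)
  | 0, _ => 1
  | (k + 1), x => Vfib (x + (k : ℤ_[2])) * Vit Vfib k x

theorem V_pow_ae (Vfib : ℤ_[2] → (seqHilbert →L[ℂ] seqHilbert))
    (V : fibreSpace →L[ℂ] fibreSpace)
    (hV : ∀ f : fibreSpace, ∀ᵐ x ∂haarTwoAdic,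
      (V f : ℤ_[2] → seqHilbert) (x + 1) = Vfib x ((f : ℤ_[2] → seqHilbert) x))
    (k : ℕ) (f : fibreSpace) :
    ∀ᵐ x ∂haarTwoAdic, ((V ^ k) f : ℤ_[2] → seqHilbert) (x + (k : ℤ_[2]))
      = Vit Vfib k x ((f : ℤ_[2] → seqHilbert) x) := by
  induction k with
  | zero => simp [Vit]
  | succ k ih =>
    have h1 := hV ((V ^ k) f)
    have h2 : ∀ᵐ x ∂haarTwoAdic, (V ((V ^ k) f) : ℤ_[2] → seqHilbert) (x + (k : ℤ_[2]) + 1)
        = Vfib (x + (k : ℤ_[2])) (((V ^ k) f : ℤ_[2] → seqHilbert) (x + (k : ℤ_[2]))) :=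
      Measure.QuasiMeasurePreserving.ae
        (p := fun y => (V ((V ^ k) f) : ℤ_[2] → seqHilbert) (y + 1)
          = Vfib y (((V ^ k) f : ℤ_[2] → seqHilbert) y))
        (measurePreserving_add_right haarTwoAdic (k : ℤ_[2])).quasiMeasurePreserving h1
    filter_upwards [ih, h2] with x h3 h4
    rw [pow_succ', mul_apply_eq_comp]
    have h5 : x + ((k + 1 : ℕ) : ℤ_[2]) = x + (k : ℤ_[2]) + 1 := by push_cast; ring
    rw [h5, h4, h3]
    rfl

theorem Vit_coord_ne (b : ℤ → ℤ_[2] → ℝ) (Vfib : ℤ_[2] → (seqHilbert →L[ℂ] seqHilbert))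
    (hVb : ∀ x j, Vfib x (basisVec j) = (b j x : ℂ) • basisVec (j - 1))
    (N : Set ℤ_[2]) (hb : ∀ x, x ∉ N → ∀ j, 0 < b j x)
    (k : ℕ) (x : ℤ_[2]) (hx : ∀ i : ℕ, i < k → x + (i : ℤ_[2]) ∉ N) (w : seqHilbert) (j : ℤ)
    (hw : w j ≠ 0) : (Vit Vfib k x w) (j - (k : ℤ)) ≠ 0 := by
  induction k with
  | zero => simpa [Vit] using hw
  | succ k ih =>
    have h1 := ih (fun i hi => hx i (by omega))
    have h2 := coord_shift (Vfib (x + (k : ℤ_[2]))) (fun j => (b j (x + (k : ℤ_[2])) : ℂ))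
      (hVb (x + (k : ℤ_[2]))) (Vit Vfib k x w) (j - (k : ℤ))
    have h3 : (j - ((k + 1 : ℕ) : ℤ)) = j - (k : ℤ) - 1 := by push_cast; ring
    rw [h3]
    show (Vfib (x + (k : ℤ_[2])) (Vit Vfib k x w)) (j - (k : ℤ) - 1) ≠ 0
    rw [h2]
    have h4 : (b (j - (k : ℤ)) (x + (k : ℤ_[2])) : ℂ) ≠ 0 :=
      Complex.ofReal_ne_zero.2 (hb _ (hx k (by omega)) _).ne'
    exact mul_ne_zero h4 h1


theorem exists_coord (f : fibreSpace) (hf0 : f ≠ 0) :
    ∃ j : ℤ, haarTwoAdic {x | inner ℂ (basisVec j) ((f : ℤ_[2] → seqHilbert) x) ≠ (0 : ℂ)} ≠ 0 := by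
  by_contra hc
  push Not at hc
  apply hf0
  have h1 : ∀ᵐ x ∂haarTwoAdic, ∀ j : ℤ,
      inner ℂ (basisVec j) ((f : ℤ_[2] → seqHilbert) x) = (0 : ℂ) :=
    ae_all_iff.2 (fun j => by rw [ae_iff]; exact hc j)
  rw [Lp.eq_zero_iff_ae_eq_zero]
  filter_upwards [h1] with x hx
  show (f : ℤ_[2] → seqHilbert) x = 0
  ext j
  rw [coord_eq_inner, hx j]
  rfl

theorem meas_coord (f : fibreSpace) (j : ℤ) :
    MeasurableSet {x | inner ℂ (basisVec j) ((f : ℤ_[2] → seqHilbert) x) ≠ (0 : ℂ)} := by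
  have h1 : Measurable (fun x => inner ℂ (basisVec j) ((f : ℤ_[2] → seqHilbert) x)) :=
    ((innerSL ℂ (basisVec j)).continuous.comp_stronglyMeasurable
      (Lp.stronglyMeasurable f)).measurable
  exact h1 (measurableSet_singleton (0 : ℂ)).compl

theorem shift_ae (k : ℕ) {p : ℤ_[2] → Prop} (h : ∀ᵐ y ∂haarTwoAdic, p y) :
    ∀ᵐ x ∂haarTwoAdic, p (x + (k : ℤ_[2])) :=
  Measure.QuasiMeasurePreserving.ae (p := p)
    (measurePreserving_add_right haarTwoAdic (k : ℤ_[2])).quasiMeasurePreserving h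

/-- **Transitivity** (last clause of S0150) from the fibre description and the key lemma. -/
theorem transitive
    (b : ℤ → ℤ_[2] → ℝ) (Sfib Vfib : ℤ_[2] → (seqHilbert →L[ℂ] seqHilbert))
    (S V : fibreSpace →L[ℂ] fibreSpace)
    (hS : ∀ f : fibreSpace, ∀ᵐ x ∂haarTwoAdic,
      (S f : ℤ_[2] → seqHilbert) x = Sfib x ((f : ℤ_[2] → seqHilbert) x))
    (hVb : ∀ x j, Vfib x (basisVec j) = (b j x : ℂ) • basisVec (j - 1))
    (hV : ∀ f : fibreSpace, ∀ᵐ x ∂haarTwoAdic,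
      (V f : ℤ_[2] → seqHilbert) (x + 1) = Vfib x ((f : ℤ_[2] → seqHilbert) x))
    (N : Set ℤ_[2]) (hN : haarTwoAdic N = 0) (hb : ∀ x, x ∉ N → ∀ j, 0 < b j x)
    (key : ∀ (x : ℤ_[2]) (w u : seqHilbert), (∀ n : ℕ, inner ℂ u ((Sfib x ^ n) w) = (0 : ℂ)) →
      ∀ s : ℤ, ¬ ((∃ j, j < s ∧ w j ≠ 0) ∧ (∃ k, s ≤ k ∧ u k ≠ 0))) :
    ∀ W : Submodule ℂ fibreSpace, IsClosed (W : Set fibreSpace) →
        (∀ f ∈ W, S f ∈ W) → (∀ f ∈ W, V f ∈ W) →
        (∀ g : ℤ_[2] → ℂ, Measurable g → (∃ C : ℝ, ∀ x, ‖g x‖ ≤ C) →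
          ∀ f ∈ W, ∀ f' : fibreSpace,
            (∀ᵐ x ∂haarTwoAdic, (f' : ℤ_[2] → seqHilbert) x
              = g x • (f : ℤ_[2] → seqHilbert) x) → f' ∈ W) →
        W = ⊥ ∨ W = ⊤ := by
  intro W hWc hWS hWV hWM
  by_contra hcon
  push Not at hcon
  obtain ⟨hbot, htop⟩ := hcon
  obtain ⟨f, hfW, hf0⟩ := (Submodule.ne_bot_iff W).1 hbot
  have : CompleteSpace W := hWc.completeSpace_coe
  have hperp : Wᗮ ≠ ⊥ := fun h => htop (Submodule.orthogonal_eq_bot_iff.1 h)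
  obtain ⟨g, hgW, hg0⟩ := (Submodule.ne_bot_iff _).1 hperp
  have hg : ∀ h ∈ W, inner ℂ g h = 0 := fun h hh => (Submodule.mem_orthogonal' W g).1 hgW h hh
  obtain ⟨j1, hj1⟩ := exists_coord f hf0
  obtain ⟨k1, hk1⟩ := exists_coord g hg0
  obtain ⟨k, hkK, hk⟩ := recurrence (meas_coord g k1) hj1 hk1 ((j1 - k1 + 1).toNat)
  have hVk : ∀ k : ℕ, (V ^ k) f ∈ W := by
    intro k
    induction k with
    | zero => simpa using hfW
    | succ k ih => rw [pow_succ', mul_apply_eq_comp]; exact hWV _ ih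
  have hSr : ∀ r : ℕ, (S ^ r) ((V ^ k) f) ∈ W := by
    intro r
    induction r with
    | zero => simpa using hVk k
    | succ r ih => rw [pow_succ', mul_apply_eq_comp]; exact hWS _ ih
  have ha : ∀ᵐ x ∂haarTwoAdic, ∀ r : ℕ,
      inner ℂ ((g : ℤ_[2] → seqHilbert) (x + (k : ℤ_[2])))
        (((S ^ r) ((V ^ k) f) : ℤ_[2] → seqHilbert) (x + (k : ℤ_[2]))) = (0 : ℂ) :=
    ae_all_iff.2 fun r => shift_ae k
      (p := fun y => inner ℂ ((g : ℤ_[2] → seqHilbert) y)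
        (((S ^ r) ((V ^ k) f) : ℤ_[2] → seqHilbert) y) = (0 : ℂ))
      (ae_inner_zero W hWM g hg _ (hSr r))
  have hb' : ∀ᵐ x ∂haarTwoAdic, ∀ r : ℕ,
      (((S ^ r) ((V ^ k) f) : ℤ_[2] → seqHilbert) (x + (k : ℤ_[2])))
        = (Sfib (x + (k : ℤ_[2])) ^ r) (((V ^ k) f : ℤ_[2] → seqHilbert) (x + (k : ℤ_[2]))) :=
    ae_all_iff.2 fun r => shift_ae k
      (p := fun y => (((S ^ r) ((V ^ k) f) : ℤ_[2] → seqHilbert) y)
        = (Sfib y ^ r) (((V ^ k) f : ℤ_[2] → seqHilbert) y))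
      (S_pow_ae Sfib S hS r _)
  have hc := V_pow_ae Vfib V hV k f
  have hd : ∀ᵐ x ∂haarTwoAdic, ∀ i : ℕ, x + (i : ℤ_[2]) ∉ N :=
    ae_all_iff.2 fun i => shift_ae i (p := fun y => y ∉ N)
      (measure_eq_zero_iff_ae_notMem.1 hN)
  have hfreq : ∃ᵐ x ∂haarTwoAdic,
      x ∈ {x | inner ℂ (basisVec j1) ((f : ℤ_[2] → seqHilbert) x) ≠ (0 : ℂ)} ∧
      x + (k : ℤ_[2]) ∈ {x | inner ℂ (basisVec k1) ((g : ℤ_[2] → seqHilbert) x) ≠ (0 : ℂ)} :=
    frequently_ae_iff.2 hk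
  obtain ⟨x, ⟨hxE, hxF⟩, hxa, hxb, hxc, hxd⟩ :=
    (hfreq.and_eventually (ha.and (hb'.and (hc.and hd)))).exists
  refine key (x + (k : ℤ_[2])) (Vit Vfib k x ((f : ℤ_[2] → seqHilbert) x))
    ((g : ℤ_[2] → seqHilbert) (x + (k : ℤ_[2]))) ?_ k1 ⟨⟨j1 - (k : ℤ), ?_, ?_⟩, ⟨k1, le_rfl, ?_⟩⟩
  · intro n
    rw [← hxc, ← hxb n]
    exact hxa n
  · have := Int.self_le_toNat (j1 - k1 + 1)
    omega
  · apply Vit_coord_ne b Vfib hVb N hb k x (fun i _ => hxd i)
    rw [coord_eq_inner]; exact hxE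
  · rw [coord_eq_inner]; exact hxF


theorem tail_coord_zero (h j : ℤ) (hj : j < h) (w : seqHilbert) (hw : w ∈ tailSpace h) :
    w j = 0 := by
  have hle : tailSpace h ≤ LinearMap.ker (innerSL ℂ (basisVec j)).toLinearMap := by
    apply Submodule.topologicalClosure_minimal
    · rw [Submodule.span_le]
      rintro _ ⟨⟨i, hi⟩, rfl⟩
      show inner ℂ (basisVec j) (basisVec i) = (0 : ℂ)
      rw [← coord_eq_inner, basisVec_apply, if_neg (by omega)]
    · exact (innerSL ℂ (basisVec j)).isClosed_ker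
  have := hle hw
  rw [coord_eq_inner]
  exact this

theorem basisVec_mem_tail (h k : ℤ) (hk : h ≤ k) : basisVec k ∈ tailSpace h :=
  Submodule.le_topologicalClosure _ (Submodule.subset_span ⟨⟨k, hk⟩, rfl⟩)

/-- The `key` hypothesis of `transitive` follows from the `Lat = tails` clause of S0150. -/
theorem key_of_lat (T : seqHilbert →L[ℂ] seqHilbert)
    (hLat : ∀ W : Submodule ℂ seqHilbert, IsClosed (W : Set seqHilbert) →
      ((∀ v ∈ W, T v ∈ W) ↔ (W = ⊥ ∨ W = ⊤ ∨ ∃ h : ℤ, W = tailSpace h)))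
    (w u : seqHilbert) (horth : ∀ n : ℕ, inner ℂ u ((T ^ n) w) = (0 : ℂ)) (s : ℤ) :
    ¬ ((∃ j, j < s ∧ w j ≠ 0) ∧ (∃ k, s ≤ k ∧ u k ≠ 0)) := by
  rintro ⟨⟨j0, hj0, hwj⟩, ⟨k0, hk0, huk⟩⟩
  set W1 : Submodule ℂ seqHilbert := Submodule.span ℂ (Set.range fun n : ℕ => (T ^ n) w) with hW1
  set W0 : Submodule ℂ seqHilbert := W1.topologicalClosure with hW0
  have hcl : IsClosed (W0 : Set seqHilbert) := Submodule.isClosed_topologicalClosure _
  have hwW : w ∈ W0 :=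
    Submodule.le_topologicalClosure _ (Submodule.subset_span ⟨0, by simp⟩)
  have hinv : ∀ v ∈ W0, T v ∈ W0 := by
    have hle : W0 ≤ W0.comap T.toLinearMap := by
      apply Submodule.topologicalClosure_minimal
      · rw [hW1, Submodule.span_le]
        rintro _ ⟨n, rfl⟩
        show T ((T ^ n) w) ∈ W0
        refine Submodule.le_topologicalClosure _ (Submodule.subset_span ⟨n + 1, ?_⟩)
        show (T ^ (n + 1)) w = T ((T ^ n) w)
        rw [pow_succ', mul_apply_eq_comp]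
      · exact hcl.preimage T.continuous
    exact fun v hv => hle hv
  have hperp : ∀ v ∈ W0, inner ℂ u v = (0 : ℂ) := by
    have hle : W0 ≤ LinearMap.ker (innerSL ℂ u).toLinearMap := by
      apply Submodule.topologicalClosure_minimal
      · rw [hW1, Submodule.span_le]
        rintro _ ⟨n, rfl⟩
        exact horth n
      · exact (innerSL ℂ u).isClosed_ker
    exact fun v hv => hle hv
  rcases (hLat W0 hcl).1 hinv with h | h | ⟨h, hh⟩
  · rw [h, Submodule.mem_bot] at hwW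
    exact hwj (by rw [hwW]; rfl)
  · have : inner ℂ u u = (0 : ℂ) := hperp u (by rw [h]; exact Submodule.mem_top)
    rw [inner_self_eq_zero] at this
    exact huk (by rw [this]; rfl)
  · have h1 : h ≤ j0 := by
      by_contra hlt
      exact hwj (tail_coord_zero h j0 (by omega) w (hh ▸ hwW))
    have h2 : inner ℂ u (basisVec k0) = (0 : ℂ) :=
      hperp _ (by rw [hh]; exact basisVec_mem_tail h k0 (by omega))
    apply huk
    rw [coord_eq_inner, ← inner_conj_symm, h2, map_zero]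

/-- **Transitivity**, variant whose only input on `S_x` is the `Lat = tails` clause of S0150. -/
theorem transitive_of_lat
    (b : ℤ → ℤ_[2] → ℝ) (Sfib Vfib : ℤ_[2] → (seqHilbert →L[ℂ] seqHilbert))
    (S V : fibreSpace →L[ℂ] fibreSpace)
    (hS : ∀ f : fibreSpace, ∀ᵐ x ∂haarTwoAdic,
      (S f : ℤ_[2] → seqHilbert) x = Sfib x ((f : ℤ_[2] → seqHilbert) x))
    (hLat : ∀ x, ∀ W : Submodule ℂ seqHilbert, IsClosed (W : Set seqHilbert) →
        ((∀ v ∈ W, Sfib x v ∈ W) ↔ (W = ⊥ ∨ W = ⊤ ∨ ∃ h : ℤ, W = tailSpace h)))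
    (hVb : ∀ x j, Vfib x (basisVec j) = (b j x : ℂ) • basisVec (j - 1))
    (hV : ∀ f : fibreSpace, ∀ᵐ x ∂haarTwoAdic,
      (V f : ℤ_[2] → seqHilbert) (x + 1) = Vfib x ((f : ℤ_[2] → seqHilbert) x))
    (N : Set ℤ_[2]) (hN : haarTwoAdic N = 0) (hb : ∀ x, x ∉ N → ∀ j, 0 < b j x) :
    ∀ W : Submodule ℂ fibreSpace, IsClosed (W : Set fibreSpace) →
        (∀ f ∈ W, S f ∈ W) → (∀ f ∈ W, V f ∈ W) →
        (∀ g : ℤ_[2] → ℂ, Measurable g → (∃ C : ℝ, ∀ x, ‖g x‖ ≤ C) →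
          ∀ f ∈ W, ∀ f' : fibreSpace,
            (∀ᵐ x ∂haarTwoAdic, (f' : ℤ_[2] → seqHilbert) x
              = g x • (f : ℤ_[2] → seqHilbert) x) → f' ∈ W) →
        W = ⊥ ∨ W = ⊤ :=
  transitive b Sfib Vfib S V hS hVb hV N hN hb
    (fun x w u horth s => key_of_lat (Sfib x) (hLat x) w u horth s)

end Crest.Agent.S0150Aux.Trans97
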