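/-
helper10: the weights of S0150 (note 427, section 1) and their pointwise properties.
Part of the incomplete row 113.
-/
import Mathlib
import Crest.Prelude.Def_TwoAdicShift
import Crest.Agent.S0150Aux.H35_Window

set_option autoImplicit false

namespace Crest.Agent.S0150Aux.Wt10

open Crest.AnalysisR.TwoAdic MeasureTheory Crest.Agent.S0150Aux.H35
attribute [local instance] Crest.AnalysisR.TwoAdic.borelTwoAdic Crest.AnalysisR.TwoAdic.borelSpace_twoAdic

/-- the window of integers attached to `j` -/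
noncomputable def win (j : ℤ) : Finset ℤ := if 0 ≤ j then Finset.Icc 0 j else Finset.Icc j (-1)

lemma mem_win (j i : ℤ) : i ∈ win j ↔ (0 ≤ j ∧ 0 ≤ i ∧ i ≤ j) ∨ (j < 0 ∧ j ≤ i ∧ i ≤ -1) := by
  unfold win
  split_ifs with h
  · simp only [Finset.mem_Icc]; constructor
    · intro h1; exact Or.inl ⟨h, h1.1, h1.2⟩
    · rintro (h1 | h1)
      · exact ⟨h1.2.1, h1.2.2⟩
      · omega
  · simp only [Finset.mem_Icc]; constructor
    · intro h1; exact Or.inr ⟨by omega, h1.1, h1.2⟩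
    · rintro (h1 | h1)
      · omega
      · exact ⟨h1.2.1, h1.2.2⟩

lemma win_nonempty (j : ℤ) : (win j).Nonempty := by
  by_cases h : 0 ≤ j
  · exact ⟨0, (mem_win j 0).2 (Or.inl ⟨h, le_refl _, h⟩)⟩
  · exact ⟨-1, (mem_win j (-1)).2 (Or.inr ⟨by omega, by omega, le_refl _⟩)⟩

/-- inverse square of the 2-adic size of `x + i` (zero if `x + i = 0`) -/
noncomputable def rr (x : ℤ_[2]) (i : ℤ) : ℝ := (‖x + (i : ℤ_[2])‖⁻¹) ^ 2

lemma rr_nonneg (x : ℤ_[2]) (i : ℤ) : 0 ≤ rr x i := by unfold rr; positivity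

lemma rr_shift (x : ℤ_[2]) (i : ℤ) : rr (x + 1) i = rr x (i + 1) := by
  unfold rr
  have : x + 1 + (i : ℤ_[2]) = x + ((i + 1 : ℤ) : ℤ_[2]) := by push_cast; ring
  rw [this]

lemma measurable_rr (i : ℤ) : Measurable fun x : ℤ_[2] => rr x i := by
  unfold rr
  have h1 : Continuous fun x : ℤ_[2] => ‖x + (i : ℤ_[2])‖ := by fun_prop
  exact (h1.measurable.inv).pow_const 2

/-- the exponent weights -/
noncomputable def a (j : ℤ) (x : ℤ_[2]) : ℝ :=
  max (Vw j : ℝ) ((win j).sup' (win_nonempty j) (rr x))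

lemma a_le_iff (j : ℤ) (x : ℤ_[2]) (B : ℝ) :
    a j x ≤ B ↔ ((Vw j : ℝ) ≤ B ∧ ∀ i ∈ win j, rr x i ≤ B) := by
  unfold a
  rw [max_le_iff, Finset.sup'_le_iff]

lemma Vw_le_a (j : ℤ) (x : ℤ_[2]) : (Vw j : ℝ) ≤ a j x := le_max_left _ _

lemma rr_le_a (j : ℤ) (x : ℤ_[2]) (i : ℤ) (hi : i ∈ win j) : rr x i ≤ a j x :=
  le_trans (Finset.le_sup' (rr x) hi) (le_max_right _ _)

lemma one_le_a (j : ℤ) (x : ℤ_[2]) : 1 ≤ a j x := by
  have h1 : (1:ℝ) ≤ (Vw j : ℝ) := by exact_mod_cast one_le_Vw j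
  exact le_trans h1 (Vw_le_a j x)

lemma measurable_a (j : ℤ) : Measurable (a j) := by
  unfold a
  refine Measurable.max measurable_const ?_
  have := Finset.measurable_sup' (win_nonempty j) (f := fun (i : ℤ) (x : ℤ_[2]) => rr x i)
    (fun i _ => measurable_rr i)
  convert this using 1
  ext x
  rw [Finset.sup'_apply]

lemma VwR (j : ℤ) : (Vw j : ℝ) = if 0 ≤ j then (j:ℝ) + 1 else -(j:ℝ) := by
  have h := Vw_cast j
  have h2 : ((Vw j : ℕ) : ℝ) = (((Vw j : ℕ) : ℤ) : ℝ) := by push_cast; rfl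
  rw [h2, h]
  split_ifs <;> push_cast <;> ring

lemma abs_le_a (j : ℤ) (x : ℤ_[2]) : |(j:ℝ)| ≤ a j x := by
  refine le_trans ?_ (Vw_le_a j x)
  rw [VwR]
  split_ifs with h
  · have : (0:ℝ) ≤ j := by exact_mod_cast h
    rw [abs_of_nonneg this]; linarith
  · have : (j:ℝ) < 0 := by exact_mod_cast (not_le.mp h)
    rw [abs_of_neg this]

lemma a_mono_right (j : ℤ) (hj : 0 ≤ j) (x : ℤ_[2]) : a j x ≤ a (j + 1) x := by
  rw [a_le_iff]
  constructor
  · refine le_trans ?_ (Vw_le_a (j+1) x)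
    rw [VwR, VwR, if_pos hj, if_pos (by omega)]
    push_cast; linarith
  · intro i hi
    apply rr_le_a
    rw [mem_win] at hi ⊢
    omega

lemma a_mono_left (j : ℤ) (hj : j ≤ -1) (x : ℤ_[2]) : a j x ≤ a (j - 1) x := by
  rw [a_le_iff]
  constructor
  · refine le_trans ?_ (Vw_le_a (j-1) x)
    rw [VwR, VwR, if_neg (by omega), if_neg (by omega)]
    push_cast; linarith
  · intro i hi
    apply rr_le_a
    rw [mem_win] at hi ⊢
    omega

lemma a_zero_of_unit (x : ℤ_[2]) (hx : ‖x‖ = 1) : a 0 x = 1 := by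
  apply le_antisymm _ (one_le_a 0 x)
  rw [a_le_iff]
  constructor
  · rw [VwR]; simp
  · intro i hi
    rw [mem_win] at hi
    have : i = 0 := by omega
    subst this
    unfold rr
    simp [hx]

/-- density of the integers, quantitative -/
lemma exists_close (x : ℤ_[2]) (r : ℕ) (s : ℤ) :
    ∃ i : ℤ, s ≤ i ∧ i < s + 2 ^ r ∧ ‖x + (i : ℤ_[2])‖ ≤ ((2:ℝ) ^ r)⁻¹ := by
  set n0 : ℕ := (-x).appr r with hn0
  have h1 : -x - (n0 : ℤ_[2]) ∈ Ideal.span {((2:ℕ) : ℤ_[2]) ^ r} := PadicInt.appr_spec r (-x)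
  have h2 : ‖-x - (n0 : ℤ_[2])‖ ≤ (2:ℝ) ^ (-(r:ℤ)) := by
    have := (PadicInt.norm_le_pow_iff_mem_span_pow (p := 2) (-x - (n0 : ℤ_[2])) r).2 h1
    simpa using this
  have hpos : (0:ℤ) < 2 ^ r := by positivity
  set i : ℤ := s + ((n0 : ℤ) - s) % 2 ^ r with hi
  have hm0 : 0 ≤ ((n0 : ℤ) - s) % 2 ^ r := Int.emod_nonneg _ hpos.ne'
  have hm1 : ((n0 : ℤ) - s) % 2 ^ r < 2 ^ r := Int.emod_lt_of_pos _ hpos
  obtain ⟨t, ht⟩ : ∃ t : ℤ, i - n0 = 2 ^ r * t := by
    refine ⟨-(((n0 : ℤ) - s) / 2 ^ r), ?_⟩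
    have := Int.emod_add_mul_ediv ((n0 : ℤ) - s) (2 ^ r)
    rw [hi]; linarith
  refine ⟨i, by omega, by omega, ?_⟩
  have e : x + (i : ℤ_[2]) = -(-x - (n0 : ℤ_[2])) + ((2:ℤ_[2]) ^ r * (t : ℤ_[2])) := by
    have : (i : ℤ_[2]) = (n0 : ℤ_[2]) + (2:ℤ_[2]) ^ r * (t : ℤ_[2]) := by
      have h : i = n0 + 2 ^ r * t := by linarith
      rw [h]; push_cast; ring
    rw [this]; ring
  rw [e]
  refine le_trans (PadicInt.nonarchimedean _ _) (max_le ?_ ?_)
  · rw [norm_neg]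
    refine le_trans h2 (le_of_eq ?_)
    rw [zpow_neg, zpow_natCast]
  · rw [norm_mul, norm_pow]
    have h3 : ‖(2:ℤ_[2])‖ = (2:ℝ)⁻¹ := by
      have := PadicInt.norm_p (p := 2)
      simpa using this
    rw [h3, inv_pow]
    have h4 : ‖(t : ℤ_[2])‖ ≤ 1 := PadicInt.norm_le_one _
    have h5 : 0 ≤ ((2:ℝ) ^ r)⁻¹ := by positivity
    calc ((2:ℝ) ^ r)⁻¹ * ‖(t : ℤ_[2])‖ ≤ ((2:ℝ) ^ r)⁻¹ * 1 := mul_le_mul_of_nonneg_left h4 h5
      _ = ((2:ℝ) ^ r)⁻¹ := mul_one _

/-- a point of the window with a large weight -/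
lemma exists_big (x : ℤ_[2]) (hx : ∀ n : ℤ, x ≠ (n : ℤ_[2])) (r : ℕ) (s : ℤ) :
    ∃ i : ℤ, s ≤ i ∧ i < s + 2 ^ r ∧ ((2:ℝ) ^ r) ^ 2 ≤ rr x i := by
  obtain ⟨i, h1, h2, h3⟩ := exists_close x r s
  refine ⟨i, h1, h2, ?_⟩
  have hne : x + (i : ℤ_[2]) ≠ 0 := by
    intro h
    apply hx (-i)
    push_cast
    exact eq_neg_of_add_eq_zero_left h
  have hpos : 0 < ‖x + (i : ℤ_[2])‖ := norm_pos_iff.mpr hne
  unfold rr
  have h4 : (2:ℝ) ^ r ≤ ‖x + (i : ℤ_[2])‖⁻¹ := by
    rw [le_inv_comm₀ (by positivity) hpos]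
    exact h3
  exact pow_le_pow_left₀ (by positivity) h4 2

/-- numerical choice of the scale -/
lemma exists_scale (R : ℝ) : ∃ N : ℕ, ∀ n : ℕ, N ≤ n →
    ∃ r : ℕ, 2 ^ r ≤ n ∧ ((n:ℝ) + 1 ≤ ((2:ℝ) ^ r) ^ 2) ∧ R ≤ ((2:ℝ) ^ r) ^ 2 := by
  obtain ⟨r0, hr0⟩ := pow_unbounded_of_one_lt R (by norm_num : (1:ℝ) < 2)
  refine ⟨2 ^ (r0 + 1), fun n hn => ?_⟩
  have hn0 : n ≠ 0 := by
    have : 0 < 2 ^ (r0 + 1) := by positivity
    omega
  refine ⟨Nat.log 2 n, Nat.pow_log_le_self 2 hn0, ?_, ?_⟩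
  · have h1 : n < 2 ^ (Nat.log 2 n + 1) := Nat.lt_pow_succ_log_self (by norm_num) n
    have h2 : r0 + 1 ≤ Nat.log 2 n := Nat.le_log_of_pow_le (by norm_num) hn
    have h3 : (2:ℕ) ≤ 2 ^ Nat.log 2 n := by
      calc (2:ℕ) = 2 ^ 1 := by norm_num
        _ ≤ 2 ^ Nat.log 2 n := Nat.pow_le_pow_right (by norm_num) (by omega)
    have h4 : n + 1 ≤ 2 ^ Nat.log 2 n * 2 ^ Nat.log 2 n := by
      have : n + 1 ≤ 2 ^ Nat.log 2 n * 2 := by rw [pow_succ] at h1; omega
      exact le_trans this (Nat.mul_le_mul_left _ h3)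
    have h5 : ((n + 1 : ℕ) : ℝ) ≤ ((2 ^ Nat.log 2 n * 2 ^ Nat.log 2 n : ℕ) : ℝ) := by exact_mod_cast h4
    push_cast at h5
    nlinarith
  · have h2 : r0 + 1 ≤ Nat.log 2 n := Nat.le_log_of_pow_le (by norm_num) hn
    have h3 : (2:ℝ) ^ r0 ≤ (2:ℝ) ^ Nat.log 2 n := pow_le_pow_right₀ (by norm_num) (by omega)
    have h4 : (1:ℝ) ≤ (2:ℝ) ^ Nat.log 2 n := one_le_pow₀ (by norm_num)
    nlinarith

/-- one inequality between the shifted weights holds always (right side) -/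
lemma a_shift_le_right (j : ℤ) (hj : 1 ≤ j) (x : ℤ_[2]) : a (j - 1) (x + 1) ≤ a j x := by
  rw [a_le_iff]
  constructor
  · refine le_trans ?_ (Vw_le_a j x)
    rw [VwR, VwR, if_pos (by omega), if_pos (by omega)]
    push_cast; linarith
  · intro i hi
    rw [rr_shift]
    apply rr_le_a
    rw [mem_win] at hi ⊢
    omega

lemma a_shift_ge_left (j : ℤ) (hj : j ≤ -1) (x : ℤ_[2]) : a j x ≤ a (j - 1) (x + 1) := by
  rw [a_le_iff]
  constructor
  · refine le_trans ?_ (Vw_le_a (j-1) (x+1))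
    rw [VwR, VwR, if_neg (by omega), if_neg (by omega)]
    push_cast; linarith
  · intro i hi
    have : rr x i = rr (x + 1) (i - 1) := by rw [rr_shift]; congr 1; ring
    rw [this]
    apply rr_le_a
    rw [mem_win] at hi ⊢
    omega

/-- (W3): the weights forget their centre, right side -/
lemma a_shift_eq_right (x : ℤ_[2]) (hx : ∀ n : ℤ, x ≠ (n : ℤ_[2])) :
    ∃ J : ℤ, 1 ≤ J ∧ ∀ j : ℤ, J ≤ j → a (j - 1) (x + 1) = a j x := by
  obtain ⟨N, hN⟩ := exists_scale (rr x 0)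
  refine ⟨max 1 N, le_max_left _ _, fun j hj => ?_⟩
  have hj1 : 1 ≤ j := le_trans (le_max_left _ _) hj
  have hjN : (N:ℤ) ≤ j := le_trans (le_max_right _ _) hj
  apply le_antisymm (a_shift_le_right j hj1 x)
  obtain ⟨r, hr1, hr2, hr3⟩ := hN j.toNat (by omega)
  obtain ⟨i, hi1, hi2, hi3⟩ := exists_big x hx r 1
  have hr1' : (2:ℤ) ^ r ≤ j := by
    have : ((2 ^ r : ℕ) : ℤ) ≤ (j.toNat : ℤ) := by exact_mod_cast hr1
    rw [Int.toNat_of_nonneg (by omega)] at this
    exact_mod_cast this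
  have hjR : ((j.toNat : ℕ) : ℝ) = (j : ℝ) := by
    have : ((j.toNat : ℕ) : ℤ) = j := Int.toNat_of_nonneg (by omega)
    exact_mod_cast this
  rw [hjR] at hr2
  have hbig : rr x i ≤ a (j - 1) (x + 1) := by
    have : rr x i = rr (x + 1) (i - 1) := by rw [rr_shift]; congr 1; ring
    rw [this]
    apply rr_le_a
    rw [mem_win]
    omega
  rw [a_le_iff]
  constructor
  · rw [VwR, if_pos (by omega)]
    linarith
  · intro i' hi'
    rw [mem_win] at hi'
    by_cases h0 : i' = 0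
    · subst h0; linarith
    · have : rr x i' = rr (x + 1) (i' - 1) := by rw [rr_shift]; congr 1; ring
      rw [this]
      apply rr_le_a
      rw [mem_win]
      omega

/-- (W3): the weights forget their centre, left side -/
lemma a_shift_eq_left (x : ℤ_[2]) (hx : ∀ n : ℤ, x ≠ (n : ℤ_[2])) :
    ∃ J : ℤ, 1 ≤ J ∧ ∀ j : ℤ, j ≤ -J → a (j - 1) (x + 1) = a j x := by
  obtain ⟨N, hN⟩ := exists_scale (rr x 0)
  refine ⟨max 1 N, le_max_left _ _, fun j hj => ?_⟩
  have hj1 : j ≤ -1 := by have := le_max_left (1:ℤ) N; omega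
  have hjN : (N:ℤ) ≤ -j := by have := le_max_right (1:ℤ) N; omega
  refine le_antisymm ?_ (a_shift_ge_left j hj1 x)
  obtain ⟨r, hr1, hr2, hr3⟩ := hN (-j).toNat (by omega)
  obtain ⟨i, hi1, hi2, hi3⟩ := exists_big x hx r j
  have hr1' : (2:ℤ) ^ r ≤ -j := by
    have : ((2 ^ r : ℕ) : ℤ) ≤ ((-j).toNat : ℤ) := by exact_mod_cast hr1
    rw [Int.toNat_of_nonneg (by omega)] at this
    exact_mod_cast this
  have hjR : (((-j).toNat : ℕ) : ℝ) = -(j : ℝ) := by
    have : (((-j).toNat : ℕ) : ℤ) = -j := Int.toNat_of_nonneg (by omega)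
    exact_mod_cast this
  rw [hjR] at hr2
  have hbig : rr x i ≤ a j x := by
    apply rr_le_a
    rw [mem_win]
    omega
  rw [a_le_iff]
  constructor
  · rw [VwR, if_neg (by omega)]
    push_cast
    linarith
  · intro i' hi'
    rw [mem_win] at hi'
    rw [rr_shift]
    by_cases h0 : i' + 1 = 0
    · rw [h0]; linarith
    · apply rr_le_a
      rw [mem_win]
      omega

/-! ### cumulative sums over the integers -/

/-- `cum f (j+1) = cum f j + f j`, `cum f 0 = 0` -/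
noncomputable def cum (f : ℤ → ℝ) : ℤ → ℝ
  | Int.ofNat n => ∑ i ∈ Finset.range n, f i
  | Int.negSucc n => - ∑ i ∈ Finset.range (n + 1), f (-(i:ℤ) - 1)

lemma cum_zero (f : ℤ → ℝ) : cum f 0 = 0 := by
  show cum f (Int.ofNat 0) = 0
  simp [cum]

lemma cum_succ (f : ℤ → ℝ) (j : ℤ) : cum f (j + 1) = cum f j + f j := by
  cases j with
  | ofNat n =>
    show cum f (Int.ofNat (n + 1)) = cum f (Int.ofNat n) + f (Int.ofNat n)
    simp only [cum, Finset.sum_range_succ]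
    rfl
  | negSucc n =>
    cases n with
    | zero =>
      show cum f (Int.ofNat 0) = cum f (Int.negSucc 0) + f (Int.negSucc 0)
      simp [cum]
    | succ k =>
      have : Int.negSucc (k + 1) + 1 = Int.negSucc k := by omega
      rw [this]
      simp only [cum]
      rw [Finset.sum_range_succ _ (k + 1)]
      have : (-((k + 1 : ℕ) : ℤ) - 1) = Int.negSucc (k + 1) := by omega
      rw [this]
      ring

lemma measurable_cum {X : Type*} [MeasurableSpace X] (f : ℤ → X → ℝ) (hf : ∀ j, Measurable (f j))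
    (j : ℤ) : Measurable fun x => cum (fun i => f i x) j := by
  cases j with
  | ofNat n =>
    simp only [cum]
    exact Finset.measurable_sum _ (fun i _ => hf _)
  | negSucc n =>
    simp only [cum]
    exact (Finset.measurable_sum _ (fun i _ => hf _)).neg

/-- if the increments vanish beyond `J` the cumulative sum is constant there -/
lemma cum_const_right (f : ℤ → ℝ) (J : ℤ) (h : ∀ j, J ≤ j → f j = 0) :
    ∀ j, J ≤ j → cum f j = cum f J := by
  intro j hj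
  induction j, hj using Int.leInduction with
  | base => rfl
  | succ k hk ih => rw [cum_succ, h k hk, ih, add_zero]

lemma cum_const_left (f : ℤ → ℝ) (J : ℤ) (h : ∀ j, j < J → f j = 0) :
    ∀ j, j ≤ J → cum f j = cum f J := by
  intro j hj
  induction j, hj using Int.leInductionDown with
  | base => rfl
  | pred k hk ih =>
    have := cum_succ f (k - 1)
    rw [sub_add_cancel, h (k - 1) (by omega), add_zero] at this
    rw [← this, ih]

/-! ### the weights -/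

/-- exponents `α = 10 a` -/
noncomputable def al (j : ℤ) (x : ℤ_[2]) : ℝ := 10 * a j x

/-- the weights of the forward shift -/
noncomputable def β (j : ℤ) (x : ℤ_[2]) : ℝ := Real.exp (-(al j x))

/-- primitive of `α` in the fibre `x` -/
noncomputable def AA (x : ℤ_[2]) : ℤ → ℝ := cum (fun j => al j x)

lemma AA_succ (x : ℤ_[2]) (j : ℤ) : AA x (j + 1) = AA x j + al j x := cum_succ _ j

lemma measurable_al (j : ℤ) : Measurable (al j) := (measurable_a j).const_mul 10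

lemma measurable_β (j : ℤ) : Measurable (β j) := (measurable_al j).neg.exp

lemma β_pos (j : ℤ) (x : ℤ_[2]) : 0 < β j x := Real.exp_pos _

lemma β_le (j : ℤ) (x : ℤ_[2]) : β j x ≤ Real.exp (-10 * (Vw j : ℝ)) := by
  unfold β al
  apply Real.exp_le_exp.mpr
  have := Vw_le_a j x
  linarith

lemma β_le_exp (j : ℤ) (x : ℤ_[2]) : β j x ≤ Real.exp (-10) := by
  unfold β al
  apply Real.exp_le_exp.mpr
  have := one_le_a j x
  linarith

lemma β_zero_of_unit (x : ℤ_[2]) (hx : ‖x‖ = 1) : β 0 x = Real.exp (-10) := by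
  unfold β al
  rw [a_zero_of_unit x hx]; norm_num

lemma al_growth (j : ℤ) (x : ℤ_[2]) : 10 * |(j:ℝ)| - 0 ≤ al j x := by
  unfold al
  have := abs_le_a j x
  linarith

lemma al_mono_right (x : ℤ_[2]) (j : ℤ) (hj : 1 ≤ j) : al j x ≤ al (j + 1) x := by
  unfold al
  have := a_mono_right j (by omega) x
  linarith

lemma al_mono_left (x : ℤ_[2]) (j : ℤ) (hj : j ≤ -1) : al j x ≤ al (j - 1) x := by
  unfold al
  have := a_mono_left j hj x
  linarith

/-- increments of the logarithm of the intertwining ratio -/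
noncomputable def γ (j : ℤ) (x : ℤ_[2]) : ℝ := al j x - al (j - 1) (x + 1)

lemma measurable_γ (j : ℤ) : Measurable (γ j) := by
  unfold γ
  have h1 : Measurable fun x : ℤ_[2] => x + 1 := by
    have : Continuous fun x : ℤ_[2] => x + 1 := by fun_prop
    exact this.measurable
  exact (measurable_al j).sub ((measurable_al (j - 1)).comp h1)

/-- the unnormalised intertwining weights -/
noncomputable def ratio (j : ℤ) (x : ℤ_[2]) : ℝ := Real.exp (cum (fun i => γ i x) j)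

lemma ratio_pos (j : ℤ) (x : ℤ_[2]) : 0 < ratio j x := Real.exp_pos _

lemma measurable_ratio (j : ℤ) : Measurable (ratio j) :=
  (measurable_cum γ measurable_γ j).exp

lemma ratio_succ (j : ℤ) (x : ℤ_[2]) : β j x * ratio (j + 1) x = ratio j x * β (j - 1) (x + 1) := by
  unfold ratio β
  rw [cum_succ, ← Real.exp_add, ← Real.exp_add]
  congr 1
  unfold γ
  ring

/-- supremum of the ratios -/
noncomputable def Ξ (x : ℤ_[2]) : ENNReal := ⨆ j : ℤ, ENNReal.ofReal (ratio j x)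

lemma measurable_Ξ : Measurable Ξ :=
  Measurable.iSup fun j => (measurable_ratio j).ennreal_ofReal

/-- normalising constant -/
noncomputable def cc (x : ℤ_[2]) : ℝ := ((Ξ x)⁻¹).toReal

/-- the weights of the backward intertwiner -/
noncomputable def b (j : ℤ) (x : ℤ_[2]) : ℝ := ratio j x * cc x

lemma measurable_b (j : ℤ) : Measurable (b j) :=
  (measurable_ratio j).mul measurable_Ξ.inv.ennreal_toReal

lemma b_nonneg (j : ℤ) (x : ℤ_[2]) : 0 ≤ b j x :=
  mul_nonneg (ratio_pos j x).le ENNReal.toReal_nonneg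

lemma b_le_one (j : ℤ) (x : ℤ_[2]) : b j x ≤ 1 := by
  unfold b cc
  by_cases htop : Ξ x = ⊤
  · rw [htop]; simp
  · have h1 : ENNReal.ofReal (ratio j x) ≤ Ξ x := le_iSup (fun j : ℤ => ENNReal.ofReal (ratio j x)) j
    have h2 : ratio j x ≤ (Ξ x).toReal := by
      have := ENNReal.toReal_mono htop h1
      rwa [ENNReal.toReal_ofReal (ratio_pos j x).le] at this
    have h3 : 0 < (Ξ x).toReal := lt_of_lt_of_le (ratio_pos j x) h2
    rw [ENNReal.toReal_inv, ← div_eq_mul_inv, div_le_one h3]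
    exact h2

lemma intertwine (j : ℤ) (x : ℤ_[2]) : β j x * b (j + 1) x = b j x * β (j - 1) (x + 1) := by
  unfold b
  have := ratio_succ j x
  calc β j x * (ratio (j + 1) x * cc x) = (β j x * ratio (j + 1) x) * cc x := by ring
    _ = (ratio j x * β (j - 1) (x + 1)) * cc x := by rw [this]
    _ = ratio j x * cc x * β (j - 1) (x + 1) := by ring

lemma Ξ_ne_top (x : ℤ_[2]) (hx : ∀ n : ℤ, x ≠ (n : ℤ_[2])) : Ξ x ≠ ⊤ := by
  obtain ⟨J1, hJ1, h1⟩ := a_shift_eq_right x hx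
  obtain ⟨J2, hJ2, h2⟩ := a_shift_eq_left x hx
  have g1 : ∀ j, J1 ≤ j → γ j x = 0 := by
    intro j hj; unfold γ al; rw [h1 j hj]; ring
  have g2 : ∀ j, j < -J2 + 1 → γ j x = 0 := by
    intro j hj; unfold γ al; rw [h2 j (by omega)]; ring
  have c1 := cum_const_right (fun i => γ i x) J1 g1
  have c2 := cum_const_left (fun i => γ i x) (-J2 + 1) g2
  set T : ℝ := ∑ i ∈ Finset.Icc (-J2 + 1) J1, ratio i x with hT
  have hle : ∀ j, ratio j x ≤ T := by
    intro j
    have hs : ∀ i ∈ Finset.Icc (-J2 + 1) J1, ratio i x ≤ T := fun i hi =>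
      Finset.single_le_sum (f := fun i => ratio i x) (fun k _ => (ratio_pos k x).le) hi
    by_cases hA : J1 ≤ j
    · have : ratio j x = ratio J1 x := by unfold ratio; rw [c1 j hA]
      rw [this]; exact hs J1 (Finset.mem_Icc.2 ⟨by omega, le_refl _⟩)
    · by_cases hB : j ≤ -J2 + 1
      · have : ratio j x = ratio (-J2 + 1) x := by unfold ratio; rw [c2 j hB]
        rw [this]; exact hs _ (Finset.mem_Icc.2 ⟨le_refl _, by omega⟩)
      · exact hs j (Finset.mem_Icc.2 ⟨by omega, by omega⟩)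
  have : Ξ x ≤ ENNReal.ofReal T := iSup_le fun j => ENNReal.ofReal_le_ofReal (hle j)
  exact ne_top_of_le_ne_top ENNReal.ofReal_ne_top this

lemma b_pos (j : ℤ) (x : ℤ_[2]) (hx : ∀ n : ℤ, x ≠ (n : ℤ_[2])) : 0 < b j x := by
  unfold b cc
  apply mul_pos (ratio_pos j x)
  have htop := Ξ_ne_top x hx
  have h1 : ENNReal.ofReal (ratio 0 x) ≤ Ξ x := le_iSup (fun j : ℤ => ENNReal.ofReal (ratio j x)) 0
  have h0 : Ξ x ≠ 0 := by
    intro h
    rw [h] at h1
    have : ENNReal.ofReal (ratio 0 x) = 0 := le_antisymm h1 bot_le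
    rw [ENNReal.ofReal_eq_zero] at this
    linarith [ratio_pos 0 x]
  rw [ENNReal.toReal_inv]
  exact inv_pos.mpr (ENNReal.toReal_pos h0 htop)

end Crest.Agent.S0150Aux.Wt10
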