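import Crest.Agent.S0150Aux.Defs13

/-! helper2: elementary facts on the canonical weights `D13` of S0150 (row 113, incomplete). -/

set_option autoImplicit false
open Crest.AnalysisR.TwoAdic MeasureTheory
attribute [local instance] Crest.AnalysisR.TwoAdic.borelTwoAdic
  Crest.AnalysisR.TwoAdic.borelSpace_twoAdic

namespace Crest.Agent.S0150Aux.Wts2

open Crest.Agent.S0150Aux.D13 Crest.Agent.S0150Aux

theorem measurable_nu : Measurable nu := by
  unfold nu
  exact (measurable_nnnorm.inv).pow_const 2

theorem measurable_rc (j : ℤ) : Measurable (rc j) := by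
  unfold rc
  induction (win j) using Finset.induction_on with
  | empty => simp only [Finset.sup_empty]; exact measurable_const
  | insert a s ha ih =>
    simp only [Finset.sup_insert]
    exact (measurable_nu.comp (continuous_add_const _).measurable).sup ih

theorem measurable_aw (j : ℤ) : Measurable (aw j) := by
  unfold aw
  exact measurable_const.max (measurable_rc j).coe_nnreal_real

theorem measurable_al (j : ℤ) : Measurable (fun x => al x j) := by
  unfold al
  exact (measurable_aw j).const_mul 10

theorem measurable_bet (j : ℤ) : Measurable (bet j) := by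
  unfold bet
  exact Real.measurable_exp.comp (measurable_al j).neg

theorem measurable_AA (j : ℤ) : Measurable (fun x => AA x j) := by
  unfold AA cum
  split_ifs
  · exact Finset.measurable_sum _ (fun i _ => measurable_al i)
  · exact (Finset.measurable_sum _ (fun i _ => measurable_al i)).neg

theorem measurable_rat (j : ℤ) : Measurable (rat j) := by
  unfold rat
  exact Real.measurable_exp.comp ((measurable_AA j).sub
    ((measurable_AA (j - 1)).comp (continuous_add_const (1 : ℤ_[2])).measurable))

theorem measurable_Xi : Measurable Xi := by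
  unfold Xi
  exact Measurable.iSup (fun j => ENNReal.measurable_ofReal.comp (measurable_rat j))

theorem measurable_bw (j : ℤ) : Measurable (bw j) := by
  unfold bw
  exact ((ENNReal.measurable_ofReal.comp (measurable_rat j)).div measurable_Xi).ennreal_toReal

theorem bet_pos (j : ℤ) (x : ℤ_[2]) : 0 < bet j x := Real.exp_pos _

theorem cum_succ (δ : ℤ → ℝ) (j : ℤ) : cum δ (j + 1) = cum δ j + δ j := by
  unfold cum
  by_cases h : 0 ≤ j
  · rw [if_pos (by omega), if_pos h, ← Finset.insert_Ico_right_eq_Ico_add_one h,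
      Finset.sum_insert (by simp)]
    ring
  · rw [if_neg h]
    have hlt : j < 0 := by omega
    rw [← Finset.insert_Ico_add_one_left_eq_Ico hlt, Finset.sum_insert (by simp)]
    by_cases h1 : 0 ≤ j + 1
    · have : j + 1 = 0 := by omega
      rw [if_pos h1, this]
      simp
    · rw [if_neg h1]
      ring

theorem AA_succ (x : ℤ_[2]) (j : ℤ) : AA x (j + 1) = AA x j + al x j := cum_succ _ _

theorem Vw_le_aw (j : ℤ) (x : ℤ_[2]) : (H35.Vw j : ℝ) ≤ aw j x := le_max_left _ _

theorem growth (x : ℤ_[2]) (j : ℤ) : 10 * |(j : ℝ)| ≤ al x j := by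
  unfold al
  have h1 : |(j : ℝ)| ≤ (H35.Vw j : ℝ) := by
    have := H35.abs_le_Vw j
    have h2 : ((|j| : ℤ) : ℝ) ≤ (((H35.Vw j : ℕ) : ℤ) : ℝ) := by exact_mod_cast this
    simpa using h2
  have := Vw_le_aw j x
  linarith

theorem ten_le_al (x : ℤ_[2]) (j : ℤ) : 10 ≤ al x j := by
  unfold al
  have h1 : (1 : ℝ) ≤ (H35.Vw j : ℝ) := by exact_mod_cast H35.one_le_Vw j
  have := Vw_le_aw j x
  linarith

theorem aw_mono {j j' : ℤ} (x : ℤ_[2]) (hV : H35.Vw j ≤ H35.Vw j') (hw : win j ⊆ win j') :
    aw j x ≤ aw j' x := by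
  unfold aw rc
  apply max_le_max
  · exact_mod_cast hV
  · exact_mod_cast Finset.sup_mono hw

theorem mono_right (x : ℤ_[2]) (j : ℤ) (hj : 0 ≤ j) : al x j ≤ al x (j + 1) := by
  unfold al
  have : aw j x ≤ aw (j + 1) x := by
    apply aw_mono
    · have h1 := H35.Vw_cast j
      have h2 := H35.Vw_cast (j + 1)
      rw [if_pos hj] at h1
      rw [if_pos (by omega)] at h2
      omega
    · unfold win
      apply Finset.Icc_subset_Icc
      · rw [min_eq_right hj, min_eq_right (by omega)]
      · exact max_le_max (by omega) le_rfl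
  linarith

theorem mono_left (x : ℤ_[2]) (j : ℤ) (hj : j ≤ -1) : al x j ≤ al x (j - 1) := by
  unfold al
  have : aw j x ≤ aw (j - 1) x := by
    apply aw_mono
    · have h1 := H35.Vw_cast j
      have h2 := H35.Vw_cast (j - 1)
      rw [if_neg (by omega)] at h1
      rw [if_neg (by omega)] at h2
      omega
    · unfold win
      apply Finset.Icc_subset_Icc
      · exact min_le_min (by omega) le_rfl
      · rw [max_eq_right hj, max_eq_right (by omega)]
  linarith

theorem rat_pos (j : ℤ) (x : ℤ_[2]) : 0 < rat j x := Real.exp_pos _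

theorem bw_eq (j : ℤ) (x : ℤ_[2]) : bw j x = rat j x / (Xi x).toReal := by
  unfold bw
  rw [ENNReal.toReal_div, ENNReal.toReal_ofReal (rat_pos j x).le]

theorem bw_nonneg (j : ℤ) (x : ℤ_[2]) : 0 ≤ bw j x := ENNReal.toReal_nonneg

theorem bw_le_one (j : ℤ) (x : ℤ_[2]) : bw j x ≤ 1 := by
  unfold bw
  have h1 : ENNReal.ofReal (rat j x) / Xi x ≤ 1 := by
    apply ENNReal.div_le_of_le_mul
    rw [one_mul]
    exact le_iSup (fun j : ℤ => ENNReal.ofReal (rat j x)) j
  have := ENNReal.toReal_mono ENNReal.one_ne_top h1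
  simpa using this

theorem rat_succ (j : ℤ) (x : ℤ_[2]) :
    rat (j + 1) x = rat j x * Real.exp (al x j - al (x + 1) (j - 1)) := by
  unfold rat
  rw [← Real.exp_add]
  congr 1
  have h1 := AA_succ x j
  have h2 := AA_succ (x + 1) (j - 1)
  rw [sub_add_cancel] at h2
  rw [add_sub_cancel_right, h1, h2]
  ring

theorem intertwine (j : ℤ) (x : ℤ_[2]) :
    bet j x * bw (j + 1) x = bw j x * bet (j - 1) (x + 1) := by
  rw [bw_eq, bw_eq, rat_succ]
  unfold bet
  rw [Real.exp_sub, Real.exp_neg, Real.exp_neg]
  have h1 := Real.exp_pos (al x j)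
  have h2 := Real.exp_pos (al (x + 1) (j - 1))
  field_simp

end Crest.Agent.S0150Aux.Wts2
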